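import Vale.Agent.P162.Defs

open Module End

namespace Vale.Agent.P162

variable {E : Type} [NormedAddCommGroup E] [InnerProductSpace ℝ E]

theorem eig_decomp [FiniteDimensional ℝ E] (T : E →ₗ[ℝ] E) (hT : T.IsSymmetric)
    (K : Submodule ℝ E) (hK : ∀ v ∈ K, T v ∈ K) (u : E) (hu : u ∈ K) :
    ∃ (s : Finset ℝ) (f : ℝ → E), (∀ μ, f μ ∈ K ∧ T (f μ) = μ • f μ) ∧ u = ∑ μ ∈ s, f μ := by
  have htop : (⨆ μ, eigenspace T μ) = ⊤ := by
    have h := hT.orthogonalComplement_iSup_eigenspaces_eq_bot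
    rwa [Submodule.orthogonal_eq_bot_iff] at h
  have h1 : K ⊓ ⨆ μ, eigenspace T μ = ⨆ μ, K ⊓ eigenspace T μ :=
    Submodule.inf_iSup_genEigenspace (K := ℝ) (f := T) hK 1
  have hu' : u ∈ ⨆ μ, K ⊓ eigenspace T μ := by
    rw [← h1, htop]
    exact ⟨hu, trivial⟩
  obtain ⟨f, hf, hfs⟩ := (Submodule.mem_iSup_iff_exists_finsupp _ _).mp hu'
  refine ⟨f.support, f, ?_, ?_⟩
  · intro μ
    obtain ⟨h2, h3⟩ := hf μ
    refine ⟨h2, ?_⟩
    have h4 : f μ ∈ eigenspace T μ := h3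
    rwa [mem_eigenspace_iff] at h4
  · rw [← hfs]
    rfl

theorem inner_eig_zero (T : E →ₗ[ℝ] E) (hT : T.IsSymmetric) {a b : ℝ} (hab : a ≠ b) {u v : E}
    (hu : T u = a • u) (hv : T v = b • v) : inner ℝ u v = 0 := by
  have h := hT u v
  rw [hu, hv, inner_smul_left, inner_smul_right] at h
  have h2 : (a - b) * inner ℝ u v = 0 := by
    have : (starRingEnd ℝ) a = a := rfl
    rw [this] at h
    linarith
  rcases mul_eq_zero.mp h2 with h3 | h3
  · exact absurd (sub_eq_zero.mp h3) hab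
  · exact h3

/-- Pythagoras for a finite sum indexed by pairwise orthogonal vectors. -/
theorem norm_sq_sum_of_orth {ι : Type*} (s : Finset ι) (f : ι → E)
    (h : ∀ i ∈ s, ∀ j ∈ s, i ≠ j → inner ℝ (f i) (f j) = 0) :
    ‖∑ i ∈ s, f i‖ ^ 2 = ∑ i ∈ s, ‖f i‖ ^ 2 := by
  rw [← real_inner_self_eq_norm_sq, sum_inner]
  refine Finset.sum_congr rfl fun i hi => ?_
  rw [inner_sum, Finset.sum_eq_single i]
  · rw [real_inner_self_eq_norm_sq]
  · intro j hj hji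
    exact h i hi j hj (Ne.symm hji)
  · intro hi'
    exact absurd hi hi'

/-- if T commutes with a symmetric operator, contraction on eigenvectors in an invariant
subspace gives contraction on the subspace. -/
theorem contr_of_eig [FiniteDimensional ℝ E] (L : E →ₗ[ℝ] E) (hL : L.IsSymmetric)
    (K : Submodule ℝ E) (hK : ∀ v ∈ K, L v ∈ K) (T : E →ₗ[ℝ] E)
    (hTL : ∀ v, L (T v) = T (L v)) (c : ℝ)
    (h : ∀ μ : ℝ, ∀ v ∈ K, L v = μ • v → ‖T v‖ ^ 2 ≤ c * ‖v‖ ^ 2) (u : E) (hu : u ∈ K) :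
    ‖T u‖ ^ 2 ≤ c * ‖u‖ ^ 2 := by
  obtain ⟨s, f, hf, rfl⟩ := eig_decomp L hL K hK u hu
  rw [map_sum, norm_sq_sum_of_orth, norm_sq_sum_of_orth, Finset.mul_sum]
  · exact Finset.sum_le_sum fun μ _ => h μ (f μ) (hf μ).1 (hf μ).2
  · intro i _ j _ hij
    exact inner_eig_zero L hL hij (hf i).2 (hf j).2
  · intro i _ j _ hij
    refine inner_eig_zero L hL hij (a := i) (b := j) ?_ ?_
    · rw [hTL, (hf i).2, map_smul]
    · rw [hTL, (hf j).2, map_smul]

/-- Rayleigh bound from eigenvectors in an invariant subspace. -/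
theorem rayleigh_of_eig [FiniteDimensional ℝ E] (L : E →ₗ[ℝ] E) (hL : L.IsSymmetric)
    (K : Submodule ℝ E) (hK : ∀ v ∈ K, L v ∈ K) (c : ℝ)
    (h : ∀ μ : ℝ, ∀ v ∈ K, v ≠ 0 → L v = μ • v → c ≤ μ) (u : E) (hu : u ∈ K) :
    c * ‖u‖ ^ 2 ≤ inner ℝ u (L u) := by
  obtain ⟨s, f, hf, rfl⟩ := eig_decomp L hL K hK u hu
  have horth : ∀ i ∈ s, ∀ j ∈ s, i ≠ j → inner ℝ (f i) (f j) = 0 := by
    intro i _ j _ hij
    exact inner_eig_zero L hL hij (hf i).2 (hf j).2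
  rw [norm_sq_sum_of_orth s f horth, map_sum, sum_inner, Finset.mul_sum]
  refine Finset.sum_le_sum fun i hi => ?_
  rw [inner_sum, Finset.sum_eq_single i]
  · rw [(hf i).2, inner_smul_right, real_inner_self_eq_norm_sq]
    by_cases h0 : f i = 0
    · simp [h0]
    · exact mul_le_mul_of_nonneg_right (h i (f i) (hf i).1 h0 (hf i).2) (sq_nonneg _)
  · intro j hj hji
    rw [(hf j).2, inner_smul_right, horth i hi j hj (Ne.symm hji), mul_zero]
  · intro hi'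
    exact absurd hi hi'

end Vale.Agent.P162
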