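import Vale.Agent.P162.A1

open Equiv

set_option linter.unusedSectionVars false
set_option linter.unusedSimpArgs false

namespace Vale.Agent.P162

section basic

variable {G : Type} [Group G]
variable {E : Type} [NormedAddCommGroup E] [InnerProductSpace ℝ E]

def R (ρ : G →* (E ≃ₗᵢ[ℝ] E)) (g : G) : E →ₗ[ℝ] E := ((ρ g).toLinearEquiv : E →ₗ[ℝ] E)

@[simp] theorem R_apply (ρ : G →* (E ≃ₗᵢ[ℝ] E)) (g : G) (v : E) : R ρ g v = ρ g v := rfl

theorem rho_mul (ρ : G →* (E ≃ₗᵢ[ℝ] E)) (g h : G) (v : E) : ρ (g * h) v = ρ g (ρ h v) := by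
  rw [map_mul]; rfl

theorem rho_one (ρ : G →* (E ≃ₗᵢ[ℝ] E)) (v : E) : ρ 1 v = v := by
  rw [map_one]; rfl

theorem inner_rho_left (ρ : G →* (E ≃ₗᵢ[ℝ] E)) (g : G) (u v : E) :
    inner ℝ (ρ g u) v = inner ℝ u (ρ g⁻¹ v) := by
  have h : v = ρ g (ρ g⁻¹ v) := by
    rw [← rho_mul, mul_inv_cancel, rho_one]
  conv_lhs => rw [h]
  exact (ρ g).inner_map_map u _

theorem inner_rho_right (ρ : G →* (E ≃ₗᵢ[ℝ] E)) (g : G) (u v : E) :
    inner ℝ u (ρ g v) = inner ℝ (ρ g⁻¹ u) v := by
  rw [inner_rho_left, inv_inv]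

theorem norm_rho (ρ : G →* (E ≃ₗᵢ[ℝ] E)) (g : G) (v : E) : ‖ρ g v‖ = ‖v‖ :=
  (ρ g).norm_map v

end basic

section char

variable {β : Type} [Fintype β] [DecidableEq β]
variable {E : Type} [NormedAddCommGroup E] [InnerProductSpace ℝ E]

def eps (b : Bool) : ℝ := if b then -1 else 1

@[simp] theorem eps_false : eps false = 1 := rfl
@[simp] theorem eps_true : eps true = -1 := rfl

theorem eps_mul_self (b : Bool) : eps b * eps b = 1 := by cases b <;> simp
theorem eps_xor (a b : Bool) : eps (xor a b) = eps a * eps b := by cases a <;> cases b <;> simp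
theorem abs_eps (b : Bool) : |eps b| = 1 := by cases b <;> simp

def chi (T : Finset β) (c : β → Bool) : ℝ := ∏ x ∈ T, eps (c x)

theorem chi_xor (T : Finset β) (c c' : β → Bool) :
    chi T (fun x => xor (c x) (c' x)) = chi T c * chi T c' := by
  unfold chi
  rw [← Finset.prod_mul_distrib]
  exact Finset.prod_congr rfl fun x _ => eps_xor _ _

theorem chi_mul_self (T : Finset β) (c : β → Bool) : chi T c * chi T c = 1 := by
  unfold chi
  rw [← Finset.prod_mul_distrib]
  exact Finset.prod_eq_one fun x _ => eps_mul_self _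

/-- coin function equal to `true` only at `x` -/
def single (x : β) : β → Bool := fun y => decide (y = x)

theorem chi_single (T : Finset β) (x : β) : chi T (single x) = if x ∈ T then -1 else 1 := by
  unfold chi single
  by_cases h : x ∈ T
  · rw [Finset.prod_eq_single x]
    · simp [h]
    · intro b _ hb
      simp [hb]
    · intro h'
      exact absurd h h'
  · rw [if_neg h]
    refine Finset.prod_eq_one fun y hy => ?_
    have : y ≠ x := fun e => h (e ▸ hy)
    simp [this]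

theorem chi_symmDiff_singleton (T : Finset β) (x : β) (c : β → Bool) :
    chi (symmDiff T {x}) c = chi T c * eps (c x) := by
  unfold chi
  by_cases h : x ∈ T
  · have h1 : symmDiff T {x} = T.erase x := by
      ext y
      simp only [Finset.mem_symmDiff, Finset.mem_singleton, Finset.mem_erase]
      constructor
      · rintro (⟨h2, h3⟩ | ⟨h2, h3⟩)
        · exact ⟨h3, h2⟩
        · subst h2; exact absurd h h3
      · rintro ⟨h2, h3⟩
        exact Or.inl ⟨h3, h2⟩
    rw [h1, ← Finset.mul_prod_erase T (fun y => eps (c y)) h]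
    have := eps_mul_self (c x)
    calc ∏ y ∈ T.erase x, eps (c y) = (eps (c x) * eps (c x)) * ∏ y ∈ T.erase x, eps (c y) := by
          rw [this, one_mul]
      _ = _ := by ring
  · have h1 : symmDiff T {x} = insert x T := by
      ext y
      simp only [Finset.mem_symmDiff, Finset.mem_singleton, Finset.mem_insert]
      constructor
      · rintro (⟨h2, h3⟩ | ⟨h2, h3⟩)
        · exact Or.inr h2
        · exact Or.inl h2
      · rintro (h2 | h2)
        · subst h2; exact Or.inr ⟨rfl, h⟩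
        · refine Or.inl ⟨h2, ?_⟩
          intro h3; subst h3; exact h h2
    rw [h1, Finset.prod_insert h]
    ring

theorem sum_chi (c : β → Bool) :
    ∑ T : Finset β, chi T c = if c = (fun _ => false) then (2 : ℝ) ^ (Fintype.card β) else 0 := by
  have h1 : ∑ T : Finset β, chi T c = ∏ x : β, (1 + eps (c x)) := by
    rw [Finset.prod_one_add, ← Finset.powerset_univ]
    rfl
  rw [h1]
  by_cases h : c = fun _ => false
  · rw [if_pos h, h]
    simp
    norm_num
  · rw [if_neg h]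
    obtain ⟨x, hx⟩ : ∃ x, c x = true := by
      by_contra hcon
      push Not at hcon
      apply h
      funext x
      simpa using hcon x
    apply Finset.prod_eq_zero (Finset.mem_univ x)
    simp [hx]

theorem hflip_mul (c c' : β → Bool) : hflip c * hflip c' = hflip (fun x => xor (c x) (c' x)) := by
  ext p
  · simp [hflip, Bool.xor_assoc, Bool.xor_comm (c p.2)]
  · simp [hflip]

theorem hflip_false : hflip (fun _ : β => false) = 1 := by
  ext p <;> simp [hflip]

theorem hflip_inv (c : β → Bool) : (hflip c)⁻¹ = hflip c := by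
  rw [inv_eq_iff_mul_eq_one, hflip_mul]
  simp only [Bool.xor_self]
  exact hflip_false

variable (ρ : Perm (Bool × β) →* (E ≃ₗᵢ[ℝ] E))

noncomputable def PT (T : Finset β) : E →ₗ[ℝ] E :=
  ((2 : ℝ) ^ (Fintype.card β))⁻¹ • ∑ c : β → Bool, chi T c • R ρ (hflip c)

theorem PT_apply (T : Finset β) (v : E) :
    PT ρ T v = ((2 : ℝ) ^ (Fintype.card β))⁻¹ • ∑ c : β → Bool, chi T c • ρ (hflip c) v := by
  simp [PT]

/-- reindexing by xor -/
def xorEquiv (c : β → Bool) : (β → Bool) ≃ (β → Bool) where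
  toFun c' := fun x => xor (c x) (c' x)
  invFun c' := fun x => xor (c x) (c' x)
  left_inv := by intro c'; funext x; simp
  right_inv := by intro c'; funext x; simp

theorem rho_hflip_PT (T : Finset β) (c : β → Bool) (v : E) :
    ρ (hflip c) (PT ρ T v) = chi T c • PT ρ T v := by
  rw [PT_apply, map_smul, map_sum, smul_comm]
  congr 1
  rw [Finset.smul_sum]
  rw [← Equiv.sum_comp (xorEquiv c) (fun c' => chi T c • chi T c' • ρ (hflip c') v)]
  refine Finset.sum_congr rfl fun c' _ => ?_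
  rw [map_smul, ← rho_mul, hflip_mul]
  have : (xorEquiv c) c' = fun x => xor (c x) (c' x) := rfl
  rw [this, chi_xor, smul_smul, ← mul_assoc, chi_mul_self, one_mul]

theorem PT_rho_hflip (T : Finset β) (c : β → Bool) (v : E) :
    PT ρ T (ρ (hflip c) v) = chi T c • PT ρ T v := by
  rw [← rho_hflip_PT, PT_apply, PT_apply, map_smul, map_sum]
  congr 1
  refine Finset.sum_congr rfl fun c' _ => ?_
  rw [map_smul, ← rho_mul, ← rho_mul, hflip_mul, hflip_mul]
  congr 4
  funext x
  exact Bool.xor_comm _ _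

theorem sum_PT (v : E) : ∑ T : Finset β, PT ρ T v = v := by
  simp_rw [PT_apply]
  rw [← Finset.smul_sum, Finset.sum_comm]
  simp_rw [← Finset.sum_smul, sum_chi]
  rw [Finset.sum_eq_single (fun _ => false)]
  · rw [if_pos rfl, hflip_false, rho_one, smul_smul, inv_mul_cancel₀, one_smul]
    positivity
  · intro c _ hc
    rw [if_neg hc, zero_smul]
  · intro h
    exact absurd (Finset.mem_univ _) h

theorem PT_orth {T T' : Finset β} (h : T ≠ T') (u v : E) : inner ℝ (PT ρ T u) (PT ρ T' v) = 0 := by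
  obtain ⟨x, hx⟩ : ∃ x, ¬ (x ∈ T ↔ x ∈ T') := by
    by_contra hcon
    push Not at hcon
    exact h (Finset.ext hcon)
  have h1 : inner ℝ (ρ (hflip (single x)) (PT ρ T u)) (ρ (hflip (single x)) (PT ρ T' v))
      = inner ℝ (PT ρ T u) (PT ρ T' v) := (ρ (hflip (single x))).inner_map_map _ _
  rw [rho_hflip_PT, rho_hflip_PT, inner_smul_left, inner_smul_right, chi_single, chi_single] at h1
  by_cases h2 : x ∈ T <;> by_cases h3 : x ∈ T'
  · exact absurd ⟨fun _ => h3, fun _ => h2⟩ hx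
  · simp [h2, h3] at h1
    linarith
  · simp [h2, h3] at h1
    linarith
  · exact absurd ⟨fun h => absurd h h2, fun h => absurd h h3⟩ hx

theorem norm_sq_eq_sum_PT (v : E) : ‖v‖ ^ 2 = ∑ T : Finset β, ‖PT ρ T v‖ ^ 2 := by
  conv_lhs => rw [← sum_PT ρ v]
  exact norm_sq_sum_of_orth _ _ fun i _ j _ hij => PT_orth ρ hij v v

noncomputable def pp (x : β) : E →ₗ[ℝ] E := (1 / 2 : ℝ) • (LinearMap.id - R ρ (hflip (single x)))

theorem pp_apply (x : β) (v : E) : pp ρ x v = (1 / 2 : ℝ) • (v - ρ (hflip (single x)) v) := by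
  simp [pp]

theorem PT_pp (T : Finset β) (x : β) (v : E) :
    PT ρ T (pp ρ x v) = (if x ∈ T then (1 : ℝ) else 0) • PT ρ T v := by
  rw [pp_apply, map_smul, map_sub, PT_rho_hflip, chi_single]
  by_cases h : x ∈ T
  · simp only [h, if_true]
    rw [← sub_smul_aux]
  · simp [h]
where
  sub_smul_aux {w : E} : (1 / 2 : ℝ) • (w - (-1 : ℝ) • w) = (1 : ℝ) • w := by
    rw [neg_one_smul, sub_neg_eq_add, ← two_smul ℝ w, smul_smul]
    norm_num

theorem norm_sq_pp (x : β) (v : E) :
    ‖pp ρ x v‖ ^ 2 = ∑ T : Finset β, (if x ∈ T then (1 : ℝ) else 0) * ‖PT ρ T v‖ ^ 2 := by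
  rw [norm_sq_eq_sum_PT ρ (pp ρ x v)]
  refine Finset.sum_congr rfl fun T _ => ?_
  rw [PT_pp]
  by_cases h : x ∈ T <;> simp [h]

theorem norm_sq_pp_pp (x y : β) (v : E) :
    ‖pp ρ x (pp ρ y v)‖ ^ 2
      = ∑ T : Finset β, ((if x ∈ T then (1 : ℝ) else 0) * (if y ∈ T then (1 : ℝ) else 0)) * ‖PT ρ T v‖ ^ 2 := by
  rw [norm_sq_pp ρ x (pp ρ y v)]
  refine Finset.sum_congr rfl fun T _ => ?_
  rw [PT_pp]
  by_cases h : x ∈ T <;> by_cases h' : y ∈ T <;> simp [h, h']

def low (N : ℕ) (v : E) : Prop := ∀ T : Finset β, N < T.card → PT ρ T v = 0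

variable {ρ}

theorem sum_norm_sq_pp {N : ℕ} {v : E} (hv : low ρ N v) : ∑ x : β, ‖pp ρ x v‖ ^ 2 ≤ N * ‖v‖ ^ 2 := by
  simp_rw [norm_sq_pp]
  rw [Finset.sum_comm, norm_sq_eq_sum_PT ρ v, Finset.mul_sum]
  refine Finset.sum_le_sum fun T _ => ?_
  rw [← Finset.sum_mul]
  have h1 : ∑ i : β, (if i ∈ T then (1 : ℝ) else 0) = T.card := by simp
  rw [h1]
  by_cases h : N < T.card
  · rw [hv T h]; simp
  · exact mul_le_mul_of_nonneg_right (by exact_mod_cast not_lt.mp h) (sq_nonneg _)

theorem sum_norm_sq_pp_pp {N : ℕ} {v : E} (hv : low ρ N v) :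
    ∑ x : β, ∑ y : β, ‖pp ρ x (pp ρ y v)‖ ^ 2 ≤ (N : ℝ) ^ 2 * ‖v‖ ^ 2 := by
  simp_rw [norm_sq_pp_pp]
  have : ∀ x : β, ∑ y : β, ∑ T : Finset β,
      ((if x ∈ T then (1 : ℝ) else 0) * (if y ∈ T then (1 : ℝ) else 0)) * ‖PT ρ T v‖ ^ 2
      = ∑ T : Finset β, ∑ y : β,
      ((if x ∈ T then (1 : ℝ) else 0) * (if y ∈ T then (1 : ℝ) else 0)) * ‖PT ρ T v‖ ^ 2 := by
    intro x
    rw [Finset.sum_comm]
  simp_rw [this]
  rw [Finset.sum_comm, norm_sq_eq_sum_PT ρ v, Finset.mul_sum]
  refine Finset.sum_le_sum fun T _ => ?_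
  simp_rw [← Finset.sum_mul, ← Finset.mul_sum]
  have h1 : ∑ i : β, (if i ∈ T then (1 : ℝ) else 0) = T.card := by simp
  rw [← Finset.sum_mul, h1]
  by_cases h : N < T.card
  · rw [hv T h]; simp
  · have h2 : (T.card : ℝ) ≤ N := by exact_mod_cast not_lt.mp h
    refine mul_le_mul_of_nonneg_right ?_ (sq_nonneg _)
    nlinarith [Nat.cast_nonneg (α := ℝ) T.card]

end char

end Vale.Agent.P162
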