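import Vale.Agent.P162.A2

open Equiv

set_option linter.unusedSectionVars false
set_option linter.unusedSimpArgs false

namespace Vale.Agent.P162

section kap

variable {β : Type} [Fintype β] [DecidableEq β]
variable {E : Type} [NormedAddCommGroup E] [InnerProductSpace ℝ E]
variable (ρ : Perm (Bool × β) →* (E ≃ₗᵢ[ℝ] E))

noncomputable def qq (x y : β) : E →ₗ[ℝ] E :=
  ∑ b : Bool, ∑ b' : Bool, (eps b * eps b') • R ρ (swap (b, x) (b', y))

theorem qq_apply (x y : β) (v : E) :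
    qq ρ x y v = ρ (swap (true, x) (true, y)) v - ρ (swap (true, x) (false, y)) v
      - ρ (swap (false, x) (true, y)) v + ρ (swap (false, x) (false, y)) v := by
  simp [qq]
  abel

theorem qq_comm (x y : β) : qq ρ x y = qq ρ y x := by
  ext v
  rw [qq_apply, qq_apply, swap_comm (true, x) (true, y), swap_comm (true, x) (false, y),
    swap_comm (false, x) (true, y), swap_comm (false, x) (false, y)]
  abel

theorem hflip_apply' (c : β → Bool) (b : Bool) (x : β) : hflip c (b, x) = (xor b (c x), x) := rfl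

theorem rho_hflip_qq (c : β → Bool) (x y : β) (v : E) :
    ρ (hflip c) (qq ρ x y v) = (eps (c x) * eps (c y)) • qq ρ x y (ρ (hflip c) v) := by
  have h : ∀ b b' : Bool, ρ (hflip c) (ρ (swap (b, x) (b', y)) v)
      = ρ (swap (xor b (c x), x) (xor b' (c y), y)) (ρ (hflip c) v) := by
    intro b b'
    rw [← rho_mul, mul_swap_eq_swap_mul, rho_mul, hflip_apply', hflip_apply']
  rw [qq_apply, qq_apply, map_add, map_sub, map_sub, h, h, h, h]
  cases hx : c x <;> cases hy : c y <;> simp <;> abel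

theorem PT_qq (T : Finset β) (x y : β) (v : E) :
    PT ρ T (qq ρ x y v) = qq ρ x y (PT ρ (symmDiff (symmDiff T {x}) {y}) v) := by
  rw [PT_apply, PT_apply, map_smul, map_sum]
  congr 1
  refine Finset.sum_congr rfl fun c _ => ?_
  rw [rho_hflip_qq, chi_symmDiff_singleton, chi_symmDiff_singleton, map_smul, smul_smul, mul_assoc]

theorem card_symmDiff_ge (T : Finset β) (x : β) : T.card ≤ (symmDiff T {x}).card + 1 := by
  have h : T ⊆ insert x (symmDiff T {x}) := by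
    intro y hy
    by_cases hyx : y = x
    · subst hyx; exact Finset.mem_insert_self _ _
    · refine Finset.mem_insert_of_mem ?_
      rw [Finset.mem_symmDiff]
      exact Or.inl ⟨hy, by simpa using hyx⟩
  exact (Finset.card_le_card h).trans (Finset.card_insert_le _ _)

theorem low_qq {N : ℕ} {v : E} (hv : low ρ N v) (x y : β) : low ρ (N + 2) (qq ρ x y v) := by
  intro T hT
  rw [PT_qq, hv, map_zero]
  have h1 := card_symmDiff_ge T x
  have h2 := card_symmDiff_ge (symmDiff T {x}) y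
  omega

theorem low_sum {ι : Type*} (s : Finset ι) (f : ι → E) {N : ℕ} (h : ∀ i ∈ s, low ρ N (f i)) :
    low ρ N (∑ i ∈ s, f i) := by
  intro T hT
  rw [map_sum]
  exact Finset.sum_eq_zero fun i hi => h i hi T hT

theorem norm_qq_le (x y : β) (v : E) : ‖qq ρ x y v‖ ≤ 4 * ‖v‖ := by
  rw [qq_apply]
  have h1 := norm_add_le (ρ (swap (true, x) (true, y)) v - ρ (swap (true, x) (false, y)) v
      - ρ (swap (false, x) (true, y)) v) (ρ (swap (false, x) (false, y)) v)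
  have h2 := norm_sub_le (ρ (swap (true, x) (true, y)) v - ρ (swap (true, x) (false, y)) v)
    (ρ (swap (false, x) (true, y)) v)
  have h3 := norm_sub_le (ρ (swap (true, x) (true, y)) v) (ρ (swap (true, x) (false, y)) v)
  simp only [norm_rho] at h1 h2 h3
  linarith

theorem inner_qq (x y : β) (u v : E) : inner ℝ (qq ρ x y u) v = inner ℝ u (qq ρ x y v) := by
  rw [qq_apply, qq_apply]
  simp only [inner_add_left, inner_sub_left, inner_add_right, inner_sub_right, inner_rho_left, swap_inv]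

theorem inner_pp (x : β) (u v : E) : inner ℝ (pp ρ x u) v = inner ℝ u (pp ρ x v) := by
  rw [pp_apply, pp_apply, inner_smul_left, inner_smul_right, inner_sub_left, inner_sub_right,
    inner_rho_left, hflip_inv]
  rfl

theorem pp_pp_self (x : β) (v : E) : pp ρ x (pp ρ x v) = pp ρ x v := by
  have h : ρ (hflip (single x)) (ρ (hflip (single x)) v) = v := by
    rw [← rho_mul]
    have : hflip (single x) * hflip (single x) = 1 := by
      have h := hflip_inv (single x)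
      calc hflip (single x) * hflip (single x) = (hflip (single x))⁻¹ * hflip (single x) := by rw [h]
        _ = 1 := inv_mul_cancel _
    rw [this, rho_one]
  simp only [pp_apply, map_smul, map_sub, h]
  module

theorem qq_split_left {x y : β} (hxy : x ≠ y) (v : E) :
    qq ρ x y v = pp ρ x (qq ρ x y v) + qq ρ x y (pp ρ x v) := by
  have h := rho_hflip_qq ρ (single x) x y v
  have h1 : eps (single x x) = -1 := by simp [single]
  have h2 : eps (single x y) = 1 := by simp [single, hxy.symm]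
  rw [h1, h2] at h
  rw [pp_apply, pp_apply, map_smul, map_sub, h]
  module

theorem qq_split_right {x y : β} (hxy : x ≠ y) (v : E) :
    qq ρ x y v = pp ρ y (qq ρ x y v) + qq ρ x y (pp ρ y v) := by
  have := qq_split_left ρ hxy.symm v
  rwa [qq_comm ρ y x] at this

theorem swap_eq_hflip (x : β) : swap (false, x) (true, x) = hflip (single x) := by
  ext p
  · obtain ⟨b, y⟩ := p
    by_cases h : y = x
    · subst h
      cases b
      · simp [hflip, single]
      · simp [hflip, single]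
    · rw [swap_apply_of_ne_of_ne]
      · simp [hflip, single, h]
      · intro e; exact h (congrArg Prod.snd e)
      · intro e; exact h (congrArg Prod.snd e)
  · obtain ⟨b, y⟩ := p
    by_cases h : y = x
    · subst h
      cases b
      · simp [hflip, single]
      · simp [hflip, single]
    · rw [swap_apply_of_ne_of_ne]
      · simp [hflip, single, h]
      · intro e; exact h (congrArg Prod.snd e)
      · intro e; exact h (congrArg Prod.snd e)

theorem qq_self (x : β) (v : E) : qq ρ x x v = (4 : ℝ) • pp ρ x v := by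
  rw [qq_apply, pp_apply, swap_comm (true, x) (false, x), swap_eq_hflip, swap_self, swap_self]
  have : ρ (Equiv.refl (Bool × β)) v = v := rho_one ρ v
  rw [this]
  module

theorem abs_inner_qq (x y : β) (u v : E) :
    |inner ℝ u (qq ρ x y v)| ≤ 4 * (‖pp ρ x (pp ρ y u)‖ * ‖v‖ + ‖pp ρ x u‖ * ‖pp ρ y v‖
      + ‖pp ρ y u‖ * ‖pp ρ x v‖ + ‖u‖ * ‖pp ρ x (pp ρ y v)‖) := by
  by_cases hxy : x = y
  · subst hxy
    rw [qq_self, inner_smul_right]
    have h1 : inner ℝ u (pp ρ x v) = inner ℝ (pp ρ x u) (pp ρ x v) := by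
      rw [inner_pp, pp_pp_self]
    rw [h1, abs_mul, abs_of_pos (by norm_num : (0 : ℝ) < 4)]
    have h2 := abs_real_inner_le_norm (pp ρ x u) (pp ρ x v)
    have h3 : 0 ≤ ‖pp ρ x (pp ρ x u)‖ * ‖v‖ := by positivity
    have h4 : 0 ≤ ‖pp ρ x u‖ * ‖pp ρ x v‖ := by positivity
    have h5 : 0 ≤ ‖u‖ * ‖pp ρ x (pp ρ x v)‖ := by positivity
    linarith
  · have e1 : inner ℝ u (qq ρ x y v) = inner ℝ (pp ρ x (pp ρ y u)) (qq ρ x y v)
        + inner ℝ (pp ρ x u) (qq ρ x y (pp ρ y v)) + inner ℝ (pp ρ y u) (qq ρ x y (pp ρ x v))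
        + inner ℝ u (qq ρ x y (pp ρ x (pp ρ y v))) := by
      have a1 : inner ℝ u (qq ρ x y v) = inner ℝ (pp ρ y u) (qq ρ x y v)
          + inner ℝ u (qq ρ x y (pp ρ y v)) := by
        conv_lhs => rw [qq_split_right ρ hxy v]
        rw [inner_add_right, inner_pp]
      have a2 : inner ℝ (pp ρ y u) (qq ρ x y v) = inner ℝ (pp ρ x (pp ρ y u)) (qq ρ x y v)
          + inner ℝ (pp ρ y u) (qq ρ x y (pp ρ x v)) := by
        conv_lhs => rw [qq_split_left ρ hxy v]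
        rw [inner_add_right, ← inner_pp ρ x (pp ρ y u)]
      have a3 : inner ℝ u (qq ρ x y (pp ρ y v)) = inner ℝ (pp ρ x u) (qq ρ x y (pp ρ y v))
          + inner ℝ u (qq ρ x y (pp ρ x (pp ρ y v))) := by
        conv_lhs => rw [qq_split_left ρ hxy (pp ρ y v)]
        rw [inner_add_right, inner_pp]
      rw [a1, a2, a3]
      ring
    rw [e1]
    have b1 : |inner ℝ (pp ρ x (pp ρ y u)) (qq ρ x y v)| ≤ ‖pp ρ x (pp ρ y u)‖ * (4 * ‖v‖) :=
      (abs_real_inner_le_norm _ _).trans (mul_le_mul_of_nonneg_left (norm_qq_le ρ x y _) (norm_nonneg _))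
    have b2 : |inner ℝ (pp ρ x u) (qq ρ x y (pp ρ y v))| ≤ ‖pp ρ x u‖ * (4 * ‖pp ρ y v‖) :=
      (abs_real_inner_le_norm _ _).trans (mul_le_mul_of_nonneg_left (norm_qq_le ρ x y _) (norm_nonneg _))
    have b3 : |inner ℝ (pp ρ y u) (qq ρ x y (pp ρ x v))| ≤ ‖pp ρ y u‖ * (4 * ‖pp ρ x v‖) :=
      (abs_real_inner_le_norm _ _).trans (mul_le_mul_of_nonneg_left (norm_qq_le ρ x y _) (norm_nonneg _))
    have b4 : |inner ℝ u (qq ρ x y (pp ρ x (pp ρ y v)))| ≤ ‖u‖ * (4 * ‖pp ρ x (pp ρ y v)‖) :=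
      (abs_real_inner_le_norm _ _).trans (mul_le_mul_of_nonneg_left (norm_qq_le ρ x y _) (norm_nonneg _))
    have c1 := abs_add_le (inner ℝ (pp ρ x (pp ρ y u)) (qq ρ x y v)
        + inner ℝ (pp ρ x u) (qq ρ x y (pp ρ y v)) + inner ℝ (pp ρ y u) (qq ρ x y (pp ρ x v)))
        (inner ℝ u (qq ρ x y (pp ρ x (pp ρ y v))))
    have c2 := abs_add_le (inner ℝ (pp ρ x (pp ρ y u)) (qq ρ x y v)
        + inner ℝ (pp ρ x u) (qq ρ x y (pp ρ y v))) (inner ℝ (pp ρ y u) (qq ρ x y (pp ρ x v)))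
    have c3 := abs_add_le (inner ℝ (pp ρ x (pp ρ y u)) (qq ρ x y v))
        (inner ℝ (pp ρ x u) (qq ρ x y (pp ρ y v)))
    linarith

noncomputable def kap : E →ₗ[ℝ] E := ∑ x : β, ∑ y : β, qq ρ x y

theorem kap_apply (v : E) : kap ρ v = ∑ x : β, ∑ y : β, qq ρ x y v := by
  simp [kap]

theorem low_kap {N : ℕ} {v : E} (hv : low ρ N v) : low ρ (N + 2) (kap ρ v) := by
  rw [kap_apply]
  exact low_sum ρ _ _ fun x _ => low_sum ρ _ _ fun y _ => low_qq ρ hv x y

theorem inner_kap (u v : E) : inner ℝ (kap ρ u) v = inner ℝ u (kap ρ v) := by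
  rw [kap_apply, kap_apply]
  simp only [sum_inner, inner_sum, inner_qq]

variable {ρ}

theorem sum_pp_le {N : ℕ} {v : E} (hv : low ρ N v) :
    ∑ x : β, ‖pp ρ x v‖ ≤ Real.sqrt (Fintype.card β * N) * ‖v‖ := by
  have h1 : (∑ x : β, ‖pp ρ x v‖) ^ 2 ≤ (Fintype.card β) * ∑ x : β, ‖pp ρ x v‖ ^ 2 := by
    have := sq_sum_le_card_mul_sum_sq (s := (Finset.univ : Finset β)) (f := fun x => ‖pp ρ x v‖)
    simpa using this
  have h2 := sum_norm_sq_pp hv
  have h3 : (∑ x : β, ‖pp ρ x v‖) ^ 2 ≤ (Real.sqrt (Fintype.card β * N) * ‖v‖) ^ 2 := by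
    rw [mul_pow, Real.sq_sqrt (by positivity)]
    calc _ ≤ _ := h1
      _ ≤ (Fintype.card β) * (N * ‖v‖ ^ 2) := mul_le_mul_of_nonneg_left h2 (by positivity)
      _ = _ := by ring
  exact le_of_sq_le_sq h3 (by positivity)
where
  le_of_sq_le_sq {a b : ℝ} (h : a ^ 2 ≤ b ^ 2) (hb : 0 ≤ b) : a ≤ b := by
    nlinarith [abs_le_of_sq_le_sq' h hb]

theorem sum_pp_pp_le {N : ℕ} {v : E} (hv : low ρ N v) :
    ∑ x : β, ∑ y : β, ‖pp ρ x (pp ρ y v)‖ ≤ (Fintype.card β : ℝ) * N * ‖v‖ := by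
  have h1 : (∑ x : β, ∑ y : β, ‖pp ρ x (pp ρ y v)‖) ^ 2
      ≤ (Fintype.card β : ℝ) ^ 2 * ∑ x : β, ∑ y : β, ‖pp ρ x (pp ρ y v)‖ ^ 2 := by
    have := sq_sum_le_card_mul_sum_sq (s := (Finset.univ : Finset (β × β)))
      (f := fun p => ‖pp ρ p.1 (pp ρ p.2 v)‖)
    rw [Fintype.sum_prod_type, Fintype.sum_prod_type, Finset.card_univ, Fintype.card_prod] at this
    push_cast at this
    rw [sq (Fintype.card β : ℝ)]
    exact this
  have h2 := sum_norm_sq_pp_pp hv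
  have h3 : (∑ x : β, ∑ y : β, ‖pp ρ x (pp ρ y v)‖) ^ 2 ≤ ((Fintype.card β : ℝ) * N * ‖v‖) ^ 2 := by
    calc _ ≤ _ := h1
      _ ≤ (Fintype.card β : ℝ) ^ 2 * ((N : ℝ) ^ 2 * ‖v‖ ^ 2) := mul_le_mul_of_nonneg_left h2 (by positivity)
      _ = _ := by ring
  exact abs_le_of_sq_le_sq' h3 (by positivity) |>.2

theorem norm_kap_le {N : ℕ} {v : E} (hv : low ρ N v) :
    ‖kap ρ v‖ ≤ 16 * (Fintype.card β : ℝ) * (N + 1) * ‖v‖ := by
  set m : ℝ := (Fintype.card β : ℝ) with hm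
  have hm0 : 0 ≤ m := by positivity
  set u := kap ρ v with hu
  have hlu : low ρ (N + 2) u := low_kap ρ hv
  have h1 : ‖u‖ ^ 2 ≤ ∑ x : β, ∑ y : β, 4 * (‖pp ρ x (pp ρ y u)‖ * ‖v‖ + ‖pp ρ x u‖ * ‖pp ρ y v‖
      + ‖pp ρ y u‖ * ‖pp ρ x v‖ + ‖u‖ * ‖pp ρ x (pp ρ y v)‖) := by
    have e1 : ‖u‖ ^ 2 = ∑ x : β, ∑ y : β, inner ℝ u (qq ρ x y v) := by
      rw [← real_inner_self_eq_norm_sq]
      conv_lhs =>
        arg 3
        rw [hu, kap_apply]
      simp only [inner_sum]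
    rw [e1]
    exact Finset.sum_le_sum fun x _ => Finset.sum_le_sum fun y _ =>
      (le_abs_self _).trans (abs_inner_qq ρ x y u v)
  have h2 : ∑ x : β, ∑ y : β, 4 * (‖pp ρ x (pp ρ y u)‖ * ‖v‖ + ‖pp ρ x u‖ * ‖pp ρ y v‖
      + ‖pp ρ y u‖ * ‖pp ρ x v‖ + ‖u‖ * ‖pp ρ x (pp ρ y v)‖)
      = 4 * ((∑ x : β, ∑ y : β, ‖pp ρ x (pp ρ y u)‖) * ‖v‖
        + 2 * ((∑ x : β, ‖pp ρ x u‖) * (∑ x : β, ‖pp ρ x v‖))
        + ‖u‖ * (∑ x : β, ∑ y : β, ‖pp ρ x (pp ρ y v)‖)) := by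
    simp_rw [← Finset.mul_sum, Finset.sum_add_distrib, ← Finset.mul_sum, ← Finset.sum_mul,
      ← Finset.mul_sum]
    ring
  rw [h2] at h1
  have a1 := sum_pp_pp_le hlu
  have a2 := sum_pp_le hlu
  have a3 := sum_pp_le hv
  have a4 := sum_pp_pp_le hv
  rw [← hm] at a1 a2 a3 a4
  push_cast at a1 a2
  have b1 : (∑ x : β, ‖pp ρ x u‖) * (∑ x : β, ‖pp ρ x v‖) ≤ m * (N + 1) * (‖u‖ * ‖v‖) := by
    have c1 : (∑ x : β, ‖pp ρ x u‖) * (∑ x : β, ‖pp ρ x v‖)
        ≤ (Real.sqrt (m * (N + 2)) * ‖u‖) * (Real.sqrt (m * N) * ‖v‖) :=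
      mul_le_mul a2 a3 (Finset.sum_nonneg fun _ _ => norm_nonneg _) (by positivity)
    have c2 : Real.sqrt (m * (N + 2)) * Real.sqrt (m * N) ≤ m * (N + 1) := by
      rw [← Real.sqrt_mul (by positivity)]
      apply Real.sqrt_le_iff.mpr
      refine ⟨by positivity, ?_⟩
      nlinarith [sq_nonneg m]
    calc _ ≤ _ := c1
      _ = (Real.sqrt (m * (N + 2)) * Real.sqrt (m * N)) * (‖u‖ * ‖v‖) := by ring
      _ ≤ m * (N + 1) * (‖u‖ * ‖v‖) := mul_le_mul_of_nonneg_right c2 (by positivity)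
  have h3 : ‖u‖ ^ 2 ≤ (16 * m * (N + 1) * ‖v‖) * ‖u‖ := by
    have d1 : (∑ x : β, ∑ y : β, ‖pp ρ x (pp ρ y u)‖) * ‖v‖ ≤ m * (N + 2) * ‖u‖ * ‖v‖ :=
      mul_le_mul_of_nonneg_right a1 (norm_nonneg _)
    have d2 : ‖u‖ * (∑ x : β, ∑ y : β, ‖pp ρ x (pp ρ y v)‖) ≤ ‖u‖ * (m * N * ‖v‖) :=
      mul_le_mul_of_nonneg_left a4 (norm_nonneg _)
    nlinarith
  by_cases h0 : ‖u‖ = 0
  · rw [h0]; positivity
  · have hpos : 0 < ‖u‖ := lt_of_le_of_ne (norm_nonneg _) (Ne.symm h0)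
    have : ‖u‖ * ‖u‖ ≤ (16 * m * (N + 1) * ‖v‖) * ‖u‖ := by rw [← sq]; exact h3
    exact le_of_mul_le_mul_right this hpos

end kap

end Vale.Agent.P162
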