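import Vale.Agent.P162.A3

open Equiv

set_option linter.unusedSectionVars false
set_option linter.unusedSimpArgs false

namespace Vale.Agent.P162

section lapkap

variable {β : Type} [Fintype β] [DecidableEq β]
variable {E : Type} [NormedAddCommGroup E] [InnerProductSpace ℝ E]

theorem lap_apply {α : Type} [Fintype α] [DecidableEq α] (ρ : Perm α →* (E ≃ₗᵢ[ℝ] E)) (v : E) :
    lap ρ v = ∑ p : α, ∑ q : α, (v - ρ (swap p q) v) := by
  simp [lap, lapOn]

theorem iota_swap (b : Bool) (x y : β) : iota b (swap x y) = swap (b, x) (b, y) := by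
  ext p
  · obtain ⟨b', z⟩ := p
    by_cases h : b' = b
    · subst h
      by_cases h1 : z = x
      · subst h1; simp [iota]
      · by_cases h2 : z = y
        · subst h2; simp [iota]
        · rw [swap_apply_of_ne_of_ne (by simpa using h1) (by simpa using h2)]
          simp [iota]
    · rw [swap_apply_of_ne_of_ne (by simp [h]) (by simp [h])]
      simp [iota]
  · obtain ⟨b', z⟩ := p
    by_cases h : b' = b
    · subst h
      by_cases h1 : z = x
      · subst h1; simp [iota]
      · by_cases h2 : z = y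
        · subst h2; simp [iota]
        · rw [swap_apply_of_ne_of_ne (by simpa using h1) (by simpa using h2)]
          simp [iota, swap_apply_of_ne_of_ne h1 h2]
    · rw [swap_apply_of_ne_of_ne (by simp [h]) (by simp [h])]
      simp [iota, h]

variable (ρ : Perm (Bool × β) →* (E ≃ₗᵢ[ℝ] E))

theorem lap_comp_iota (b : Bool) (v : E) :
    lap (ρ.comp (iota b)) v = ∑ x : β, ∑ y : β, (v - ρ (swap (b, x) (b, y)) v) := by
  rw [lap_apply]
  refine Finset.sum_congr rfl fun x _ => Finset.sum_congr rfl fun y _ => ?_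
  rw [MonoidHom.comp_apply, iota_swap]

theorem lap_eq (v : E) :
    lap ρ v = (2 : ℝ) • (lap (ρ.comp (iota false)) v + lap (ρ.comp (iota true)) v) + kap ρ v := by
  rw [lap_comp_iota, lap_comp_iota, kap_apply, lap_apply, Fintype.sum_prod_type]
  simp_rw [Fintype.sum_prod_type, Fintype.sum_bool, qq_apply]
  rw [← Finset.sum_add_distrib, ← Finset.sum_add_distrib, Finset.smul_sum, ← Finset.sum_add_distrib]
  refine Finset.sum_congr rfl fun x _ => ?_
  simp_rw [← Finset.sum_add_distrib, Finset.smul_sum, ← Finset.sum_add_distrib]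
  refine Finset.sum_congr rfl fun y _ => ?_
  module

variable {ρ}

theorem low_zero_of_inv {w : E} (hw : ∀ c : β → Bool, ρ (hflip c) w = w) : low ρ 0 w := by
  intro T hT
  obtain ⟨x, hx⟩ := Finset.card_pos.mp hT
  have h := PT_rho_hflip ρ T (single x) w
  rw [hw, chi_single, if_pos hx, neg_one_smul] at h
  have h2 : (2 : ℝ) • PT ρ T w = 0 := by
    rw [two_smul]
    nth_rewrite 1 [h]
    exact neg_add_cancel _
  exact (smul_eq_zero.mp h2).resolve_left two_ne_zero

theorem swap_w {w : E} (hw : ∀ c : β → Bool, ρ (hflip c) w = w) {x y : β} (hxy : x ≠ y) (b b' : Bool) :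
    inner ℝ w (ρ (swap (b, x) (b', y)) w) = inner ℝ w (ρ (swap (false, x) (false, y)) w) := by
  set c : β → Bool := fun z => if z = x then b else if z = y then b' else false with hc
  have hcx : c x = b := by simp [hc]
  have hcy : c y = b' := by simp [hc, hxy.symm]
  have h1 : ρ (swap (b, x) (b', y)) w = ρ (hflip c) (ρ (swap (false, x) (false, y)) w) := by
    rw [← rho_mul, mul_swap_eq_swap_mul, rho_mul, hflip_apply', hflip_apply', hw, hcx, hcy]
    simp
  rw [h1, inner_rho_right, hflip_inv, hw]

theorem three_cycle {w : E} (hw : ∀ c : β → Bool, ρ (hflip c) w = w) {x y : β} (hxy : x ≠ y) (b b' b'' : Bool)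
    (hb : b' ≠ b'') :
    inner ℝ (ρ (swap (b, x) (b', y)) w) (ρ (swap (b, x) (b'', y)) w)
      = inner ℝ w (ρ (swap (b, x) (b', y)) w) := by
  -- ρ(swap (b,x)(b',y)) w = ρ(h_y) ρ(swap (b,x)(b'',y)) w
  have hy : hflip (single y) * swap (b, x) (b'', y) = swap (b, x) (b', y) * hflip (single y) := by
    rw [mul_swap_eq_swap_mul, hflip_apply', hflip_apply']
    have h1 : single y x = false := by simp [single, hxy]
    have h2 : single y y = true := by simp [single]
    rw [h1, h2]
    have h3 : xor b'' true = b' := by cases b' <;> cases b'' <;> simp_all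
    rw [h3, Bool.xor_false]
  have e1 : ρ (swap (b, x) (b'', y)) w = ρ (hflip (single y)) (ρ (swap (b, x) (b', y)) w) := by
    have h4 : ρ (hflip (single y)) (ρ (swap (b, x) (b'', y)) w) = ρ (swap (b, x) (b', y)) w := by
      rw [← rho_mul, hy, rho_mul, hw]
    rw [← h4, ← rho_mul]
    have : hflip (single y) * hflip (single y) = 1 := by
      have h := hflip_inv (single y)
      calc hflip (single y) * hflip (single y) = (hflip (single y))⁻¹ * hflip (single y) := by rw [h]
        _ = 1 := inv_mul_cancel _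
    rw [this, rho_one]
  rw [e1, inner_rho_left, swap_inv, ← rho_mul, ← rho_mul]
  have h5 : swap (b, x) (b', y) * (hflip (single y) * swap (b, x) (b', y)) = swap (b, x) (b'', y) := by
    rw [← swap_eq_hflip]
    have h6 : swap (false, y) (true, y) = swap (b', y) (b'', y) := by
      cases b' <;> cases b''
      · exact absurd rfl hb
      · rfl
      · exact swap_comm _ _
      · exact absurd rfl hb
    rw [h6, mul_swap_eq_swap_mul (swap (b', y) (b'', y))]
    have h7 : swap (b', y) (b'', y) (b, x) = (b, x) := by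
      rw [swap_apply_of_ne_of_ne]
      · simp [hxy]
      · simp [hxy]
    rw [h7, swap_apply_left, ← mul_assoc]
    -- swap a c * swap a d * swap c d = swap a d
    have h8 : swap (b, x) (b', y) * swap (b, x) (b'', y) = swap (b, x) (b'', y) * swap (b', y) (b'', y) := by
      rw [mul_swap_eq_swap_mul (swap (b, x) (b'', y))]
      rw [swap_apply_right, swap_apply_of_ne_of_ne (by simp [Ne.symm hxy]) (by simp [hb])]
      rw [swap_comm (b', y) (b, x)]
    rw [h8, mul_assoc, swap_mul_self, mul_one]
  rw [mul_assoc, h5]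
  rw [swap_w hw hxy b b'', swap_w hw hxy b b']

theorem norm_sq_qq_le {w : E} (hw : ∀ c : β → Bool, ρ (hflip c) w = w) (x y : β) :
    2 * ‖qq ρ x y w‖ ^ 2
      ≤ 4 * ∑ b : Bool, ∑ b' : Bool, (‖w‖ ^ 2 - inner ℝ w (ρ (swap (b, x) (b', y)) w)) := by
  by_cases hxy : x = y
  · subst hxy
    have h0 : qq ρ x x w = 0 := by
      rw [qq_self, pp_apply, hw, sub_self, smul_zero, smul_zero]
    rw [h0, norm_zero]
    have h1 : 0 ≤ ∑ b : Bool, ∑ b' : Bool, (‖w‖ ^ 2 - inner ℝ w (ρ (swap (b, x) (b', x)) w)) := by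
      refine Finset.sum_nonneg fun b _ => Finset.sum_nonneg fun b' _ => ?_
      have := real_inner_le_norm w (ρ (swap (b, x) (b', x)) w)
      rw [norm_rho, ← sq] at this
      linarith
    simpa using h1
  · have hsum : ∑ b : Bool, ∑ b' : Bool, (‖w‖ ^ 2 - inner ℝ w (ρ (swap (b, x) (b', y)) w))
        = 4 * (‖w‖ ^ 2 - inner ℝ w (ρ (swap (false, x) (false, y)) w)) := by
      simp_rw [swap_w hw hxy]
      simp
      ring
    rw [hsum]
    set c := inner ℝ w (ρ (swap (false, x) (false, y)) w) with hc
    have hxy' : y ≠ x := fun h => hxy h.symm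
    -- the four vectors
    set Att := ρ (swap (true, x) (true, y)) w with hAtt
    set Atf := ρ (swap (true, x) (false, y)) w with hAtf
    set Aft := ρ (swap (false, x) (true, y)) w with hAft
    set Aff := ρ (swap (false, x) (false, y)) w with hAff
    have n1 : inner ℝ Att Att = ‖w‖ ^ 2 := by rw [real_inner_self_eq_norm_sq, hAtt, norm_rho]
    have n2 : inner ℝ Atf Atf = ‖w‖ ^ 2 := by rw [real_inner_self_eq_norm_sq, hAtf, norm_rho]
    have n3 : inner ℝ Aft Aft = ‖w‖ ^ 2 := by rw [real_inner_self_eq_norm_sq, hAft, norm_rho]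
    have n4 : inner ℝ Aff Aff = ‖w‖ ^ 2 := by rw [real_inner_self_eq_norm_sq, hAff, norm_rho]
    have i1 : inner ℝ Att Atf = c := by
      rw [hAtt, hAtf, three_cycle hw hxy true true false (by simp), swap_w hw hxy]
    have i2 : inner ℝ Aft Aff = c := by
      rw [hAft, hAff, three_cycle hw hxy false true false (by simp), swap_w hw hxy]
    have i3 : inner ℝ Att Aft = c := by
      rw [hAtt, hAft, swap_comm (true, x) (true, y), swap_comm (false, x) (true, y),
        three_cycle hw hxy' true true false (by simp), swap_comm, swap_w hw hxy]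
    have i4 : inner ℝ Atf Aff = c := by
      rw [hAtf, hAff, swap_comm (true, x) (false, y), swap_comm (false, x) (false, y),
        three_cycle hw hxy' false true false (by simp), swap_comm, swap_w hw hxy]
    have j1 : inner ℝ Att Aff ≤ ‖w‖ ^ 2 := by
      have := real_inner_le_norm Att Aff
      rw [hAtt, hAff, norm_rho, norm_rho, ← sq] at this
      exact this
    have j2 : inner ℝ Atf Aft ≤ ‖w‖ ^ 2 := by
      have := real_inner_le_norm Atf Aft
      rw [hAtf, hAft, norm_rho, norm_rho, ← sq] at this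
      exact this
    have key : ‖qq ρ x y w‖ ^ 2 = 4 * ‖w‖ ^ 2 - 8 * c + 2 * inner ℝ Att Aff + 2 * inner ℝ Atf Aft := by
      rw [qq_apply, ← real_inner_self_eq_norm_sq, ← hAtt, ← hAtf, ← hAft, ← hAff]
      simp only [inner_add_left, inner_sub_left, inner_add_right, inner_sub_right]
      rw [real_inner_comm Att Atf, real_inner_comm Att Aft, real_inner_comm Att Aff,
        real_inner_comm Atf Aft, real_inner_comm Atf Aff, real_inner_comm Aft Aff,
        n1, n2, n3, n4, i1, i2, i3, i4]
      ring
    rw [key]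
    linarith

theorem qq_orth {w : E} (hw : ∀ c : β → Bool, ρ (hflip c) w = w) {x y x' y' : β} (hxy : x ≠ y)
    (h1 : ¬ (x' = x ∧ y' = y)) (h2 : ¬ (x' = y ∧ y' = x)) :
    inner ℝ (qq ρ x y w) (qq ρ x' y' w) = 0 := by
  by_cases hxy' : x' = y'
  · subst hxy'
    have h0 : qq ρ x' x' w = 0 := by
      rw [qq_self, pp_apply, hw, sub_self, smul_zero, smul_zero]
    rw [h0, inner_zero_right]
  · -- find z in {x,y} not in {x',y'}
    obtain ⟨z, hz1, hz2, hz3⟩ : ∃ z, (z = x ∨ z = y) ∧ z ≠ x' ∧ z ≠ y' := by
      by_contra hcon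
      push Not at hcon
      have a1 := hcon x (Or.inl rfl)
      have a2 := hcon y (Or.inr rfl)
      by_cases e1 : x = x'
      · by_cases e2 : y = x'
        · exact hxy (e1.trans e2.symm)
        · exact h1 ⟨e1.symm, (a2 e2).symm⟩
      · have e3 := a1 e1
        by_cases e2 : y = x'
        · exact h2 ⟨e2.symm, e3.symm⟩
        · exact hxy (e3.trans (a2 e2).symm)
    have b1 : ρ (hflip (single z)) (qq ρ x y w) = - qq ρ x y w := by
      rw [rho_hflip_qq, hw]
      rcases hz1 with h | h
      · subst h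
        simp [single, hxy.symm]
      · subst h
        simp [single, hxy]
    have b2 : ρ (hflip (single z)) (qq ρ x' y' w) = qq ρ x' y' w := by
      rw [rho_hflip_qq, hw]
      simp [single, hz2.symm, hz3.symm]
    have b3 : inner ℝ (ρ (hflip (single z)) (qq ρ x y w)) (ρ (hflip (single z)) (qq ρ x' y' w))
        = inner ℝ (qq ρ x y w) (qq ρ x' y' w) := (ρ (hflip (single z))).inner_map_map _ _
    rw [b1, b2, inner_neg_left] at b3
    linarith

theorem norm_sq_kap_inv_le {w : E} (hw : ∀ c : β → Bool, ρ (hflip c) w = w) :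
    ‖kap ρ w‖ ^ 2 ≤ 4 * inner ℝ w (lap ρ w) := by
  have h1 : ‖kap ρ w‖ ^ 2 ≤ ∑ x : β, ∑ y : β, 2 * ‖qq ρ x y w‖ ^ 2 := by
    rw [← real_inner_self_eq_norm_sq]
    conv_lhs =>
      arg 2
      rw [kap_apply]
    simp only [sum_inner]
    refine Finset.sum_le_sum fun x _ => Finset.sum_le_sum fun y _ => ?_
    by_cases hxy : x = y
    · subst hxy
      have h0 : qq ρ x x w = 0 := by
        rw [qq_self, pp_apply, hw, sub_self, smul_zero, smul_zero]
      rw [h0, inner_zero_left]
      positivity
    · rw [kap_apply]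
      simp only [inner_sum]
      rw [← Fintype.sum_prod_type' (f := fun x' y' => inner ℝ (qq ρ x y w) (qq ρ x' y' w))]
      have hsub : ∑ p : β × β, inner ℝ (qq ρ x y w) (qq ρ p.1 p.2 w)
          = ∑ p ∈ ({(x, y), (y, x)} : Finset (β × β)), inner ℝ (qq ρ x y w) (qq ρ p.1 p.2 w) := by
        symm
        apply Finset.sum_subset (Finset.subset_univ _)
        intro p _ hp
        apply qq_orth hw hxy
        · rintro ⟨h2, h3⟩
          apply hp
          simp [← h2, ← h3]
        · rintro ⟨h2, h3⟩
          apply hp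
          simp [← h2, ← h3]
      rw [hsub, Finset.sum_pair (by simp [hxy])]
      simp only
      rw [qq_comm ρ y x, real_inner_self_eq_norm_sq]
      linarith
  have h2 : ∑ x : β, ∑ y : β, 2 * ‖qq ρ x y w‖ ^ 2
      ≤ ∑ x : β, ∑ y : β, 4 * ∑ b : Bool, ∑ b' : Bool, (‖w‖ ^ 2 - inner ℝ w (ρ (swap (b, x) (b', y)) w)) :=
    Finset.sum_le_sum fun x _ => Finset.sum_le_sum fun y _ => norm_sq_qq_le hw x y
  have h3 : 4 * inner ℝ w (lap ρ w)
      = ∑ x : β, ∑ y : β, 4 * ∑ b : Bool, ∑ b' : Bool, (‖w‖ ^ 2 - inner ℝ w (ρ (swap (b, x) (b', y)) w)) := by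
    rw [lap_apply, Fintype.sum_prod_type]
    simp_rw [Fintype.sum_prod_type, ← Finset.mul_sum]
    congr 1
    simp only [Fintype.sum_bool, Finset.sum_add_distrib, inner_add_right, inner_sum, inner_sub_right,
      real_inner_self_eq_norm_sq]
  linarith

theorem inner_kap_inv {w : E} (hw : ∀ c : β → Bool, ρ (hflip c) w = w) : inner ℝ w (kap ρ w) = 0 := by
  rw [kap_apply]
  simp only [inner_sum]
  refine Finset.sum_eq_zero fun x _ => Finset.sum_eq_zero fun y _ => ?_
  by_cases hxy : x = y
  · subst hxy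
    have h0 : qq ρ x x w = 0 := by
      rw [qq_self, pp_apply, hw, sub_self, smul_zero, smul_zero]
    rw [h0, inner_zero_right]
  · have b1 : ρ (hflip (single x)) (qq ρ x y w) = - qq ρ x y w := by
      rw [rho_hflip_qq, hw]
      simp [single, Ne.symm hxy]
    have b3 : inner ℝ (ρ (hflip (single x)) w) (ρ (hflip (single x)) (qq ρ x y w))
        = inner ℝ w (qq ρ x y w) := (ρ (hflip (single x))).inner_map_map _ _
    rw [b1, hw, inner_neg_right] at b3
    linarith

end lapkap

end Vale.Agent.P162
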