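import Vale.Agent.P162.A4

open Equiv

set_option linter.unusedSectionVars false
set_option linter.unusedSimpArgs false

namespace Vale.Agent.P162

section growth

variable {β : Type} [Fintype β] [DecidableEq β]
variable {E : Type} [NormedAddCommGroup E] [InnerProductSpace ℝ E]
variable {ρ : Perm (Bool × β) →* (E ≃ₗᵢ[ℝ] E)}

theorem growth {w : E} (hw : ∀ c : β → Bool, ρ (hflip c) w = w) (i : ℕ) :
    low ρ (2 + 2 * i) (((kap ρ) ^ i) (kap ρ w)) ∧
    ‖((kap ρ) ^ i) (kap ρ w)‖ ≤ (48 * (Fintype.card β : ℝ)) ^ i * (i.factorial : ℝ) * ‖kap ρ w‖ := by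
  induction i with
  | zero =>
    refine ⟨?_, by simp⟩
    have := low_kap ρ (low_zero_of_inv hw)
    simpa using this
  | succ i ih =>
    obtain ⟨h1, h2⟩ := ih
    have e : ((kap ρ) ^ (i + 1)) (kap ρ w) = kap ρ (((kap ρ) ^ i) (kap ρ w)) := by
      rw [pow_succ', Module.End.mul_apply]
    rw [e]
    refine ⟨?_, ?_⟩
    · have := low_kap ρ h1
      have e2 : 2 + 2 * (i + 1) = 2 + 2 * i + 2 := by ring
      rw [e2]
      exact this
    · have h3 := norm_kap_le h1
      have hm : (0 : ℝ) ≤ (Fintype.card β : ℝ) := by positivity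
      have h4 : 16 * (Fintype.card β : ℝ) * (((2 + 2 * i : ℕ) : ℝ) + 1)
          ≤ 48 * (Fintype.card β : ℝ) * ((i : ℝ) + 1) := by
        push_cast
        nlinarith [Nat.cast_nonneg (α := ℝ) i, mul_nonneg hm (Nat.cast_nonneg (α := ℝ) i)]
      have h5 : ‖kap ρ (((kap ρ) ^ i) (kap ρ w))‖
          ≤ 48 * (Fintype.card β : ℝ) * ((i : ℝ) + 1) * ‖((kap ρ) ^ i) (kap ρ w)‖ :=
        h3.trans (mul_le_mul_of_nonneg_right h4 (norm_nonneg _))
      refine h5.trans ?_
      rw [Nat.factorial_succ]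
      push_cast
      have h6 : 48 * (Fintype.card β : ℝ) * ((i : ℝ) + 1) * ‖((kap ρ) ^ i) (kap ρ w)‖
          ≤ 48 * (Fintype.card β : ℝ) * ((i : ℝ) + 1) *
            ((48 * (Fintype.card β : ℝ)) ^ i * (i.factorial : ℝ) * ‖kap ρ w‖) :=
        mul_le_mul_of_nonneg_left h2 (by positivity)
      refine h6.trans (le_of_eq ?_)
      rw [pow_succ]
      ring

/-- the moments of `kap` at an invariant vector -/
theorem inner_kap_pow {w : E} (hw : ∀ c : β → Bool, ρ (hflip c) w = w) (i : ℕ) :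
    inner ℝ w (((kap ρ) ^ (i + 2)) w)
      ≤ (48 * (Fintype.card β : ℝ)) ^ i * (i.factorial : ℝ) * ‖kap ρ w‖ ^ 2 := by
  have e : ((kap ρ) ^ (i + 2)) w = kap ρ (((kap ρ) ^ i) (kap ρ w)) := by
    have : (kap ρ) ^ (i + 2) = kap ρ * (kap ρ) ^ i * kap ρ := by
      rw [← pow_succ', ← pow_succ]
    rw [this, Module.End.mul_apply, Module.End.mul_apply]
  rw [e, ← inner_kap]
  have h1 := real_inner_le_norm (kap ρ w) (((kap ρ) ^ i) (kap ρ w))
  have h2 := (growth hw i).2
  calc inner ℝ (kap ρ w) (((kap ρ) ^ i) (kap ρ w)) ≤ ‖kap ρ w‖ * ‖((kap ρ) ^ i) (kap ρ w)‖ := h1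
    _ ≤ ‖kap ρ w‖ * ((48 * (Fintype.card β : ℝ)) ^ i * (i.factorial : ℝ) * ‖kap ρ w‖) :=
        mul_le_mul_of_nonneg_left h2 (norm_nonneg _)
    _ = _ := by ring

end growth

section real

theorem exp_moment_bound {ι : Type*} (s : Finset ι) (a z : ι → ℝ) (A b t : ℝ)
    (h0 : ∑ i ∈ s, a i = A) (h1 : ∑ i ∈ s, z i * a i = 0)
    (h2 : ∀ j : ℕ, ∑ i ∈ s, z i ^ (j + 2) * a i ≤ 12 ^ j * (j.factorial : ℝ) * b)
    (hb : 0 ≤ b) (ht : 0 ≤ t) (ht' : t ≤ 1 / 24) :
    ∑ i ∈ s, Real.exp (t * z i) * a i ≤ A + t ^ 2 * b := by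
  have hs : ∀ i ∈ s, HasSum (fun j : ℕ => (t * z i) ^ j / (j.factorial : ℝ) * a i)
      (Real.exp (t * z i) * a i) := by
    intro i _
    have := NormedSpace.expSeries_div_hasSum_exp (𝔸 := ℝ) (t * z i)
    rw [Real.exp_eq_exp_ℝ]
    exact this.mul_right _
  have hsum := hasSum_sum hs
  have hsum2 := (hasSum_nat_add_iff (f := fun j : ℕ => ∑ i ∈ s, (t * z i) ^ j / (j.factorial : ℝ) * a i) 2
    (g := ∑ i ∈ s, Real.exp (t * z i) * a i - A)).mpr (by
      have e : (∑ i ∈ s, Real.exp (t * z i) * a i - A) + ∑ i ∈ Finset.range 2,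
          (fun j : ℕ => ∑ i ∈ s, (t * z i) ^ j / (j.factorial : ℝ) * a i) i
          = ∑ i ∈ s, Real.exp (t * z i) * a i := by
        rw [Finset.sum_range_succ, Finset.sum_range_one]
        have e0 : ∑ i ∈ s, (t * z i) ^ 0 / (Nat.factorial 0 : ℝ) * a i = A := by
          simp [h0]
        have e1 : ∑ i ∈ s, (t * z i) ^ 1 / (Nat.factorial 1 : ℝ) * a i = 0 := by
          have : ∀ i ∈ s, (t * z i) ^ 1 / (Nat.factorial 1 : ℝ) * a i = t * (z i * a i) := by
            intro i _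
            simp
            ring
          rw [Finset.sum_congr rfl this, ← Finset.mul_sum, h1, mul_zero]
        simp only [e0, e1]
        ring
      rw [e]
      exact hsum)
  have hgeo := (hasSum_geometric_two).mul_left (t ^ 2 * b * (1 / 2))
  have hle := hasSum_le (f := fun j : ℕ => ∑ i ∈ s, (t * z i) ^ (j + 2) / ((j + 2).factorial : ℝ) * a i)
    (g := fun j : ℕ => t ^ 2 * b * (1 / 2) * (1 / 2) ^ j) (fun j => by
      have e : ∑ i ∈ s, (t * z i) ^ (j + 2) / ((j + 2).factorial : ℝ) * a i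
          = t ^ (j + 2) / ((j + 2).factorial : ℝ) * ∑ i ∈ s, z i ^ (j + 2) * a i := by
        rw [Finset.mul_sum]
        refine Finset.sum_congr rfl fun i _ => ?_
        rw [mul_pow]
        ring
      simp only [e]
      have c0 : 0 ≤ t ^ (j + 2) / ((j + 2).factorial : ℝ) := by positivity
      refine (mul_le_mul_of_nonneg_left (h2 j) c0).trans ?_
      have hf : (((j + 2).factorial : ℕ) : ℝ) = ((j : ℝ) + 2) * ((j : ℝ) + 1) * (j.factorial : ℝ) := by
        rw [Nat.factorial_succ, Nat.factorial_succ]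
        push_cast
        ring
      rw [hf]
      have hj : (0 : ℝ) < (j.factorial : ℝ) := by exact_mod_cast Nat.factorial_pos j
      have e3 : t ^ (j + 2) / (((j : ℝ) + 2) * ((j : ℝ) + 1) * (j.factorial : ℝ)) * (12 ^ j * (j.factorial : ℝ) * b)
          = t ^ 2 * b * (12 * t) ^ j * (1 / (((j : ℝ) + 2) * ((j : ℝ) + 1))) := by
        rw [mul_pow]
        field_simp
        ring
      rw [e3]
      have c1 : (12 * t) ^ j ≤ (1 / 2) ^ j := pow_le_pow_left₀ (by positivity) (by linarith) j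
      have c2 : 1 / (((j : ℝ) + 2) * ((j : ℝ) + 1)) ≤ 1 / 2 := by
        apply one_div_le_one_div_of_le (by norm_num)
        nlinarith [Nat.cast_nonneg (α := ℝ) j]
      calc t ^ 2 * b * (12 * t) ^ j * (1 / (((j : ℝ) + 2) * ((j : ℝ) + 1)))
          ≤ t ^ 2 * b * (1 / 2) ^ j * (1 / 2) := by
            apply mul_le_mul _ c2 (by positivity) (by positivity)
            exact mul_le_mul_of_nonneg_left c1 (by positivity)
        _ = _ := by ring) hsum2 hgeo
  linarith

end real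

end Vale.Agent.P162
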