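import Vale.Agent.P162.A5

open Equiv

set_option linter.unusedSectionVars false
set_option linter.unusedSimpArgs false

namespace Vale.Agent.P162

section comm

variable {E : Type} [NormedAddCommGroup E] [InnerProductSpace ℝ E]

theorem lap_symm {α : Type} [Fintype α] [DecidableEq α] (ρ : Perm α →* (E ≃ₗᵢ[ℝ] E)) :
    (lap ρ).IsSymmetric := by
  intro u v
  rw [lap_apply, lap_apply]
  simp only [sum_inner, inner_sum, inner_sub_left, inner_sub_right, inner_rho_left, swap_inv]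

theorem lap_comm {α : Type} [Fintype α] [DecidableEq α] (ρ : Perm α →* (E ≃ₗᵢ[ℝ] E)) (σ : Perm α) (v : E) :
    lap ρ (ρ σ v) = ρ σ (lap ρ v) := by
  rw [lap_apply, lap_apply, map_sum]
  simp_rw [map_sum, map_sub]
  rw [← Equiv.sum_comp σ]
  refine Finset.sum_congr rfl fun p _ => ?_
  rw [← Equiv.sum_comp σ]
  refine Finset.sum_congr rfl fun q _ => ?_
  rw [← rho_mul, ← rho_mul, mul_swap_eq_swap_mul]

theorem lap_comm_of_comm {α : Type} [Fintype α] [DecidableEq α] (ρ : Perm α →* (E ≃ₗᵢ[ℝ] E)) (X : E →ₗ[ℝ] E)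
    (hX : ∀ (σ : Perm α) (v : E), X (ρ σ v) = ρ σ (X v)) (v : E) :
    X (lap ρ v) = lap ρ (X v) := by
  rw [lap_apply, lap_apply, map_sum]
  simp_rw [map_sum, map_sub, hX]

theorem avgH_apply {β : Type} [Fintype β] [DecidableEq β] (ρ : Perm (Bool × β) →* (E ≃ₗᵢ[ℝ] E)) (v : E) :
    avgH ρ v = ((2 : ℝ) ^ (Fintype.card β))⁻¹ • ∑ c : β → Bool, ρ (hflip c) v := by
  simp [avgH]

theorem avgH_eq_PT {β : Type} [Fintype β] [DecidableEq β] (ρ : Perm (Bool × β) →* (E ≃ₗᵢ[ℝ] E)) (v : E) :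
    avgH ρ v = PT ρ ∅ v := by
  rw [avgH_apply, PT_apply]
  simp [chi]

theorem avgH_comm_of_comm {β : Type} [Fintype β] [DecidableEq β] (ρ : Perm (Bool × β) →* (E ≃ₗᵢ[ℝ] E))
    (X : E →ₗ[ℝ] E) (hX : ∀ (σ : Perm (Bool × β)) (v : E), X (ρ σ v) = ρ σ (X v)) (v : E) :
    X (avgH ρ v) = avgH ρ (X v) := by
  rw [avgH_apply, avgH_apply, map_smul, map_sum]
  simp_rw [hX]

theorem Sop_comm : ∀ (d : ℕ) (ρ : Perm (Q d) →* (E ≃ₗᵢ[ℝ] E)) (X : E →ₗ[ℝ] E)
    (_ : ∀ (σ : Perm (Q d)) (v : E), X (ρ σ v) = ρ σ (X v)) (v : E),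
    X (Sop d ρ v) = Sop d ρ (X v)
  | 0, _, _, _, _ => rfl
  | (d + 1), ρ, X, hX, v => by
    have h1 := Sop_comm d (ρ.comp (iota (β := Q d) false)) X (fun σ v => hX _ v)
    have h2 := Sop_comm d (ρ.comp (iota (β := Q d) true)) X (fun σ v => hX _ v)
    have h3 := avgH_comm_of_comm (β := Q d) ρ X (fun σ v => hX σ v)
    have e : ∀ z : E, Sop (d + 1) ρ z = Sop d (ρ.comp (iota (β := Q d) false))
        (Sop d (ρ.comp (iota (β := Q d) true)) (avgH (β := Q d) ρ z)) := fun z => rfl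
    rw [e, e, h1, h2, h3]

theorem iota_comm {β : Type} [Fintype β] [DecidableEq β] (σ τ : Perm β) :
    iota false σ * iota true τ = iota true τ * iota false σ := by
  ext p
  · simp [iota]
  · obtain ⟨b, x⟩ := p
    cases b <;> simp [iota]

theorem iota_comm_rho {β : Type} [Fintype β] [DecidableEq β] (ρ : Perm (Bool × β) →* (E ≃ₗᵢ[ℝ] E))
    {b b' : Bool} (hb : b ≠ b') (σ τ : Perm β) (v : E) :
    (ρ.comp (iota b)) σ ((ρ.comp (iota b')) τ v) = (ρ.comp (iota b')) τ ((ρ.comp (iota b)) σ v) := by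
  rw [MonoidHom.comp_apply, MonoidHom.comp_apply, ← rho_mul, ← rho_mul]
  cases b <;> cases b'
  · exact absurd rfl hb
  · rw [iota_comm]
  · rw [← iota_comm]
  · exact absurd rfl hb

/-- lap of one half commutes with the action of the other half -/
theorem lap_iota_comm {β : Type} [Fintype β] [DecidableEq β] (ρ : Perm (Bool × β) →* (E ≃ₗᵢ[ℝ] E))
    {b b' : Bool} (hb : b ≠ b') (τ : Perm β) (v : E) :
    lap (ρ.comp (iota b)) ((ρ.comp (iota b')) τ v) = (ρ.comp (iota b')) τ (lap (ρ.comp (iota b)) v) := by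
  rw [lap_apply, lap_apply, map_sum]
  simp_rw [map_sum, map_sub, iota_comm_rho ρ hb]

end comm

section joint

variable {E : Type} [NormedAddCommGroup E] [InnerProductSpace ℝ E]

theorem joint_decomp [FiniteDimensional ℝ E] (A B : E →ₗ[ℝ] E) (hA : A.IsSymmetric) (hB : B.IsSymmetric)
    (hAB : ∀ v, A (B v) = B (A v)) (K : Submodule ℝ E) (hKA : ∀ v ∈ K, A v ∈ K) (hKB : ∀ v ∈ K, B v ∈ K)
    (u : E) (hu : u ∈ K) :
    ∃ (S : Finset (Σ _ : ℝ, ℝ)) (g : (Σ _ : ℝ, ℝ) → E),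
      (∀ p, g p ∈ K ∧ A (g p) = p.1 • g p ∧ B (g p) = p.2 • g p) ∧ u = ∑ p ∈ S, g p := by
  obtain ⟨s, f, hf, hus⟩ := eig_decomp A hA K hKA u hu
  have h2 : ∀ μ : ℝ, ∃ (t : Finset ℝ) (h : ℝ → E),
      (∀ ν, h ν ∈ K ⊓ Module.End.eigenspace A μ ∧ B (h ν) = ν • h ν) ∧ f μ = ∑ ν ∈ t, h ν := by
    intro μ
    apply eig_decomp B hB (K ⊓ Module.End.eigenspace A μ)
    · intro v hv
      refine ⟨hKB v hv.1, ?_⟩
      have h3 := Module.End.mem_eigenspace_iff.mp hv.2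
      apply Module.End.mem_eigenspace_iff.mpr
      rw [hAB, h3, map_smul]
    · exact ⟨(hf μ).1, Module.End.mem_eigenspace_iff.mpr (hf μ).2⟩
  choose t h ht hth using h2
  refine ⟨s.sigma t, fun p => h p.1 p.2, ?_, ?_⟩
  · intro p
    obtain ⟨⟨h4, h5⟩, h6⟩ := ht p.1 p.2
    exact ⟨h4, Module.End.mem_eigenspace_iff.mp h5, h6⟩
  · rw [Finset.sum_sigma, hus]
    exact Finset.sum_congr rfl fun μ _ => hth μ

theorem joint_orth (A B : E →ₗ[ℝ] E) (hA : A.IsSymmetric) (hB : B.IsSymmetric) {p q : (Σ _ : ℝ, ℝ)} (hpq : p ≠ q)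
    {u v : E} (h1 : A u = p.1 • u) (h2 : B u = p.2 • u) (h3 : A v = q.1 • v) (h4 : B v = q.2 • v) :
    inner ℝ u v = 0 := by
  by_cases h : p.1 = q.1
  · have h' : p.2 ≠ q.2 := by
      intro h5
      apply hpq
      obtain ⟨p1, p2⟩ := p
      obtain ⟨q1, q2⟩ := q
      simp at h h5
      rw [h, h5]
    exact inner_eig_zero B hB h' h2 h4
  · exact inner_eig_zero A hA h h1 h3

end joint

end Vale.Agent.P162
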