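import Vale.Agent.P162.A6

open Equiv

set_option linter.unusedSectionVars false
set_option linter.unusedSimpArgs false

namespace Vale.Agent.P162

variable {E : Type} [NormedAddCommGroup E] [InnerProductSpace ℝ E]

theorem sd_pos (d : ℕ) : 0 < sd d := by
  unfold sd
  positivity

theorem sd_le (d : ℕ) : sd d ≤ 1 / 24 := by
  unfold sd
  have : ((1 : ℝ) / 2) ^ d ≤ 1 := pow_le_one₀ (by norm_num) (by norm_num)
  linarith

theorem sd_step (d : ℕ) : sd (d + 1) ≤ sd d - sd d ^ 2 / 2 ^ d := by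
  have h0 : (0 : ℝ) < ((1 : ℝ) / 2) ^ d := by positivity
  have h1 : ((1 : ℝ) / 2) ^ d ≤ 1 := pow_le_one₀ (by norm_num) (by norm_num)
  have h2 : sd d ^ 2 / 2 ^ d = sd d ^ 2 * ((1 : ℝ) / 2) ^ d := by
    rw [one_div, inv_pow]
    rfl
  rw [h2]
  unfold sd
  rw [pow_succ]
  set x := ((1 : ℝ) / 2) ^ d with hx
  nlinarith [mul_pos h0 h0, mul_nonneg h0.le (sub_nonneg.mpr h1)]

theorem norm_avgH_le {β : Type} [Fintype β] [DecidableEq β] (ρ : Perm (Bool × β) →* (E ≃ₗᵢ[ℝ] E)) (v : E) :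
    ‖avgH ρ v‖ ^ 2 ≤ ‖v‖ ^ 2 := by
  rw [avgH_eq_PT, norm_sq_eq_sum_PT ρ v]
  exact Finset.single_le_sum (f := fun T => ‖PT ρ T v‖ ^ 2) (fun T _ => sq_nonneg _) (Finset.mem_univ ∅)

theorem avgH_inv {β : Type} [Fintype β] [DecidableEq β] (ρ : Perm (Bool × β) →* (E ≃ₗᵢ[ℝ] E)) (v : E)
    (c : β → Bool) : ρ (hflip c) (avgH ρ v) = avgH ρ v := by
  rw [avgH_eq_PT, rho_hflip_PT]
  simp [chi]

theorem kap_pow_eig {β : Type} [Fintype β] [DecidableEq β] (ρ : Perm (Bool × β) →* (E ≃ₗᵢ[ℝ] E)) {g : E} {κ : ℝ}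
    (h : kap ρ g = κ • g) (i : ℕ) : ((kap ρ) ^ i) g = κ ^ i • g := by
  induction i with
  | zero => simp
  | succ i ih => rw [pow_succ', Module.End.mul_apply, ih, map_smul, h, smul_smul, pow_succ]

/-- the key estimate: a vector `w` invariant under the top-level swaps, an eigenvector of `lap`,
decomposed into joint eigenvectors of the two half-deck Laplacians. -/
theorem key_estimate {β : Type} [Fintype β] [DecidableEq β] (ρ : Perm (Bool × β) →* (E ≃ₗᵢ[ℝ] E))
    (m : ℝ) (hm : m = (Fintype.card β : ℝ)) (hm0 : 0 < m) (l t : ℝ) (ht : 0 ≤ t) (ht' : t ≤ 1 / 24) (w : E)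
    (hw : ∀ c : β → Bool, ρ (hflip c) w = w) (hl : lap ρ w = (4 * m * l) • w)
    {ι : Type} (S : Finset ι) (g : ι → E) (z : ι → ℝ) (hg : w = ∑ p ∈ S, g p)
    (horth : ∀ p ∈ S, ∀ q ∈ S, p ≠ q → inner ℝ (g p) (g q) = 0)
    (hk : ∀ p ∈ S, kap ρ (g p) = (4 * m * z p) • g p) :
    ∑ p ∈ S, Real.exp (t * z p) * ‖g p‖ ^ 2 ≤ Real.exp (t ^ 2 * l / m) * ‖w‖ ^ 2 := by
  have hpow : ∀ i : ℕ, inner ℝ w (((kap ρ) ^ i) w) = ∑ p ∈ S, (4 * m * z p) ^ i * ‖g p‖ ^ 2 := by
    intro i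
    conv_lhs =>
      rw [hg]
    rw [map_sum, sum_inner]
    refine Finset.sum_congr rfl fun p hp => ?_
    rw [inner_sum, Finset.sum_eq_single p]
    · rw [kap_pow_eig ρ (hk p hp), inner_smul_right, real_inner_self_eq_norm_sq]
    · intro q hq hqp
      rw [kap_pow_eig ρ (hk q hq), inner_smul_right, horth p hp q hq (Ne.symm hqp), mul_zero]
    · intro h
      exact absurd hp h
  have hkw : ‖kap ρ w‖ ^ 2 ≤ 16 * m * l * ‖w‖ ^ 2 := by
    have := norm_sq_kap_inv_le hw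
    rw [hl, inner_smul_right, real_inner_self_eq_norm_sq] at this
    linarith
  have hb : 0 ≤ l / m * ‖w‖ ^ 2 := by
    have h1 : 0 ≤ 16 * m * l * ‖w‖ ^ 2 := le_trans (sq_nonneg _) hkw
    have h2 : l / m * ‖w‖ ^ 2 = (16 * m * l * ‖w‖ ^ 2) / (16 * m ^ 2) := by
      field_simp
    rw [h2]
    positivity
  have hmain := exp_moment_bound S (fun p => ‖g p‖ ^ 2) z (‖w‖ ^ 2) (l / m * ‖w‖ ^ 2) t
    (by
      conv_rhs => rw [hg]
      exact (norm_sq_sum_of_orth S g horth).symm)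
    (by
      have h1 := hpow 1
      rw [pow_one, inner_kap_inv hw] at h1
      have h2 : ∑ p ∈ S, (4 * m * z p) ^ 1 * ‖g p‖ ^ 2 = 4 * m * ∑ p ∈ S, z p * ‖g p‖ ^ 2 := by
        rw [Finset.mul_sum]
        refine Finset.sum_congr rfl fun p _ => ?_
        ring
      rw [h2] at h1
      have h3 := (mul_eq_zero.mp h1.symm).resolve_left (by positivity)
      exact h3)
    (by
      intro j
      have h1 := hpow (j + 2)
      have h2 : ∑ p ∈ S, (4 * m * z p) ^ (j + 2) * ‖g p‖ ^ 2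
          = (4 * m) ^ (j + 2) * ∑ p ∈ S, z p ^ (j + 2) * ‖g p‖ ^ 2 := by
        rw [Finset.mul_sum]
        refine Finset.sum_congr rfl fun p _ => ?_
        rw [mul_pow (4 * m) (z p)]
        ring
      rw [h2] at h1
      have h3 := inner_kap_pow hw j
      rw [h1, ← hm] at h3
      have h4 : (48 * m) ^ j * (j.factorial : ℝ) * ‖kap ρ w‖ ^ 2
          ≤ (48 * m) ^ j * (j.factorial : ℝ) * (16 * m * l * ‖w‖ ^ 2) :=
        mul_le_mul_of_nonneg_left hkw (by positivity)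
      have h5 := h3.trans h4
      have h6 : (48 * m) ^ j * (j.factorial : ℝ) * (16 * m * l * ‖w‖ ^ 2)
          = (4 * m) ^ (j + 2) * (12 ^ j * (j.factorial : ℝ) * (l / m * ‖w‖ ^ 2)) := by
        have e1 : (48 * m) ^ j = 12 ^ j * (4 * m) ^ j := by
          rw [← mul_pow]
          congr 1
          ring
        rw [e1, pow_add]
        field_simp
        ring
      rw [h6] at h5
      exact le_of_mul_le_mul_left h5 (by positivity))
    hb ht ht'
  refine hmain.trans ?_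
  have h1 : ‖w‖ ^ 2 + t ^ 2 * (l / m * ‖w‖ ^ 2) = (t ^ 2 * l / m + 1) * ‖w‖ ^ 2 := by ring
  rw [h1]
  exact mul_le_mul_of_nonneg_right (Real.add_one_le_exp _) (sq_nonneg _)

theorem contraction [FiniteDimensional ℝ E] : ∀ (d : ℕ) (ρ : Perm (Q d) →* (E ≃ₗᵢ[ℝ] E)) (l : ℝ) (u : E)
    (_ : lap ρ u = (2 * 2 ^ d * l) • u),
    ‖Sop d ρ u‖ ^ 2 ≤ Real.exp (-(sd d) * l) * ‖u‖ ^ 2
  | 0, ρ, l, u, hu => by
    have h0 : lap ρ u = 0 := by
      rw [lap_apply]
      refine Finset.sum_eq_zero fun p _ => Finset.sum_eq_zero fun q _ => ?_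
      have hpq : p = q := rfl
      rw [hpq, swap_self]
      have : ρ (Equiv.refl (Q 0)) u = u := rho_one ρ u
      rw [this, sub_self]
    have e : Sop 0 ρ u = u := rfl
    rw [e]
    rw [h0] at hu
    rcases smul_eq_zero.mp hu.symm with h | h
    · have hl : l = 0 := by
        have : (2 : ℝ) * 2 ^ 0 * l = 0 := h
        linarith
      rw [hl]
      simp
    · rw [h]
      simp
  | (d + 1), ρ, l, u, hu => by
    have e : Sop (d + 1) ρ u = Sop d (ρ.comp (iota (β := Q d) false))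
        (Sop d (ρ.comp (iota (β := Q d) true)) (avgH (β := Q d) ρ u)) := rfl
    rw [e]
    -- the two halves
    let ρ' : Perm (Bool × Q d) →* (E ≃ₗᵢ[ℝ] E) := ρ
    set ρ0 := ρ.comp (iota (β := Q d) false) with hρ0
    set ρ1 := ρ.comp (iota (β := Q d) true) with hρ1
    set w : E := avgH (β := Q d) ρ u with hwdef
    have hw : ∀ c : Q d → Bool, ρ' (hflip c) w = w := fun c => avgH_inv (β := Q d) ρ u c
    have hwn : ‖w‖ ^ 2 ≤ ‖u‖ ^ 2 := norm_avgH_le (β := Q d) ρ u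
    have hlapcomm : ∀ (σ : Perm (Q (d + 1))) (v : E), lap ρ (ρ σ v) = ρ σ (lap ρ v) := lap_comm ρ
    have hwl : lap ρ w = (2 * 2 ^ (d + 1) * l) • w := by
      have h1 : lap ρ w = avgH (β := Q d) ρ (lap ρ u) :=
        avgH_comm_of_comm (β := Q d) ρ (lap ρ) (fun σ v => hlapcomm σ v) u
      rw [h1, hu, map_smul]
    set m : ℝ := (2 : ℝ) ^ d with hm
    have hmc : m = (Fintype.card (Q d) : ℝ) := by
      rw [card_Q, hm]
      push_cast
      rfl
    have hm0 : 0 < m := by positivity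
    have hwl' : lap ρ' w = (4 * m * l) • w := by
      have e1 : lap ρ' w = lap ρ w := rfl
      rw [e1, hwl, hm, pow_succ]
      congr 1
      ring
    set A0 : E →ₗ[ℝ] E := lap ρ0 with hA0
    set A1 : E →ₗ[ℝ] E := lap ρ1 with hA1
    have hs0 : A0.IsSymmetric := lap_symm ρ0
    have hs1 : A1.IsSymmetric := lap_symm ρ1
    -- commutations
    have c01 : ∀ (τ : Perm (Q d)) (v : E), A0 (ρ1 τ v) = ρ1 τ (A0 v) := fun τ v =>
      lap_iota_comm (β := Q d) ρ (by simp) τ v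
    have c10 : ∀ (τ : Perm (Q d)) (v : E), A1 (ρ0 τ v) = ρ0 τ (A1 v) := fun τ v =>
      lap_iota_comm (β := Q d) ρ (by simp) τ v
    have c00 : ∀ (τ : Perm (Q d)) (v : E), A0 (ρ0 τ v) = ρ0 τ (A0 v) := fun τ v => lap_comm ρ0 τ v
    have c11 : ∀ (τ : Perm (Q d)) (v : E), A1 (ρ1 τ v) = ρ1 τ (A1 v) := fun τ v => lap_comm ρ1 τ v
    have cAA : ∀ v, A0 (A1 v) = A1 (A0 v) := fun v => lap_comm_of_comm ρ1 A0 c01 v
    have cL0 : ∀ v, lap ρ (A0 v) = A0 (lap ρ v) := fun v =>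
      lap_comm_of_comm ρ0 (lap ρ) (fun σ v => hlapcomm _ v) v
    have cL1 : ∀ v, lap ρ (A1 v) = A1 (lap ρ v) := fun v =>
      lap_comm_of_comm ρ1 (lap ρ) (fun σ v => hlapcomm _ v) v
    -- decomposition
    obtain ⟨S, g, hg, hwg⟩ := joint_decomp A0 A1 hs0 hs1 cAA
      (Module.End.eigenspace (lap ρ') (4 * m * l))
      (fun v hv => by
        have h3 := Module.End.mem_eigenspace_iff.mp hv
        apply Module.End.mem_eigenspace_iff.mpr
        have h4 := cL0 v
        have h5 : lap ρ v = (4 * m * l) • v := h3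
        rw [h5, map_smul] at h4
        exact h4)
      (fun v hv => by
        have h3 := Module.End.mem_eigenspace_iff.mp hv
        apply Module.End.mem_eigenspace_iff.mpr
        have h4 := cL1 v
        have h5 : lap ρ v = (4 * m * l) • v := h3
        rw [h5, map_smul] at h4
        exact h4) w (Module.End.mem_eigenspace_iff.mpr hwl')
    have horth : ∀ p ∈ S, ∀ q ∈ S, p ≠ q → inner ℝ (g p) (g q) = 0 := fun p _ q _ hpq =>
      joint_orth A0 A1 hs0 hs1 hpq (hg p).2.1 (hg p).2.2 (hg q).2.1 (hg q).2.2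
    let z : (Σ _ : ℝ, ℝ) → ℝ := fun p => l - p.1 / (2 * m) - p.2 / (2 * m)
    have hk : ∀ p ∈ S, kap ρ' (g p) = (4 * m * z p) • g p := by
      intro p _
      have h1 := lap_eq ρ' (g p)
      have h2 : lap ρ' (g p) = (4 * m * l) • g p := Module.End.mem_eigenspace_iff.mp (hg p).1
      have h3 : lap (ρ'.comp (iota false)) (g p) = p.1 • g p := (hg p).2.1
      have h4 : lap (ρ'.comp (iota true)) (g p) = p.2 • g p := (hg p).2.2
      rw [h2, h3, h4] at h1
      have h5 : kap ρ' (g p) = (4 * m * l) • g p - (2 : ℝ) • (p.1 • g p + p.2 • g p) := by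
        rw [h1]
        abel
      rw [h5]
      have h6 : 4 * m * z p = 4 * m * l - 2 * (p.1 + p.2) := by
        simp only [z]
        field_simp
        ring
      rw [h6]
      module
    have hkey := key_estimate ρ' m hmc hm0 l (sd d) (sd_pos d).le (sd_le d) w hw hwl' S g z hwg horth hk
    -- images
    have hA0T1 : ∀ v, A0 (Sop d ρ1 v) = Sop d ρ1 (A0 v) := fun v => Sop_comm d ρ1 A0 c01 v
    have hA0T0 : ∀ v, A0 (Sop d ρ0 v) = Sop d ρ0 (A0 v) := fun v => Sop_comm d ρ0 A0 c00 v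
    have hA1T1 : ∀ v, A1 (Sop d ρ1 v) = Sop d ρ1 (A1 v) := fun v => Sop_comm d ρ1 A1 c11 v
    have hA1T0 : ∀ v, A1 (Sop d ρ0 v) = Sop d ρ0 (A1 v) := fun v => Sop_comm d ρ0 A1 c10 v
    have himg : ∀ p, A0 (Sop d ρ0 (Sop d ρ1 (g p))) = p.1 • Sop d ρ0 (Sop d ρ1 (g p)) ∧
        A1 (Sop d ρ0 (Sop d ρ1 (g p))) = p.2 • Sop d ρ0 (Sop d ρ1 (g p)) := by
      intro p
      constructor
      · rw [hA0T0, hA0T1, (hg p).2.1, map_smul, map_smul]
      · rw [hA1T0, hA1T1, (hg p).2.2, map_smul, map_smul]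
    have hnorm : ∀ p, ‖Sop d ρ0 (Sop d ρ1 (g p))‖ ^ 2
        ≤ Real.exp (-(sd d) * l) * (Real.exp (sd d * z p) * ‖g p‖ ^ 2) := by
      intro p
      have h1 := contraction d ρ1 (p.2 / (2 * m)) (g p) (by
        have h4 : lap ρ1 (g p) = p.2 • g p := (hg p).2.2
        rw [h4, ← hm]
        congr 1
        field_simp)
      have h2 := contraction d ρ0 (p.1 / (2 * m)) (Sop d ρ1 (g p)) (by
        have h4 : lap ρ0 (Sop d ρ1 (g p)) = p.1 • Sop d ρ1 (g p) := by
          have := hA0T1 (g p)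
          rw [(hg p).2.1, map_smul] at this
          exact this
        rw [h4, ← hm]
        congr 1
        field_simp)
      have h3 : Real.exp (-(sd d) * (p.1 / (2 * m))) * (Real.exp (-(sd d) * (p.2 / (2 * m))) * ‖g p‖ ^ 2)
          = Real.exp (-(sd d) * l) * (Real.exp (sd d * z p) * ‖g p‖ ^ 2) := by
        rw [← mul_assoc, ← mul_assoc, ← Real.exp_add, ← Real.exp_add]
        congr 2
        simp only [z]
        ring
      rw [← h3]
      exact h2.trans (mul_le_mul_of_nonneg_left h1 (Real.exp_pos _).le)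
    have hsum : ‖Sop d ρ0 (Sop d ρ1 w)‖ ^ 2
        ≤ Real.exp (-(sd d) * l) * (Real.exp ((sd d) ^ 2 * l / m) * ‖w‖ ^ 2) := by
      have h1 : Sop d ρ0 (Sop d ρ1 w) = ∑ p ∈ S, Sop d ρ0 (Sop d ρ1 (g p)) := by
        conv_lhs => rw [hwg]
        rw [map_sum, map_sum]
      rw [h1, norm_sq_sum_of_orth S _ (fun p _ q _ hpq =>
        joint_orth A0 A1 hs0 hs1 hpq (himg p).1 (himg p).2 (himg q).1 (himg q).2)]
      refine (Finset.sum_le_sum fun p _ => hnorm p).trans ?_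
      rw [← Finset.mul_sum]
      exact mul_le_mul_of_nonneg_left hkey (Real.exp_pos _).le
    have h9 : Real.exp (-(sd d) * l) * (Real.exp ((sd d) ^ 2 * l / m) * ‖w‖ ^ 2)
        ≤ Real.exp (-(sd (d + 1)) * l) * ‖w‖ ^ 2 := by
      rw [← mul_assoc, ← Real.exp_add]
      by_cases hl0 : 0 ≤ l
      · refine mul_le_mul_of_nonneg_right ?_ (sq_nonneg _)
        apply Real.exp_le_exp.mpr
        have h10 := mul_le_mul_of_nonneg_right (sd_step d) hl0
        rw [← hm] at h10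
        have h11 : (sd d - sd d ^ 2 / m) * l = sd d * l - sd d ^ 2 * l / m := by ring
        linarith
      · have h10 : ‖kap ρ' w‖ ^ 2 ≤ 4 * inner ℝ w (lap ρ' w) := norm_sq_kap_inv_le hw
        rw [hwl', inner_smul_right, real_inner_self_eq_norm_sq] at h10
        have h11 : 0 ≤ 4 * (4 * m * l * ‖w‖ ^ 2) := le_trans (sq_nonneg _) h10
        have h12 : ‖w‖ ^ 2 = 0 := by
          by_contra hne
          have hpos : 0 < ‖w‖ ^ 2 := lt_of_le_of_ne (sq_nonneg _) (Ne.symm hne)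
          have h13 : 4 * m * l * ‖w‖ ^ 2 < 0 := by
            have : 4 * m * l < 0 := mul_neg_of_pos_of_neg (by positivity) (not_le.mp hl0)
            exact mul_neg_of_neg_of_pos this hpos
          linarith
        rw [h12]
        simp
    exact (hsum.trans h9).trans (mul_le_mul_of_nonneg_left hwn (Real.exp_pos _).le)

end Vale.Agent.P162
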