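import Vale.Agent.P162.A2

open Equiv

set_option linter.unusedSectionVars false

namespace Vale.Agent.P162

section B

variable {α : Type} [Fintype α] [DecidableEq α]
variable {E : Type} [NormedAddCommGroup E] [InnerProductSpace ℝ E]

theorem lapOn_apply (ρ : Perm α →* (E ≃ₗᵢ[ℝ] E)) (C : Finset α) (u : E) :
    lapOn ρ C u = ∑ p ∈ C, ∑ q ∈ C, (u - ρ (swap p q) u) := by
  simp only [lapOn, LinearMap.coe_sum, Finset.sum_apply, LinearMap.sub_apply, LinearMap.id_apply]
  rfl

theorem lapOn_symm (ρ : Perm α →* (E ≃ₗᵢ[ℝ] E)) (C : Finset α) : (lapOn ρ C).IsSymmetric := by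
  intro u v
  rw [lapOn_apply, lapOn_apply, sum_inner, inner_sum]
  refine Finset.sum_congr rfl fun p _ => ?_
  rw [sum_inner, inner_sum]
  refine Finset.sum_congr rfl fun q _ => ?_
  rw [inner_sub_left, inner_sub_right, inner_rho_left, swap_inv]

theorem mem_iff_of_supp {C : Finset α} {σ : Perm α} (hσ : ∀ x, x ∉ C → σ x = x) (i : α) :
    i ∈ C ↔ σ i ∈ C := by
  constructor
  · intro hi
    by_contra h
    have h2 := σ.injective (hσ _ h)
    exact h (by rw [h2]; exact hi)
  · intro h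
    by_contra hi
    rw [hσ i hi] at h
    exact hi h

theorem lapOn_comm (ρ : Perm α →* (E ≃ₗᵢ[ℝ] E)) (C : Finset α) (σ : Perm α)
    (hσ : ∀ x, x ∉ C → σ x = x) (u : E) : lapOn ρ C (ρ σ u) = ρ σ (lapOn ρ C u) := by
  rw [lapOn_apply, lapOn_apply, map_sum]
  symm
  refine Finset.sum_equiv σ (mem_iff_of_supp hσ) fun p _ => ?_
  rw [map_sum]
  refine Finset.sum_equiv σ (mem_iff_of_supp hσ) fun q _ => ?_
  rw [map_sub, ← rho_mul, ← rho_mul, Equiv.mul_swap_eq_swap_mul]

theorem Kj_inv (ρ : Perm α →* (E ≃ₗᵢ[ℝ] E)) (C : Finset α) (j : ℕ) (σ : Perm α)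
    (hσ : ∀ x, x ∉ C → σ x = x) (u : E) (hu : u ∈ Kj ρ C j) : ρ σ u ∈ Kj ρ C j := by
  intro D hD hc v hv
  rw [inner_rho_right]
  have hσ' : ∀ x, x ∉ C → σ⁻¹ x = x := by
    intro x hx
    rw [Equiv.Perm.inv_eq_iff_eq]
    exact (hσ x hx).symm
  refine hu (D.image ⇑(σ⁻¹)) ?_ ?_ (ρ σ⁻¹ v) ?_
  · intro x hx
    obtain ⟨y, hy, rfl⟩ := Finset.mem_image.mp hx
    exact (mem_iff_of_supp hσ' y).mp (hD hy)
  · rw [Finset.card_image_of_injective _ (σ⁻¹).injective, hc]
  · intro τ hτ
    have h1 : ρ (σ * τ * σ⁻¹) v = v := by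
      apply hv
      intro x hx
      have h2 : τ (σ⁻¹ x) = σ⁻¹ x := by
        apply hτ
        intro h
        obtain ⟨y, hy, hyx⟩ := Finset.mem_image.mp h
        exact hx ((σ⁻¹).injective hyx ▸ hy)
      rw [Equiv.Perm.mul_apply, Equiv.Perm.mul_apply, h2]
      simp
    calc ρ τ (ρ σ⁻¹ v) = ρ (σ⁻¹ * (σ * τ * σ⁻¹)) v := by
          rw [← rho_mul]
          congr 2
          group
      _ = ρ σ⁻¹ v := by rw [rho_mul, h1]

theorem Kj_lapOn (ρ : Perm α →* (E ≃ₗᵢ[ℝ] E)) (C : Finset α) (j : ℕ) (u : E)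
    (hu : u ∈ Kj ρ C j) : lapOn ρ C u ∈ Kj ρ C j := by
  rw [lapOn_apply]
  refine Submodule.sum_mem _ fun p hp => Submodule.sum_mem _ fun q hq =>
    Submodule.sub_mem _ hu (Kj_inv ρ C j _ ?_ u hu)
  intro x hx
  apply swap_apply_of_ne_of_ne
  · rintro rfl
    exact hx hp
  · rintro rfl
    exact hx hq

theorem inner_sub_rho_nonneg (ρ : Perm α →* (E ≃ₗᵢ[ℝ] E)) (g : Perm α) (u : E) :
    0 ≤ inner ℝ u (u - ρ g u) := by
  rw [inner_sub_right, real_inner_self_eq_norm_sq]
  have h := real_inner_le_norm u (ρ g u)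
  rw [norm_rho] at h
  nlinarith

theorem lapOn_nonneg (ρ : Perm α →* (E ≃ₗᵢ[ℝ] E)) (C : Finset α) (u : E) :
    0 ≤ inner ℝ u (lapOn ρ C u) := by
  rw [lapOn_apply, inner_sum]
  refine Finset.sum_nonneg fun p _ => ?_
  rw [inner_sum]
  exact Finset.sum_nonneg fun q _ => inner_sub_rho_nonneg ρ _ u

/-- the coset sum over `swap c p`, `p ∈ insert c B`, of a `B`-invariant vector is invariant
under permutations supported in `insert c B` -/
theorem coset_inv (ρ : Perm α →* (E ≃ₗᵢ[ℝ] E)) (B : Finset α) (c : α)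
    (u : E) (hu : u ∈ Inv ρ B) :
    ∑ p ∈ insert c B, ρ (swap c p) u ∈ Inv ρ (insert c B) := by
  intro σ hσ
  rw [map_sum]
  refine Finset.sum_equiv σ (mem_iff_of_supp hσ) fun p hp => ?_
  have h1 : ρ (swap c (σ p) * σ * swap c p) u = u := by
    apply hu
    intro x hx
    rw [Equiv.Perm.mul_apply, Equiv.Perm.mul_apply]
    by_cases hxc : x = c
    · subst hxc
      rw [swap_apply_left, swap_apply_right]
    · have hx' : x ∉ insert c B := by
        rw [Finset.mem_insert]
        push Not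
        exact ⟨hxc, hx⟩
      have hxp : x ≠ p := by
        rintro rfl
        exact hx' hp
      rw [swap_apply_of_ne_of_ne hxc hxp, hσ x hx']
      apply swap_apply_of_ne_of_ne hxc
      rintro rfl
      exact hx' ((mem_iff_of_supp hσ p).mp hp)
  calc ρ σ (ρ (swap c p) u) = ρ (swap c (σ p) * (swap c (σ p) * σ * swap c p)) u := by
        rw [← rho_mul]
        congr 2
        rw [← mul_assoc, ← mul_assoc, swap_mul_self, one_mul]
    _ = ρ (swap c (σ p)) u := by rw [rho_mul, h1]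

theorem Inv_le_of_singleton (ρ : Perm α →* (E ≃ₗᵢ[ℝ] E)) (c : α) (v : E) : v ∈ Inv ρ {c} := by
  intro σ hσ
  have h1 : σ = 1 := by
    ext x
    by_cases hx : x = c
    · subst hx
      by_contra h
      have h2 : σ x ∉ ({x} : Finset α) := by
        rw [Finset.mem_singleton]
        exact h
      exact h (σ.injective (hσ _ h2))
    · rw [hσ x (by rw [Finset.mem_singleton]; exact hx)]
      rfl
  rw [h1, rho_one]

theorem gap [FiniteDimensional ℝ E] (ρ : Perm α →* (E ≃ₗᵢ[ℝ] E)) (C : Finset α) (j : ℕ)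
    (hj : j ≤ C.card) (u : E) (hu : u ∈ Kj ρ C j) :
    (C.card : ℝ) * j * ‖u‖ ^ 2 ≤ inner ℝ u (lapOn ρ C u) := by
  classical
  induction hn : C.card using Nat.strong_induction_on generalizing C j u with
  | _ n ih =>
  rcases Nat.eq_zero_or_pos j with hj0 | hjpos
  · subst hj0
    have := lapOn_nonneg ρ C u
    simpa using this
  · refine rayleigh_of_eig (lapOn ρ C) (lapOn_symm ρ C) (Kj ρ C j) (Kj_lapOn ρ C j) _ ?_ u hu
    clear hu u
    intro η u hu hu0 heig
    have hCne : C.Nonempty := Finset.card_pos.mp (by omega)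
    obtain ⟨c0, hc0⟩ := hCne
    have huu : inner ℝ u u ≠ 0 := by
      rw [real_inner_self_eq_norm_sq]
      exact pow_ne_zero 2 (norm_ne_zero_iff.mpr hu0)
    have hjlt : j < C.card := by
      rcases lt_or_eq_of_le hj with h | h
      · exact h
      · exfalso
        apply huu
        exact hu {c0} (Finset.singleton_subset_iff.mpr hc0)
          (by rw [Finset.card_singleton]; omega) u (Inv_le_of_singleton ρ c0 u)
    -- minimal j'
    let P : ℕ → Prop := fun k => j ≤ k ∧ ∃ B ⊆ C, B.card + k = C.card ∧ ∃ v ∈ Inv ρ B,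
      inner ℝ v u ≠ 0
    have hP : P (C.card - 1) := by
      refine ⟨by omega, {c0}, Finset.singleton_subset_iff.mpr hc0, ?_, u,
        Inv_le_of_singleton ρ c0 u, huu⟩
      rw [Finset.card_singleton]
      omega
    have hex : ∃ k, P k := ⟨_, hP⟩
    set k := Nat.find hex with hk
    have hPk : P k := Nat.find_spec hex
    have hkle : k ≤ C.card - 1 := Nat.find_min' hex hP
    obtain ⟨hjk, B, hBC, hBcard, v0, hv0, hv0u⟩ := hPk
    have huK : u ∈ Kj ρ C k := by
      rcases lt_or_eq_of_le hjk with h | h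
      · intro D hD hDc v hv
        by_contra hne
        have hm : ¬ P (k - 1) := Nat.find_min hex (by omega)
        apply hm
        exact ⟨by omega, D, hD, by omega, v, hv, hne⟩
      · rw [← h]
        exact hu
    -- the invariant subspace U
    let U : Submodule ℝ E := Kj ρ C k ⊓ LinearMap.ker (lapOn ρ C - η • LinearMap.id)
    have hUmem : ∀ x, x ∈ U ↔ x ∈ Kj ρ C k ∧ lapOn ρ C x = η • x := by
      intro x
      rw [Submodule.mem_inf, LinearMap.mem_ker, LinearMap.sub_apply, LinearMap.smul_apply,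
        LinearMap.id_apply, sub_eq_zero]
    have hUinv : ∀ σ : Perm α, (∀ x, x ∉ C → σ x = x) → ∀ x ∈ U, ρ σ x ∈ U := by
      intro σ hσ x hx
      rw [hUmem] at hx ⊢
      refine ⟨Kj_inv ρ C k σ hσ x hx.1, ?_⟩
      rw [lapOn_comm ρ C σ hσ, hx.2, map_smul]
    obtain ⟨u1, hu1U, hu1⟩ : ∃ u1 ∈ U, ∀ x ∈ U, inner ℝ v0 x = inner ℝ u1 x := by
      refine ⟨U.starProjection v0, U.starProjection_apply_mem v0, ?_⟩
      intro x hx
      have h := U.starProjection_inner_eq_zero v0 x hx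
      rw [inner_sub_left] at h
      linarith
    have hu1B : u1 ∈ Inv ρ B := by
      intro σ hσ
      have hσC : ∀ x, x ∉ C → σ x = x := fun x hx => hσ x fun h => hx (hBC h)
      have hσC' : ∀ x, x ∉ C → σ⁻¹ x = x := by
        intro x hx
        rw [Equiv.Perm.inv_eq_iff_eq]
        exact (hσC x hx).symm
      have h1 : ∀ x ∈ U, inner ℝ (ρ σ u1 - u1) x = 0 := by
        intro x hx
        rw [inner_sub_left, inner_rho_left, ← hu1 _ (hUinv _ hσC' x hx), ← inner_rho_left,
          hv0 σ hσ, hu1 x hx, sub_self]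
      have h2 := h1 _ (U.sub_mem (hUinv σ hσC u1 hu1U) hu1U)
      rw [inner_self_eq_zero] at h2
      exact sub_eq_zero.mp h2
    have huU : u ∈ U := (hUmem u).mpr ⟨huK, heig⟩
    have hu1ne : u1 ≠ 0 := by
      rintro rfl
      apply hv0u
      rw [hu1 u huU, inner_zero_left]
    obtain ⟨hu1K, hu1eig⟩ := (hUmem u1).mp hu1U
    have hpos : 0 < ‖u1‖ ^ 2 := by positivity
    -- the quadratic form
    have hquad : inner ℝ u1 (lapOn ρ C u1) = η * ‖u1‖ ^ 2 := by
      rw [hu1eig, inner_smul_right, real_inner_self_eq_norm_sq]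
    let F : α → α → ℝ := fun p q => inner ℝ u1 (u1 - ρ (swap p q) u1)
    have hFsymm : ∀ p q, F p q = F q p := by
      intro p q
      simp only [F]
      rw [swap_comm]
    have hlapF : ∀ D : Finset α, inner ℝ u1 (lapOn ρ D u1) = ∑ p ∈ D, ∑ q ∈ D, F p q := by
      intro D
      rw [lapOn_apply, inner_sum]
      refine Finset.sum_congr rfl fun p _ => ?_
      rw [inner_sum]
    set C' := C \ B with hC'
    have hC'card : C'.card = k := by
      rw [hC', Finset.card_sdiff_of_subset hBC]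
      omega
    have hcross : ∀ c ∈ C', ∑ p ∈ B, F c p = ((B.card : ℝ) + 1) * ‖u1‖ ^ 2 := by
      intro c hc
      rw [hC', Finset.mem_sdiff] at hc
      have h1 := coset_inv ρ B c u1 hu1B
      have h2 : inner ℝ (∑ p ∈ insert c B, ρ (swap c p) u1) u1 = 0 := by
        refine hu1K (insert c B) ?_ ?_ _ h1
        · exact Finset.insert_subset hc.1 hBC
        · rw [Finset.card_insert_of_notMem hc.2]
          omega
      rw [Finset.sum_insert hc.2, swap_self] at h2
      have h3 : ρ (Equiv.refl α) u1 = u1 := rho_one ρ u1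
      rw [h3, inner_add_left, real_inner_self_eq_norm_sq, sum_inner] at h2
      have h4 : ∑ p ∈ B, F c p = ∑ p ∈ B, (‖u1‖ ^ 2 - inner ℝ (ρ (swap c p) u1) u1) := by
        refine Finset.sum_congr rfl fun p _ => ?_
        simp only [F]
        rw [inner_sub_right, real_inner_self_eq_norm_sq, real_inner_comm]
      rw [h4, Finset.sum_sub_distrib, Finset.sum_const, nsmul_eq_mul]
      linarith
    have hBB : 0 ≤ ∑ p ∈ B, ∑ q ∈ B, F p q :=
      Finset.sum_nonneg fun p _ => Finset.sum_nonneg fun q _ => inner_sub_rho_nonneg ρ _ u1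
    have hC'C' : (C'.card : ℝ) * ((2 * k - C.card : ℕ) : ℝ) * ‖u1‖ ^ 2 ≤
        ∑ p ∈ C', ∑ q ∈ C', F p q := by
      rw [← hlapF]
      have h := ih C'.card (by omega) C' (2 * k - C.card) (by omega) u1 ?_ rfl
      · exact h
      · intro D hD hDc v hv
        rcases Nat.lt_or_ge (2 * k) C.card with h2 | h2
        · exfalso
          have := Finset.card_le_card hD
          omega
        · refine hu1K D (hD.trans Finset.sdiff_subset) ?_ v hv
          omega
    have hsplit : ∑ p ∈ C, ∑ q ∈ C, F p q = ∑ p ∈ B, ∑ q ∈ B, F p q +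
        2 * (∑ c ∈ C', ∑ p ∈ B, F c p) + ∑ p ∈ C', ∑ q ∈ C', F p q := by
      have h1 : ∀ f : α → ℝ, ∑ p ∈ C, f p = ∑ p ∈ B, f p + ∑ p ∈ C', f p := by
        intro f
        rw [hC', add_comm, Finset.sum_sdiff hBC]
      rw [h1]
      simp_rw [h1]
      rw [Finset.sum_add_distrib, Finset.sum_add_distrib]
      have h2 : ∑ p ∈ B, ∑ q ∈ C', F p q = ∑ c ∈ C', ∑ p ∈ B, F c p := by
        rw [Finset.sum_comm]
        exact Finset.sum_congr rfl fun c _ => Finset.sum_congr rfl fun p _ => hFsymm p c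
      rw [h2]
      ring
    have hcross' : ∑ c ∈ C', ∑ p ∈ B, F c p = (k : ℝ) * (((B.card : ℝ) + 1) * ‖u1‖ ^ 2) := by
      rw [Finset.sum_congr rfl hcross, Finset.sum_const, nsmul_eq_mul, hC'card]
    have htotal : 2 * ((k : ℝ) * (((B.card : ℝ) + 1) * ‖u1‖ ^ 2)) +
        (k : ℝ) * ((2 * k - C.card : ℕ) : ℝ) * ‖u1‖ ^ 2 ≤ η * ‖u1‖ ^ 2 := by
      rw [← hquad, hlapF, hsplit, hcross', hC'card] at *
      linarith
    have hfin : (2 * ((k : ℝ) * ((B.card : ℝ) + 1)) + (k : ℝ) * ((2 * k - C.card : ℕ) : ℝ)) *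
        ‖u1‖ ^ 2 ≤ η * ‖u1‖ ^ 2 := by
      linarith
    have hfin' := le_of_mul_le_mul_right hfin hpos
    refine le_trans ?_ hfin'
    have hnat : C.card * j ≤ 2 * (k * (B.card + 1)) + k * (2 * k - C.card) := by
      have hBc : B.card = C.card - k := by omega
      rcases Nat.lt_or_ge (2 * k) C.card with h2 | h2
      · have h3 : 2 * k - C.card = 0 := by omega
        rw [h3, hBc, mul_zero, add_zero]
        have h4 : C.card ≤ 2 * (C.card - k + 1) := by omega
        calc C.card * j ≤ 2 * (C.card - k + 1) * k := Nat.mul_le_mul h4 hjk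
          _ = 2 * (k * (C.card - k + 1)) := by ring
      · rw [hBc]
        have h4 : C.card ≤ 2 * (C.card - k + 1) + (2 * k - C.card) := by omega
        calc C.card * j ≤ (2 * (C.card - k + 1) + (2 * k - C.card)) * k := Nat.mul_le_mul h4 hjk
          _ = _ := by ring
    rw [← hn]
    exact_mod_cast hnat

end B

end Vale.Agent.P162
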