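import Vale.Agent.P162.A7
import Vale.Agent.P162.B

open Equiv

set_option linter.unusedSectionVars false
set_option linter.unusedSimpArgs false

namespace Vale.Agent.P162

variable {α : Type} [Fintype α] [DecidableEq α]
variable {E : Type} [NormedAddCommGroup E] [InnerProductSpace ℝ E]

/-- `Inv` is moved by the action -/
theorem rho_mem_Inv (ρ : Perm α →* (E ≃ₗᵢ[ℝ] E)) (σ : Perm α) (D : Finset α) {v : E}
    (hv : v ∈ Inv ρ D) : ρ σ v ∈ Inv ρ (D.map σ.toEmbedding) := by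
  intro τ hτ
  have h1 : ρ (σ⁻¹ * τ * σ) v = v := by
    apply hv
    intro x hx
    have h2 : τ (σ x) = σ x := by
      apply hτ
      intro h3
      apply hx
      rw [Finset.mem_map] at h3
      obtain ⟨y, hy, hyx⟩ := h3
      have : y = x := σ.injective hyx
      rwa [this] at hy
    rw [Perm.mul_apply, Perm.mul_apply, h2]
    simp
  calc ρ τ (ρ σ v) = ρ σ (ρ (σ⁻¹ * τ * σ) v) := by
        rw [← rho_mul, ← rho_mul]
        congr 2
        group
    _ = ρ σ v := by rw [h1]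

theorem rho_mem_Kj (ρ : Perm α →* (E ≃ₗᵢ[ℝ] E)) (σ : Perm α) (j : ℕ) {u : E}
    (hu : u ∈ Kj ρ Finset.univ j) : ρ σ u ∈ Kj ρ Finset.univ j := by
  intro D _ hc v hv
  rw [inner_rho_right]
  apply hu (D.map (σ⁻¹ : Perm α).toEmbedding) (Finset.subset_univ _) (by rw [Finset.card_map]; exact hc)
  exact rho_mem_Inv ρ σ⁻¹ D hv

theorem lap_mem_Kj (ρ : Perm α →* (E ≃ₗᵢ[ℝ] E)) (j : ℕ) {u : E}
    (hu : u ∈ Kj ρ Finset.univ j) : lap ρ u ∈ Kj ρ Finset.univ j := by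
  rw [lap_apply]
  exact Submodule.sum_mem _ fun p _ => Submodule.sum_mem _ fun q _ =>
    Submodule.sub_mem _ hu (rho_mem_Kj ρ _ j hu)

theorem contraction_K [FiniteDimensional ℝ E] (d : ℕ) (ρ : Perm (Q d) →* (E ≃ₗᵢ[ℝ] E)) (j : ℕ)
    (hj : j ≤ 2 ^ d) (u : E) (hu : u ∈ Kj ρ Finset.univ j) :
    ‖Sop d ρ u‖ ^ 2 ≤ Real.exp (-(j : ℝ) / 96) * ‖u‖ ^ 2 := by
  refine contr_of_eig (lap ρ) (lap_symm ρ) (Kj ρ Finset.univ j) (fun v hv => lap_mem_Kj ρ j hv) (Sop d ρ)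
    (fun v => Sop_comm d ρ (lap ρ) (lap_comm ρ) v) _ ?_ u hu
  intro μ v hv hμ
  by_cases hv0 : v = 0
  · rw [hv0]
    simp
  have hvpos : 0 < ‖v‖ ^ 2 := by
    have := norm_pos_iff.mpr hv0
    positivity
  have hcard : (Finset.univ : Finset (Q d)).card = 2 ^ d := by
    rw [Finset.card_univ, card_Q]
  have h1 := gap ρ Finset.univ j (by rw [hcard]; exact hj) v hv
  have h2 : lapOn ρ Finset.univ v = μ • v := hμ
  rw [h2, hcard, inner_smul_right, real_inner_self_eq_norm_sq] at h1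
  push_cast at h1
  have h3 : (2 : ℝ) ^ d * j ≤ μ := le_of_mul_le_mul_right h1 hvpos
  have h4 := contraction d ρ (μ / (2 * 2 ^ d)) v (by
    rw [hμ]
    congr 1
    field_simp)
  refine h4.trans (mul_le_mul_of_nonneg_right ?_ (sq_nonneg _))
  apply Real.exp_le_exp.mpr
  have h5 : (j : ℝ) / 2 ≤ μ / (2 * 2 ^ d) := by
    rw [le_div_iff₀ (by positivity)]
    calc (j : ℝ) / 2 * (2 * 2 ^ d) = (2 : ℝ) ^ d * j := by ring
      _ ≤ μ := h3
  have h6 : 1 / 48 ≤ sd d := by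
    unfold sd
    have : (0 : ℝ) < (1 / 2) ^ d := by positivity
    linarith
  have h7 : 0 ≤ (j : ℝ) / 2 := by positivity
  nlinarith [mul_le_mul h6 h5 h7 (sd_pos d).le]

end Vale.Agent.P162
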