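import Vale.Agent.P162.Net

open Equiv

set_option linter.unusedSectionVars false

namespace Vale.Agent.P162.Avg

variable {α β : Type} [Fintype α] [Fintype β]

theorem mono {f g : α → ℝ} (h : ∀ x, f x ≤ g x) : av f ≤ av g := by
  unfold av
  exact div_le_div_of_nonneg_right (Finset.sum_le_sum fun x _ => h x) (Nat.cast_nonneg _)

theorem nonneg {f : α → ℝ} (h : ∀ x, 0 ≤ f x) : 0 ≤ av f := by
  unfold av
  exact div_nonneg (Finset.sum_nonneg fun x _ => h x) (Nat.cast_nonneg _)

theorem const [Nonempty α] (c : ℝ) : av (fun _ : α => c) = c := by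
  unfold av
  rw [Finset.sum_const, Finset.card_univ, nsmul_eq_mul]
  have : (Fintype.card α : ℝ) ≠ 0 := by
    exact_mod_cast Fintype.card_ne_zero
  field_simp

theorem add (f g : α → ℝ) : av (fun x => f x + g x) = av f + av g := by
  unfold av
  rw [Finset.sum_add_distrib, add_div]

theorem const_mul (c : ℝ) (f : α → ℝ) : av (fun x => c * f x) = c * av f := by
  unfold av
  rw [← Finset.mul_sum, mul_div_assoc]

theorem mul_const (c : ℝ) (f : α → ℝ) : av (fun x => f x * c) = av f * c := by
  unfold av
  rw [← Finset.sum_mul, div_mul_eq_mul_div]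

theorem prod (f : α × β → ℝ) : av f = av (fun x => av (fun y => f (x, y))) := by
  unfold av
  rw [Fintype.sum_prod_type, Fintype.card_prod, Nat.cast_mul, Finset.sum_div, Finset.sum_div]
  apply Finset.sum_congr rfl
  intro x _
  rw [div_div, mul_comm (Fintype.card β : ℝ)]

theorem prod_swap (f : α × β → ℝ) : av f = av (fun y => av (fun x => f (x, y))) := by
  unfold av
  rw [Fintype.sum_prod_type_right, Fintype.card_prod, Nat.cast_mul, Finset.sum_div, Finset.sum_div]
  apply Finset.sum_congr rfl
  intro x _
  rw [div_div]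

theorem sum {γ : Type} (s : Finset γ) (f : γ → α → ℝ) :
    av (fun x => ∑ c ∈ s, f c x) = ∑ c ∈ s, av (f c) := by
  unfold av
  rw [Finset.sum_comm, Finset.sum_div]

end Vale.Agent.P162.Avg
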