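import Vale.Agent.P162.Avg

open Equiv

set_option linter.unusedSectionVars false

namespace Vale.Agent.P162

section jn_av

variable {α β : Type} [Fintype α] [Fintype β]

theorem jn_av_equiv (e : α ≃ β) (f : β → ℝ) : av (fun x => f (e x)) = av f := by
  unfold av
  rw [Fintype.card_congr e, Equiv.sum_comp e f]

theorem jn_av_mul (f : α → ℝ) (g : β → ℝ) : av (fun p : α × β => f p.1 * g p.2) = av f * av g := by
  rw [Avg.prod]
  simp only [Avg.const_mul]
  rw [Avg.mul_const]

/-- Jensen / Hoelder: `(E[1_S X])^(1+ε) ≤ (E 1_S)^ε E[1_S X^(1+ε)]` -/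
theorem jn_holder (S : α → Prop) [DecidablePred S] (X : α → ℝ) (hX : ∀ a, 0 ≤ X a) (ε : ℝ)
    (hε : 0 ≤ ε) :
    av (fun a => (if S a then (1 : ℝ) else 0) * X a) ^ (1 + ε)
      ≤ av (fun a => if S a then (1 : ℝ) else 0) ^ ε *
        av (fun a => (if S a then (1 : ℝ) else 0) * X a ^ (1 + ε)) := by
  classical
  unfold av
  set T := Finset.univ.filter S with hT
  have h1 : ∀ Y : α → ℝ, ∑ a, (if S a then (1 : ℝ) else 0) * Y a = ∑ a ∈ T, Y a := by
    intro Y
    rw [hT, Finset.sum_filter]
    apply Finset.sum_congr rfl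
    intro a _
    split_ifs <;> simp
  have h2 : ∑ a, (if S a then (1 : ℝ) else 0) = (T.card : ℝ) := by
    rw [hT, Finset.sum_boole]
  rw [h1, h1, h2]
  rcases Finset.eq_empty_or_nonempty T with h0 | h0
  · rw [h0]
    simp only [Finset.sum_empty, zero_div, mul_zero]
    rw [Real.zero_rpow (by linarith)]
  · have hn : (0 : ℝ) < T.card := by exact_mod_cast h0.card_pos
    have hN : (0 : ℝ) < Fintype.card α := by
      obtain ⟨a, _⟩ := h0
      exact_mod_cast Fintype.card_pos_iff.mpr ⟨a⟩
    have hw : ∑ a ∈ T, (1 / (T.card : ℝ)) = 1 := by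
      rw [Finset.sum_const, nsmul_eq_mul]
      field_simp
    have hj := Real.rpow_arith_mean_le_arith_mean_rpow T (fun _ => 1 / (T.card : ℝ)) X
      (fun _ _ => by positivity) hw (fun a _ => hX a) (by linarith : (1 : ℝ) ≤ 1 + ε)
    rw [← Finset.mul_sum, ← Finset.mul_sum] at hj
    set A := ∑ a ∈ T, X a with hA
    set B := ∑ a ∈ T, X a ^ (1 + ε) with hB
    have hA0 : 0 ≤ A := Finset.sum_nonneg fun a _ => hX a
    have hB0 : 0 ≤ B := Finset.sum_nonneg fun a _ => Real.rpow_nonneg (hX a) _
    have e1 : A / (Fintype.card α : ℝ) = ((T.card : ℝ) / Fintype.card α) * (1 / (T.card : ℝ) * A) := by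
      field_simp
    rw [e1, Real.mul_rpow (by positivity) (by positivity)]
    calc ((T.card : ℝ) / Fintype.card α) ^ (1 + ε) * (1 / (T.card : ℝ) * A) ^ (1 + ε)
        ≤ ((T.card : ℝ) / Fintype.card α) ^ (1 + ε) * (1 / (T.card : ℝ) * B) :=
          mul_le_mul_of_nonneg_left hj (by positivity)
      _ = ((T.card : ℝ) / Fintype.card α) ^ ε * (B / (Fintype.card α : ℝ)) := by
          rw [add_comm 1 ε, Real.rpow_add_one (by positivity)]
          field_simp

end jn_av

section fourier

/-- sign of a boolean -/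
def jn_sg (b : Bool) : ℝ := if b then -1 else 1

theorem jn_sg_xor (a b : Bool) : jn_sg (xor a b) = jn_sg a * jn_sg b := by
  cases a <;> cases b <;> simp [jn_sg]

theorem jn_sg_abs (a : Bool) : |jn_sg a| = 1 := by
  cases a <;> simp [jn_sg]

theorem jn_sg_eq (a b : Bool) : (if a = b then (1 : ℝ) else 0) = 2⁻¹ * (1 + jn_sg (xor a b)) := by
  cases a <;> cases b <;> norm_num [jn_sg]

variable {ι : Type} [Fintype ι] [DecidableEq ι] {β : Type} [Fintype β] [DecidableEq β]

theorem jn_coin (n : ℕ) : ∑ b : Bool, jn_sg b ^ n = if Even n then 2 else 0 := by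
  rw [Fintype.sum_bool]
  unfold jn_sg
  by_cases h : Even n
  · simp [h, h.neg_one_pow]
    norm_num
  · rw [Nat.not_even_iff_odd] at h
    simp [h.neg_one_pow, h]

theorem jn_four (u : Finset ι) (x : ι → β) :
    av (fun c : β → Bool => ∏ k ∈ u, jn_sg (c (x k))) =
      if (∀ z : β, Even (u.filter (fun k => x k = z)).card) then 1 else 0 := by
  have h1 : ∀ c : β → Bool, ∏ k ∈ u, jn_sg (c (x k))
      = ∏ z : β, jn_sg (c z) ^ (u.filter (fun k => x k = z)).card := by
    intro c
    rw [← Finset.prod_fiberwise u x (fun k => jn_sg (c (x k)))]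
    apply Finset.prod_congr rfl
    intro z _
    rw [Finset.prod_congr rfl (g := fun _ => jn_sg (c z))]
    · rw [Finset.prod_const]
    · intro k hk
      rw [(Finset.mem_filter.mp hk).2]
  unfold av
  simp only [h1]
  have h2 : ∑ c : β → Bool, ∏ z : β, jn_sg (c z) ^ (u.filter (fun k => x k = z)).card
      = ∏ z : β, ∑ b : Bool, jn_sg b ^ (u.filter (fun k => x k = z)).card := by
    rw [Finset.prod_univ_sum, Fintype.piFinset_univ]
  rw [h2]
  simp only [jn_coin]
  rw [Fintype.card_fun, Fintype.card_bool]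
  by_cases h : ∀ z : β, Even (u.filter (fun k => x k = z)).card
  · rw [if_pos h]
    have : ∏ z : β, (if Even (u.filter (fun k => x k = z)).card then (2 : ℝ) else 0)
        = 2 ^ Fintype.card β := by
      rw [Finset.prod_congr rfl (g := fun _ => (2 : ℝ)), Finset.prod_const, Finset.card_univ]
      intro z _
      rw [if_pos (h z)]
    rw [this]
    push_cast
    field_simp
  · rw [if_neg h]
    push Not at h
    obtain ⟨z, hz⟩ := h
    rw [Finset.prod_eq_zero (Finset.mem_univ z), zero_div]
    rw [if_neg hz]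

/-- top match indicator bound -/
theorem jn_top (I : Finset ι) (x y : ι → β) (p q : ι → Bool) :
    av (fun c : (β → Bool) × (β → Bool) =>
      if ∀ k ∈ I, xor (p k) (c.1 (x k)) = xor (q k) (c.2 (y k)) then (1 : ℝ) else 0)
      ≤ (2 : ℝ) ^ (-(I.card : ℝ)) * (cc I x y : ℝ) := by
  have h1 : ∀ c : (β → Bool) × (β → Bool),
      (if ∀ k ∈ I, xor (p k) (c.1 (x k)) = xor (q k) (c.2 (y k)) then (1 : ℝ) else 0)
      = (2 : ℝ)⁻¹ ^ I.card * ∑ u ∈ I.powerset, (∏ k ∈ u, jn_sg (xor (p k) (q k))) *
        ((∏ k ∈ u, jn_sg (c.1 (x k))) * (∏ k ∈ u, jn_sg (c.2 (y k)))) := by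
    intro c
    have e1 : (if ∀ k ∈ I, xor (p k) (c.1 (x k)) = xor (q k) (c.2 (y k)) then (1 : ℝ) else 0)
        = ∏ k ∈ I, (if xor (p k) (c.1 (x k)) = xor (q k) (c.2 (y k)) then (1 : ℝ) else 0) := by
      by_cases h : ∀ k ∈ I, xor (p k) (c.1 (x k)) = xor (q k) (c.2 (y k))
      · rw [if_pos h, Finset.prod_eq_one]
        intro k hk
        rw [if_pos (h k hk)]
      · rw [if_neg h]
        push Not at h
        obtain ⟨k, hk, hk'⟩ := h
        rw [Finset.prod_eq_zero hk]
        rw [if_neg hk']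
    rw [e1]
    simp only [jn_sg_eq]
    rw [Finset.prod_mul_distrib, Finset.prod_const, Finset.prod_one_add]
    congr 1
    apply Finset.sum_congr rfl
    intro u _
    rw [← Finset.prod_mul_distrib, ← Finset.prod_mul_distrib]
    apply Finset.prod_congr rfl
    intro k _
    simp only [jn_sg_xor]
    ring
  simp only [h1]
  rw [Avg.const_mul, Avg.sum]
  rw [Real.rpow_neg (by norm_num), Real.rpow_natCast, ← inv_pow]
  apply mul_le_mul_of_nonneg_left _ (by positivity)
  have h2 : (cc I x y : ℝ) = ∑ u ∈ I.powerset,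
      (if (∀ z : β, Even (u.filter (fun k => x k = z)).card) then (1 : ℝ) else 0) *
      (if (∀ z : β, Even (u.filter (fun k => y k = z)).card) then (1 : ℝ) else 0) := by
    unfold cc
    rw [Finset.card_filter]
    push_cast
    apply Finset.sum_congr rfl
    intro u _
    by_cases ha : (∀ z : β, Even (u.filter (fun k => x k = z)).card) <;>
      by_cases hb : (∀ z : β, Even (u.filter (fun k => y k = z)).card) <;> simp [ha, hb]
  rw [h2]
  apply Finset.sum_le_sum
  intro u _
  rw [Avg.const_mul]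
  have h3 := jn_av_mul (fun c : β → Bool => ∏ k ∈ u, jn_sg (c (x k)))
    (fun c : β → Bool => ∏ k ∈ u, jn_sg (c (y k)))
  rw [h3, jn_four, jn_four]
  have h4 : ∏ k ∈ u, jn_sg (xor (p k) (q k)) ≤ 1 := by
    refine (le_abs_self _).trans ?_
    rw [Finset.abs_prod]
    simp [jn_sg_abs]
  have h5 : 0 ≤ (if (∀ z : β, Even (u.filter (fun k => x k = z)).card) then (1 : ℝ) else 0) *
      (if (∀ z : β, Even (u.filter (fun k => y k = z)).card) then (1 : ℝ) else 0) := by
    split_ifs <;> norm_num
  nlinarith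

end fourier

section congr

variable {ι : Type} [Fintype ι] [DecidableEq ι]

theorem jn_cc_congr {β : Type} [Fintype β] [DecidableEq β] (I : Finset ι) (x y x' y' : ι → β)
    (hx : ∀ k ∈ I, x k = x' k) (hy : ∀ k ∈ I, y k = y' k) : cc I x y = cc I x' y' := by
  unfold cc
  congr 1
  apply Finset.filter_congr
  intro u hu
  rw [Finset.mem_powerset] at hu
  have h1 : ∀ z, u.filter (fun k => x k = z) = u.filter (fun k => x' k = z) := by
    intro z
    apply Finset.filter_congr
    intro k hk
    rw [hx k (hu hk)]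
  have h2 : ∀ z, u.filter (fun k => y k = z) = u.filter (fun k => y' k = z) := by
    intro z
    apply Finset.filter_congr
    intro k hk
    rw [hy k (hu hk)]
  simp only [h1, h2]

theorem jn_Gx_succ (t : ℕ) (e : ℕ → ℝ) (I : Finset ι) (a mu : ι → Q (t + 1)) (c : Q t → Bool)
    (w0 w1 : Net t) : Gx (t + 1) e I a mu (c, w0, w1) =
      ((cc I (fun k => (a k).2) (fun k => (Rn t (if (mu k).1 then w1 else w0))⁻¹ (mu k).2) : ℕ) : ℝ) ^ (e t) *
        (Gx t e (I.filter (fun k => (mu k).1 = false)) (fun k => (a k).2) (fun k => (mu k).2) w0 *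
         Gx t e (I.filter (fun k => (mu k).1 = true)) (fun k => (a k).2) (fun k => (mu k).2) w1) := rfl

theorem jn_Gx_congr (t : ℕ) : ∀ (e : ℕ → ℝ) (I : Finset ι) (a a' mu mu' : ι → Q t) (n : Net t),
    (∀ k ∈ I, a k = a' k) → (∀ k ∈ I, mu k = mu' k) → Gx t e I a mu n = Gx t e I a' mu' n := by
  induction t with
  | zero => intro e I a a' mu mu' n _ _; rfl
  | succ t ih =>
    intro e I a a' mu mu' n ha hmu
    obtain ⟨c, w0, w1⟩ := n
    rw [jn_Gx_succ, jn_Gx_succ]
    have h1 : I.filter (fun k => (mu k).1 = false) = I.filter (fun k => (mu' k).1 = false) := by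
      apply Finset.filter_congr
      intro k hk
      rw [hmu k hk]
    have h2 : I.filter (fun k => (mu k).1 = true) = I.filter (fun k => (mu' k).1 = true) := by
      apply Finset.filter_congr
      intro k hk
      rw [hmu k hk]
    rw [jn_cc_congr I _ _ (fun k => (a' k).2) (fun k => (Rn t (if (mu' k).1 then w1 else w0))⁻¹ (mu' k).2)
      (fun k hk => by rw [ha k hk]) (fun k hk => by rw [hmu k hk]), h1, h2]
    rw [ih e _ (fun k => (a k).2) (fun k => (a' k).2) (fun k => (mu k).2) (fun k => (mu' k).2) w0,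
      ih e _ (fun k => (a k).2) (fun k => (a' k).2) (fun k => (mu k).2) (fun k => (mu' k).2) w1]
    · intro k hk
      rw [ha k (Finset.mem_filter.mp hk).1]
    · intro k hk
      rw [hmu k (Finset.mem_filter.mp hk).1]
    · intro k hk
      rw [ha k (Finset.mem_filter.mp hk).1]
    · intro k hk
      rw [hmu k (Finset.mem_filter.mp hk).1]

theorem jn_Gx_nonneg (t : ℕ) : ∀ (e : ℕ → ℝ) (I : Finset ι) (a mu : ι → Q t) (n : Net t),
    0 ≤ Gx t e I a mu n := by
  induction t with
  | zero => intro e I a mu n; exact zero_le_one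
  | succ t ih =>
    intro e I a mu n
    obtain ⟨c, w0, w1⟩ := n
    rw [jn_Gx_succ]
    exact mul_nonneg (Real.rpow_nonneg (Nat.cast_nonneg _) _) (mul_nonneg (ih _ _ _ _ _) (ih _ _ _ _ _))

end congr

section main

variable {ι : Type} [Fintype ι] [DecidableEq ι]

/-- regrouping of the coins of two networks -/
def jn_eq (t : ℕ) : ((Q t → Bool) × (Q t → Bool)) × ((Net t × Net t) × (Net t × Net t)) ≃
    Net (t + 1) × Net (t + 1) where
  toFun p := ((p.1.1, p.2.1.1, p.2.2.1), (p.1.2, p.2.1.2, p.2.2.2))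
  invFun p := ((p.1.1, p.2.1), ((p.1.2.1, p.2.2.1), (p.1.2.2, p.2.2.2)))
  left_inv := fun _ => rfl
  right_inv := fun _ => rfl

theorem jn_av_net (t : ℕ) (F : Net (t + 1) × Net (t + 1) → ℝ) :
    av F = av (fun c : (Q t → Bool) × (Q t → Bool) => av (fun w0 : Net t × Net t =>
      av (fun w1 : Net t × Net t => F ((c.1, w0.1, w1.1), (c.2, w0.2, w1.2))))) := by
  rw [← jn_av_equiv (jn_eq t) F, Avg.prod]
  simp only [Avg.prod (α := Net t × Net t) (β := Net t × Net t)]
  rfl

theorem jn_match (t : ℕ) (I : Finset ι) (a o : ι → Q (t + 1)) (c' c : Q t → Bool) (w0' w1' w0 w1 : Net t) :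
    (∀ k ∈ I, Rn (t + 1) (c', w0', w1') (a k) = Rn (t + 1) (c, w0, w1) (o k)) ↔
      (∀ k ∈ I, xor (a k).1 (c' (a k).2) = xor (o k).1 (c (o k).2)) ∧
      (∀ k ∈ I.filter (fun k => xor (a k).1 (c' (a k).2) = false), Rn t w0' (a k).2 = Rn t w0 (o k).2) ∧
      (∀ k ∈ I.filter (fun k => xor (a k).1 (c' (a k).2) = true), Rn t w1' (a k).2 = Rn t w1 (o k).2) := by
  have e : ∀ (d : Q t → Bool) (v0 v1 : Net t) (x : Q (t + 1)), Rn (t + 1) (d, v0, v1) x
      = (xor x.1 (d x.2), Rn t (if xor x.1 (d x.2) then v1 else v0) x.2) := by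
    intro d v0 v1 x
    obtain ⟨b, y⟩ := x
    exact Rn_succ_apply t d v0 v1 b y
  simp only [e]
  constructor
  · intro h
    refine ⟨fun k hk => congrArg Prod.fst (h k hk), ?_, ?_⟩
    · intro k hk
      obtain ⟨hk1, hk2⟩ := Finset.mem_filter.mp hk
      have h1 := congrArg Prod.fst (h k hk1)
      have h2 := congrArg Prod.snd (h k hk1)
      simp only at h1 h2
      rw [← h1, hk2] at h2
      simpa using h2
    · intro k hk
      obtain ⟨hk1, hk2⟩ := Finset.mem_filter.mp hk
      have h1 := congrArg Prod.fst (h k hk1)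
      have h2 := congrArg Prod.snd (h k hk1)
      simp only at h1 h2
      rw [← h1, hk2] at h2
      simpa using h2
  · rintro ⟨h1, h2, h3⟩ k hk
    have h4 := h1 k hk
    rw [← h4]
    cases hb : xor (a k).1 (c' (a k).2) with
    | false =>
      have := h2 k (Finset.mem_filter.mpr ⟨hk, hb⟩)
      simp only [this, Bool.false_eq_true, if_false]
      rfl
    | true =>
      have := h3 k (Finset.mem_filter.mpr ⟨hk, hb⟩)
      simp only [this, if_true]
      rfl

theorem jn_KK_succ (t : ℕ) (I : Finset ι) (a o : ι → Q (t + 1)) :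
    KK (t + 1) I a o = av (fun c : (Q t → Bool) × (Q t → Bool) =>
      (if ∀ k ∈ I, xor (a k).1 (c.1 (a k).2) = xor (o k).1 (c.2 (o k).2) then (1 : ℝ) else 0) *
      (KK t (I.filter (fun k => xor (a k).1 (c.1 (a k).2) = false)) (fun k => (a k).2) (fun k => (o k).2) *
       KK t (I.filter (fun k => xor (a k).1 (c.1 (a k).2) = true)) (fun k => (a k).2)
        (fun k => (o k).2))) := by
  unfold KK
  rw [jn_av_net]
  congr 1
  funext c
  rw [← Avg.mul_const, ← Avg.const_mul]
  congr 1
  funext w0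
  rw [← Avg.const_mul, ← Avg.const_mul]
  congr 1
  funext w1
  have hm := jn_match t I a o c.1 c.2 w0.1 w1.1 w0.2 w1.2
  by_cases h1 : ∀ k ∈ I, xor (a k).1 (c.1 (a k).2) = xor (o k).1 (c.2 (o k).2)
  · by_cases h2 : ∀ k ∈ I.filter (fun k => xor (a k).1 (c.1 (a k).2) = false),
        Rn t w0.1 (a k).2 = Rn t w0.2 (o k).2
    · by_cases h3 : ∀ k ∈ I.filter (fun k => xor (a k).1 (c.1 (a k).2) = true),
        Rn t w1.1 (a k).2 = Rn t w1.2 (o k).2
      · rw [if_pos (hm.mpr ⟨h1, h2, h3⟩), if_pos h1, if_pos h2, if_pos h3]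
        norm_num
      · rw [if_neg (fun h => h3 (hm.mp h).2.2), if_neg h3]
        ring
    · rw [if_neg (fun h => h2 (hm.mp h).2.1), if_neg h2]
      ring
  · rw [if_neg (fun h => h1 (hm.mp h).1), if_neg h1]
    ring

theorem jn_KK_nonneg (t : ℕ) (I : Finset ι) (a o : ι → Q t) : 0 ≤ KK t I a o := by
  unfold KK
  apply Avg.nonneg
  intro p
  split_ifs <;> norm_num

/-- the average on the right hand side of `b1` -/
noncomputable def jn_A (t : ℕ) (ε : ℝ) (I : Finset ι) (a o : ι → Q t) : ℝ :=
  av (fun p : Net t × Net t => (if ∀ k ∈ I, Rn t p.1 (a k) = Rn t p.2 (o k) then (1 : ℝ) else 0) *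
        Gx t (fun _ => ε) I a (fun k => Rn t p.1 (a k)) p.2)

theorem jn_A_nonneg (t : ℕ) (ε : ℝ) (I : Finset ι) (a o : ι → Q t) : 0 ≤ jn_A t ε I a o := by
  unfold jn_A
  apply Avg.nonneg
  intro p
  refine mul_nonneg ?_ (jn_Gx_nonneg _ _ _ _ _ _)
  split_ifs <;> norm_num

theorem jn_A_succ (t : ℕ) (ε : ℝ) (I : Finset ι) (a o : ι → Q (t + 1)) :
    jn_A (t + 1) ε I a o = av (fun c : (Q t → Bool) × (Q t → Bool) =>
      (if ∀ k ∈ I, xor (a k).1 (c.1 (a k).2) = xor (o k).1 (c.2 (o k).2) then (1 : ℝ) else 0) *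
      ((cc I (fun k => (a k).2) (fun k => (o k).2) : ℝ) ^ ε *
      (jn_A t ε (I.filter (fun k => xor (a k).1 (c.1 (a k).2) = false)) (fun k => (a k).2)
          (fun k => (o k).2) *
       jn_A t ε (I.filter (fun k => xor (a k).1 (c.1 (a k).2) = true)) (fun k => (a k).2)
        (fun k => (o k).2)))) := by
  unfold jn_A
  rw [jn_av_net]
  congr 1
  funext c
  rw [← Avg.mul_const, ← Avg.const_mul, ← Avg.const_mul]
  congr 1
  funext w0
  rw [← Avg.const_mul, ← Avg.const_mul, ← Avg.const_mul]
  congr 1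
  funext w1
  have hm := jn_match t I a o c.1 c.2 w0.1 w1.1 w0.2 w1.2
  by_cases h1 : ∀ k ∈ I, xor (a k).1 (c.1 (a k).2) = xor (o k).1 (c.2 (o k).2)
  · by_cases h2 : ∀ k ∈ I.filter (fun k => xor (a k).1 (c.1 (a k).2) = false),
        Rn t w0.1 (a k).2 = Rn t w0.2 (o k).2
    · by_cases h3 : ∀ k ∈ I.filter (fun k => xor (a k).1 (c.1 (a k).2) = true),
        Rn t w1.1 (a k).2 = Rn t w1.2 (o k).2
      · have hM := hm.mpr ⟨h1, h2, h3⟩
        rw [if_pos hM, if_pos h1, if_pos h2, if_pos h3, one_mul, one_mul, one_mul, one_mul, jn_Gx_succ]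
        have e : ∀ (d : Q t → Bool) (v0 v1 : Net t) (x : Q (t + 1)), Rn (t + 1) (d, v0, v1) x
            = (xor x.1 (d x.2), Rn t (if xor x.1 (d x.2) then v1 else v0) x.2) := by
          intro d v0 v1 x
          obtain ⟨b, y⟩ := x
          exact Rn_succ_apply t d v0 v1 b y
        rw [jn_cc_congr I _ _ (fun k => (a k).2) (fun k => (o k).2) (fun k _ => rfl)]
        · congr 1
          congr 1
          · have hI : I.filter (fun k => (Rn (t + 1) (c.1, w0.1, w1.1) (a k)).1 = false)
                = I.filter (fun k => xor (a k).1 (c.1 (a k).2) = false) :=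
              Finset.filter_congr fun k _ => by rw [e]
            rw [hI]
            apply jn_Gx_congr
            · intro k _
              rfl
            · intro k hk
              obtain ⟨_, hk2⟩ := Finset.mem_filter.mp hk
              rw [e]
              change Rn t (if xor (a k).1 (c.1 (a k).2) = true then w1.1 else w0.1) (a k).2
                = Rn t w0.1 (a k).2
              rw [hk2, if_neg (by simp)]
          · have hI : I.filter (fun k => (Rn (t + 1) (c.1, w0.1, w1.1) (a k)).1 = true)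
                = I.filter (fun k => xor (a k).1 (c.1 (a k).2) = true) :=
              Finset.filter_congr fun k _ => by rw [e]
            rw [hI]
            apply jn_Gx_congr
            · intro k _
              rfl
            · intro k hk
              obtain ⟨_, hk2⟩ := Finset.mem_filter.mp hk
              rw [e]
              change Rn t (if xor (a k).1 (c.1 (a k).2) = true then w1.1 else w0.1) (a k).2
                = Rn t w1.1 (a k).2
              rw [hk2, if_pos rfl]
        · intro k hk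
          simp only
          rw [hM k hk, e]
          simp
      · rw [if_neg (fun h => h3 (hm.mp h).2.2), if_neg h3]
        ring
    · rw [if_neg (fun h => h2 (hm.mp h).2.1), if_neg h2]
      ring
  · rw [if_neg (fun h => h1 (hm.mp h).1), if_neg h1]
    ring

/-- PIECE B1a: pointwise Jensen recursion -/
theorem b1 (t : ℕ) (I : Finset ι) (a o : ι → Q t) (ε : ℝ) (hε : 0 ≤ ε) :
    KK t I a o ^ (1 + ε) ≤ (2 : ℝ) ^ (-(ε * t * I.card)) *
      av (fun p : Net t × Net t => (if ∀ k ∈ I, Rn t p.1 (a k) = Rn t p.2 (o k) then (1 : ℝ) else 0) *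
        Gx t (fun _ => ε) I a (fun k => Rn t p.1 (a k)) p.2) := by
  change KK t I a o ^ (1 + ε) ≤ (2 : ℝ) ^ (-(ε * t * I.card)) * jn_A t ε I a o
  induction t generalizing I with
  | zero =>
    have h1 : KK 0 I a o = 1 := by
      unfold KK
      rw [show (fun p : Net 0 × Net 0 => if ∀ k ∈ I, Rn 0 p.1 (a k) = Rn 0 p.2 (o k) then (1 : ℝ) else 0)
        = fun _ => 1 from funext fun p => if_pos fun k _ => rfl]
      exact Avg.const 1
    have h2 : jn_A 0 ε I a o = 1 := by
      unfold jn_A
      rw [show (fun p : Net 0 × Net 0 => (if ∀ k ∈ I, Rn 0 p.1 (a k) = Rn 0 p.2 (o k) then (1 : ℝ) else 0) *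
        Gx 0 (fun _ => ε) I a (fun k => Rn 0 p.1 (a k)) p.2)
        = fun _ => 1 from funext fun p => by
          change _ * (1 : ℝ) = 1
          rw [mul_one]
          exact if_pos fun k _ => rfl]
      exact Avg.const 1
    rw [h1, h2]
    simp
  | succ t ih =>
    rw [jn_KK_succ]
    refine (jn_holder (fun c : (Q t → Bool) × (Q t → Bool) =>
      ∀ k ∈ I, xor (a k).1 (c.1 (a k).2) = xor (o k).1 (c.2 (o k).2)) _ ?_ ε hε).trans ?_
    · intro c
      exact mul_nonneg (jn_KK_nonneg _ _ _ _) (jn_KK_nonneg _ _ _ _)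
    · have htop := jn_top I (fun k => (a k).2) (fun k => (o k).2) (fun k => (a k).1) (fun k => (o k).1)
      have h0 : 0 ≤ av (fun c : (Q t → Bool) × (Q t → Bool) =>
          if ∀ k ∈ I, xor (a k).1 (c.1 (a k).2) = xor (o k).1 (c.2 (o k).2) then (1 : ℝ) else 0) := by
        apply Avg.nonneg
        intro c
        split_ifs <;> norm_num
      have h1 := Real.rpow_le_rpow h0 htop hε
      rw [Real.mul_rpow (by positivity) (Nat.cast_nonneg _)] at h1
      rw [jn_A_succ]
      have h2 : ∀ c : (Q t → Bool) × (Q t → Bool),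
          (if ∀ k ∈ I, xor (a k).1 (c.1 (a k).2) = xor (o k).1 (c.2 (o k).2) then (1 : ℝ) else 0) *
          (KK t (I.filter (fun k => xor (a k).1 (c.1 (a k).2) = false)) (fun k => (a k).2) (fun k => (o k).2) *
            KK t (I.filter (fun k => xor (a k).1 (c.1 (a k).2) = true)) (fun k => (a k).2)
              (fun k => (o k).2)) ^ (1 + ε)
          ≤ (2 : ℝ) ^ (-(ε * t * I.card)) *
          ((if ∀ k ∈ I, xor (a k).1 (c.1 (a k).2) = xor (o k).1 (c.2 (o k).2) then (1 : ℝ) else 0) *
            (jn_A t ε (I.filter (fun k => xor (a k).1 (c.1 (a k).2) = false)) (fun k => (a k).2)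
              (fun k => (o k).2) *
            jn_A t ε (I.filter (fun k => xor (a k).1 (c.1 (a k).2) = true)) (fun k => (a k).2)
              (fun k => (o k).2))) := by
        intro c
        have ha := ih (I.filter (fun k => xor (a k).1 (c.1 (a k).2) = false)) (fun k => (a k).2)
          (fun k => (o k).2)
        have hb := ih (I.filter (fun k => xor (a k).1 (c.1 (a k).2) = true)) (fun k => (a k).2)
          (fun k => (o k).2)
        have hcard : (I.card : ℝ) = ((I.filter (fun k => xor (a k).1 (c.1 (a k).2) = false)).card : ℝ) +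
            ((I.filter (fun k => xor (a k).1 (c.1 (a k).2) = true)).card : ℝ) := by
          rw [← Nat.cast_add]
          congr 1
          rw [← Finset.card_filter_add_card_filter_not (s := I)
            (fun k => xor (a k).1 (c.1 (a k).2) = false)]
          congr 2
          apply Finset.filter_congr
          intro k _
          simp
        rw [hcard, Real.mul_rpow (jn_KK_nonneg _ _ _ _) (jn_KK_nonneg _ _ _ _)]
        have e1 : (2 : ℝ) ^ (-(ε * t * (((I.filter (fun k => xor (a k).1 (c.1 (a k).2) = false)).card : ℝ) +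
            ((I.filter (fun k => xor (a k).1 (c.1 (a k).2) = true)).card : ℝ)))) =
            (2 : ℝ) ^ (-(ε * t * ((I.filter (fun k => xor (a k).1 (c.1 (a k).2) = false)).card : ℝ))) *
            (2 : ℝ) ^ (-(ε * t * ((I.filter (fun k => xor (a k).1 (c.1 (a k).2) = true)).card : ℝ))) := by
          rw [← Real.rpow_add (by norm_num)]
          congr 1
          ring
        rw [e1]
        have hind : (0 : ℝ) ≤ (if ∀ k ∈ I, xor (a k).1 (c.1 (a k).2) = xor (o k).1 (c.2 (o k).2)
            then (1 : ℝ) else 0) := by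
          split_ifs <;> norm_num
        have hab := mul_le_mul ha hb (Real.rpow_nonneg (jn_KK_nonneg _ _ _ _) _)
          (mul_nonneg (by positivity) (jn_A_nonneg _ _ _ _ _))
        refine (mul_le_mul_of_nonneg_left hab hind).trans (le_of_eq ?_)
        ring
      have h3 := Avg.mono h2
      rw [Avg.const_mul] at h3
      have h4 : 0 ≤ av (fun c : (Q t → Bool) × (Q t → Bool) =>
          (if ∀ k ∈ I, xor (a k).1 (c.1 (a k).2) = xor (o k).1 (c.2 (o k).2) then (1 : ℝ) else 0) *
          (KK t (I.filter (fun k => xor (a k).1 (c.1 (a k).2) = false)) (fun k => (a k).2) (fun k => (o k).2) *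
            KK t (I.filter (fun k => xor (a k).1 (c.1 (a k).2) = true)) (fun k => (a k).2)
              (fun k => (o k).2)) ^ (1 + ε)) := by
        apply Avg.nonneg
        intro c
        refine mul_nonneg ?_ (Real.rpow_nonneg (mul_nonneg (jn_KK_nonneg _ _ _ _) (jn_KK_nonneg _ _ _ _)) _)
        split_ifs <;> norm_num
      refine (mul_le_mul h1 h3 h4 (by positivity)).trans (le_of_eq ?_)
      have e2 : ∀ c : (Q t → Bool) × (Q t → Bool),
        (if ∀ k ∈ I, xor (a k).1 (c.1 (a k).2) = xor (o k).1 (c.2 (o k).2) then (1 : ℝ) else 0) *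
      ((cc I (fun k => (a k).2) (fun k => (o k).2) : ℝ) ^ ε *
      (jn_A t ε (I.filter (fun k => xor (a k).1 (c.1 (a k).2) = false)) (fun k => (a k).2)
          (fun k => (o k).2) *
       jn_A t ε (I.filter (fun k => xor (a k).1 (c.1 (a k).2) = true)) (fun k => (a k).2)
        (fun k => (o k).2))) = (cc I (fun k => (a k).2) (fun k => (o k).2) : ℝ) ^ ε *
        ((if ∀ k ∈ I, xor (a k).1 (c.1 (a k).2) = xor (o k).1 (c.2 (o k).2) then (1 : ℝ) else 0) *
      (jn_A t ε (I.filter (fun k => xor (a k).1 (c.1 (a k).2) = false)) (fun k => (a k).2)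
          (fun k => (o k).2) *
       jn_A t ε (I.filter (fun k => xor (a k).1 (c.1 (a k).2) = true)) (fun k => (a k).2)
        (fun k => (o k).2))) := fun c => by ring
      simp only [e2]
      rw [Avg.const_mul]
      have e3 : (2 : ℝ) ^ (-(ε * ((t + 1 : ℕ) : ℝ) * I.card)) = ((2 : ℝ) ^ (-(I.card : ℝ))) ^ ε *
          (2 : ℝ) ^ (-(ε * t * I.card)) := by
        rw [← Real.rpow_mul (by norm_num), ← Real.rpow_add (by norm_num)]
        congr 1
        push_cast
        ring
      rw [e3]
      ring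

/-- PIECE B1b: sum over outputs -/
theorem b1_sum (t : ℕ) (a : ι → Q t) (ε : ℝ) (hε : 0 ≤ ε) :
    ∑ o : ι → Q t, KK t Finset.univ a o ^ (1 + ε) ≤ (2 : ℝ) ^ (-(ε * t * Fintype.card ι)) *
      av (fun p : Net t × Net t => Gx t (fun _ => ε) Finset.univ a (fun k => Rn t p.1 (a k)) p.2) := by
  refine (Finset.sum_le_sum fun o _ => b1 t Finset.univ a o ε hε).trans (le_of_eq ?_)
  rw [← Finset.mul_sum, Finset.card_univ, ← Avg.sum]
  congr 2
  funext p
  rw [← Finset.sum_mul]
  have h1 : ∀ o : ι → Q t, (∀ k ∈ (Finset.univ : Finset ι), Rn t p.1 (a k) = Rn t p.2 (o k)) ↔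
      (fun k => (Rn t p.2)⁻¹ (Rn t p.1 (a k))) = o := by
    intro o
    rw [funext_iff]
    constructor
    · intro h k
      rw [h k (Finset.mem_univ k)]
      exact Equiv.symm_apply_apply _ _
    · intro h k _
      rw [← h k]
      exact (Equiv.apply_symm_apply _ _).symm
  have h2 : ∑ o : ι → Q t, (if ∀ k ∈ (Finset.univ : Finset ι), Rn t p.1 (a k) = Rn t p.2 (o k)
      then (1 : ℝ) else 0) = 1 := by
    simp only [h1]
    rw [Finset.sum_ite_eq Finset.univ]
    simp
  rw [h2, one_mul]

end main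

end Vale.Agent.P162
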