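import Vale.Agent.P162.Net

open Equiv

set_option linter.unusedSectionVars false

namespace Vale.Agent.P162

theorem sm_av_mono {α : Type} [Fintype α] {f g : α → ℝ} (h : ∀ x, f x ≤ g x) : av f ≤ av g := by
  unfold av
  exact div_le_div_of_nonneg_right (Finset.sum_le_sum fun x _ => h x) (Nat.cast_nonneg _)

theorem sm_av_nonneg {α : Type} [Fintype α] {f : α → ℝ} (h : ∀ x, 0 ≤ f x) : 0 ≤ av f :=
  div_nonneg (Finset.sum_nonneg fun x _ => h x) (Nat.cast_nonneg _)

theorem sm_av_mul_left {α : Type} [Fintype α] (k : ℝ) (f : α → ℝ) :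
    av (fun x => k * f x) = k * av f := by
  unfold av
  rw [← Finset.mul_sum, mul_div_assoc]

theorem sm_av_mul_right {α : Type} [Fintype α] (k : ℝ) (f : α → ℝ) :
    av (fun x => f x * k) = av f * k := by
  unfold av
  rw [← Finset.sum_mul, div_mul_eq_mul_div]

theorem sm_av_prod {α β : Type} [Fintype α] [Fintype β] (f : α × β → ℝ) :
    av f = av (fun x => av (fun y => f (x, y))) := by
  unfold av
  rw [Fintype.sum_prod_type, Fintype.card_prod, ← Finset.sum_div, div_div]
  push_cast
  rw [mul_comm (Fintype.card β : ℝ)]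

/-- product lemma -/
theorem sm_sum_prod {β : Type} [Fintype β] [DecidableEq β] (X : Finset β)
    (g : β → Bool → (β → Bool) → ℝ) (h : β → ℝ) (g0 : ∀ x b c, 0 ≤ g x b c)
    (hloc : ∀ x b c c', (∀ y, y ∉ X → c y = c' y) → g x b c = g x b c')
    (hg : ∀ x ∈ X, ∀ c, g x false c + g x true c ≤ 2 * h x) :
    av (fun c : β → Bool => ∏ x ∈ X, g x (c x) c) ≤ ∏ x ∈ X, h x := by
  unfold av
  rw [div_le_iff₀ (by exact_mod_cast Fintype.card_pos)]
  let e := Equiv.piEquivPiSubtypeProd (fun x => x ∈ X) (fun _ : β => Bool)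
  rw [← Equiv.sum_comp e.symm, Fintype.sum_prod_type_right]
  have key : ∀ c2 : ({x // ¬ x ∈ X} → Bool),
      ∑ c1 : ({x // x ∈ X} → Bool), ∏ x ∈ X, g x (e.symm (c1, c2) x) (e.symm (c1, c2)) ≤
        ∏ x ∈ X, (2 * h x) := by
    intro c2
    let c0 : β → Bool := fun x => if hx : x ∈ X then false else c2 ⟨x, hx⟩
    have h1 : ∀ c1 : ({x // x ∈ X} → Bool),
        ∏ x ∈ X, g x (e.symm (c1, c2) x) (e.symm (c1, c2)) =
          ∏ x : {x // x ∈ X}, g x (c1 x) c0 := by
      intro c1
      rw [← Finset.prod_coe_sort X]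
      refine Finset.prod_congr rfl fun x _ => ?_
      have e1 : e.symm (c1, c2) x = c1 x := by
        simp [e, Equiv.piEquivPiSubtypeProd]
      rw [e1]
      apply hloc
      intro y hy
      simp [e, Equiv.piEquivPiSubtypeProd, c0, hy]
    rw [Finset.sum_congr rfl fun c1 _ => h1 c1]
    have h2 : ∑ c1 : ({x // x ∈ X} → Bool), ∏ x : {x // x ∈ X}, g x (c1 x) c0 =
        ∏ x : {x // x ∈ X}, ∑ b : Bool, g x b c0 := by
      rw [Finset.prod_univ_sum, Fintype.piFinset_univ]
    rw [h2, ← Finset.prod_coe_sort X]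
    refine Finset.prod_le_prod (fun x _ => ?_) (fun x _ => ?_)
    · exact Finset.sum_nonneg fun b _ => g0 _ _ _
    · rw [Fintype.sum_bool, add_comm]
      exact hg x.1 x.2 c0
  refine (Finset.sum_le_sum fun c2 _ => key c2).trans ?_
  rw [Finset.sum_const, nsmul_eq_mul, Finset.card_univ, Finset.prod_mul_distrib,
    Finset.prod_const]
  have hcard : (Fintype.card (β → Bool) : ℝ) =
      (Fintype.card ({x // ¬ x ∈ X} → Bool) : ℝ) * 2 ^ X.card := by
    have h3 : Fintype.card (β → Bool) =
        Fintype.card ({x // x ∈ X} → Bool) * Fintype.card ({x // ¬ x ∈ X} → Bool) := by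
      rw [Fintype.card_congr e, Fintype.card_prod]
    have h4 : Fintype.card ({x // x ∈ X} → Bool) = 2 ^ X.card := by
      rw [Fintype.card_fun, Fintype.card_bool, Fintype.card_coe]
    rw [h3, h4]
    push_cast
    ring
  rw [hcard]
  apply le_of_eq
  ring

section half

variable {β : Type} [Fintype β] [DecidableEq β]

/-- the part of `A` sent to the sm_half `r` by the flips `c` -/
def sm_half (A : Finset (Bool × β)) (c : β → Bool) (r : Bool) : Finset β :=
  Finset.univ.filter (fun x => (xor r (c x), x) ∈ A)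

theorem sm_mem_half {A : Finset (Bool × β)} {c : β → Bool} {r : Bool} {x : β} :
    x ∈ sm_half A c r ↔ (xor r (c x), x) ∈ A := by
  simp [sm_half]

theorem sm_half_card (A : Finset (Bool × β)) (c : β → Bool) (P : β → Prop) [DecidablePred P] :
    ((sm_half A c false).filter P).card + ((sm_half A c true).filter P).card =
      (A.filter (fun p => P p.2)).card := by
  have h1 : ∀ r : Bool, ((sm_half A c r).filter P).card =
      ((A.filter (fun p => P p.2)).filter (fun p => xor p.1 (c p.2) = r)).card := by
    intro r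
    refine Finset.card_bij (fun x _ => (xor r (c x), x)) ?_ ?_ ?_
    · intro x hx
      rw [Finset.mem_filter, sm_mem_half] at hx
      simp [hx.1, hx.2]
    · intro x _ y _ hxy
      exact (Prod.mk.inj hxy).2
    · rintro ⟨b, x⟩ hx
      simp only [Finset.mem_filter] at hx
      refine ⟨x, ?_, ?_⟩
      · rw [Finset.mem_filter, sm_mem_half]
        refine ⟨?_, hx.1.2⟩
        have : xor r (c x) = b := by rw [← hx.2]; simp
        rw [this]; exact hx.1.1
      · have : xor r (c x) = b := by rw [← hx.2]; simp
        rw [this]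
  rw [h1, h1]
  have h2 := Finset.card_filter_add_card_filter_not (s := A.filter (fun p => P p.2))
    (fun p => xor p.1 (c p.2) = false)
  rw [← h2]
  congr 2
  apply Finset.filter_congr
  intro p _
  simp

theorem sm_half_card' (A : Finset (Bool × β)) (c : β → Bool) :
    (sm_half A c false).card + (sm_half A c true).card = A.card := by
  have := sm_half_card A c (fun _ => True)
  simpa using this

/-- the two element inequality -/
theorem sm_pair (A : Finset (Bool × β)) (x : β) (s0 s1 : ℝ) :
    ((if (false, x) ∈ A then s0 else 1) * (if (true, x) ∈ A then s1 else 1)) +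
      ((if (true, x) ∈ A then s0 else 1) * (if (false, x) ∈ A then s1 else 1)) ≤
      2 * ((s0 + s1) / 2) ^ ((Finset.univ.filter (fun b : Bool => (b, x) ∈ A)).card) := by
  by_cases h0 : (false, x) ∈ A <;> by_cases h1 : (true, x) ∈ A
  · have : (Finset.univ.filter (fun b : Bool => (b, x) ∈ A)).card = 2 := by
      have : (Finset.univ.filter (fun b : Bool => (b, x) ∈ A)) = Finset.univ := by
        ext b; cases b <;> simp [h0, h1]
      rw [this]; rfl
    rw [this]
    simp only [h0, h1, if_true]
    nlinarith [sq_nonneg (s0 - s1)]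
  · have : (Finset.univ.filter (fun b : Bool => (b, x) ∈ A)).card = 1 := by
      have : (Finset.univ.filter (fun b : Bool => (b, x) ∈ A)) = {false} := by
        ext b; cases b <;> simp [h0, h1]
      rw [this]; rfl
    rw [this]
    simp only [h0, h1, if_true, if_false]
    linarith
  · have : (Finset.univ.filter (fun b : Bool => (b, x) ∈ A)).card = 1 := by
      have : (Finset.univ.filter (fun b : Bool => (b, x) ∈ A)) = {true} := by
        ext b; cases b <;> simp [h0, h1]
      rw [this]; rfl
    rw [this]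
    simp only [h0, h1, if_true, if_false]
    linarith
  · have : (Finset.univ.filter (fun b : Bool => (b, x) ∈ A)).card = 0 := by
      have : (Finset.univ.filter (fun b : Bool => (b, x) ∈ A)) = ∅ := by
        ext b; cases b <;> simp [h0, h1]
      rw [this]; rfl
    rw [this]
    simp only [h0, h1, if_false]
    norm_num

/-- product over a sm_half as a product over positions -/
theorem sm_half_pow (A : Finset (Bool × β)) (c : β → Bool) (X : Finset β)
    (s : Bool → β → ℝ) :
    (∏ x ∈ (sm_half A c false).filter (fun x => x ∈ X), s false x) *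
      (∏ x ∈ (sm_half A c true).filter (fun x => x ∈ X), s true x) =
      ∏ x ∈ X, ((if (c x, x) ∈ A then s false x else 1) *
        (if (!(c x), x) ∈ A then s true x else 1)) := by
  rw [Finset.prod_mul_distrib]
  congr 1
  · rw [← Finset.prod_filter]
    refine Finset.prod_congr ?_ fun _ _ => rfl
    ext x
    simp [sm_mem_half, and_comm]
  · rw [← Finset.prod_filter]
    refine Finset.prod_congr ?_ fun _ _ => rfl
    ext x
    simp [sm_mem_half, and_comm]

theorem sm_card_sum (A : Finset (Bool × β)) (X : Finset β) :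
    ∑ x ∈ X, (Finset.univ.filter (fun b : Bool => (b, x) ∈ A)).card =
      (A.filter (fun p => p.2 ∈ X)).card := by
  rw [← Finset.card_sigma]
  refine Finset.card_bij (fun q _ => (q.2, q.1)) ?_ ?_ ?_
  · rintro ⟨x, b⟩ h
    simp only [Finset.mem_sigma, Finset.mem_filter, Finset.mem_univ, true_and] at h
    simp [h.1, h.2]
  · rintro ⟨x, b⟩ _ ⟨x', b'⟩ _ h
    obtain ⟨h1, h2⟩ := Prod.mk.inj h
    simp only at h1 h2
    subst h1; subst h2; rfl
  · rintro ⟨b, x⟩ h
    simp only [Finset.mem_filter] at h
    refine ⟨⟨x, b⟩, ?_, rfl⟩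
    simp [h.1, h.2]

end half

section abs

variable {β N : Type} [Fintype β] [DecidableEq β] [Fintype N]

/-- one level of a network in abstract form -/
def sm_comb2 (R : N → Perm β) (n : (β → Bool) × N × N) : Perm (Bool × β) :=
  iota false (R n.2.1) * iota true (R n.2.2) * hflip n.1

theorem sm_comb2_apply (R : N → Perm β) (c : β → Bool) (w0 w1 : N) (b : Bool) (x : β) :
    sm_comb2 R (c, w0, w1) (b, x) = (xor b (c x), R (if xor b (c x) then w1 else w0) x) := by
  unfold sm_comb2
  rw [Perm.mul_apply, Perm.mul_apply]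
  have h1 : hflip c (b, x) = (xor b (c x), x) := rfl
  rw [h1]
  cases h : xor b (c x) <;> simp [iota]

theorem sm_av_net (f : (β → Bool) × N × N → ℝ) :
    av f = av (fun c : β → Bool => av (fun w0 : N => av (fun w1 : N => f (c, w0, w1)))) := by
  rw [sm_av_prod]
  congr 1
  funext c
  rw [sm_av_prod]

theorem sm_image_card (R : N → Perm β) (A U : Finset (Bool × β)) (c : β → Bool) (w0 w1 : N) :
    ((A.image (sm_comb2 R (c, w0, w1))) ∩ U).card =
      (((sm_half A c false).image (R w0)) ∩ (sm_half U (fun _ => false) false)).card +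
      (((sm_half A c true).image (R w1)) ∩ (sm_half U (fun _ => false) true)).card := by
  have h1 : ∀ (r : Bool) (w : N), (if r then w1 else w0) = w →
      (((sm_half A c r).image (R w)) ∩ (sm_half U (fun _ => false) r)).card =
      (((A.image (sm_comb2 R (c, w0, w1))) ∩ U).filter (fun p => p.1 = r)).card := by
    intro r w hw
    refine Finset.card_bij (fun x _ => (r, x)) ?_ ?_ ?_
    · intro x hx
      rw [Finset.mem_inter, Finset.mem_image, sm_mem_half] at hx
      obtain ⟨⟨y, hy, rfl⟩, hU⟩ := hx
      rw [Finset.mem_filter, Finset.mem_inter]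
      rw [Bool.xor_false] at hU
      refine ⟨⟨?_, hU⟩, rfl⟩
      rw [Finset.mem_image]
      refine ⟨(xor r (c y), y), sm_mem_half.mp hy, ?_⟩
      rw [sm_comb2_apply]
      have : xor (xor r (c y)) (c y) = r := by simp
      rw [this, hw]
    · intro x _ y _ hxy
      exact (Prod.mk.inj hxy).2
    · rintro ⟨b, x⟩ hx
      rw [Finset.mem_filter, Finset.mem_inter, Finset.mem_image] at hx
      obtain ⟨⟨⟨⟨b', y⟩, hy, hxy⟩, hU⟩, hb⟩ := hx
      simp only at hb
      subst hb
      rw [sm_comb2_apply] at hxy
      obtain ⟨e1, e2⟩ := Prod.mk.inj hxy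
      refine ⟨x, ?_, rfl⟩
      rw [Finset.mem_inter, Finset.mem_image, sm_mem_half, Bool.xor_false]
      refine ⟨⟨y, ?_, ?_⟩, hU⟩
      · rw [sm_mem_half]
        have : xor b (c y) = b' := by rw [← e1]; simp
        rw [this]; exact hy
      · rw [← hw, ← e2, e1]
  rw [h1 false w0 rfl, h1 true w1 rfl]
  have h2 := Finset.card_filter_add_card_filter_not
    (s := (A.image (sm_comb2 R (c, w0, w1))) ∩ U) (fun p => p.1 = false)
  rw [← h2]
  congr 2
  apply Finset.filter_congr
  intro p _
  simp

theorem sm_hit_step (R : N → Perm β) (m : ℝ) (hm : 0 < m) (y : ℝ) (hy : 1 ≤ y)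
    (ih : ∀ A U : Finset β, av (fun n : N => y ^ ((A.image (R n)) ∩ U).card) ≤
      (1 + (y - 1) * U.card / m) ^ A.card) (A U : Finset (Bool × β)) :
    av (fun n : (β → Bool) × N × N => y ^ ((A.image (sm_comb2 R n)) ∩ U).card) ≤
      (1 + (y - 1) * U.card / (m * 2)) ^ A.card := by
  rw [sm_av_net]
  obtain ⟨s0, hs0⟩ : ∃ s0 : ℝ, s0 = 1 + (y - 1) * (sm_half U (fun _ => false) false).card / m :=
    ⟨_, rfl⟩
  obtain ⟨s1, hs1⟩ : ∃ s1 : ℝ, s1 = 1 + (y - 1) * (sm_half U (fun _ => false) true).card / m :=
    ⟨_, rfl⟩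
  have hs0' : 0 ≤ s0 := by
    have : 0 ≤ (y - 1) * (sm_half U (fun _ => false) false).card / m :=
      div_nonneg (mul_nonneg (by linarith) (Nat.cast_nonneg _)) hm.le
    linarith
  have hs1' : 0 ≤ s1 := by
    have : 0 ≤ (y - 1) * (sm_half U (fun _ => false) true).card / m :=
      div_nonneg (mul_nonneg (by linarith) (Nat.cast_nonneg _)) hm.le
    linarith
  have hUc : ((sm_half U (fun _ => false) false).card : ℝ) + (sm_half U (fun _ => false) true).card =
      U.card := by
    exact_mod_cast sm_half_card' U (fun _ => false)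
  have step1 : ∀ c : β → Bool, av (fun w0 : N => av (fun w1 : N =>
      y ^ ((A.image (sm_comb2 R (c, w0, w1))) ∩ U).card)) ≤
      ∏ x : β, ((if (c x, x) ∈ A then s0 else 1) * (if (!(c x), x) ∈ A then s1 else 1)) := by
    intro c
    have e1 : (fun w0 : N => av (fun w1 : N =>
        y ^ ((A.image (sm_comb2 R (c, w0, w1))) ∩ U).card)) =
        fun w0 : N => (y ^ (((sm_half A c false).image (R w0)) ∩ (sm_half U (fun _ => false) false)).card) *
          av (fun w1 : N =>
            y ^ (((sm_half A c true).image (R w1)) ∩ (sm_half U (fun _ => false) true)).card) := by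
      funext w0
      rw [← sm_av_mul_left]
      congr 1
      funext w1
      rw [sm_image_card, pow_add]
    rw [e1, sm_av_mul_right]
    have i0 := ih (sm_half A c false) (sm_half U (fun _ => false) false)
    have i1 := ih (sm_half A c true) (sm_half U (fun _ => false) true)
    rw [← hs0] at i0
    rw [← hs1] at i1
    have hy0 : 0 ≤ y := by linarith
    have h3 := mul_le_mul i0 i1 (sm_av_nonneg fun _ => pow_nonneg hy0 _) (pow_nonneg hs0' _)
    refine h3.trans (le_of_eq ?_)
    have h4 := sm_half_pow A c Finset.univ (fun r _ => if r then s1 else s0)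
    simp only [Finset.mem_univ, Finset.filter_true, Bool.false_eq_true, if_false, if_true,
      Finset.prod_const] at h4
    exact h4
  refine (sm_av_mono step1).trans ?_
  have step2 := sm_sum_prod Finset.univ
    (fun x b _ => ((if (b, x) ∈ A then s0 else 1) * (if (!b, x) ∈ A then s1 else 1)))
    (fun x => ((s0 + s1) / 2) ^ ((Finset.univ.filter (fun b : Bool => (b, x) ∈ A)).card))
    (fun x b c => by
      apply mul_nonneg <;> split_ifs <;> first | assumption | exact zero_le_one)
    (fun _ _ _ _ _ => rfl)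
    (fun x _ c => by
      have := sm_pair A x s0 s1
      simpa using this)
  refine step2.trans (le_of_eq ?_)
  rw [Finset.prod_pow_eq_pow_sum, sm_card_sum A Finset.univ]
  have e3 : (s0 + s1) / 2 = 1 + (y - 1) * U.card / (m * 2) := by
    rw [hs0, hs1, ← hUc]
    field_simp
    ring
  rw [e3]
  congr 1
  simp

end abs

theorem sm_hit_zero (A U : Finset Unit) (y : ℝ) :
    y ^ (A ∩ U).card = (1 + (y - 1) * U.card / 2 ^ 0) ^ A.card := by
  rcases Finset.eq_empty_or_nonempty A with h | ⟨a, ha⟩
  · subst h; simp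
  · rcases Finset.eq_empty_or_nonempty U with h' | ⟨u, hu⟩
    · subst h'; simp
    · have e1 : A = {()} := by
        ext b
        rw [Finset.mem_singleton]
        exact ⟨fun _ => rfl, fun _ => ha⟩
      have e2 : U = {()} := by
        ext b
        rw [Finset.mem_singleton]
        exact ⟨fun _ => rfl, fun _ => hu⟩
      rw [e1, e2]
      simp

theorem hit (p : ℕ) (A U : Finset (Q p)) (y : ℝ) (hy : 1 ≤ y) :
    av (fun n : Net p => y ^ ((A.image (Rn p n)) ∩ U).card) ≤
      (1 + (y - 1) * U.card / 2 ^ p) ^ A.card := by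
  induction p with
  | zero =>
    have hav : av (fun n : Net 0 => y ^ ((A.image (Rn 0 n)) ∩ U).card) = y ^ (A ∩ U).card := by
      have h1 : (fun n : Net 0 => y ^ ((A.image (Rn 0 n)) ∩ U).card) =
          fun _ => y ^ (A ∩ U).card := by
        funext n
        have : A.image (Rn 0 n) = A := Finset.image_id
        rw [this]
      have hc : Fintype.card (Net 0) = 1 := rfl
      rw [h1]
      unfold av
      rw [Finset.sum_const, nsmul_eq_mul, Finset.card_univ, hc]
      simp
    rw [hav]
    exact le_of_eq (sm_hit_zero A U y)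
  | succ p ih =>
    have h := sm_hit_step (β := Q p) (N := Net p) (Rn p) (2 ^ p) (by positivity) y hy
      (fun A U => ih A U) A U
    rw [← pow_succ] at h
    exact h

section b5abs

variable {β N γ : Type} [Fintype β] [DecidableEq β] [Fintype N] [Fintype γ] [DecidableEq γ]

/-- number of positions of `A` with sm_low part `(b, z)` -/
def sm_cnt (l : β → Bool × γ) (A : Finset β) (b : Bool) (z : γ) : ℕ :=
  (A.filter (fun x => l x = (b, z))).card

theorem sm_fiber (l : β → Bool × γ) (H : Finset β) (s : γ → ℝ) :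
    ∏ z : γ, s z ^ sm_cnt l H false z =
      ∏ x ∈ H.filter (fun x => x ∈ Finset.univ.filter (fun x => (l x).1 = false)),
        s (l x).2 := by
  rw [← Finset.prod_fiberwise _ (fun x => (l x).2) (fun x => s (l x).2)]
  refine Finset.prod_congr rfl fun z _ => ?_
  have h1 : ∏ x ∈ (H.filter (fun x => x ∈ Finset.univ.filter (fun x => (l x).1 = false))).filter
      (fun x => (l x).2 = z), s (l x).2 = ∏ _x ∈ (H.filter (fun x => x ∈ Finset.univ.filter
        (fun x => (l x).1 = false))).filter (fun x => (l x).2 = z), s z := by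
    refine Finset.prod_congr rfl fun x hx => ?_
    rw [(Finset.mem_filter.mp hx).2]
  rw [h1, Finset.prod_const]
  congr 1
  unfold sm_cnt
  congr 1
  ext x
  simp only [Finset.mem_filter, Finset.mem_univ, true_and, Prod.ext_iff]
  tauto

theorem sm_b5_step (D : Finset β → N → ℕ) (l : β → Bool × γ) (θ κ : ℝ) (hθ : 1 ≤ θ) (hκ : 0 ≤ κ)
    (ih : ∀ A : Finset β, av (fun w : N => θ ^ (D A w)) ≤
      ∏ z : γ, (1 + κ * sm_cnt l A true z) ^ sm_cnt l A false z) (A : Finset (Bool × β)) :
    av (fun w : (β → Bool) × N × N =>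
      θ ^ (D (sm_half A w.1 false) w.2.1 + D (sm_half A w.1 true) w.2.2)) ≤
      ∏ z : γ, (1 + κ / 2 * sm_cnt (fun p : Bool × β => l p.2) A true z) ^
        sm_cnt (fun p : Bool × β => l p.2) A false z := by
  rw [sm_av_net]
  have hθ0 : 0 ≤ θ := by linarith
  let X : Finset β := Finset.univ.filter (fun x => (l x).1 = false)
  let s : Bool → β → (β → Bool) → ℝ := fun r x c => 1 + κ * sm_cnt l (sm_half A c r) true (l x).2
  have hs0 : ∀ r x c, 0 ≤ s r x c := by
    intro r x c
    have : 0 ≤ κ * sm_cnt l (sm_half A c r) true (l x).2 := mul_nonneg hκ (Nat.cast_nonneg _)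
    change 0 ≤ 1 + κ * sm_cnt l (sm_half A c r) true (l x).2
    linarith
  have step1 : ∀ c : β → Bool, av (fun w0 : N => av (fun w1 : N =>
      θ ^ (D (sm_half A c false) w0 + D (sm_half A c true) w1))) ≤
      ∏ x ∈ X, ((if (c x, x) ∈ A then s false x c else 1) *
        (if (!(c x), x) ∈ A then s true x c else 1)) := by
    intro c
    have e1 : (fun w0 : N => av (fun w1 : N =>
        θ ^ (D (sm_half A c false) w0 + D (sm_half A c true) w1))) =
        fun w0 : N => θ ^ (D (sm_half A c false) w0) * av (fun w1 : N =>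
          θ ^ (D (sm_half A c true) w1)) := by
      funext w0
      rw [← sm_av_mul_left]
      congr 1
      funext w1
      rw [pow_add]
    rw [e1, sm_av_mul_right]
    have i0 := ih (sm_half A c false)
    have i1 := ih (sm_half A c true)
    have hp : ∀ r : Bool, 0 ≤ ∏ z : γ, (1 + κ * sm_cnt l (sm_half A c r) true z) ^
        sm_cnt l (sm_half A c r) false z := by
      intro r
      refine Finset.prod_nonneg fun z _ => pow_nonneg ?_ _
      have : 0 ≤ κ * sm_cnt l (sm_half A c r) true z := mul_nonneg hκ (Nat.cast_nonneg _)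
      linarith
    have h3 := mul_le_mul i0 i1 (sm_av_nonneg fun _ => pow_nonneg hθ0 _) (hp false)
    refine h3.trans (le_of_eq ?_)
    rw [sm_fiber l (sm_half A c false) (fun z => 1 + κ * sm_cnt l (sm_half A c false) true z),
      sm_fiber l (sm_half A c true) (fun z => 1 + κ * sm_cnt l (sm_half A c true) true z)]
    exact sm_half_pow A c X (fun r x => s r x c)
  refine (sm_av_mono step1).trans ?_
  have hcnt : ∀ (c : β → Bool) (b : Bool) (z : γ),
      sm_cnt l (sm_half A c false) b z + sm_cnt l (sm_half A c true) b z =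
        sm_cnt (fun p : Bool × β => l p.2) A b z := by
    intro c b z
    exact sm_half_card A c (fun x => l x = (b, z))
  have step2 := sm_sum_prod X
    (fun x b c => ((if (b, x) ∈ A then s false x c else 1) * (if (!b, x) ∈ A then s true x c else 1)))
    (fun x => (1 + κ / 2 * sm_cnt (fun p : Bool × β => l p.2) A true (l x).2) ^
      ((Finset.univ.filter (fun b : Bool => (b, x) ∈ A)).card))
    (fun x b c => by
      apply mul_nonneg <;> split_ifs <;> first | exact hs0 _ _ _ | exact zero_le_one)
    (fun x b c c' hc => by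
      have hh : ∀ r, s r x c = s r x c' := by
        intro r
        change 1 + κ * sm_cnt l (sm_half A c r) true (l x).2 = 1 + κ * sm_cnt l (sm_half A c' r) true (l x).2
        have : sm_cnt l (sm_half A c r) true (l x).2 = sm_cnt l (sm_half A c' r) true (l x).2 := by
          unfold sm_cnt
          congr 1
          ext y
          simp only [Finset.mem_filter, sm_mem_half]
          constructor
          · rintro ⟨h1, h2⟩
            have hy : y ∉ X := by
              intro h
              have := (Finset.mem_filter.mp h).2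
              rw [h2] at this
              simp at this
            rw [hc y hy] at h1
            exact ⟨h1, h2⟩
          · rintro ⟨h1, h2⟩
            have hy : y ∉ X := by
              intro h
              have := (Finset.mem_filter.mp h).2
              rw [h2] at this
              simp at this
            rw [← hc y hy] at h1
            exact ⟨h1, h2⟩
        rw [this]
      rw [hh, hh])
    (fun x _ c => by
      have h1 := sm_pair A x (s false x c) (s true x c)
      have h2 : (s false x c + s true x c) / 2 =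
          1 + κ / 2 * sm_cnt (fun p : Bool × β => l p.2) A true (l x).2 := by
        rw [← hcnt c true (l x).2]
        change ((1 + κ * sm_cnt l (sm_half A c false) true (l x).2) +
          (1 + κ * sm_cnt l (sm_half A c true) true (l x).2)) / 2 = _
        push_cast
        ring
      rw [h2] at h1
      simpa using h1)
  refine step2.trans (le_of_eq ?_)
  rw [← Finset.prod_fiberwise X (fun x => (l x).2)]
  refine Finset.prod_congr rfl fun z _ => ?_
  have h5 : ∏ x ∈ X.filter (fun x => (l x).2 = z),
      (1 + κ / 2 * (sm_cnt (fun p : Bool × β => l p.2) A true (l x).2 : ℝ)) ^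
        ((Finset.univ.filter (fun b : Bool => (b, x) ∈ A)).card) =
      ∏ x ∈ X.filter (fun x => (l x).2 = z),
      (1 + κ / 2 * (sm_cnt (fun p : Bool × β => l p.2) A true z : ℝ)) ^
        ((Finset.univ.filter (fun b : Bool => (b, x) ∈ A)).card) := by
    refine Finset.prod_congr rfl fun x hx => ?_
    rw [(Finset.mem_filter.mp hx).2]
  rw [h5, Finset.prod_pow_eq_pow_sum, sm_card_sum]
  congr 1
  unfold sm_cnt
  congr 1
  ext p
  simp only [X, Finset.mem_filter, Finset.mem_univ, true_and, Prod.ext_iff]

/-- number of pairs both of whose positions are in `A` -/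
def sm_fullA (A : Finset (Bool × β)) : ℕ :=
  (Finset.univ.filter (fun x => (false, x) ∈ A ∧ (true, x) ∈ A)).card

theorem sm_b5_base (A : Finset (Bool × γ)) (θ : ℝ) :
    θ ^ sm_fullA A = ∏ z : γ, (1 + (θ - 1) * sm_cnt (fun p : Bool × γ => p) A true z) ^
      sm_cnt (fun p : Bool × γ => p) A false z := by
  unfold sm_fullA
  rw [Finset.card_filter, ← Finset.prod_pow_eq_pow_sum]
  refine Finset.prod_congr rfl fun z _ => ?_
  have h1 : ∀ b : Bool, sm_cnt (fun p : Bool × γ => p) A b z = if (b, z) ∈ A then 1 else 0 := by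
    intro b
    unfold sm_cnt
    rw [Finset.filter_eq']
    split_ifs <;> simp
  rw [h1, h1]
  by_cases h0 : (false, z) ∈ A <;> by_cases h1 : (true, z) ∈ A <;> simp [h0, h1]

end b5abs

/-- number of full input pairs at the nodes of scale `i`, in terms of the occupied positions -/
def sm_DnA : (t : ℕ) → (i : ℕ) → Finset (Q t) → Net t → ℕ
  | 0, _, _, _ => 0
  | (t + 1), i, A, (c, w0, w1) =>
      (if i = t then sm_fullA (β := Q t) A else 0) +
        (sm_DnA t i (sm_half (β := Q t) A c false) w0 + sm_DnA t i (sm_half (β := Q t) A c true) w1)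

theorem sm_DnA_ge (t i : ℕ) (h : t ≤ i) (A : Finset (Q t)) (w : Net t) : sm_DnA t i A w = 0 := by
  induction t with
  | zero => rfl
  | succ t ih =>
    obtain ⟨c, w0, w1⟩ := w
    have e : sm_DnA (t + 1) i A (c, w0, w1) = (if i = t then sm_fullA (β := Q t) A else 0) +
        (sm_DnA t i (sm_half (β := Q t) A c false) w0 + sm_DnA t i (sm_half (β := Q t) A c true) w1) := rfl
    rw [e, if_neg (by omega), ih (by omega), ih (by omega)]

/-- the sm_low part of a position -/
def sm_low (i : ℕ) : (p : ℕ) → Q (i + 1 + p) → Bool × Q i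
  | 0, x => x
  | (p + 1), x => sm_low i p x.2

theorem sm_b5_pos (i : ℕ) (θ : ℝ) (hθ : 1 ≤ θ) (p : ℕ) (A : Finset (Q (i + 1 + p))) :
    av (fun w : Net (i + 1 + p) => θ ^ sm_DnA (i + 1 + p) i A w) ≤
      ∏ z : Q i, (1 + (θ - 1) / 2 ^ p * sm_cnt (sm_low i p) A true z) ^ sm_cnt (sm_low i p) A false z := by
  induction p with
  | zero =>
    have h1 : (fun w : Net (i + 1) => θ ^ sm_DnA (i + 1) i A w) =
        fun _ => θ ^ sm_fullA (β := Q i) A := by
      funext w
      obtain ⟨c, w0, w1⟩ := w
      have e : sm_DnA (i + 1) i A (c, w0, w1) = (if i = i then sm_fullA (β := Q i) A else 0) +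
        (sm_DnA i i (sm_half (β := Q i) A c false) w0 + sm_DnA i i (sm_half (β := Q i) A c true) w1) := rfl
      rw [e, if_pos rfl, sm_DnA_ge _ _ le_rfl, sm_DnA_ge _ _ le_rfl, add_zero, add_zero]
    have h2 : av (fun w : Net (i + 1) => θ ^ sm_DnA (i + 1) i A w) = θ ^ sm_fullA (β := Q i) A := by
      rw [h1]
      unfold av
      rw [Finset.sum_const, nsmul_eq_mul, Finset.card_univ]
      have : ((Fintype.card (Net (i + 1)) : ℕ) : ℝ) ≠ 0 := by
        exact_mod_cast Fintype.card_ne_zero
      field_simp
    refine (le_of_eq h2).trans (le_of_eq ?_)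
    have h3 := sm_b5_base (γ := Q i) A θ
    rw [pow_zero, div_one]
    exact h3
  | succ p ih =>
    have h := sm_b5_step (β := Q (i + 1 + p)) (N := Net (i + 1 + p)) (γ := Q i)
      (fun A w => sm_DnA (i + 1 + p) i A w) (sm_low i p) θ ((θ - 1) / 2 ^ p) hθ
      (div_nonneg (by linarith) (by positivity)) (fun A => ih A) A
    have e : ∀ (A : Finset (Q (i + 1 + p + 1))) (c : Q (i + 1 + p) → Bool)
        (w0 w1 : Net (i + 1 + p)), sm_DnA (i + 1 + p + 1) i A (c, w0, w1) =
          sm_DnA (i + 1 + p) i (sm_half (β := Q (i + 1 + p)) A c false) w0 +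
            sm_DnA (i + 1 + p) i (sm_half (β := Q (i + 1 + p)) A c true) w1 := by
      intro A c w0 w1
      have e : sm_DnA (i + 1 + p + 1) i A (c, w0, w1) =
        (if i = i + 1 + p then sm_fullA (β := Q (i + 1 + p)) A else 0) +
        (sm_DnA (i + 1 + p) i (sm_half (β := Q (i + 1 + p)) A c false) w0 +
          sm_DnA (i + 1 + p) i (sm_half (β := Q (i + 1 + p)) A c true) w1) := rfl
      rw [e, if_neg (by omega), zero_add]
    have e2 : (fun w : Net (i + 1 + p + 1) => θ ^ sm_DnA (i + 1 + p + 1) i A w) =
        (fun w : (Q (i + 1 + p) → Bool) × Net (i + 1 + p) × Net (i + 1 + p) =>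
        θ ^ (sm_DnA (i + 1 + p) i (sm_half (β := Q (i + 1 + p)) A w.1 false) w.2.1 +
          sm_DnA (i + 1 + p) i (sm_half (β := Q (i + 1 + p)) A w.1 true) w.2.2)) := by
      funext w
      obtain ⟨c, w0, w1⟩ := w
      exact congrArg (fun n => θ ^ n) (e A c w0 w1)
    have h0 : av (fun w : Net (i + 1 + p + 1) => θ ^ sm_DnA (i + 1 + p + 1) i A w) =
      av (α := (Q (i + 1 + p) → Bool) × Net (i + 1 + p) × Net (i + 1 + p)) (fun w =>
        θ ^ (sm_DnA (i + 1 + p) i (sm_half (β := Q (i + 1 + p)) A w.1 false) w.2.1 +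
          sm_DnA (i + 1 + p) i (sm_half (β := Q (i + 1 + p)) A w.1 true) w.2.2)) :=
      congrArg (fun f => av (α := (Q (i + 1 + p) → Bool) × Net (i + 1 + p) × Net (i + 1 + p)) f) e2
    refine (le_of_eq h0).trans (h.trans (le_of_eq ?_))
    have e3 : (θ - 1) / 2 ^ p / 2 = (θ - 1) / 2 ^ (p + 1) := by
      rw [div_div, pow_succ]
    rw [e3]
    rfl

section cards

variable {ι : Type} [Fintype ι] [DecidableEq ι]

theorem sm_full_congr {β : Type} [Fintype β] [DecidableEq β] (I : Finset ι) (x y : ι → β)
    (h : ∀ k ∈ I, x k = y k) : full I x = full I y := by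
  unfold full
  congr 1
  ext z
  simp only [Finset.mem_filter, Finset.mem_univ, true_and]
  rw [Finset.filter_congr (fun k hk => by rw [h k hk])]

theorem sm_Dn_congr (t i : ℕ) (I : Finset ι) (a mu mu' : ι → Q t) (h : ∀ k ∈ I, mu k = mu' k) :
    Dn t i I a mu = Dn t i I a mu' := by
  induction t generalizing I with
  | zero => rfl
  | succ t ih =>
    have e : ∀ m : ι → Q (t + 1), Dn (t + 1) i I a m =
      (if i = t then full I (fun k => (a k).2) else 0) +
        (Dn t i (I.filter (fun k => (m k).1 = false)) (fun k => (a k).2) (fun k => (m k).2) +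
         Dn t i (I.filter (fun k => (m k).1 = true)) (fun k => (a k).2) (fun k => (m k).2)) :=
      fun m => rfl
    rw [e, e]
    have hf : ∀ b : Bool, I.filter (fun k => (mu k).1 = b) = I.filter (fun k => (mu' k).1 = b) := by
      intro b
      exact Finset.filter_congr (fun k hk => by rw [h k hk])
    rw [hf, hf]
    rw [ih _ (fun k => (a k).2) (fun k => (mu k).2) (fun k => (mu' k).2)
        (fun k hk => by rw [h k (Finset.mem_filter.mp hk).1]),
      ih _ (fun k => (a k).2) (fun k => (mu k).2) (fun k => (mu' k).2)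
        (fun k hk => by rw [h k (Finset.mem_filter.mp hk).1])]

theorem sm_full_eq {β : Type} [Fintype β] [DecidableEq β] (I : Finset ι) (a : ι → Bool × β)
    (ha : Set.InjOn a (I : Set ι)) : full I (fun k => (a k).2) = sm_fullA (I.image a) := by
  unfold full sm_fullA
  congr 1
  ext z
  simp only [Finset.mem_filter, Finset.mem_univ, true_and]
  have h1 : (I.filter (fun k => (a k).2 = z)).card =
      ((Finset.univ : Finset Bool).filter (fun b => (b, z) ∈ I.image a)).card := by
    refine Finset.card_bij (fun k _ => (a k).1) ?_ ?_ ?_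
    · intro k hk
      rw [Finset.mem_filter] at hk
      rw [Finset.mem_filter]
      refine ⟨Finset.mem_univ _, Finset.mem_image.mpr ⟨k, hk.1, ?_⟩⟩
      rw [← hk.2]
    · intro k hk k' hk' h
      rw [Finset.mem_filter] at hk hk'
      apply ha hk.1 hk'.1
      exact Prod.ext h (hk.2.trans hk'.2.symm)
    · intro b hb
      rw [Finset.mem_filter, Finset.mem_image] at hb
      obtain ⟨-, k, hk, hkb⟩ := hb
      refine ⟨k, ?_, ?_⟩
      · rw [Finset.mem_filter]
        exact ⟨hk, by rw [hkb]⟩
      · rw [hkb]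
  rw [h1]
  constructor
  · intro h
    have h2 : (Finset.univ : Finset Bool).filter (fun b => (b, z) ∈ I.image a) = Finset.univ := by
      apply Finset.eq_univ_of_card
      have h3 := Finset.card_le_univ
        ((Finset.univ : Finset Bool).filter (fun b => (b, z) ∈ I.image a))
      have h4 : Fintype.card Bool = 2 := rfl
      omega
    have h5 : ∀ b : Bool, (b, z) ∈ I.image a := by
      intro b
      have : b ∈ (Finset.univ : Finset Bool).filter (fun b => (b, z) ∈ I.image a) := by
        rw [h2]; exact Finset.mem_univ _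
      exact (Finset.mem_filter.mp this).2
    exact ⟨h5 false, h5 true⟩
  · rintro ⟨h2, h3⟩
    have h4 : (Finset.univ : Finset Bool).filter (fun b => (b, z) ∈ I.image a) = Finset.univ := by
      apply Finset.filter_true_of_mem
      intro b _
      cases b
      · exact h2
      · exact h3
    rw [h4]
    exact le_refl 2

theorem sm_half_image {β : Type} [Fintype β] [DecidableEq β] (I : Finset ι) (a : ι → Bool × β)
    (c : β → Bool) (r : Bool) :
    (I.filter (fun k => xor (a k).1 (c (a k).2) = r)).image (fun k => (a k).2) =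
      sm_half (I.image a) c r := by
  ext x
  rw [Finset.mem_image, sm_mem_half, Finset.mem_image]
  constructor
  · rintro ⟨k, hk, rfl⟩
    rw [Finset.mem_filter] at hk
    refine ⟨k, hk.1, ?_⟩
    apply Prod.ext
    · rw [← hk.2]; simp
    · rfl
  · rintro ⟨k, hk, hkx⟩
    refine ⟨k, ?_, by rw [hkx]⟩
    rw [Finset.mem_filter]
    refine ⟨hk, ?_⟩
    rw [hkx]; simp

theorem sm_half_inj {β : Type} (I : Finset ι) (a : ι → Bool × β) (c : β → Bool)
    (ha : Set.InjOn a (I : Set ι)) (r : Bool) :
    Set.InjOn (fun k => (a k).2)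
      ((I.filter (fun k => xor (a k).1 (c (a k).2) = r) : Finset ι) : Set ι) := by
  intro k hk k' hk' h
  have hk1 := Finset.mem_filter.mp (Finset.mem_coe.mp hk)
  have hk1' := Finset.mem_filter.mp (Finset.mem_coe.mp hk')
  simp only at h
  apply ha hk1.1 hk1'.1
  apply Prod.ext _ h
  have h2 := hk1.2.trans hk1'.2.symm
  rw [h] at h2
  simpa using h2

theorem sm_Dn (t i : ℕ) (I : Finset ι) (a : ι → Q t) (ha : Set.InjOn a (I : Set ι)) (w : Net t) :
    Dn t i I a (fun k => Rn t w (a k)) = sm_DnA t i (I.image a) w := by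
  induction t generalizing I with
  | zero => rfl
  | succ t ih =>
    obtain ⟨c, w0, w1⟩ := w
    have e1 : sm_DnA (t + 1) i (I.image a) (c, w0, w1) =
      (if i = t then sm_fullA (β := Q t) (I.image a) else 0) +
        (sm_DnA t i (sm_half (β := Q t) (I.image a) c false) w0 +
          sm_DnA t i (sm_half (β := Q t) (I.image a) c true) w1) := rfl
    have e2 : ∀ m : ι → Q (t + 1), Dn (t + 1) i I a m =
      (if i = t then full I (fun k => (a k).2) else 0) +
        (Dn t i (I.filter (fun k => (m k).1 = false)) (fun k => (a k).2) (fun k => (m k).2) +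
         Dn t i (I.filter (fun k => (m k).1 = true)) (fun k => (a k).2) (fun k => (m k).2)) :=
      fun m => rfl
    rw [e1, e2]
    have hR : ∀ k, Rn (t + 1) (c, w0, w1) (a k) =
        (xor (a k).1 (c (a k).2), Rn t (if xor (a k).1 (c (a k).2) then w1 else w0) (a k).2) :=
      fun k => Rn_succ_apply t c w0 w1 (a k).1 (a k).2
    have hf : ∀ (r : Bool), I.filter (fun k => (Rn (t + 1) (c, w0, w1) (a k)).1 = r) =
        I.filter (fun k => xor (a k).1 (c (a k).2) = r) := by
      intro r
      exact Finset.filter_congr (fun k _ => by rw [hR k])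
    have hf2 : full I (fun k => (a k).2) = sm_fullA (β := Q t) (I.image a) :=
      sm_full_eq (β := Q t) I a ha
    rw [hf, hf, hf2]
    have hc : ∀ (r : Bool) (w : Net t), (if r then w1 else w0) = w →
        Dn t i (I.filter (fun k => xor (a k).1 (c (a k).2) = r)) (fun k => (a k).2)
          (fun k => (Rn (t + 1) (c, w0, w1) (a k)).2) =
        sm_DnA t i (sm_half (β := Q t) (I.image a) c r) w := by
      intro r w hw
      rw [sm_Dn_congr t i _ (fun k => (a k).2) (fun k => (Rn (t + 1) (c, w0, w1) (a k)).2)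
        (fun k => Rn t w (a k).2) ?_]
      · rw [ih (I.filter (fun k => xor (a k).1 (c (a k).2) = r)) (fun k => (a k).2)
          (sm_half_inj (β := Q t) I a c ha r) w]
        exact congrArg (fun A => sm_DnA t i A w) (sm_half_image (β := Q t) I a c r)
      · intro k hk
        rw [hR k, (Finset.mem_filter.mp hk).2]
        simp only
        rw [hw]
    rw [hc false w0 rfl, hc true w1 rfl]

theorem b5 (t i : ℕ) (hi : i < t) (I : Finset ι) (a : ι → Q t) (ha : Set.InjOn a (I : Set ι))
    (θ : ℝ) (hθ : 1 ≤ θ) :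
    av (fun w' : Net t => θ ^ (Dn t i I a (fun k => Rn t w' (a k)))) ≤
      (1 + (θ - 1) * 2 ^ (i + 1) * I.card / 2 ^ t) ^ I.card := by
  obtain ⟨p, rfl⟩ : ∃ p, t = i + 1 + p := ⟨t - (i + 1), by omega⟩
  have h1 : (fun w' : Net (i + 1 + p) => θ ^ (Dn (i + 1 + p) i I a (fun k =>
      Rn (i + 1 + p) w' (a k)))) = fun w' => θ ^ sm_DnA (i + 1 + p) i (I.image a) w' := by
    funext w
    rw [sm_Dn _ _ _ _ ha]
  rw [h1]
  refine (sm_b5_pos i θ hθ p (I.image a)).trans ?_
  have hκ : 0 ≤ (θ - 1) / 2 ^ p := div_nonneg (by linarith) (by positivity)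
  have hB1 : (1 : ℝ) ≤ 1 + (θ - 1) / 2 ^ p * I.card := by
    have := mul_nonneg hκ (Nat.cast_nonneg (α := ℝ) I.card)
    linarith
  have h2 : ∏ z : Q i, (1 + (θ - 1) / 2 ^ p * (sm_cnt (sm_low i p) (I.image a) true z : ℝ)) ^
      sm_cnt (sm_low i p) (I.image a) false z ≤
      ∏ z : Q i, (1 + (θ - 1) / 2 ^ p * (I.card : ℝ)) ^ sm_cnt (sm_low i p) (I.image a) false z := by
    refine Finset.prod_le_prod (fun z _ => pow_nonneg ?_ _) (fun z _ => pow_le_pow_left₀ ?_ ?_ _)
    · have := mul_nonneg hκ (Nat.cast_nonneg (α := ℝ) (sm_cnt (sm_low i p) (I.image a) true z))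
      linarith
    · have := mul_nonneg hκ (Nat.cast_nonneg (α := ℝ) (sm_cnt (sm_low i p) (I.image a) true z))
      linarith
    · have h3 : (sm_cnt (sm_low i p) (I.image a) true z : ℝ) ≤ I.card := by
        exact_mod_cast (Finset.card_filter_le _ _).trans Finset.card_image_le
      have := mul_le_mul_of_nonneg_left h3 hκ
      linarith
  refine h2.trans ?_
  rw [Finset.prod_pow_eq_pow_sum]
  have h4 : ∑ z : Q i, sm_cnt (sm_low i p) (I.image a) false z ≤ I.card := by
    unfold sm_cnt
    have h5 : ∑ z : Q i, ((I.image a).filter (fun x => sm_low i p x = (false, z))).card ≤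
        ∑ z : Q i, ((I.image a).filter (fun x => (sm_low i p x).2 = z)).card := by
      refine Finset.sum_le_sum fun z _ => Finset.card_le_card ?_
      intro x hx
      rw [Finset.mem_filter] at hx ⊢
      exact ⟨hx.1, by rw [hx.2]⟩
    refine h5.trans ?_
    rw [← Finset.card_eq_sum_card_fiberwise (fun x _ => Finset.mem_coe.mpr (Finset.mem_univ _))]
    exact Finset.card_image_le
  refine (pow_le_pow_right₀ hB1 h4).trans (le_of_eq ?_)
  have h6 : (θ - 1) / 2 ^ p * (I.card : ℝ) = (θ - 1) * 2 ^ (i + 1) * I.card / 2 ^ (i + 1 + p) := by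
    rw [pow_add]
    field_simp
    ring
  rw [h6]

end cards

end Vale.Agent.P162
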