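import Vale.Agent.P162.QS2

open Equiv

set_option linter.unusedSectionVars false

namespace Vale.Agent.P162.QS

open Vale.Agent.P162

section link

variable {β K Ω : Type} [Fintype β] [DecidableEq β] [Fintype K] [DecidableEq K] [Zero K]
variable [Fintype Ω] [Nonempty Ω]

/-- one more outer layer -/
def PS (P : Ω → Perm β) (o : (β → Bool) × Ω × Ω) : Perm (Bool × β) :=
  iota false (P o.2.1) * iota true (P o.2.2) * hflip o.1

theorem PS_apply (P : Ω → Perm β) (o : (β → Bool) × Ω × Ω) (b : Bool) (z : β) :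
    PS P o (b, z) = (xor b (o.1 z), P (if xor b (o.1 z) then o.2.2 else o.2.1) z) := by
  unfold PS
  rw [Perm.mul_apply, Perm.mul_apply]
  have h1 : hflip o.1 (b, z) = (xor b (o.1 z), z) := rfl
  rw [h1]
  cases h : xor b (o.1 z) <;> simp [iota]

def splitK : (Bool × β → K) ≃ (β → K) × (β → K) where
  toFun c := (fun x => c (false, x), fun x => c (true, x))
  invFun p := fun y => if y.1 then p.2 y.2 else p.1 y.2
  left_inv := by
    intro c
    funext ⟨b, x⟩
    cases b <;> simp
  right_inv := by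
    intro p
    simp

def sliceD (b : Bool) (D : Finset (Bool × β)) : Finset β := Finset.univ.filter (fun x => (b, x) ∈ D)

theorem wt_split (r : ℝ) (c : Bool × β → K) :
    wt r c = wt r (fun x => c (false, x)) * wt r (fun x => c (true, x)) := by
  unfold wt
  rw [Fintype.prod_prod_type, Fintype.prod_bool, mul_comm]

theorem Ev_link (P : Ω → Perm β) (c : Bool × β → K) (q : (β → Bool) × (β → Bool)) (p0 p1 : Ω × Ω) :
    (∀ z, c (PS P (q.1, p0.1, p1.1) z) = c (PS P (q.2, p0.2, p1.2) z)) ↔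
      Ev P (fun x => c (false, x)) (fun x => c (true, x)) q p0 p1 := by
  unfold Ev
  constructor
  · intro h z
    have hf := h (false, z)
    have ht := h (true, z)
    rw [PS_apply, PS_apply] at hf ht
    constructor
    · intro hz
      cases h1 : q.1 z <;> rw [h1] at hz <;> simp [h1, ← hz] at hf ht
      · exact ⟨hf, ht⟩
      · exact ⟨ht, hf⟩
    · intro hz
      cases h1 : q.1 z <;> cases h2 : q.2 z
      · rw [h1, h2] at hz; exact absurd rfl hz
      · simp [h1, h2] at hf ht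
        exact ⟨hf, ht⟩
      · simp [h1, h2] at hf ht
        exact ⟨ht, hf⟩
      · rw [h1, h2] at hz; exact absurd rfl hz
  · rintro h ⟨b, z⟩
    obtain ⟨h1, h2⟩ := h z
    rw [PS_apply, PS_apply]
    cases h3 : q.1 z <;> cases h4 : q.2 z <;> cases b <;> simp [h3, h4] at h1 h2 ⊢ <;> tauto

def rearr : ((β → Bool) × (β → Bool)) × ((Ω × Ω) × (Ω × Ω)) ≃
    ((β → Bool) × Ω × Ω) × ((β → Bool) × Ω × Ω) where
  toFun x := ((x.1.1, x.2.1.1, x.2.2.1), (x.1.2, x.2.1.2, x.2.2.2))
  invFun y := ((y.1.1, y.2.1), ((y.1.2.1, y.2.2.1), (y.1.2.2, y.2.2.2)))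
  left_inv := by
    rintro ⟨⟨a, b⟩, ⟨⟨c, d⟩, ⟨e, f⟩⟩⟩
    rfl
  right_inv := by
    rintro ⟨⟨a, b, c⟩, ⟨d, e, f⟩⟩
    rfl

theorem link (P : Ω → Perm β) (r : ℝ) (D : Finset (Bool × β)) :
    Phi K (PS P) r D = GG K P r (sliceD false D) (sliceD true D) := by
  unfold GG
  have e1 : ∀ q : (β → Bool) × (β → Bool), av (fun p0 : Ω × Ω => av (fun p1 : Ω × Ω =>
      ∑ c0 ∈ (FS (sliceD false D) : Finset (β → K)), ∑ c1 ∈ (FS (sliceD true D) : Finset (β → K)),
      wt r c0 * wt r c1 * (if Ev P c0 c1 q p0 p1 then (1 : ℝ) else 0)))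
      = av (fun p : (Ω × Ω) × (Ω × Ω) => 
      ∑ c0 ∈ (FS (sliceD false D) : Finset (β → K)), ∑ c1 ∈ (FS (sliceD true D) : Finset (β → K)),
      wt r c0 * wt r c1 * (if Ev P c0 c1 q p.1 p.2 then (1 : ℝ) else 0)) := by
    intro q
    exact (Avg.prod (fun p : (Ω × Ω) × (Ω × Ω) => 
      ∑ c0 ∈ (FS (sliceD false D) : Finset (β → K)), ∑ c1 ∈ (FS (sliceD true D) : Finset (β → K)),
      wt r c0 * wt r c1 * (if Ev P c0 c1 q p.1 p.2 then (1 : ℝ) else 0))).symm
  rw [show (fun q : (β → Bool) × (β → Bool) => _) = _ from funext e1]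
  have e2 := Avg.prod (fun x : ((β → Bool) × (β → Bool)) × ((Ω × Ω) × (Ω × Ω)) => 
      ∑ c0 ∈ (FS (sliceD false D) : Finset (β → K)), ∑ c1 ∈ (FS (sliceD true D) : Finset (β → K)),
      wt r c0 * wt r c1 * (if Ev P c0 c1 x.1 x.2.1 x.2.2 then (1 : ℝ) else 0))
  refine Eq.trans ?_ e2
  unfold Phi
  have e3 : ∀ c : Bool × β → K, wt r c *
      av (fun p : ((β → Bool) × Ω × Ω) × ((β → Bool) × Ω × Ω) =>
        if ∀ z, c (PS P p.1 z) = c (PS P p.2 z) then (1 : ℝ) else 0)
      = av (fun x : ((β → Bool) × (β → Bool)) × ((Ω × Ω) × (Ω × Ω)) => wt r c *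
        (if Ev P (fun x => c (false, x)) (fun x => c (true, x)) x.1 x.2.1 x.2.2 then (1 : ℝ) else 0)) := by
    intro c
    rw [Avg.const_mul]
    congr 1
    rw [← av_equiv rearr]
    apply congrArg av
    funext x
    apply if_congr _ rfl rfl
    exact Ev_link P c x.1 x.2.1 x.2.2
  rw [Finset.sum_congr rfl (fun c _ => e3 c), ← Avg.sum]
  apply congrArg av
  funext x
  rw [← Finset.sum_product']
  apply Finset.sum_equiv splitK
  · intro c
    rw [Finset.mem_product, mem_FS, mem_FS, mem_FS]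
    constructor
    · intro h
      refine ⟨fun z hz => h (false, z) ?_, fun z hz => h (true, z) ?_⟩
      · simpa [sliceD] using hz
      · simpa [sliceD] using hz
    · rintro ⟨h1, h2⟩ ⟨b, z⟩ hz
      cases b
      · exact h1 z (by simpa [sliceD] using hz)
      · exact h2 z (by simpa [sliceD] using hz)
  · intro c _
    rw [wt_split]
    rfl

theorem card_slice (D : Finset (Bool × β)) : (sliceD false D).card + (sliceD true D).card = D.card := by
  have h1 : D.card = ∑ z : Bool × β, if z ∈ D then 1 else 0 := by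
    rw [← Finset.card_filter]
    congr 1
    ext z
    simp
  rw [h1, Fintype.sum_prod_type, Fintype.sum_bool, add_comm]
  unfold sliceD
  rw [Finset.card_filter, Finset.card_filter]

/-- geometric mean step -/
theorem Phi_succ (P : Ω → Perm β) (a : ℝ) (ha : 0 ≤ a)
    (hP : ∀ (D : Finset β) (r : ℝ), 0 ≤ r → r ≤ 1 → Phi K P r D ≤ (1 + a * r) ^ D.card)
    (D : Finset (Bool × β)) (r : ℝ) (hr0 : 0 ≤ r) (hr1 : r ≤ 1) :
    Phi K (PS P) r D ≤ (1 + a * (3 / 4) * r) ^ D.card := by
  have h1 := stepG (K := K) P r hr0 hr1 (sliceD false D) (sliceD true D)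
  have h2 := stepG (K := K) P r hr0 hr1 (sliceD true D) (sliceD false D)
  rw [← link] at h1
  rw [GG_symm, ← link] at h2
  have hr2 : 0 ≤ r / 2 := by linarith
  have hr2' : r / 2 ≤ 1 := by linarith
  have nA := Phi_nonneg (K := K) P hr0 (sliceD true D)
  have nB := Phi_nonneg (K := K) P hr2 (sliceD false D)
  have nA' := Phi_nonneg (K := K) P hr0 (sliceD false D)
  have nB' := Phi_nonneg (K := K) P hr2 (sliceD true D)
  have nX := Phi_nonneg (K := K) (PS P) hr0 D
  have bA := hP (sliceD true D) r hr0 hr1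
  have bB := hP (sliceD false D) (r / 2) hr2 hr2'
  have bA' := hP (sliceD false D) r hr0 hr1
  have bB' := hP (sliceD true D) (r / 2) hr2 hr2'
  have har : 0 ≤ a * r := mul_nonneg ha hr0
  have p1 : 0 ≤ 1 + a * r := by linarith
  have p2 : 0 ≤ 1 + a * (r / 2) := by
    have : a * (r / 2) = a * r / 2 := by ring
    rw [this]; linarith
  have p3 : 0 ≤ 1 + a * (3 / 4) * r := by
    have : a * (3 / 4) * r = a * r * (3 / 4) := by ring
    rw [this]; linarith
  have hsq : Phi K (PS P) r D ^ 2 ≤ ((1 + a * (3 / 4) * r) ^ D.card) ^ 2 := by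
    calc Phi K (PS P) r D ^ 2 = Phi K (PS P) r D * Phi K (PS P) r D := by ring
      _ ≤ (Phi K P r (sliceD true D) * Phi K P (r / 2) (sliceD false D)) *
          (Phi K P r (sliceD false D) * Phi K P (r / 2) (sliceD true D)) :=
          mul_le_mul h1 h2 nX (mul_nonneg nA nB)
      _ ≤ ((1 + a * r) ^ (sliceD true D).card * (1 + a * (r / 2)) ^ (sliceD false D).card) *
          ((1 + a * r) ^ (sliceD false D).card * (1 + a * (r / 2)) ^ (sliceD true D).card) := by
          apply mul_le_mul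
          · exact mul_le_mul bA bB nB (pow_nonneg p1 _)
          · exact mul_le_mul bA' bB' nB' (pow_nonneg p1 _)
          · exact mul_nonneg nA' nB'
          · exact mul_nonneg (pow_nonneg p1 _) (pow_nonneg p2 _)
      _ = ((1 + a * r) * (1 + a * (r / 2))) ^ D.card := by
          rw [← card_slice D, mul_pow, pow_add, pow_add]
          ring
      _ ≤ ((1 + a * (3 / 4) * r) ^ 2) ^ D.card := by
          apply pow_le_pow_left₀ (mul_nonneg p1 p2)
          nlinarith [sq_nonneg (a * r)]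
      _ = ((1 + a * (3 / 4) * r) ^ D.card) ^ 2 := pow_right_comm _ _ _
  exact (pow_le_pow_iff_left₀ nX (pow_nonneg p3 _) (by norm_num)).1 hsq

theorem Phi_one (P : Ω → Perm β) (hP : ∀ o, P o = 1) (r : ℝ) (D : Finset β) :
    Phi K P r D = (1 + ((Fintype.card K : ℝ) - 1) * r) ^ D.card := by
  unfold Phi
  rw [← sum_wt]
  apply Finset.sum_congr rfl
  intro c _
  have : (fun p : Ω × Ω => if ∀ z, c (P p.1 z) = c (P p.2 z) then (1 : ℝ) else 0) = fun _ => 1 := by
    funext p
    rw [if_pos]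
    intro z
    rw [hP, hP]
  rw [this, Avg.const, mul_one]

end link

theorem Phi_Outp {K : Type} [Fintype K] [DecidableEq K] [Zero K] (w : ℕ) :
    ∀ (s : ℕ) (_ : w ≤ s) (D : Finset (Q s)) (r : ℝ) (_ : 0 ≤ r) (_ : r ≤ 1),
      haveI : Nonempty (Out s w) := ⟨(instInhabitedOut s w).default⟩
      Phi K (Outp s w) r D ≤ (1 + ((Fintype.card K : ℝ) - 1) * (3 / 4) ^ w * r) ^ D.card := by
  have hK : (0 : ℝ) ≤ (Fintype.card K : ℝ) - 1 := by
    have : 1 ≤ Fintype.card K := Fintype.card_pos_iff.2 ⟨0⟩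
    have : (1 : ℝ) ≤ (Fintype.card K : ℝ) := by exact_mod_cast this
    linarith
  induction w with
  | zero =>
    intro s _ D r hr0 hr1
    have : Nonempty (Out s 0) := ⟨(instInhabitedOut s 0).default⟩
    have h1 : ∀ o, Outp s 0 o = 1 := by
      intro o
      cases s <;> rfl
    rw [Phi_one (Outp s 0) h1, pow_zero, mul_one]
  | succ w ih =>
    intro s hs D r hr0 hr1
    cases s with
    | zero => exact absurd hs (by omega)
    | succ s =>
      have : Nonempty (Out s w) := ⟨(instInhabitedOut s w).default⟩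
      have h1 := Phi_succ (K := K) (Outp s w) (((Fintype.card K : ℝ) - 1) * (3 / 4) ^ w)
        (mul_nonneg hK (by positivity)) (fun D r h0 h1 => ih s (by omega) D r h0 h1) D r hr0 hr1
      have h2 : ((Fintype.card K : ℝ) - 1) * (3 / 4) ^ w * (3 / 4) = ((Fintype.card K : ℝ) - 1) * (3 / 4) ^ (w + 1) := by
        rw [pow_succ]; ring
      rw [h2] at h1
      exact h1

end Vale.Agent.P162.QS

namespace Vale.Agent.P162

/-- Lemma Q*: colourings that agree after two independent outer networks -/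
theorem qstar {K : Type} [Fintype K] [DecidableEq K] [Zero K] (s w : ℕ) (hw : w ≤ s) (D : Finset (Q s))
    (r : ℝ) (hr0 : 0 ≤ r) (hr1 : r ≤ 1) :
    ∑ c ∈ (Finset.univ : Finset (Q s → K)).filter (fun c => ∀ z, z ∉ D → c z = 0),
      r ^ (Finset.univ.filter (fun z => c z ≠ 0)).card *
      av (fun p : Out s w × Out s w => if (∀ z, c (Outp s w p.1 z) = c (Outp s w p.2 z)) then (1 : ℝ) else 0)
    ≤ (1 + ((Fintype.card K : ℝ) - 1) * r * (3 / 4) ^ w) ^ D.card := by
  have : Nonempty (Out s w) := ⟨(instInhabitedOut s w).default⟩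
  have h := QS.Phi_Outp (K := K) w s hw D r hr0 hr1
  have h2 : ((Fintype.card K : ℝ) - 1) * r * (3 / 4) ^ w = ((Fintype.card K : ℝ) - 1) * (3 / 4) ^ w * r := by ring
  rw [h2]
  refine le_trans (le_of_eq ?_) h
  unfold QS.Phi QS.FS
  apply Finset.sum_congr rfl
  intro c _
  rw [QS.wt_eq]

end Vale.Agent.P162
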