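import Vale.Agent.P162.WinB
import Vale.Agent.P162.QS

open Equiv

set_option linter.unusedSectionVars false

namespace Vale.Agent.P162

section cards

variable {ι : Type} [Fintype ι] [DecidableEq ι]

/-- coincidence probability of a coloring -/
noncomputable def winA {K : Type} [DecidableEq K] (t w : ℕ) (c : Q t → K) : ℝ :=
  av (fun p : Out t w × Out t w =>
    if (∀ z, c (Outp t w p.1 z) = c (Outp t w p.2 z)) then (1 : ℝ) else 0)

theorem winA_nonneg {K : Type} [DecidableEq K] (t w : ℕ) (c : Q t → K) : 0 ≤ winA t w c := by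
  unfold winA
  apply win_av_nonneg
  intro p
  split_ifs <;> norm_num

theorem win_block (t w k : ℕ) (hw : w ≤ t) (I : Finset ι) (x v : ι → Q t) (m : ι → Bool)
    (h1 : Set.InjOn (fun k => (m k, x k)) (I : Set ι)) (h2 : Set.InjOn (fun k => (m k, v k)) (I : Set ι))
    (r : Bool) :
    ∑ f ∈ (Finset.univ : Finset (Q t → Fin k → ZMod 2)).filter (fun f => ∀ z, z ∉ winD I x → f z = 0),
      winA t w (winE I x v m r f) ≤ (1 + ((2 : ℝ) ^ k - 1) * (3 / 4) ^ w) ^ (full I x) := by
  have hq := qstar (K := Fin k → ZMod 2) t w hw (winDr I x v m r) 1 zero_le_one le_rfl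
  have hcard : (Fintype.card (Fin k → ZMod 2) : ℝ) = 2 ^ k := by
    rw [Fintype.card_fun, ZMod.card, Fintype.card_fin]
    push_cast
    rfl
  rw [hcard, mul_one] at hq
  have hk : (1 : ℝ) ≤ 2 ^ k := one_le_pow₀ (by norm_num)
  have h0 : (0 : ℝ) ≤ ((2 : ℝ) ^ k - 1) * (3 / 4) ^ w :=
    mul_nonneg (by linarith) (by positivity)
  calc ∑ f ∈ (Finset.univ : Finset (Q t → Fin k → ZMod 2)).filter (fun f => ∀ z, z ∉ winD I x → f z = 0),
      winA t w (winE I x v m r f)
      = ∑ c ∈ ((Finset.univ : Finset (Q t → Fin k → ZMod 2)).filter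
          (fun f => ∀ z, z ∉ winD I x → f z = 0)).image (winE I x v m r), winA t w c := by
        rw [Finset.sum_image]
        intro f hf f' hf' h
        rw [Finset.mem_coe, Finset.mem_filter] at hf hf'
        exact winE_injOn I x v m h1 h2 r f f' hf.2 hf'.2 h
    _ ≤ ∑ c ∈ (Finset.univ : Finset (Q t → Fin k → ZMod 2)).filter
          (fun c => ∀ z, z ∉ winDr I x v m r → c z = 0), winA t w c := by
        apply Finset.sum_le_sum_of_subset_of_nonneg
        · intro c hc
          obtain ⟨f, hf, rfl⟩ := Finset.mem_image.1 hc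
          rw [Finset.mem_filter] at hf ⊢
          exact ⟨Finset.mem_univ _, fun z hz => winE_supp I x v m r f hf.2 z hz⟩
        · intro c _ _
          exact winA_nonneg t w c
    _ ≤ (1 + ((2 : ℝ) ^ k - 1) * (3 / 4) ^ w) ^ (winDr I x v m r).card := by
        refine le_trans (le_of_eq ?_) hq
        refine Finset.sum_congr rfl (fun c _ => ?_)
        rw [one_pow, one_mul]
        rfl
    _ ≤ (1 + ((2 : ℝ) ^ k - 1) * (3 / 4) ^ w) ^ (full I x) :=
        pow_le_pow_right₀ (by linarith) (winDr_card I x v m h1 r)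

/-- PIECE B3 (file Window.lean, uses qstar) -/
theorem b3 (t w k : ℕ) (hw : w ≤ t) (I : Finset ι) (x z : ι → Q t) (m : ι → Bool)
    (h1 : Set.InjOn (fun k => (m k, x k)) (I : Set ι)) (h2 : Set.InjOn (fun k => (m k, z k)) (I : Set ι))
    (w0 w1 : Net t) :
    av (fun o : Out t w × Out t w =>
      ((cc I x (fun κ => (Rn t (if m κ then comb t w o.2 w1 else comb t w o.1 w0))⁻¹ (z κ)) : ℕ) : ℝ) ^ k)
      ≤ (1 + ((2 : ℝ) ^ k - 1) * (3 / 4) ^ w) ^ (full I x) := by
  set v : ι → Q t := fun κ => (Inn t w (if m κ then w1 else w0))⁻¹ (z κ) with hv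
  have h2' : Set.InjOn (fun k => (m k, v k)) (I : Set ι) := by
    intro a ha b hb hab
    obtain ⟨e1, e2⟩ := Prod.mk.inj hab
    apply h2 ha hb
    refine Prod.ext e1 ?_
    rw [hv] at e2
    simp only [e1] at e2
    exact (Equiv.injective _) e2
  have hpt : ∀ o : Out t w × Out t w,
      ((cc I x (fun κ => (Rn t (if m κ then comb t w o.2 w1 else comb t w o.1 w0))⁻¹ (z κ)) : ℕ) : ℝ) ^ k
      ≤ ∑ f ∈ (Finset.univ : Finset (Q t → Fin k → ZMod 2)).filter
          (fun f => ∀ z, z ∉ winD I x → f z = 0),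
        (if (fun q => winE I x v m false f (Outp t w o.1 q)) =
          (fun q => winE I x v m true f (Outp t w o.2 q)) then (1 : ℝ) else 0) := by
    intro o
    have hy : (fun κ => (Rn t (if m κ then comb t w o.2 w1 else comb t w o.1 w0))⁻¹ (z κ)) =
        fun κ => ((fun r : Bool => Outp t w (if r then o.2 else o.1)) (m κ))⁻¹ (v κ) := by
      funext κ
      rw [hv]
      cases hm : m κ
      · simp only [hm, Bool.false_eq_true, if_false]
        rw [win_Rn_comb, mul_inv_rev, Perm.mul_apply]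
      · simp only [hm, if_true]
        rw [win_Rn_comb, mul_inv_rev, Perm.mul_apply]
    rw [hy]
    have hle := win_cc_le k I x v m h1 (fun r : Bool => Outp t w (if r then o.2 else o.1))
    rw [← Nat.cast_pow]
    refine le_trans (Nat.cast_le.2 hle) (le_of_eq ?_)
    rw [← Finset.sum_filter, Finset.sum_const, nsmul_eq_mul, mul_one, Finset.filter_filter]
    congr 2
    ext f
    simp only [Finset.mem_filter, funext_iff, Bool.false_eq_true, if_false, if_true]
  calc av (fun o : Out t w × Out t w =>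
      ((cc I x (fun κ => (Rn t (if m κ then comb t w o.2 w1 else comb t w o.1 w0))⁻¹ (z κ)) : ℕ) : ℝ) ^ k)
      ≤ av (fun o : Out t w × Out t w =>
        ∑ f ∈ (Finset.univ : Finset (Q t → Fin k → ZMod 2)).filter
          (fun f => ∀ z, z ∉ winD I x → f z = 0),
        (if (fun q => winE I x v m false f (Outp t w o.1 q)) =
          (fun q => winE I x v m true f (Outp t w o.2 q)) then (1 : ℝ) else 0)) := win_av_mono hpt
    _ = ∑ f ∈ (Finset.univ : Finset (Q t → Fin k → ZMod 2)).filter
          (fun f => ∀ z, z ∉ winD I x → f z = 0),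
        av (fun o : Out t w × Out t w =>
          (if (fun q => winE I x v m false f (Outp t w o.1 q)) =
          (fun q => winE I x v m true f (Outp t w o.2 q)) then (1 : ℝ) else 0)) := win_av_sum _ _
    _ ≤ ∑ f ∈ (Finset.univ : Finset (Q t → Fin k → ZMod 2)).filter
          (fun f => ∀ z, z ∉ winD I x → f z = 0),
        (winA t w (winE I x v m false f) + winA t w (winE I x v m true f)) / 2 := by
        refine Finset.sum_le_sum (fun f _ => ?_)
        have h := win_amgm (fun (o : Out t w) (q : Q t) => winE I x v m false f (Outp t w o q))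
          (fun (o : Out t w) (q : Q t) => winE I x v m true f (Outp t w o q))
        refine h.trans (le_of_eq ?_)
        unfold winA
        congr 2
        · congr 1
          funext p
          simp only [funext_iff]
        · congr 1
          funext p
          simp only [funext_iff]
    _ = (∑ f ∈ (Finset.univ : Finset (Q t → Fin k → ZMod 2)).filter
          (fun f => ∀ z, z ∉ winD I x → f z = 0), winA t w (winE I x v m false f) +
        ∑ f ∈ (Finset.univ : Finset (Q t → Fin k → ZMod 2)).filter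
          (fun f => ∀ z, z ∉ winD I x → f z = 0), winA t w (winE I x v m true f)) / 2 := by
        rw [← Finset.sum_div, Finset.sum_add_distrib]
    _ ≤ (1 + ((2 : ℝ) ^ k - 1) * (3 / 4) ^ w) ^ (full I x) := by
        have e1 := win_block t w k hw I x v m h1 h2' false
        have e2 := win_block t w k hw I x v m h1 h2' true
        linarith

theorem win_cc_congr {β : Type} [Fintype β] [DecidableEq β] (I : Finset ι) (x y x' y' : ι → β)
    (hx : ∀ k ∈ I, x k = x' k) (hy : ∀ k ∈ I, y k = y' k) : cc I x y = cc I x' y' := by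
  unfold cc
  congr 1
  apply Finset.filter_congr
  intro u hu
  rw [Finset.mem_powerset] at hu
  have e1 : ∀ z, u.filter (fun k => x k = z) = u.filter (fun k => x' k = z) := fun z =>
    Finset.filter_congr (fun k hk => by rw [hx k (hu hk)])
  have e2 : ∀ z, u.filter (fun k => y k = z) = u.filter (fun k => y' k = z) := fun z =>
    Finset.filter_congr (fun k hk => by rw [hy k (hu hk)])
  simp only [e1, e2]

theorem win_full_congr {β : Type} [Fintype β] [DecidableEq β] (I : Finset ι) (x x' : ι → β)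
    (hx : ∀ k ∈ I, x k = x' k) : full I x = full I x' := by
  unfold full
  congr 1
  apply Finset.filter_congr
  intro z _
  rw [Finset.filter_congr (fun k hk => by rw [hx k hk])]

theorem win_Gx_congr : ∀ (t : ℕ) (e : ℕ → ℝ) (I : Finset ι) (a a' mu mu' : ι → Q t) (n : Net t)
    (_ : ∀ k ∈ I, a k = a' k) (_ : ∀ k ∈ I, mu k = mu' k), Gx t e I a mu n = Gx t e I a' mu' n
  | 0, _, _, _, _, _, _, _, _, _ => rfl
  | (t + 1), e, I, a, a', mu, mu', (c, w0, w1), ha, hmu => by
    change ((cc I (fun k => (a k).2) (fun k => (Rn t (if (mu k).1 then w1 else w0))⁻¹ (mu k).2) : ℕ) : ℝ) ^ (e t) *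
        (Gx t e (I.filter (fun k => (mu k).1 = false)) (fun k => (a k).2) (fun k => (mu k).2) w0 *
         Gx t e (I.filter (fun k => (mu k).1 = true)) (fun k => (a k).2) (fun k => (mu k).2) w1) =
      ((cc I (fun k => (a' k).2) (fun k => (Rn t (if (mu' k).1 then w1 else w0))⁻¹ (mu' k).2) : ℕ) : ℝ) ^ (e t) *
        (Gx t e (I.filter (fun k => (mu' k).1 = false)) (fun k => (a' k).2) (fun k => (mu' k).2) w0 *
         Gx t e (I.filter (fun k => (mu' k).1 = true)) (fun k => (a' k).2) (fun k => (mu' k).2) w1)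
    have f0 : I.filter (fun k => (mu k).1 = false) = I.filter (fun k => (mu' k).1 = false) :=
      Finset.filter_congr (fun k hk => by rw [hmu k hk])
    have f1 : I.filter (fun k => (mu k).1 = true) = I.filter (fun k => (mu' k).1 = true) :=
      Finset.filter_congr (fun k hk => by rw [hmu k hk])
    rw [f0, f1]
    rw [win_cc_congr I (fun k => (a k).2) (fun k => (Rn t (if (mu k).1 then w1 else w0))⁻¹ (mu k).2)
      (fun k => (a' k).2) (fun k => (Rn t (if (mu' k).1 then w1 else w0))⁻¹ (mu' k).2)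
      (fun k hk => by rw [ha k hk]) (fun k hk => by rw [hmu k hk])]
    rw [win_Gx_congr t e (I.filter (fun k => (mu' k).1 = false)) (fun k => (a k).2) (fun k => (a' k).2)
      (fun k => (mu k).2) (fun k => (mu' k).2) w0
      (fun k hk => by rw [ha k (Finset.mem_filter.1 hk).1])
      (fun k hk => by rw [hmu k (Finset.mem_filter.1 hk).1])]
    rw [win_Gx_congr t e (I.filter (fun k => (mu' k).1 = true)) (fun k => (a k).2) (fun k => (a' k).2)
      (fun k => (mu k).2) (fun k => (mu' k).2) w1
      (fun k hk => by rw [ha k (Finset.mem_filter.1 hk).1])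
      (fun k hk => by rw [hmu k (Finset.mem_filter.1 hk).1])]

theorem win_Dn_congr : ∀ (t i : ℕ) (I : Finset ι) (a a' mu mu' : ι → Q t)
    (_ : ∀ k ∈ I, a k = a' k) (_ : ∀ k ∈ I, mu k = mu' k), Dn t i I a mu = Dn t i I a' mu'
  | 0, _, _, _, _, _, _, _, _ => rfl
  | (t + 1), i, I, a, a', mu, mu', ha, hmu => by
    change (if i = t then full I (fun k => (a k).2) else 0) +
        (Dn t i (I.filter (fun k => (mu k).1 = false)) (fun k => (a k).2) (fun k => (mu k).2) +
         Dn t i (I.filter (fun k => (mu k).1 = true)) (fun k => (a k).2) (fun k => (mu k).2)) =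
      (if i = t then full I (fun k => (a' k).2) else 0) +
        (Dn t i (I.filter (fun k => (mu' k).1 = false)) (fun k => (a' k).2) (fun k => (mu' k).2) +
         Dn t i (I.filter (fun k => (mu' k).1 = true)) (fun k => (a' k).2) (fun k => (mu' k).2))
    have f0 : I.filter (fun k => (mu k).1 = false) = I.filter (fun k => (mu' k).1 = false) :=
      Finset.filter_congr (fun k hk => by rw [hmu k hk])
    have f1 : I.filter (fun k => (mu k).1 = true) = I.filter (fun k => (mu' k).1 = true) :=
      Finset.filter_congr (fun k hk => by rw [hmu k hk])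
    rw [f0, f1, win_full_congr I (fun k => (a k).2) (fun k => (a' k).2) (fun k hk => by rw [ha k hk])]
    rw [win_Dn_congr t i (I.filter (fun k => (mu' k).1 = false)) (fun k => (a k).2) (fun k => (a' k).2)
      (fun k => (mu k).2) (fun k => (mu' k).2)
      (fun k hk => by rw [ha k (Finset.mem_filter.1 hk).1])
      (fun k hk => by rw [hmu k (Finset.mem_filter.1 hk).1])]
    rw [win_Dn_congr t i (I.filter (fun k => (mu' k).1 = true)) (fun k => (a k).2) (fun k => (a' k).2)
      (fun k => (mu k).2) (fun k => (mu' k).2)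
      (fun k hk => by rw [ha k (Finset.mem_filter.1 hk).1])
      (fun k hk => by rw [hmu k (Finset.mem_filter.1 hk).1])]

theorem win_Gx_nonneg : ∀ (t : ℕ) (e : ℕ → ℝ) (I : Finset ι) (a mu : ι → Q t) (n : Net t),
    0 ≤ Gx t e I a mu n
  | 0, _, _, _, _, _ => zero_le_one
  | (t + 1), e, I, a, mu, (c, w0, w1) => by
    refine mul_nonneg (Real.rpow_nonneg (Nat.cast_nonneg _) _)
      (mul_nonneg (win_Gx_nonneg t e _ _ _ w0) (win_Gx_nonneg t e _ _ _ w1))

theorem win_Gx_gap : ∀ (t w : ℕ) (e : ℕ → ℝ) (_ : ∀ i, t - w ≤ i → i < t → e i = 0)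
    (I : Finset ι) (a mu : ι → Q t) (o : Out t w) (n : Net t),
    Gx t e I a mu (comb t w o n) = Gx t e I a mu n
  | 0, 0, _, _, _, _, _, _, _ => rfl
  | (_ + 1), 0, _, _, _, _, _, _, _ => rfl
  | 0, (_ + 1), _, _, _, _, _, _, _ => rfl
  | (t + 1), (w + 1), e, he, I, a, mu, (c, o0, o1), (c', w0, w1) => by
    change ((cc I (fun k => (a k).2) (fun k => (Rn t (if (mu k).1 then comb t w o1 w1
          else comb t w o0 w0))⁻¹ (mu k).2) : ℕ) : ℝ) ^ (e t) *
        (Gx t e (I.filter (fun k => (mu k).1 = false)) (fun k => (a k).2) (fun k => (mu k).2) (comb t w o0 w0) *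
         Gx t e (I.filter (fun k => (mu k).1 = true)) (fun k => (a k).2) (fun k => (mu k).2) (comb t w o1 w1)) =
      ((cc I (fun k => (a k).2) (fun k => (Rn t (if (mu k).1 then w1 else w0))⁻¹ (mu k).2) : ℕ) : ℝ) ^ (e t) *
        (Gx t e (I.filter (fun k => (mu k).1 = false)) (fun k => (a k).2) (fun k => (mu k).2) w0 *
         Gx t e (I.filter (fun k => (mu k).1 = true)) (fun k => (a k).2) (fun k => (mu k).2) w1)
    have h0 : e t = 0 := he t (by omega) (by omega)
    have he' : ∀ i, t - w ≤ i → i < t → e i = 0 := fun i h1 h2 => he i (by omega) (by omega)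
    rw [h0, Real.rpow_zero, Real.rpow_zero,
      win_Gx_gap t w e he' _ _ _ o0 w0, win_Gx_gap t w e he' _ _ _ o1 w1]

theorem win_b4_step (t : ℕ) (e win : ℕ → ℕ) (hwin : ∀ i, win i ≤ i)
    (hgap : ∀ i, e i ≠ 0 → ∀ i', i - win i ≤ i' → i' < i → e i' = 0)
    (I I0 I1 : Finset ι) (x z : ι → Q t) (m : ι → Bool)
    (h1 : Set.InjOn (fun k => (m k, x k)) (I : Set ι)) (h2 : Set.InjOn (fun k => (m k, z k)) (I : Set ι)) :
    av (fun w0 : Net t => av (fun w1 : Net t =>
      ((cc I x (fun k => (Rn t (if m k then w1 else w0))⁻¹ (z k)) : ℕ) : ℝ) ^ ((e t : ℕ) : ℝ) *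
        (Gx t (fun i => (e i : ℝ)) I0 x z w0 * Gx t (fun i => (e i : ℝ)) I1 x z w1)))
      ≤ (1 + ((2 : ℝ) ^ (e t) - 1) * (3 / 4) ^ (win t)) ^ (full I x) *
        (av (fun w0 : Net t => Gx t (fun i => (e i : ℝ)) I0 x z w0) *
          av (fun w1 : Net t => Gx t (fun i => (e i : ℝ)) I1 x z w1)) := by
  set G0 : Net t → ℝ := fun w0 => Gx t (fun i => (e i : ℝ)) I0 x z w0 with hG0
  set G1 : Net t → ℝ := fun w1 => Gx t (fun i => (e i : ℝ)) I1 x z w1 with hG1
  have hG0n : ∀ n, 0 ≤ G0 n := fun n => win_Gx_nonneg t _ _ _ _ n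
  have hG1n : ∀ n, 0 ≤ G1 n := fun n => win_Gx_nonneg t _ _ _ _ n
  have hprod : av (fun w0 : Net t => av (fun w1 : Net t => G0 w0 * G1 w1)) = av G0 * av G1 := by
    rw [← win_av_mul, win_av_prod]
  by_cases he : e t = 0
  · have h0 : ∀ w0 w1 : Net t, ((cc I x (fun k => (Rn t (if m k then w1 else w0))⁻¹ (z k)) : ℕ) : ℝ) ^
        ((e t : ℕ) : ℝ) * (G0 w0 * G1 w1) = G0 w0 * G1 w1 := by
      intro w0 w1
      rw [he, Nat.cast_zero, Real.rpow_zero, one_mul]
    change av (fun w0 : Net t => av (fun w1 : Net t =>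
      ((cc I x (fun k => (Rn t (if m k then w1 else w0))⁻¹ (z k)) : ℕ) : ℝ) ^ ((e t : ℕ) : ℝ) *
        (G0 w0 * G1 w1))) ≤ _
    simp only [h0]
    rw [hprod, he, pow_zero, sub_self, zero_mul, add_zero, one_pow, one_mul]
  · have hg : ∀ i, t - win t ≤ i → i < t → (fun i => (e i : ℝ)) i = 0 := by
      intro i hi1 hi2
      simp only
      rw [hgap t he i hi1 hi2, Nat.cast_zero]
    have hc0 : ∀ (o : Out t (win t)) (n : Net t), G0 (comb t (win t) o n) = G0 n := fun o n =>
      win_Gx_gap t (win t) _ hg I0 x z o n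
    have hc1 : ∀ (o : Out t (win t)) (n : Net t), G1 (comb t (win t) o n) = G1 n := fun o n =>
      win_Gx_gap t (win t) _ hg I1 x z o n
    set F : Net t → Net t → ℝ := fun w0 w1 =>
      ((cc I x (fun k => (Rn t (if m k then w1 else w0))⁻¹ (z k)) : ℕ) : ℝ) ^ ((e t : ℕ) : ℝ) with hF
    have e1 : av (fun w0 : Net t => av (fun w1 : Net t => F w0 w1 * (G0 w0 * G1 w1))) =
        av (fun w0 : Net t => av (fun w1 : Net t => (G0 w0 * G1 w1) *
          av (fun o : Out t (win t) × Out t (win t) =>
            F (comb t (win t) o.1 w0) (comb t (win t) o.2 w1)))) := by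
      rw [← win_av_comb t (win t) (fun w0 : Net t => av (fun w1 : Net t => F w0 w1 * (G0 w0 * G1 w1)))]
      have s1 : ∀ (w0 : Net t) (o0 : Out t (win t)),
          av (fun w1 : Net t => F (comb t (win t) o0 w0) w1 * (G0 (comb t (win t) o0 w0) * G1 w1)) =
          av (fun w1 : Net t => av (fun o1 : Out t (win t) =>
            F (comb t (win t) o0 w0) (comb t (win t) o1 w1) * (G0 w0 * G1 w1))) := by
        intro w0 o0
        rw [← win_av_comb t (win t) (fun w1 : Net t =>
          F (comb t (win t) o0 w0) w1 * (G0 (comb t (win t) o0 w0) * G1 w1))]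
        simp only [hc0, hc1]
      simp only [s1]
      congr 1
      funext w0
      rw [win_av_comm]
      congr 1
      funext w1
      rw [win_av_prod]
      rw [← win_av_const_mul]
      congr 1
      funext o0
      rw [← win_av_const_mul]
      congr 1
      funext o1
      ring
    change av (fun w0 : Net t => av (fun w1 : Net t => F w0 w1 * (G0 w0 * G1 w1))) ≤ _
    rw [e1, ← hprod]
    have e2 : (1 + ((2 : ℝ) ^ (e t) - 1) * (3 / 4) ^ (win t)) ^ (full I x) *
        av (fun w0 : Net t => av (fun w1 : Net t => G0 w0 * G1 w1)) =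
        av (fun w0 : Net t => av (fun w1 : Net t => (G0 w0 * G1 w1) *
          (1 + ((2 : ℝ) ^ (e t) - 1) * (3 / 4) ^ (win t)) ^ (full I x))) := by
      rw [mul_comm, ← win_av_mul_const]
      congr 1
      funext w0
      rw [win_av_mul_const]
    rw [e2]
    refine win_av_mono (fun w0 => win_av_mono (fun w1 => ?_))
    refine mul_le_mul_of_nonneg_left ?_ (mul_nonneg (hG0n w0) (hG1n w1))
    have hb3 := b3 t (win t) (e t) (hwin t) I x z m h1 h2 w0 w1
    refine le_trans (le_of_eq ?_) hb3
    congr 1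
    funext o
    exact Real.rpow_natCast _ _

/-- PIECE B4 (file Window.lean, uses b3) -/
theorem b4 (t : ℕ) (e win : ℕ → ℕ) (hwin : ∀ i, win i ≤ i)
    (hgap : ∀ i, e i ≠ 0 → ∀ i', i - win i ≤ i' → i' < i → e i' = 0)
    (I : Finset ι) (a : ι → Q t) (ha : Set.InjOn a (I : Set ι)) (w' : Net t) :
    av (fun n : Net t => Gx t (fun i => (e i : ℝ)) I a (fun k => Rn t w' (a k)) n)
      ≤ ∏ i ∈ Finset.range t, (1 + ((2 : ℝ) ^ (e i) - 1) * (3 / 4) ^ (win i)) ^
          (Dn t i I a (fun k => Rn t w' (a k))) := by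
  induction t generalizing I with
  | zero =>
    have := win_Net_nonempty 0
    have h : (fun n : Net 0 => Gx 0 (fun i => (e i : ℝ)) I a (fun k => Rn 0 w' (a k)) n) =
        fun _ => 1 := rfl
    rw [h, win_av_const]
    simp
  | succ t ih =>
    obtain ⟨h', w0', w1'⟩ := w'
    set mu : ι → Q (t + 1) := fun k => Rn (t + 1) (h', w0', w1') (a k) with hmu
    set x : ι → Q t := fun k => (a k).2 with hx
    set z : ι → Q t := fun k => (mu k).2 with hz
    set m : ι → Bool := fun k => (mu k).1 with hm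
    have hmk : ∀ k, m k = xor (a k).1 (h' (a k).2) := by
      intro k
      have := Rn_succ_apply t h' w0' w1' (a k).1 (a k).2
      exact congrArg Prod.fst this
    have hzk : ∀ k, z k = Rn t (if m k then w1' else w0') (x k) := by
      intro k
      have := Rn_succ_apply t h' w0' w1' (a k).1 (a k).2
      rw [hmk k]
      exact congrArg Prod.snd this
    have h1 : Set.InjOn (fun k => (m k, x k)) (I : Set ι) := by
      intro k hk k' hk' hkk
      obtain ⟨e1, e2⟩ := Prod.mk.inj hkk
      apply ha hk hk'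
      have e2' : (a k).2 = (a k').2 := e2
      refine Prod.ext ?_ e2'
      rw [hmk, hmk, e2'] at e1
      exact Bool.xor_left_inj.1 e1
    have h2 : Set.InjOn (fun k => (m k, z k)) (I : Set ι) := by
      intro k hk k' hk' hkk
      obtain ⟨e1, e2⟩ := Prod.mk.inj hkk
      have e3 : mu k = mu k' := Prod.ext e1 e2
      exact ha hk hk' ((Rn (t + 1) (h', w0', w1')).injective e3)
    set I0 := I.filter (fun k => m k = false) with hI0
    set I1 := I.filter (fun k => m k = true) with hI1
    set B : ℕ → ℝ := fun i => 1 + ((2 : ℝ) ^ (e i) - 1) * (3 / 4) ^ (win i) with hB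
    have hB1 : ∀ i, 1 ≤ B i := by
      intro i
      have : (1 : ℝ) ≤ 2 ^ (e i) := one_le_pow₀ (by norm_num)
      have h0 : (0 : ℝ) ≤ ((2 : ℝ) ^ (e i) - 1) * (3 / 4) ^ (win i) :=
        mul_nonneg (by linarith) (by positivity)
      simp only [hB]
      linarith
    have hstep := win_b4_step t e win hwin hgap I I0 I1 x z m h1 h2
    have hix : ∀ r : Bool, Set.InjOn x ((I.filter (fun k => m k = r) : Finset ι) : Set ι) := by
      intro r k hk k' hk' hkk
      rw [Finset.mem_coe, Finset.mem_filter] at hk hk'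
      exact h1 (Finset.mem_coe.2 hk.1) (Finset.mem_coe.2 hk'.1)
        (Prod.ext (hk.2.trans hk'.2.symm) hkk)
    have hz0 : ∀ k ∈ I0, z k = (fun k => Rn t w0' (x k)) k := by
      intro k hk
      rw [hzk k, (Finset.mem_filter.1 hk).2]
      rfl
    have hz1 : ∀ k ∈ I1, z k = (fun k => Rn t w1' (x k)) k := by
      intro k hk
      rw [hzk k, (Finset.mem_filter.1 hk).2]
      rfl
    have hI0' : av (fun w0 : Net t => Gx t (fun i => (e i : ℝ)) I0 x z w0) ≤
        ∏ i ∈ Finset.range t, B i ^ (Dn t i I0 x z) := by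
      have h := ih I0 x (hix false) w0'
      refine le_trans (le_of_eq ?_) (h.trans (le_of_eq ?_))
      · congr 1
        funext n
        exact win_Gx_congr t _ I0 x x z _ n (fun _ _ => rfl) hz0
      · refine Finset.prod_congr rfl (fun i _ => ?_)
        rw [win_Dn_congr t i I0 x x z _ (fun _ _ => rfl) hz0]
    have hI1' : av (fun w1 : Net t => Gx t (fun i => (e i : ℝ)) I1 x z w1) ≤
        ∏ i ∈ Finset.range t, B i ^ (Dn t i I1 x z) := by
      have h := ih I1 x (hix true) w1'
      refine le_trans (le_of_eq ?_) (h.trans (le_of_eq ?_))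
      · congr 1
        funext n
        exact win_Gx_congr t _ I1 x x z _ n (fun _ _ => rfl) hz1
      · refine Finset.prod_congr rfl (fun i _ => ?_)
        rw [win_Dn_congr t i I1 x x z _ (fun _ _ => rfl) hz1]
    have hav : av (fun n : Net (t + 1) => Gx (t + 1) (fun i => (e i : ℝ)) I a mu n) =
        av (fun w0 : Net t => av (fun w1 : Net t =>
      ((cc I x (fun k => (Rn t (if m k then w1 else w0))⁻¹ (z k)) : ℕ) : ℝ) ^ ((e t : ℕ) : ℝ) *
        (Gx t (fun i => (e i : ℝ)) I0 x z w0 * Gx t (fun i => (e i : ℝ)) I1 x z w1))) := by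
      rw [win_av_net_succ]
      have hconst : ∀ c : Q t → Bool, av (fun w0 : Net t => av (fun w1 : Net t =>
          Gx (t + 1) (fun i => (e i : ℝ)) I a mu (c, w0, w1))) =
        av (fun w0 : Net t => av (fun w1 : Net t =>
      ((cc I x (fun k => (Rn t (if m k then w1 else w0))⁻¹ (z k)) : ℕ) : ℝ) ^ ((e t : ℕ) : ℝ) *
        (Gx t (fun i => (e i : ℝ)) I0 x z w0 * Gx t (fun i => (e i : ℝ)) I1 x z w1))) := fun c => rfl
      simp only [hconst]
      exact win_av_const _
    have hDn : ∀ i, Dn (t + 1) i I a mu = (if i = t then full I x else 0) +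
        (Dn t i I0 x z + Dn t i I1 x z) := fun i => rfl
    rw [hav]
    refine hstep.trans ?_
    have hp0 : (0 : ℝ) ≤ av (fun w0 : Net t => Gx t (fun i => (e i : ℝ)) I0 x z w0) :=
      win_av_nonneg (fun n => win_Gx_nonneg t _ _ _ _ n)
    have hp1 : (0 : ℝ) ≤ av (fun w0 : Net t => Gx t (fun i => (e i : ℝ)) I1 x z w0) :=
      win_av_nonneg (fun n => win_Gx_nonneg t _ _ _ _ n)
    have hBp : ∀ i, 0 ≤ B i := fun i => zero_le_one.trans (hB1 i)
    have hpr0 : (0 : ℝ) ≤ ∏ i ∈ Finset.range t, B i ^ (Dn t i I0 x z) :=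
      Finset.prod_nonneg (fun i _ => pow_nonneg (hBp i) _)
    have hpr1 : (0 : ℝ) ≤ ∏ i ∈ Finset.range t, B i ^ (Dn t i I1 x z) :=
      Finset.prod_nonneg (fun i _ => pow_nonneg (hBp i) _)
    calc (1 + ((2 : ℝ) ^ (e t) - 1) * (3 / 4) ^ (win t)) ^ (full I x) *
        (av (fun w0 : Net t => Gx t (fun i => (e i : ℝ)) I0 x z w0) *
          av (fun w1 : Net t => Gx t (fun i => (e i : ℝ)) I1 x z w1))
        ≤ B t ^ (full I x) * ((∏ i ∈ Finset.range t, B i ^ (Dn t i I0 x z)) *
          (∏ i ∈ Finset.range t, B i ^ (Dn t i I1 x z))) := by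
          refine mul_le_mul_of_nonneg_left ?_ (pow_nonneg (hBp t) _)
          exact mul_le_mul hI0' hI1' hp1 hpr0
      _ = (∏ i ∈ Finset.range t, B i ^ (Dn (t + 1) i I a mu)) * B t ^ (full I x) := by
          rw [mul_comm, ← Finset.prod_mul_distrib]
          congr 1
          refine Finset.prod_congr rfl (fun i hi => ?_)
          rw [hDn, if_neg (Finset.mem_range.1 hi).ne, zero_add, pow_add]
      _ ≤ (∏ i ∈ Finset.range t, B i ^ (Dn (t + 1) i I a mu)) * B t ^ (Dn (t + 1) t I a mu) := by
          refine mul_le_mul_of_nonneg_left ?_ (Finset.prod_nonneg (fun i _ => pow_nonneg (hBp i) _))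
          refine pow_le_pow_right₀ (hB1 t) ?_
          rw [hDn, if_pos rfl]
          exact Nat.le_add_right _ _
      _ = ∏ i ∈ Finset.range (t + 1), B i ^ (Dn (t + 1) i I a mu) :=
          (Finset.prod_range_succ (fun i => B i ^ (Dn (t + 1) i I a mu)) t).symm

end cards

end Vale.Agent.P162
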