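import Vale.Agent.P162.B6b
import Vale.Agent.P162.JensenNet
import Vale.Agent.P162.Window
import Vale.Agent.P162.Small

open Equiv

set_option linter.unusedSectionVars false

namespace Vale.Agent.P162



/-- numerical sum over the higher groups -/
theorem num_sum (b K : ℕ) :
    ∑ k ∈ Finset.range K, (if k % 2 = b ∧ 1 ≤ k then 2 * (27 / 50 : ℝ) ^ (k - 1) else 0) ≤ 283 / 100 := by
  have key : ∀ K : ℕ, ∑ k ∈ Finset.range (K + 1), (if k % 2 = b ∧ 1 ≤ k then 2 * (27 / 50 : ℝ) ^ (k - 1) else 0)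
      + 283 / 100 * (27 / 50 : ℝ) ^ K * (if (K + 1) % 2 = b then 1 else 27 / 50) ≤ 283 / 100 := by
    intro K
    induction K with
    | zero =>
      simp
      split_ifs <;> norm_num
    | succ K ih =>
      rw [Finset.sum_range_succ]
      have hs : (0 : ℝ) < (27 / 50 : ℝ) ^ K := by positivity
      by_cases h1 : (K + 1) % 2 = b
      · have h2 : ¬ ((K + 1 + 1) % 2 = b) := by omega
        rw [if_pos h1] at ih
        rw [if_neg h2, if_pos ⟨h1, by omega⟩]
        have h3 : K + 1 - 1 = K := by omega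
        rw [h3, pow_succ (27 / 50 : ℝ) K]
        linarith
      · rw [if_neg h1] at ih
        rw [if_neg (fun h => h1 h.1), add_zero, pow_succ (27 / 50 : ℝ) K]
        have h4 : (if (K + 1 + 1) % 2 = b then (1 : ℝ) else 27 / 50) ≤ 1 := by
          split_ifs <;> norm_num
        have h5 : 283 / 100 * ((27 / 50 : ℝ) ^ K * (27 / 50)) * (if (K + 1 + 1) % 2 = b then (1 : ℝ) else 27 / 50)
            ≤ 283 / 100 * ((27 / 50 : ℝ) ^ K * (27 / 50)) * 1 := by
          apply mul_le_mul_of_nonneg_left h4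
          positivity
        linarith
  rcases Nat.eq_zero_or_pos K with h | h
  · subst h
    simp
    norm_num
  · obtain ⟨K', rfl⟩ := Nat.exists_eq_succ_of_ne_zero h.ne'
    have h1 := key K'
    have h2 : 0 ≤ 283 / 100 * (27 / 50 : ℝ) ^ K' * (if (K' + 1) % 2 = b then 1 else 27 / 50) := by
      apply mul_nonneg (by positivity)
      split_ifs <;> norm_num
    simp only [Nat.succ_eq_add_one]
    linarith

/-- factor of a scale in a higher group -/
theorem fac_bound (l0 k : ℕ) (h : 1 ≤ l0) (hk : 1 ≤ k) :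
    ((2 : ℝ) ^ (2 * (l0 + k)) - 1) * (3 / 4) ^ (7 * (l0 + k - 1)) ≤ (27 / 50 : ℝ) ^ l0 * (4 * (27 / 50 : ℝ) ^ (k - 1)) := by
  obtain ⟨m, rfl⟩ := Nat.exists_eq_add_of_le hk
  have h1 : l0 + (1 + m) - 1 = l0 + m := by omega
  have h2 : 1 + m - 1 = m := by omega
  rw [h1, h2]
  have h3 : (2 : ℝ) ^ (2 * (l0 + (1 + m))) = 4 * 4 ^ (l0 + m) := by
    rw [pow_mul]
    norm_num
    rw [show l0 + (1 + m) = (l0 + m) + 1 by ring, pow_succ]
    ring
  have h4 : (3 / 4 : ℝ) ^ (7 * (l0 + m)) = ((3 / 4 : ℝ) ^ 7) ^ (l0 + m) := by rw [pow_mul]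
  rw [h3, h4]
  calc (4 * (4 : ℝ) ^ (l0 + m) - 1) * ((3 / 4 : ℝ) ^ 7) ^ (l0 + m)
      ≤ (4 * (4 : ℝ) ^ (l0 + m)) * ((3 / 4 : ℝ) ^ 7) ^ (l0 + m) := by
        apply mul_le_mul_of_nonneg_right _ (by positivity)
        linarith
    _ = 4 * ((4 : ℝ) * (3 / 4 : ℝ) ^ 7) ^ (l0 + m) := by
        rw [mul_pow]
        ring
    _ ≤ 4 * (27 / 50 : ℝ) ^ (l0 + m) := by
        apply mul_le_mul_of_nonneg_left _ (by norm_num)
        apply pow_le_pow_left₀ (by norm_num)
        norm_num
    _ = _ := by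
        rw [pow_add]
        ring

section cards

variable {ι : Type} [Fintype ι] [DecidableEq ι]

/-- pointwise bound for the product over scales of a pattern -/
theorem pattern_prod (t l0 K b r : ℕ) (h : 1 ≤ l0) (I : Finset ι) (a mu : ι → Q t) :
    ∏ i ∈ Finset.range t, (1 + ((2 : ℝ) ^ (pe l0 K b r i) - 1) * (3 / 4) ^ (pw l0 K r i)) ^ (Dn t i I a mu)
      ≤ ((4 : ℝ) ^ l0) ^ (Dn t (cs l0 r 0) I a mu) * Real.exp (I.card * (283 / 100 * (27 / 50) ^ l0)) := by
  classical
  set F : ℕ → ℝ := fun i => (1 + ((2 : ℝ) ^ (pe l0 K b r i) - 1) * (3 / 4) ^ (pw l0 K r i)) ^ (Dn t i I a mu) with hF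
  have hFge : ∀ i, 1 ≤ F i := by
    intro i
    rw [hF]
    apply one_le_pow₀
    have h1 : (1 : ℝ) ≤ 2 ^ (pe l0 K b r i) := one_le_pow₀ (by norm_num)
    have h2 : (0 : ℝ) < (3 / 4 : ℝ) ^ (pw l0 K r i) := by positivity
    nlinarith
  set S := (Finset.range K).filter (fun k => k % 2 = b) with hS
  have h1 : ∏ i ∈ Finset.range t, F i ≤ ∏ i ∈ S.image (cs l0 r), F i := by
    have h2 : ∏ i ∈ Finset.range t, F i = ∏ i ∈ (Finset.range t).filter (fun i => i ∈ S.image (cs l0 r)), F i := by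
      rw [Finset.prod_filter]
      apply Finset.prod_congr rfl
      intro i _
      split_ifs with h3
      · rfl
      · rw [hF]
        have h4 : pe l0 K b r i = 0 := by
          by_contra h5
          obtain ⟨k, hk, hkb, rfl⟩ := pe_ne_zero l0 K b r i h5
          exact h3 (Finset.mem_image.mpr ⟨k, by simp [hS, hk, hkb], rfl⟩)
        simp [h4]
    rw [h2]
    have hsub : (Finset.range t).filter (fun i => i ∈ S.image (cs l0 r)) ⊆ S.image (cs l0 r) := by
      intro i hi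
      exact (Finset.mem_filter.mp hi).2
    rw [← Finset.prod_sdiff hsub]
    have hge : (1 : ℝ) ≤ ∏ i ∈ S.image (cs l0 r) \ (Finset.range t).filter (fun i => i ∈ S.image (cs l0 r)), F i := by
      calc (1 : ℝ) = ∏ i ∈ S.image (cs l0 r) \ (Finset.range t).filter (fun i => i ∈ S.image (cs l0 r)), (1 : ℝ) := by
            rw [Finset.prod_const_one]
        _ ≤ _ := Finset.prod_le_prod (fun _ _ => zero_le_one) (fun i _ => hFge i)
    apply le_mul_of_one_le_left _ hge
    apply Finset.prod_nonneg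
    intro i _
    linarith [hFge i]
  refine le_trans h1 ?_
  rw [Finset.prod_image (fun x _ y _ hxy => (cs_strictMono l0 r h).injective hxy)]
  -- bound each factor
  have h5 : ∀ k ∈ S, F (cs l0 r k) ≤ (if k = 0 then ((4 : ℝ) ^ l0) ^ (Dn t (cs l0 r 0) I a mu) else 1) *
      Real.exp (I.card / 2 * ((27 / 50 : ℝ) ^ l0 * (if k % 2 = b ∧ 1 ≤ k then 4 * (27 / 50 : ℝ) ^ (k - 1) else 0))) := by
    intro k hk
    rw [hS, Finset.mem_filter, Finset.mem_range] at hk
    rw [hF]
    simp only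
    rw [pe_cs l0 K b r k h hk.1 hk.2, pw_cs l0 K r k h hk.1]
    by_cases hk0 : k = 0
    · subst hk0
      simp
      rw [pow_mul]
      norm_num
    · have hk1 : 1 ≤ k := by omega
      rw [if_neg hk0, if_neg hk0, if_pos ⟨hk.2, hk1⟩, one_mul, mul_one]
      have h6 := fac_bound l0 k h hk1
      set x := (27 / 50 : ℝ) ^ l0 * (4 * (27 / 50 : ℝ) ^ (k - 1)) with hx
      have hx0 : 0 ≤ x := by positivity
      have h7 : 0 ≤ ((2 : ℝ) ^ (2 * (l0 + k)) - 1) * (3 / 4) ^ (7 * (l0 + k - 1)) := by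
        apply mul_nonneg _ (by positivity)
        have : (1 : ℝ) ≤ 2 ^ (2 * (l0 + k)) := one_le_pow₀ (by norm_num)
        linarith
      calc (1 + ((2 : ℝ) ^ (2 * (l0 + k)) - 1) * (3 / 4) ^ (7 * (l0 + k - 1))) ^ (Dn t (cs l0 r k) I a mu)
          ≤ (Real.exp x) ^ (Dn t (cs l0 r k) I a mu) := by
            apply pow_le_pow_left₀ (by linarith)
            have := Real.add_one_le_exp x
            linarith
        _ = Real.exp ((Dn t (cs l0 r k) I a mu : ℝ) * x) := by rw [← Real.exp_nat_mul]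
        _ ≤ _ := by
            apply Real.exp_le_exp.mpr
            apply mul_le_mul_of_nonneg_right _ hx0
            have := Dn_le t (cs l0 r k) I a mu
            have h8 : (2 : ℝ) * (Dn t (cs l0 r k) I a mu : ℝ) ≤ I.card := by exact_mod_cast this
            linarith
  refine le_trans (Finset.prod_le_prod (fun k _ => by linarith [hFge (cs l0 r k)]) h5) ?_
  rw [Finset.prod_mul_distrib, ← Real.exp_sum]
  have h9 : ∏ k ∈ S, (if k = 0 then ((4 : ℝ) ^ l0) ^ (Dn t (cs l0 r 0) I a mu) else 1) ≤ ((4 : ℝ) ^ l0) ^ (Dn t (cs l0 r 0) I a mu) := by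
    rw [Finset.prod_ite_eq' S 0 (fun _ => ((4 : ℝ) ^ l0) ^ (Dn t (cs l0 r 0) I a mu))]
    split_ifs
    · exact le_rfl
    · apply one_le_pow₀
      apply one_le_pow₀
      norm_num
  apply mul_le_mul h9 _ (Real.exp_pos _).le (by positivity)
  apply Real.exp_le_exp.mpr
  rw [← Finset.mul_sum, ← Finset.mul_sum]
  have h10 : ∑ k ∈ S, (if k % 2 = b ∧ 1 ≤ k then 4 * (27 / 50 : ℝ) ^ (k - 1) else 0) ≤ 2 * (283 / 100) := by
    calc _ ≤ ∑ k ∈ Finset.range K, (if k % 2 = b ∧ 1 ≤ k then 4 * (27 / 50 : ℝ) ^ (k - 1) else 0) := by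
          apply Finset.sum_le_sum_of_subset_of_nonneg (Finset.filter_subset _ _)
          intro k _ _
          split_ifs
          · positivity
          · exact le_rfl
      _ = 2 * ∑ k ∈ Finset.range K, (if k % 2 = b ∧ 1 ≤ k then 2 * (27 / 50 : ℝ) ^ (k - 1) else 0) := by
          rw [Finset.mul_sum]
          apply Finset.sum_congr rfl
          intro k _
          split_ifs <;> ring
      _ ≤ _ := by
          have := num_sum b K
          linarith
  have h11 : (0 : ℝ) ≤ I.card := Nat.cast_nonneg _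
  have h12 : (0 : ℝ) < (27 / 50 : ℝ) ^ l0 := by positivity
  calc (I.card : ℝ) / 2 * ((27 / 50 : ℝ) ^ l0 * ∑ k ∈ S, (if k % 2 = b ∧ 1 ≤ k then 4 * (27 / 50 : ℝ) ^ (k - 1) else 0))
      ≤ (I.card : ℝ) / 2 * ((27 / 50 : ℝ) ^ l0 * (2 * (283 / 100))) := by
        apply mul_le_mul_of_nonneg_left _ (by linarith)
        apply mul_le_mul_of_nonneg_left h10 h12.le
    _ ≤ _ := by
        nlinarith [mul_nonneg h11 h12.le]

theorem pattern_bound (t l0 K b r : ℕ) (h : 1 ≤ l0) (a : ι → Q t) (ha : Function.Injective a) :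
    av (fun p : Net t × Net t => Gx t (fun i => (pe l0 K b r i : ℝ)) Finset.univ a (fun k => Rn t p.1 (a k)) p.2)
      ≤ Real.exp (Fintype.card ι * ((2 : ℝ) ^ (9 * l0) * Fintype.card ι / 2 ^ t + 3 * (27 / 50) ^ l0)) := by
  rw [Avg.prod]
  have hJ : (0 : ℝ) ≤ (Fintype.card ι : ℝ) := Nat.cast_nonneg _
  have hθ : (1 : ℝ) ≤ (4 : ℝ) ^ l0 := one_le_pow₀ (by norm_num)
  -- bound of the random factor
  have h1 : av (fun w' : Net t => ((4 : ℝ) ^ l0) ^ (Dn t (cs l0 r 0) Finset.univ a (fun k => Rn t w' (a k))))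
      ≤ Real.exp (Fintype.card ι * ((2 : ℝ) ^ (9 * l0) * Fintype.card ι / 2 ^ t)) := by
    by_cases hc : cs l0 r 0 < t
    · refine le_trans (b5 t (cs l0 r 0) hc Finset.univ a (fun x _ y _ hxy => ha hxy) _ hθ) ?_
      rw [Finset.card_univ]
      have hcs : cs l0 r 0 + 1 ≤ 7 * l0 := by
        have := cs_lt l0 r 0 h
        simp only [gs] at this
        omega
      have h2 : ((4 : ℝ) ^ l0 - 1) * 2 ^ (cs l0 r 0 + 1) * (Fintype.card ι : ℝ) / 2 ^ t
          ≤ (2 : ℝ) ^ (9 * l0) * Fintype.card ι / 2 ^ t := by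
        apply div_le_div_of_nonneg_right _ (by positivity)
        apply mul_le_mul_of_nonneg_right _ hJ
        have h3 : (2 : ℝ) ^ (9 * l0) = 4 ^ l0 * 2 ^ (7 * l0) := by
          rw [show 9 * l0 = 2 * l0 + 7 * l0 by ring, pow_add, pow_mul]
          norm_num
        rw [h3]
        apply mul_le_mul (by linarith) _ (by positivity) (by positivity)
        exact pow_le_pow_right₀ (by norm_num) hcs
      have h4 : 0 ≤ ((4 : ℝ) ^ l0 - 1) * 2 ^ (cs l0 r 0 + 1) * (Fintype.card ι : ℝ) / 2 ^ t := by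
        have : 0 ≤ (4 : ℝ) ^ l0 - 1 := by linarith
        positivity
      calc (1 + ((4 : ℝ) ^ l0 - 1) * 2 ^ (cs l0 r 0 + 1) * (Fintype.card ι : ℝ) / 2 ^ t) ^ Fintype.card ι
          ≤ (Real.exp ((2 : ℝ) ^ (9 * l0) * Fintype.card ι / 2 ^ t)) ^ Fintype.card ι := by
            apply pow_le_pow_left₀ (by linarith)
            have := Real.add_one_le_exp ((2 : ℝ) ^ (9 * l0) * Fintype.card ι / 2 ^ t)
            linarith
        _ = _ := by rw [← Real.exp_nat_mul]
    · have h5 : ∀ w' : Net t, ((4 : ℝ) ^ l0) ^ (Dn t (cs l0 r 0) Finset.univ a (fun k => Rn t w' (a k))) = 1 := by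
        intro w'
        rw [Dn_of_le t _ _ _ _ (by omega), pow_zero]
      simp only [h5]
      rw [Avg.const]
      apply Real.one_le_exp
      positivity
  calc av (fun x : Net t => av (fun y : Net t => Gx t (fun i => (pe l0 K b r i : ℝ)) Finset.univ a (fun k => Rn t x (a k)) y))
      ≤ av (fun w' : Net t => ((4 : ℝ) ^ l0) ^ (Dn t (cs l0 r 0) Finset.univ a (fun k => Rn t w' (a k))) *
          Real.exp (Fintype.card ι * (283 / 100 * (27 / 50) ^ l0))) := by
        apply Avg.mono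
        intro w'
        refine le_trans (b4 t (pe l0 K b r) (pw l0 K r) (fun i => pw_le l0 K r i h)
          (fun i hi i' h1 h2 => pgap l0 K b r i h hi i' h1 h2) Finset.univ a (fun x _ y _ hxy => ha hxy) w') ?_
        have := pattern_prod t l0 K b r h Finset.univ a (fun k => Rn t w' (a k))
        rw [Finset.card_univ] at this
        exact this
    _ = av (fun w' : Net t => ((4 : ℝ) ^ l0) ^ (Dn t (cs l0 r 0) Finset.univ a (fun k => Rn t w' (a k)))) *
          Real.exp (Fintype.card ι * (283 / 100 * (27 / 50) ^ l0)) := by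
        rw [Avg.mul_const]
    _ ≤ Real.exp (Fintype.card ι * ((2 : ℝ) ^ (9 * l0) * Fintype.card ι / 2 ^ t)) *
          Real.exp (Fintype.card ι * (283 / 100 * (27 / 50) ^ l0)) :=
        mul_le_mul_of_nonneg_right h1 (Real.exp_pos _).le
    _ ≤ _ := by
        rw [← Real.exp_add]
        apply Real.exp_le_exp.mpr
        rw [mul_add]
        have h6 : (0 : ℝ) < (27 / 50 : ℝ) ^ l0 := by positivity
        nlinarith [mul_nonneg hJ h6.le]

/-- PIECE B6 -/
theorem b6 (t : ℕ) (a : ι → Q t) (ha : Function.Injective a) (l0 : ℕ) (hl0 : 1 ≤ l0) :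
    ∑ o : ι → Q t, KK t Finset.univ a o ^ (8 / 7 : ℝ) ≤ (2 : ℝ) ^ (-(t * Fintype.card ι : ℝ) / 7) *
      Real.exp (Fintype.card ι * ((2 : ℝ) ^ (9 * l0) * Fintype.card ι / 2 ^ t + 3 * (27 / 50) ^ l0)) := by
  have h1 := b1_sum t a (1 / 7) (by norm_num)
  have h2 : (1 : ℝ) + 1 / 7 = 8 / 7 := by norm_num
  rw [h2] at h1
  refine le_trans h1 ?_
  have h3 : -(1 / 7 * (t : ℝ) * (Fintype.card ι : ℝ)) = -(t * Fintype.card ι : ℝ) / 7 := by ring
  rw [h3]
  apply mul_le_mul_of_nonneg_left _ (by positivity)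
  set M := (7 * (l0 + t)).factorial with hM
  have hMpos : 0 < M := Nat.factorial_pos _
  have hdvd : ∀ k, k < t → 7 * (l0 + k) ∣ M := by
    intro k hk
    apply Nat.dvd_factorial (by omega) (by omega)
  have hMR : (0 : ℝ) < M := by exact_mod_cast hMpos
  have hlam : ∑ ω ∈ Finset.range 2 ×ˢ Finset.range M, (1 / (2 * M : ℝ)) = 1 := by
    rw [Finset.sum_const, Finset.card_product, Finset.card_range, Finset.card_range, nsmul_eq_mul]
    push_cast
    field_simp
  calc av (fun p : Net t × Net t => Gx t (fun _ => 1 / 7) Finset.univ a (fun k => Rn t p.1 (a k)) p.2)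
      ≤ av (fun p : Net t × Net t => ∑ ω ∈ Finset.range 2 ×ˢ Finset.range M, (1 / (2 * M : ℝ)) *
          Gx t (fun i => (pe l0 t ω.1 ω.2 i : ℝ)) Finset.univ a (fun k => Rn t p.1 (a k)) p.2) := by
        apply Avg.mono
        intro p
        apply Gx_convex _ (fun _ => (1 / (2 * M : ℝ))) (fun _ _ => by positivity) hlam t _
          (fun ω i => (pe l0 t ω.1 ω.2 i : ℝ))
        intro i hi
        exact weight_sum l0 t M i hl0 hMpos hdvd (lt_of_lt_of_le hi (le_gs l0 t hl0))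
    _ = ∑ ω ∈ Finset.range 2 ×ˢ Finset.range M, (1 / (2 * M : ℝ)) *
          av (fun p : Net t × Net t =>
          Gx t (fun i => (pe l0 t ω.1 ω.2 i : ℝ)) Finset.univ a (fun k => Rn t p.1 (a k)) p.2) := by
        rw [Avg.sum]
        apply Finset.sum_congr rfl
        intro ω _
        exact Avg.const_mul _ _
    _ ≤ ∑ ω ∈ Finset.range 2 ×ˢ Finset.range M, (1 / (2 * M : ℝ)) *
          Real.exp (Fintype.card ι * ((2 : ℝ) ^ (9 * l0) * Fintype.card ι / 2 ^ t + 3 * (27 / 50) ^ l0)) := by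
        apply Finset.sum_le_sum
        intro ω _
        apply mul_le_mul_of_nonneg_left _ (by positivity)
        exact pattern_bound t l0 t ω.1 ω.2 hl0 a ha
    _ = _ := by
        rw [← Finset.sum_mul, hlam, one_mul]

end cards

end Vale.Agent.P162
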