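import Vale.Agent.P162.Avg

open Equiv

set_option linter.unusedSectionVars false

namespace Vale.Agent.P162

section cards

variable {ι : Type} [Fintype ι] [DecidableEq ι]

theorem one_le_cc {β : Type} [Fintype β] [DecidableEq β] (I : Finset ι) (x y : ι → β) :
    1 ≤ cc I x y := by
  unfold cc
  apply Finset.card_pos.mpr
  refine ⟨∅, ?_⟩
  simp

/-- sum of the logarithms of the loop factors of scale `i` -/
noncomputable def LC : (t : ℕ) → (i : ℕ) → Finset ι → (ι → Q t) → (ι → Q t) → Net t → ℝ
  | 0, _, _, _, _, _ => 0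
  | (t + 1), i, I, a, mu, (_, w0, w1) =>
      (if i = t then Real.log ((cc I (fun k => (a k).2)
        (fun k => (Rn t (if (mu k).1 then w1 else w0))⁻¹ (mu k).2) : ℕ) : ℝ) else 0) +
        (LC t i (I.filter (fun k => (mu k).1 = false)) (fun k => (a k).2) (fun k => (mu k).2) w0 +
         LC t i (I.filter (fun k => (mu k).1 = true)) (fun k => (a k).2) (fun k => (mu k).2) w1)

theorem LC_of_le : (t : ℕ) → (i : ℕ) → (I : Finset ι) → (a mu : ι → Q t) → (n : Net t) → t ≤ i →
    LC t i I a mu n = 0
  | 0, _, _, _, _, _, _ => rfl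
  | (t + 1), i, I, a, mu, (c, w0, w1), h => by
      have h1 : ¬ (i = t) := by omega
      have e1 := LC_of_le t i (I.filter (fun k => (mu k).1 = false)) (fun k => (a k).2) (fun k => (mu k).2) w0 (by omega)
      have e2 := LC_of_le t i (I.filter (fun k => (mu k).1 = true)) (fun k => (a k).2) (fun k => (mu k).2) w1 (by omega)
      simp only [LC, if_neg h1, e1, e2, add_zero]

theorem Gx_eq_exp : (t : ℕ) → (e : ℕ → ℝ) → (I : Finset ι) → (a mu : ι → Q t) → (n : Net t) →
    Gx t e I a mu n = Real.exp (∑ i ∈ Finset.range t, e i * LC t i I a mu n)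
  | 0, _, _, _, _, _ => by simp [Gx]
  | (t + 1), e, I, a, mu, (c, w0, w1) => by
      have e1 := Gx_eq_exp t e (I.filter (fun k => (mu k).1 = false)) (fun k => (a k).2) (fun k => (mu k).2) w0
      have e2 := Gx_eq_exp t e (I.filter (fun k => (mu k).1 = true)) (fun k => (a k).2) (fun k => (mu k).2) w1
      simp only [Gx, e1, e2]
      have hcc : (0 : ℝ) < ((cc I (fun k => (a k).2)
        (fun k => (Rn t (if (mu k).1 then w1 else w0))⁻¹ (mu k).2) : ℕ) : ℝ) := by
        exact_mod_cast one_le_cc I _ _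
      rw [Real.rpow_def_of_pos hcc, ← Real.exp_add, ← Real.exp_add]
      congr 1
      simp only [LC, mul_add, Finset.sum_add_distrib]
      have h0 : ∀ x ∈ Finset.range (t + 1), e x * (if x = t then Real.log ((cc I (fun k => (a k).2)
        (fun k => (Rn t (if (mu k).1 then w1 else w0))⁻¹ (mu k).2) : ℕ) : ℝ) else 0) =
        if x = t then e x * Real.log ((cc I (fun k => (a k).2)
        (fun k => (Rn t (if (mu k).1 then w1 else w0))⁻¹ (mu k).2) : ℕ) : ℝ) else 0 := by
        intro x _
        split_ifs <;> simp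
      rw [Finset.sum_congr rfl h0, Finset.sum_ite_eq' (Finset.range (t + 1)) t]
      rw [if_pos (Finset.self_mem_range_succ t)]
      rw [Finset.sum_range_succ (fun x => e x * LC t x (I.filter (fun k => (mu k).1 = false)) (fun k => (a k).2) (fun k => (mu k).2) w0)]
      rw [Finset.sum_range_succ (fun x => e x * LC t x (I.filter (fun k => (mu k).1 = true)) (fun k => (a k).2) (fun k => (mu k).2) w1)]
      rw [LC_of_le t t _ _ _ w0 le_rfl, LC_of_le t t _ _ _ w1 le_rfl]
      ring

theorem Gx_pos (t : ℕ) (e : ℕ → ℝ) (I : Finset ι) (a mu : ι → Q t) (n : Net t) :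
    0 < Gx t e I a mu n := by
  rw [Gx_eq_exp]
  exact Real.exp_pos _

/-- weighted AM-GM for the loop weights -/
theorem Gx_convex {Ω : Type} (s : Finset Ω) (lam : Ω → ℝ) (h0 : ∀ ω ∈ s, 0 ≤ lam ω)
    (h1 : ∑ ω ∈ s, lam ω = 1) (t : ℕ) (e : ℕ → ℝ) (E : Ω → ℕ → ℝ)
    (he : ∀ i, i < t → ∑ ω ∈ s, lam ω * E ω i = e i)
    (I : Finset ι) (a mu : ι → Q t) (n : Net t) :
    Gx t e I a mu n ≤ ∑ ω ∈ s, lam ω * Gx t (E ω) I a mu n := by
  simp only [Gx_eq_exp]
  have key := (convexOn_exp).map_sum_le (t := s) (w := lam)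
    (p := fun ω => ∑ i ∈ Finset.range t, E ω i * LC t i I a mu n) h0 h1 (fun _ _ => Set.mem_univ _)
  have e1 : ∑ ω ∈ s, lam ω • (∑ i ∈ Finset.range t, E ω i * LC t i I a mu n)
      = ∑ i ∈ Finset.range t, e i * LC t i I a mu n := by
    simp only [smul_eq_mul, Finset.mul_sum]
    rw [Finset.sum_comm]
    apply Finset.sum_congr rfl
    intro i hi
    rw [← he i (Finset.mem_range.mp hi), Finset.sum_mul]
    apply Finset.sum_congr rfl
    intro ω _
    ring
  rw [e1] at key
  simpa [smul_eq_mul] using key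

theorem full_le {β : Type} [Fintype β] [DecidableEq β] (I : Finset ι) (x : ι → β) :
    2 * full I x ≤ I.card := by
  unfold full
  have h1 : I.card = ∑ z : β, (I.filter (fun k => x k = z)).card :=
    Finset.card_eq_sum_card_fiberwise (fun _ _ => Finset.mem_coe.mpr (Finset.mem_univ _))
  rw [h1]
  have h2 : 2 * (Finset.univ.filter (fun z : β => 2 ≤ (I.filter (fun k => x k = z)).card)).card
      = ∑ z ∈ Finset.univ.filter (fun z : β => 2 ≤ (I.filter (fun k => x k = z)).card), 2 := by
    rw [Finset.sum_const, smul_eq_mul, mul_comm]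
  rw [h2]
  calc _ ≤ ∑ z ∈ Finset.univ.filter (fun z : β => 2 ≤ (I.filter (fun k => x k = z)).card),
        (I.filter (fun k => x k = z)).card := by
        apply Finset.sum_le_sum
        intro z hz
        exact (Finset.mem_filter.mp hz).2
    _ ≤ _ := Finset.sum_le_sum_of_subset (Finset.filter_subset _ _)

theorem Dn_of_le : (t : ℕ) → (i : ℕ) → (I : Finset ι) → (a mu : ι → Q t) → t ≤ i → Dn t i I a mu = 0
  | 0, _, _, _, _, _ => rfl
  | (t + 1), i, I, a, mu, h => by
      have h1 : ¬ (i = t) := by omega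
      simp only [Dn, if_neg h1, Dn_of_le t i _ _ _ (by omega : t ≤ i)]

theorem Dn_le : (t : ℕ) → (i : ℕ) → (I : Finset ι) → (a mu : ι → Q t) → 2 * Dn t i I a mu ≤ I.card
  | 0, _, _, _, _ => by simp [Dn]
  | (t + 1), i, I, a, mu => by
      by_cases h : i = t
      · simp only [Dn, if_pos h]
        rw [Dn_of_le t i _ _ _ h.ge, Dn_of_le t i _ _ _ h.ge]
        have := full_le I (fun k => (a k).2)
        omega
      · simp only [Dn, if_neg h]
        have h1 := Dn_le t i (I.filter (fun k => (mu k).1 = false)) (fun k => (a k).2) (fun k => (mu k).2)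
        have h2 := Dn_le t i (I.filter (fun k => (mu k).1 = true)) (fun k => (a k).2) (fun k => (mu k).2)
        have h3 : (I.filter (fun k => (mu k).1 = true)).card + (I.filter (fun k => (mu k).1 = false)).card = I.card := by
          have := Finset.card_filter_add_card_filter_not (s := I) (fun k => (mu k).1 = true)
          simpa using this
        omega

end cards

end Vale.Agent.P162
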