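import Vale.Agent.P162.B6a

open Equiv

set_option linter.unusedSectionVars false

namespace Vale.Agent.P162

/-- start of the `k`-th group of scales -/
def gs (l0 : ℕ) : ℕ → ℕ
  | 0 => 0
  | (k + 1) => gs l0 k + 7 * (l0 + k)

/-- chosen scale in group `k` -/
def cs (l0 r k : ℕ) : ℕ := gs l0 k + r % (7 * (l0 + k))

theorem gs_le_cs (l0 r k : ℕ) : gs l0 k ≤ cs l0 r k := Nat.le_add_right _ _

theorem cs_lt (l0 r k : ℕ) (h : 1 ≤ l0) : cs l0 r k < gs l0 (k + 1) := by
  unfold cs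
  have : r % (7 * (l0 + k)) < 7 * (l0 + k) := Nat.mod_lt _ (by omega)
  simp only [gs]
  omega

theorem gs_mono (l0 : ℕ) : Monotone (gs l0) := by
  apply monotone_nat_of_le_succ
  intro n
  simp only [gs]
  omega

theorem le_gs (l0 k : ℕ) (h : 1 ≤ l0) : k ≤ gs l0 k := by
  induction k with
  | zero => simp
  | succ k ih =>
    simp only [gs]
    omega

theorem cs_strictMono (l0 r : ℕ) (h : 1 ≤ l0) : StrictMono (cs l0 r) := by
  apply strictMono_nat_of_lt_succ
  intro n
  exact lt_of_lt_of_le (cs_lt l0 r n h) (gs_le_cs l0 r (n + 1))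

/-- exponents of a pattern -/
def pe (l0 K b r i : ℕ) : ℕ :=
  ∑ k ∈ Finset.range K, if k % 2 = b ∧ cs l0 r k = i then 2 * (l0 + k) else 0

/-- windows of a pattern -/
def pw (l0 K r i : ℕ) : ℕ :=
  ∑ k ∈ Finset.range K, if cs l0 r k = i then 7 * (l0 + k - 1) * (if k = 0 then 0 else 1) else 0

theorem pe_cs (l0 K b r k : ℕ) (h : 1 ≤ l0) (hk : k < K) (hb : k % 2 = b) :
    pe l0 K b r (cs l0 r k) = 2 * (l0 + k) := by
  unfold pe
  rw [Finset.sum_eq_single k]
  · simp [hb]
  · intro k' _ hk'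
    rw [if_neg]
    rintro ⟨_, h2⟩
    exact hk' ((cs_strictMono l0 r h).injective h2)
  · intro h'
    exact absurd (Finset.mem_range.mpr hk) h'

theorem pw_cs (l0 K r k : ℕ) (h : 1 ≤ l0) (hk : k < K) :
    pw l0 K r (cs l0 r k) = 7 * (l0 + k - 1) * (if k = 0 then 0 else 1) := by
  unfold pw
  rw [Finset.sum_eq_single k]
  · simp
  · intro k' _ hk'
    rw [if_neg]
    intro h2
    exact hk' ((cs_strictMono l0 r h).injective h2)
  · intro h'
    exact absurd (Finset.mem_range.mpr hk) h'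

theorem pe_ne_zero (l0 K b r i : ℕ) (h : pe l0 K b r i ≠ 0) :
    ∃ k, k < K ∧ k % 2 = b ∧ cs l0 r k = i := by
  unfold pe at h
  obtain ⟨k, hk, hk2⟩ := Finset.exists_ne_zero_of_sum_ne_zero h
  refine ⟨k, Finset.mem_range.mp hk, ?_⟩
  by_contra h3
  exact hk2 (if_neg h3)

theorem pw_ne_zero (l0 K r i : ℕ) (h : pw l0 K r i ≠ 0) :
    ∃ k, k < K ∧ k ≠ 0 ∧ cs l0 r k = i := by
  unfold pw at h
  obtain ⟨k, hk, hk2⟩ := Finset.exists_ne_zero_of_sum_ne_zero h
  refine ⟨k, Finset.mem_range.mp hk, ?_⟩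
  by_cases h3 : cs l0 r k = i
  · refine ⟨?_, h3⟩
    rintro rfl
    apply hk2
    simp
  · exact absurd (if_neg h3) hk2

theorem pw_le (l0 K r i : ℕ) (h : 1 ≤ l0) : pw l0 K r i ≤ i := by
  by_cases h0 : pw l0 K r i = 0
  · omega
  obtain ⟨k, hk, hk0, rfl⟩ := pw_ne_zero l0 K r i h0
  rw [pw_cs l0 K r k h hk, if_neg hk0]
  obtain ⟨k', rfl⟩ := Nat.exists_eq_succ_of_ne_zero hk0
  have h1 := gs_le_cs l0 r (k' + 1)
  simp only [gs] at h1
  have h2 : l0 + k'.succ - 1 = l0 + k' := by omega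
  rw [h2]
  simp only [Nat.succ_eq_add_one] at *
  omega

theorem pgap (l0 K b r i : ℕ) (h : 1 ≤ l0) (he : pe l0 K b r i ≠ 0) (i' : ℕ)
    (h1 : i - pw l0 K r i ≤ i') (h2 : i' < i) : pe l0 K b r i' = 0 := by
  by_contra hne
  obtain ⟨k, hk, hkb, rfl⟩ := pe_ne_zero l0 K b r i he
  obtain ⟨k', hk', hkb', rfl⟩ := pe_ne_zero l0 K b r i' hne
  have hlt : k' < k := (cs_strictMono l0 r h).lt_iff_lt.mp h2
  have h3 : k' + 2 ≤ k := by
    rcases Nat.lt_or_ge k (k' + 2) with h4 | h4
    · exfalso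
      have : k = k' + 1 := by omega
      subst this
      omega
    · exact h4
  rw [pw_cs l0 K r k h hk, if_neg (by omega)] at h1
  obtain ⟨m, rfl⟩ := Nat.exists_eq_add_of_le h3
  have h5 := gs_le_cs l0 r (k' + 2 + m)
  have h6 := cs_lt l0 r k' h
  have h7 : gs l0 (k' + 1) ≤ gs l0 (k' + 1 + m) := gs_mono l0 (by omega)
  have h8 : gs l0 (k' + 2 + m) = gs l0 (k' + 1 + m) + 7 * (l0 + (k' + 1 + m)) := by
    have : k' + 2 + m = (k' + 1 + m) + 1 := by ring
    rw [this]
    rfl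
  have h9 : l0 + (k' + 2 + m) - 1 = l0 + (k' + 1 + m) := by omega
  rw [h9] at h1
  omega

theorem sum_range_mod (q L : ℕ) (hL : 1 ≤ L) (c : ℕ) :
    ∑ r ∈ Finset.range (q * L), (if r % L = c then (1 : ℝ) else 0) = if c < L then (q : ℝ) else 0 := by
  induction q with
  | zero => simp
  | succ q ih =>
    rw [Nat.succ_mul, Finset.sum_range_add, ih]
    have : ∑ x ∈ Finset.range L, (if (q * L + x) % L = c then (1 : ℝ) else 0) = if c < L then 1 else 0 := by
      rw [Finset.sum_congr rfl (g := fun x => if x = c then (1 : ℝ) else 0)]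
      · rw [Finset.sum_ite_eq' (Finset.range L) c]
        simp only [Finset.mem_range]
      · intro x hx
        rw [show q * L + x = x + L * q by ring, Nat.add_mul_mod_self_left, Nat.mod_eq_of_lt (Finset.mem_range.mp hx)]
    rw [this]
    split_ifs
    · push_cast
      ring
    · simp

theorem sum_group (l0 K i : ℕ) :
    ∑ k ∈ Finset.range K, (if gs l0 k ≤ i ∧ i < gs l0 (k + 1) then (1 : ℝ) else 0)
      = if i < gs l0 K then 1 else 0 := by
  induction K with
  | zero => simp [gs]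
  | succ K ih =>
    rw [Finset.sum_range_succ, ih]
    have h1 : gs l0 K ≤ gs l0 (K + 1) := gs_mono l0 (by omega)
    by_cases h2 : i < gs l0 K
    · rw [if_pos h2, if_pos (lt_of_lt_of_le h2 h1), if_neg (by omega)]
      simp
    · rw [if_neg h2, zero_add]
      by_cases h3 : i < gs l0 (K + 1)
      · rw [if_pos h3, if_pos ⟨by omega, h3⟩]
      · rw [if_neg h3, if_neg (by omega)]

/-- each scale gets total weight `1/7` -/
theorem weight_sum (l0 K M i : ℕ) (h : 1 ≤ l0) (hM : 0 < M) (hdvd : ∀ k, k < K → 7 * (l0 + k) ∣ M)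
    (hi : i < gs l0 K) :
    ∑ ω ∈ Finset.range 2 ×ˢ Finset.range M, (1 / (2 * M : ℝ)) * (pe l0 K ω.1 ω.2 i : ℝ) = 1 / 7 := by
  rw [← Finset.mul_sum, Finset.sum_product]
  have h1 : ∑ b ∈ Finset.range 2, ∑ r ∈ Finset.range M, (pe l0 K b r i : ℝ)
      = ∑ k ∈ Finset.range K, (2 / 7 * M : ℝ) * (if gs l0 k ≤ i ∧ i < gs l0 (k + 1) then (1 : ℝ) else 0) := by
    unfold pe
    push_cast
    rw [Finset.sum_congr rfl (fun b _ => Finset.sum_comm), Finset.sum_comm]
    apply Finset.sum_congr rfl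
    intro k hk
    obtain ⟨q, hq⟩ := hdvd k (Finset.mem_range.mp hk)
    have h2 : ∀ b ∈ Finset.range 2, ∑ r ∈ Finset.range M, (if k % 2 = b ∧ cs l0 r k = i then (2 * ((l0 : ℝ) + k)) else 0)
        = (if k % 2 = b then (1 : ℝ) else 0) *
          ((2 * ((l0 : ℝ) + k)) * ∑ r ∈ Finset.range M, (if cs l0 r k = i then (1 : ℝ) else 0)) := by
      intro b _
      rw [Finset.mul_sum, Finset.mul_sum]
      apply Finset.sum_congr rfl
      intro r _
      by_cases hb : k % 2 = b <;> by_cases hc : cs l0 r k = i <;> simp [hb, hc]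
    rw [Finset.sum_congr rfl h2, ← Finset.sum_mul]
    have h3 : ∑ b ∈ Finset.range 2, (if k % 2 = b then (1 : ℝ) else 0) = 1 := by
      rw [Finset.sum_ite_eq (Finset.range 2) (k % 2)]
      rw [if_pos (Finset.mem_range.mpr (Nat.mod_lt _ (by norm_num)))]
    rw [h3, one_mul]
    have h4 : ∑ r ∈ Finset.range M, (if cs l0 r k = i then (1 : ℝ) else 0)
        = if gs l0 k ≤ i ∧ i < gs l0 (k + 1) then (q : ℝ) else 0 := by
      by_cases h5 : gs l0 k ≤ i
      · have h6 : ∀ r ∈ Finset.range M, (if cs l0 r k = i then (1 : ℝ) else 0)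
            = if r % (7 * (l0 + k)) = i - gs l0 k then (1 : ℝ) else 0 := by
          intro r _
          unfold cs
          congr 1
          apply propext
          constructor <;> intro h7 <;> omega
        rw [Finset.sum_congr rfl h6, hq, mul_comm (7 * (l0 + k)) q, sum_range_mod q (7 * (l0 + k)) (by omega)]
        congr 1
        apply propext
        simp only [gs]
        constructor <;> intro h7 <;> omega
      · rw [if_neg (fun h7 => h5 h7.1)]
        apply Finset.sum_eq_zero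
        intro r _
        rw [if_neg]
        intro h7
        exact h5 (h7 ▸ gs_le_cs l0 r k)
    rw [h4]
    have hq' : (M : ℝ) = 7 * ((l0 : ℝ) + k) * q := by
      rw [hq]
      push_cast
      ring
    by_cases h8 : gs l0 k ≤ i ∧ i < gs l0 (k + 1)
    · rw [if_pos h8, if_pos h8, hq']
      ring
    · rw [if_neg h8, if_neg h8]
      ring
  rw [h1, ← Finset.mul_sum, sum_group, if_pos hi]
  have : (M : ℝ) ≠ 0 := by exact_mod_cast hM.ne'
  field_simp

end Vale.Agent.P162
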