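import Vale.Agent.P162.PMDefs

open Equiv

set_option linter.unusedSectionVars false

namespace Vale.Agent.P162

section bs_gen

variable {A B V : Type} [Fintype A] [DecidableEq A] [Fintype B] [DecidableEq B] [Fintype V] [DecidableEq V]

/-- complement decomposition of an injection -/
noncomputable def bs_split (φ : A → B) (hφ : Function.Injective φ) :
    A ⊕ ((Set.range φ)ᶜ : Set B) ≃ B := by
  classical
  exact (Equiv.sumCongr (Equiv.ofInjective φ hφ) (Equiv.refl _)).trans (Equiv.Set.sumCompl (Set.range φ))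

theorem bs_split_inl (φ : A → B) (hφ : Function.Injective φ) (a : A) :
    bs_split φ hφ (Sum.inl a) = φ a := by
  simp [bs_split]

theorem bs_card_compl (φ : A → B) (hφ : Function.Injective φ) :
    Nat.card ((Set.range φ)ᶜ : Set B) = Fintype.card B - Fintype.card A := by
  classical
  have h1 := Nat.card_congr (bs_split φ hφ)
  rw [Nat.card_sum, Nat.card_eq_fintype_card, Nat.card_eq_fintype_card (α := B)] at h1
  omega

theorem bs_sum_all (φ : A → B) (hφ : Function.Injective φ) (G : (A → V) → ℝ) :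
    ∑ y : B → V, G (fun a => y (φ a)) =
      (Fintype.card V : ℝ) ^ (Fintype.card B - Fintype.card A) * ∑ x : A → V, G x := by
  classical
  have e1 : ∑ y : B → V, G (fun a => y (φ a))
      = ∑ p : (A → V) × (((Set.range φ)ᶜ : Set B) → V), G p.1 := by
    refine Fintype.sum_equiv ((Equiv.arrowCongr (bs_split φ hφ).symm (Equiv.refl V)).trans
      (Equiv.sumArrowEquivProdArrow A _ V)) _ _ ?_
    intro y
    congr 1
  rw [e1, Fintype.sum_prod_type]
  simp only [Finset.sum_const, Finset.card_univ, nsmul_eq_mul, Fintype.card_fun]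
  rw [← Finset.mul_sum, ← Nat.card_eq_fintype_card (α := ((Set.range φ)ᶜ : Set B)), bs_card_compl φ hφ]
  push_cast
  rfl

theorem bs_sum_emb (φ : A → B) (hφ : Function.Injective φ) (G : (A ↪ V) → ℝ) :
    ∑ y : B ↪ V, G ⟨fun a => y (φ a), fun _ _ h => hφ (y.injective h)⟩ =
      ((Fintype.card V - Fintype.card A).descFactorial (Fintype.card B - Fintype.card A) : ℝ) *
        ∑ x : A ↪ V, G x := by
  classical
  have e1 : ∑ y : B ↪ V, G ⟨fun a => y (φ a), fun _ _ h => hφ (y.injective h)⟩
      = ∑ p : (Σ f : A ↪ V, ((Set.range φ)ᶜ : Set B) ↪ ((Set.range f)ᶜ : Set V)), G p.1 := by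
    refine Fintype.sum_equiv ((Equiv.embeddingCongr (bs_split φ hφ).symm (Equiv.refl V)).trans
      Equiv.sumEmbeddingEquivSigmaEmbeddingRestricted) _ _ ?_
    intro y
    congr 1
  rw [e1, Fintype.sum_sigma]
  simp only [Finset.sum_const, Finset.card_univ, nsmul_eq_mul, Fintype.card_embedding_eq]
  rw [Finset.mul_sum]
  apply Finset.sum_congr rfl
  intro x _
  congr 3
  · rw [← Nat.card_eq_fintype_card (α := ((Set.range x)ᶜ : Set V)), bs_card_compl x x.injective]
  · rw [← Nat.card_eq_fintype_card (α := ((Set.range φ)ᶜ : Set B)), bs_card_compl φ hφ]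

/-- resampling one coordinate -/
theorem bs_update (p : B) (H : (B → V) → ℝ) :
    ∑ y : B → V, ∑ v : V, H (Function.update y p v) = (Fintype.card V : ℝ) * ∑ y, H y := by
  rw [← Fintype.sum_prod_type' (f := fun (y : B → V) (v : V) => H (Function.update y p v))]
  have : ∑ x : (B → V) × V, H (Function.update x.1 p x.2) = ∑ x : (B → V) × V, H x.1 := by
    let e : (B → V) × V ≃ (B → V) × V :=
      { toFun := fun x => (Function.update x.1 p x.2, x.1 p)
        invFun := fun x => (Function.update x.1 p x.2, x.1 p)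
        left_inv := by
          rintro ⟨y, v⟩
          simp
        right_inv := by
          rintro ⟨y, v⟩
          simp }
    exact Fintype.sum_equiv e _ _ (fun x => rfl)
  rw [this, Fintype.sum_prod_type]
  simp only [Finset.sum_const, Finset.card_univ, nsmul_eq_mul]
  rw [Finset.mul_sum]

end bs_gen

section perm

variable {V : Type} [Fintype V] [DecidableEq V]

/-- extension by zero -/
noncomputable def bs_F {j : ℕ} (f : (Fin j ↪ V) → ℝ) (x : Fin j → V) : ℝ := by
  classical
  exact if h : Function.Injective x then f ⟨x, h⟩ else 0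

theorem bs_F_emb {j : ℕ} (f : (Fin j ↪ V) → ℝ) (x : Fin j → V) (h : Function.Injective x) :
    bs_F f x = f ⟨x, h⟩ := by
  unfold bs_F
  rw [dif_pos h]

theorem bs_F_zero {j : ℕ} (f : (Fin j ↪ V) → ℝ) (hf : ZeroSum f) (i : Fin j) (x : Fin j → V) :
    ∑ v : V, bs_F f (Function.update x i v) = 0 := by
  rw [← hf i x]
  apply Finset.sum_congr rfl
  intro v _
  unfold bs_F
  by_cases h : Function.Injective (Function.update x i v)
  · simp only [dif_pos h]
  · simp only [dif_neg h]

theorem bs_F_sq {j : ℕ} (f : (Fin j ↪ V) → ℝ) : ∑ x : Fin j → V, bs_F f x ^ 2 = ∑ x, f x ^ 2 := by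
  classical
  have h1 : ∑ x : Fin j ↪ V, f x ^ 2 = ∑ x ∈ (Finset.univ : Finset (Fin j ↪ V)).map
      ⟨fun y : Fin j ↪ V => (⇑y : Fin j → V), DFunLike.coe_injective⟩, bs_F f x ^ 2 := by
    rw [Finset.sum_map]
    apply Finset.sum_congr rfl
    intro x _
    change f x ^ 2 = bs_F f (⇑x) ^ 2
    rw [bs_F_emb f _ x.injective]
    rfl
  rw [h1]
  symm
  apply Finset.sum_subset (Finset.subset_univ _)
  intro x _ hx
  unfold bs_F
  rw [dif_neg, sq, zero_mul]
  intro h
  apply hx
  rw [Finset.mem_map]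
  exact ⟨⟨x, h⟩, Finset.mem_univ _, rfl⟩

theorem bs_cross {j q : ℕ} (f : (Fin j ↪ V) → ℝ) (hf : ZeroSum f) (κ κ' : Fin j → Fin q) (h : κ ≠ κ') :
    ∑ y : Fin j × Fin q → V, bs_F f (fun i => y (i, κ i)) * bs_F f (fun i => y (i, κ' i)) = 0 := by
  obtain ⟨i, hi⟩ := Function.ne_iff.mp h
  have h1 := bs_update (V := V) (i, κ i)
    (fun y : Fin j × Fin q → V => bs_F f (fun i => y (i, κ i)) * bs_F f (fun i => y (i, κ' i)))
  have h2 : ∀ (y : Fin j × Fin q → V),
      ∑ v : V, bs_F f (fun i' => Function.update y (i, κ i) v (i', κ i')) *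
        bs_F f (fun i' => Function.update y (i, κ i) v (i', κ' i')) = 0 := by
    intro y
    have e1 : ∀ v : V, (fun i' => Function.update y (i, κ i) v (i', κ i')) =
        Function.update (fun i' => y (i', κ i')) i v := by
      intro v
      funext i'
      by_cases h : i' = i
      · subst h
        simp
      · rw [Function.update_of_ne h, Function.update_of_ne]
        intro h'
        exact h (Prod.mk.inj h').1
    have e2 : ∀ v : V, (fun i' => Function.update y (i, κ i) v (i', κ' i')) =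
        (fun i' => y (i', κ' i')) := by
      intro v
      funext i'
      rw [Function.update_of_ne]
      intro h'
      obtain ⟨h1, h2⟩ := Prod.mk.inj h'
      subst h1
      exact hi h2.symm
    simp only [e1, e2]
    rw [← Finset.sum_mul, bs_F_zero f hf, zero_mul]
  simp only [h2, Finset.sum_const_zero] at h1
  rcases isEmpty_or_nonempty V with hV | hV
  · have : IsEmpty (Fin j × Fin q → V) := ⟨fun y => hV.elim (y (i, κ i))⟩
    simp
  · have : (Fintype.card V : ℝ) ≠ 0 := by exact_mod_cast Fintype.card_ne_zero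
    rcases mul_eq_zero.mp h1.symm with h3 | h3
    · exact absurd h3 this
    · exact h3

theorem bs_diag {j q : ℕ} (f : (Fin j ↪ V) → ℝ) (κ : Fin j → Fin q) :
    ∑ y : Fin j × Fin q → V, bs_F f (fun i => y (i, κ i)) * bs_F f (fun i => y (i, κ i)) =
      (Fintype.card V : ℝ) ^ (j * q - j) * ∑ x, f x ^ 2 := by
  have h1 := bs_sum_all (V := V) (fun i : Fin j => (i, κ i)) (fun a b h => (Prod.mk.inj h).1)
    (fun x => bs_F f x ^ 2)
  rw [bs_F_sq] at h1
  simp only [Fintype.card_prod, Fintype.card_fin] at h1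
  rw [← h1]
  apply Finset.sum_congr rfl
  intro y _
  ring

/-- PIECE E (file Bessel.lean). PM, ZeroSum are defined in PMDefs.lean -/
theorem bessel {j q : ℕ} (f : (Fin j ↪ V) → ℝ) (hf : ZeroSum f) (z : (Fin j × Fin q ↪ V) → ℝ) :
    ∑ κ : Fin j → Fin q,
      (∑ y : Fin j × Fin q ↪ V, z y * f ⟨fun i => y (i, κ i), fun a b h => by
        have := y.injective h
        exact (Prod.mk.inj this).1⟩) ^ 2
      ≤ (Fintype.card V : ℝ) ^ (j * q - j) * (∑ x, f x ^ 2) * ∑ y, z y ^ 2 := by
  classical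
  set c : (Fin j → Fin q) → ℝ := fun κ => ∑ y : Fin j × Fin q ↪ V, z y * f ⟨fun i => y (i, κ i),
    fun a b h => by
        have := y.injective h
        exact (Prod.mk.inj this).1⟩ with hc
  change ∑ κ, c κ ^ 2 ≤ _
  set M : ℝ := (Fintype.card V : ℝ) ^ (j * q - j) * (∑ x, f x ^ 2) with hM
  set S : ℝ := ∑ κ, c κ ^ 2 with hS
  -- full expansion
  have h1 : ∑ y : Fin j × Fin q → V, (∑ κ, c κ * bs_F f (fun i => y (i, κ i))) ^ 2 = S * M := by
    have e1 : ∀ y : Fin j × Fin q → V, (∑ κ, c κ * bs_F f (fun i => y (i, κ i))) ^ 2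
        = ∑ κ, ∑ κ', c κ * c κ' * (bs_F f (fun i => y (i, κ i)) * bs_F f (fun i => y (i, κ' i))) := by
      intro y
      rw [sq, Finset.sum_mul_sum]
      apply Finset.sum_congr rfl
      intro κ _
      apply Finset.sum_congr rfl
      intro κ' _
      ring
    simp only [e1]
    rw [Finset.sum_comm]
    have e2 : ∀ κ, ∑ y : Fin j × Fin q → V, ∑ κ', c κ * c κ' *
        (bs_F f (fun i => y (i, κ i)) * bs_F f (fun i => y (i, κ' i))) = c κ ^ 2 * M := by
      intro κ
      rw [Finset.sum_comm]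
      simp only [← Finset.mul_sum]
      rw [Finset.sum_eq_single κ]
      · rw [bs_diag, hM]
        ring
      · intro κ' _ hne
        rw [bs_cross f hf κ κ' (Ne.symm hne), mul_zero]
      · intro h
        exact absurd (Finset.mem_univ κ) h
    simp only [e2]
    rw [← Finset.sum_mul]
  -- restrict to injections
  have h2 : ∑ y : Fin j × Fin q ↪ V, (∑ κ, c κ * bs_F f (fun i => y (i, κ i))) ^ 2 ≤ S * M := by
    rw [← h1]
    have e1 : ∑ y : Fin j × Fin q ↪ V, (∑ κ, c κ * bs_F f (fun i => y (i, κ i))) ^ 2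
        = ∑ y ∈ (Finset.univ : Finset (Fin j × Fin q ↪ V)).map
            ⟨fun y : Fin j × Fin q ↪ V => (⇑y : Fin j × Fin q → V), DFunLike.coe_injective⟩,
          (∑ κ, c κ * bs_F f (fun i => y (i, κ i))) ^ 2 := by
      rw [Finset.sum_map]
      rfl
    rw [e1]
    exact Finset.sum_le_sum_of_subset_of_nonneg (Finset.subset_univ _) (fun y _ _ => sq_nonneg _)
  have h3 : S = ∑ y : Fin j × Fin q ↪ V, z y * (∑ κ, c κ * bs_F f (fun i => y (i, κ i))) := by
    rw [hS]
    simp only [Finset.mul_sum]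
    rw [Finset.sum_comm]
    apply Finset.sum_congr rfl
    intro κ _
    rw [sq]
    conv_lhs => rw [hc]
    simp only
    rw [Finset.sum_mul]
    apply Finset.sum_congr rfl
    intro y _
    rw [bs_F_emb f _ (fun a b h => by
        have := y.injective h
        exact (Prod.mk.inj this).1)]
    ring
  have h4 : S ^ 2 ≤ (∑ y, z y ^ 2) * (S * M) := by
    calc S ^ 2 = (∑ y : Fin j × Fin q ↪ V, z y * (∑ κ, c κ * bs_F f (fun i => y (i, κ i)))) ^ 2 := by
          rw [← h3]
      _ ≤ (∑ y, z y ^ 2) * ∑ y : Fin j × Fin q ↪ V, (∑ κ, c κ * bs_F f (fun i => y (i, κ i))) ^ 2 :=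
          Finset.sum_mul_sq_le_sq_mul_sq _ _ _
      _ ≤ _ := mul_le_mul_of_nonneg_left h2 (Finset.sum_nonneg fun y _ => sq_nonneg _)
  have hS0 : 0 ≤ S := Finset.sum_nonneg fun κ _ => sq_nonneg _
  rcases hS0.eq_or_lt with h5 | h5
  · rw [← h5]
    exact mul_nonneg (mul_nonneg (by positivity) (Finset.sum_nonneg fun x _ => sq_nonneg _))
      (Finset.sum_nonneg fun y _ => sq_nonneg _)
  · have : S * S ≤ S * (M * ∑ y, z y ^ 2) := by
      nlinarith
    exact le_of_mul_le_mul_left this h5

theorem bs_PM_apply {ι : Type} [Fintype ι] [DecidableEq ι] (μ : Perm V → ℝ) (f : (ι ↪ V) → ℝ) (x : ι ↪ V) :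
    Matrix.mulVec (PM ι μ) f x = ∑ g : Perm V, μ g * f (x.trans (g⁻¹ : Perm V).toEmbedding) := by
  unfold Matrix.mulVec dotProduct PM
  simp only [Finset.sum_mul]
  rw [Finset.sum_comm]
  apply Finset.sum_congr rfl
  intro g _
  rw [Finset.sum_eq_single (x.trans (g⁻¹ : Perm V).toEmbedding)]
  · rw [if_pos]
    intro k
    exact (Equiv.apply_symm_apply g (x k)).symm
  · intro y _ hy
    rw [if_neg, zero_mul]
    intro h
    apply hy
    ext k
    change y k = g.symm (x k)
    rw [h k, Equiv.symm_apply_apply]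
  · intro h
    exact absurd (Finset.mem_univ _) h

/-- PIECE E final: quadratic form bound on zero-sum functions of `j` cards from a trace on `j*q` cards -/
theorem level_form_le {j q : ℕ} (hq : 1 ≤ q) (hjq : j * q ≤ Fintype.card V) (μ : Perm V → ℝ)
    (f : (Fin j ↪ V) → ℝ) (hf : ZeroSum f) :
    (q : ℝ) ^ j * ((Fintype.card V - j).descFactorial (j * q - j) : ℝ) *
      ∑ x, (Matrix.mulVec (PM (Fin j) μ) f x) ^ 2
      ≤ (Fintype.card V : ℝ) ^ (j * q - j) * (∑ x, f x ^ 2) *
        Matrix.trace ((PM (Fin j × Fin q) μ).transpose * PM (Fin j × Fin q) μ) := by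
  classical
  -- the trace as a sum over rows
  have htr : Matrix.trace ((PM (Fin j × Fin q) μ).transpose * PM (Fin j × Fin q) μ)
      = ∑ y : Fin j × Fin q ↪ V, ∑ y' : Fin j × Fin q ↪ V, PM (Fin j × Fin q) μ y y' ^ 2 := by
    unfold Matrix.trace
    simp only [Matrix.diag_apply, Matrix.mul_apply, Matrix.transpose_apply]
    rw [Finset.sum_comm]
    apply Finset.sum_congr rfl
    intro y _
    apply Finset.sum_congr rfl
    intro y' _
    ring
  have hM : ∀ M : ℝ, M * ∑ y : Fin j × Fin q ↪ V, ∑ y' : Fin j × Fin q ↪ V, PM (Fin j × Fin q) μ y y' ^ 2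
      = ∑ y : Fin j × Fin q ↪ V, M * ∑ y' : Fin j × Fin q ↪ V, PM (Fin j × Fin q) μ y y' ^ 2 :=
    fun M => Finset.mul_sum _ _ _
  rw [htr, hM]
  -- rows
  have hrow := fun y : Fin j × Fin q ↪ V => bessel f hf (fun y' => PM (Fin j × Fin q) μ y y')
  refine le_trans (le_of_eq ?_) (Finset.sum_le_sum fun y _ => hrow y)
  rw [Finset.sum_comm]
  have hκ : ∀ κ : Fin j → Fin q, ∑ y : Fin j × Fin q ↪ V,
      (∑ y' : Fin j × Fin q ↪ V, PM (Fin j × Fin q) μ y y' * f ⟨fun i => y' (i, κ i), fun a b h => by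
        have := y'.injective h
        exact (Prod.mk.inj this).1⟩) ^ 2
      = ((Fintype.card V - j).descFactorial (j * q - j) : ℝ) *
        ∑ x, (Matrix.mulVec (PM (Fin j) μ) f x) ^ 2 := by
    intro κ
    have h1 := bs_sum_emb (V := V) (fun i : Fin j => (i, κ i)) (fun a b h => (Prod.mk.inj h).1)
      (fun x => (Matrix.mulVec (PM (Fin j) μ) f x) ^ 2)
    simp only [Fintype.card_prod, Fintype.card_fin] at h1
    rw [← h1]
    apply Finset.sum_congr rfl
    intro y _
    congr 1
    have h2 := bs_PM_apply μ (fun y' : Fin j × Fin q ↪ V => f ⟨fun i => y' (i, κ i), fun a b h => by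
        have := y'.injective h
        exact (Prod.mk.inj this).1⟩) y
    rw [bs_PM_apply]
    exact h2
  simp only [hκ]
  rw [Finset.sum_const, Finset.card_univ, Fintype.card_fun, Fintype.card_fin, Fintype.card_fin, nsmul_eq_mul]
  push_cast
  ring

end perm

end Vale.Agent.P162
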