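import Vale.Agent.P162.A2

open Equiv

set_option linter.unusedSectionVars false

namespace Vale.Agent.P162

theorem regAux (α : Type) [Fintype α] [DecidableEq α] (g : Perm α)
    (f : EuclideanSpace ℝ (Perm α)) (x : Perm α) :
    (LinearIsometryEquiv.piLpCongrLeft 2 ℝ ℝ (Equiv.mulRight g⁻¹) f) x = f (x * g) := by
  simp [LinearIsometryEquiv.piLpCongrLeft_apply]

noncomputable def regRep (α : Type) [Fintype α] [DecidableEq α] :
    Perm α →* (EuclideanSpace ℝ (Perm α) ≃ₗᵢ[ℝ] EuclideanSpace ℝ (Perm α)) where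
  toFun g := LinearIsometryEquiv.piLpCongrLeft 2 ℝ ℝ (Equiv.mulRight g⁻¹)
  map_one' := by
    ext f x
    exact (regAux α 1 f x).trans (by rw [mul_one]; rfl)
  map_mul' := by
    intro g h
    ext f x
    refine (regAux α (g * h) f x).trans ?_
    refine Eq.trans ?_ (regAux α g (LinearIsometryEquiv.piLpCongrLeft 2 ℝ ℝ (Equiv.mulRight h⁻¹) f) x).symm
    refine Eq.trans ?_ (regAux α h f (x * g)).symm
    rw [mul_assoc]

theorem regRep_apply (α : Type) [Fintype α] [DecidableEq α] (g : Perm α)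
    (f : EuclideanSpace ℝ (Perm α)) (x : Perm α) : regRep α g f x = f (x * g) :=
  regAux α g f x

section

variable {α : Type} [Fintype α] [DecidableEq α]
variable {E : Type} [NormedAddCommGroup E] [InnerProductSpace ℝ E]

theorem Inv_mono (ρ : Perm α →* (E ≃ₗᵢ[ℝ] E)) {D D' : Finset α} (h : D' ⊆ D) :
    Inv ρ D ≤ Inv ρ D' := by
  intro v hv σ hσ
  exact hv σ fun x hx => hσ x fun hx' => hx (h hx')

theorem Inv_map (ρ : Perm α →* (E ≃ₗᵢ[ℝ] E)) (D : Finset α) (g : Perm α) {v : E}
    (hv : v ∈ Inv ρ D) : ρ g v ∈ Inv ρ (D.map g.toEmbedding) := by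
  intro σ hσ
  have h : ρ (g⁻¹ * σ * g) v = v := by
    refine hv _ ?_
    intro x hx
    have h1 : g x ∉ D.map g.toEmbedding := by
      intro h2
      rw [Finset.mem_map] at h2
      obtain ⟨y, hy, hyx⟩ := h2
      have : y = x := g.injective hyx
      exact hx (this ▸ hy)
    have h2 := hσ (g x) h1
    rw [Perm.mul_apply, Perm.mul_apply, h2]
    exact Equiv.symm_apply_apply g x
  rw [← rho_mul]
  have h3 : σ * g = g * (g⁻¹ * σ * g) := by group
  rw [h3, rho_mul, h]

theorem Kj_map (ρ : Perm α →* (E ≃ₗᵢ[ℝ] E)) (j : ℕ) (g : Perm α) {u : E}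
    (hu : u ∈ Kj ρ Finset.univ j) : ρ g u ∈ Kj ρ Finset.univ j := by
  intro D _ hc v hv
  rw [inner_rho_right]
  refine hu (D.map (g⁻¹ : Perm α).toEmbedding) (Finset.subset_univ _) ?_ _ (Inv_map ρ D g⁻¹ hv)
  rw [Finset.card_map]
  exact hc

theorem Kj_zero (ρ : Perm α →* (E ≃ₗᵢ[ℝ] E)) : Kj ρ (Finset.univ : Finset α) 0 = ⊤ := by
  rw [eq_top_iff]
  intro u _ D _ hc v hv
  exfalso
  have := Finset.card_le_univ D
  rw [Finset.card_univ] at hc
  omega

theorem Kj_last (ρ : Perm α →* (E ≃ₗᵢ[ℝ] E)) :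
    Kj ρ (Finset.univ : Finset α) (Fintype.card α + 1) = ⊥ := by
  rw [eq_bot_iff]
  intro u hu
  have h := hu ∅ (Finset.subset_univ _) (by rw [Finset.card_univ]; simp) u (by
    intro σ hσ
    have : σ = 1 := by
      ext x
      simpa using hσ x (by simp)
    rw [this, rho_one])
  rw [Submodule.mem_bot]
  exact inner_self_eq_zero.mp h

theorem Kj_succ_le (ρ : Perm α →* (E ≃ₗᵢ[ℝ] E)) (j : ℕ) (hj : j ≤ Fintype.card α) :
    Kj ρ (Finset.univ : Finset α) (j + 1) ≤ Kj ρ Finset.univ j := by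
  intro u hu D _ hc v hv
  rw [Finset.card_univ] at hc
  have hne : D.Nonempty := by
    rw [← Finset.card_pos]
    omega
  obtain ⟨x, hx⟩ := hne
  refine hu (D.erase x) (Finset.subset_univ _) ?_ v (Inv_mono ρ (Finset.erase_subset x D) hv)
  rw [Finset.card_erase_of_mem hx, Finset.card_univ]
  omega

theorem Kj_anti (ρ : Perm α →* (E ≃ₗᵢ[ℝ] E)) {i j : ℕ} (hij : i ≤ j)
    (hj : j ≤ Fintype.card α + 1) :
    Kj ρ (Finset.univ : Finset α) j ≤ Kj ρ Finset.univ i := by
  induction j, hij using Nat.le_induction with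
  | base => exact le_rfl
  | succ j hij ih => exact (Kj_succ_le ρ j (by omega)).trans (ih (by omega))

theorem orth_invariant (K : Submodule ℝ E) (ρ : Perm α →* (E ≃ₗᵢ[ℝ] E))
    (hK : ∀ g, ∀ v ∈ K, ρ g v ∈ K) (g : Perm α) (v : E) (hv : v ∈ Kᗮ) : ρ g v ∈ Kᗮ := by
  rw [Submodule.mem_orthogonal] at hv ⊢
  intro u hu
  rw [inner_rho_right]
  exact hv _ (hK _ _ hu)

theorem sumOp_mem (K : Submodule ℝ E) (ρ : Perm α →* (E ≃ₗᵢ[ℝ] E))
    (hK : ∀ g, ∀ v ∈ K, ρ g v ∈ K) (w : Perm α → ℝ) (v : E) (hv : v ∈ K) :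
    (∑ g, w g • R ρ g) v ∈ K := by
  rw [LinearMap.sum_apply]
  refine Submodule.sum_mem _ fun g _ => ?_
  rw [LinearMap.smul_apply]
  exact K.smul_mem _ (hK g v hv)

theorem layer_bound [FiniteDimensional ℝ E] (ρ : Perm α →* (E ≃ₗᵢ[ℝ] E)) (w : Perm α → ℝ)
    (T : E →ₗ[ℝ] E) (hT : T = ∑ g, w g • R ρ g) (c : ℝ) (hc0 : 0 ≤ c)
    (h : ∀ j ≤ Fintype.card α, ∀ u ∈ Kj ρ Finset.univ j, ‖T u‖ ^ 2 ≤ c ^ j * ‖u‖ ^ 2) (δ : E) :
    ‖T δ‖ ^ 2 ≤ ∑ j ∈ Finset.range (Fintype.card α + 1),
      c ^ j * ‖(Kj ρ (Finset.univ : Finset α) (j + 1))ᗮ.starProjection δ‖ ^ 2 := by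
  set K : ℕ → Submodule ℝ E := fun j => Kj ρ (Finset.univ : Finset α) j with hKdef
  set P : ℕ → E := fun j => (K j).starProjection δ with hP
  set u : ℕ → E := fun j => P j - P (j + 1) with hu
  have hKinv : ∀ j, ∀ g, ∀ v ∈ K j, ρ g v ∈ K j := fun j g v hv => Kj_map ρ j g hv
  have hsum : δ = ∑ j ∈ Finset.range (Fintype.card α + 1), u j := by
    rw [hu, Finset.sum_range_sub']
    have h0 : P 0 = δ := by
      rw [hP]
      have : K 0 = ⊤ := Kj_zero ρ
      rw [Submodule.starProjection_eq_self_iff, this]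
      trivial
    have h1 : P (Fintype.card α + 1) = 0 := by
      have h2 : P (Fintype.card α + 1) ∈ K (Fintype.card α + 1) :=
        Submodule.starProjection_apply_mem _ _
      rw [hKdef] at h2
      simp only [Kj_last] at h2
      exact (Submodule.mem_bot ℝ).mp h2
    rw [h0, h1, sub_zero]
  have huK : ∀ j ≤ Fintype.card α, u j ∈ K j := by
    intro j hj
    refine (K j).sub_mem (Submodule.starProjection_apply_mem _ _) ?_
    exact Kj_succ_le ρ j hj (Submodule.starProjection_apply_mem _ _)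
  have huO : ∀ j ≤ Fintype.card α, u j ∈ (K (j + 1))ᗮ := by
    intro j hj
    have e : u j = (δ - P (j + 1)) - (δ - P j) := by
      show P j - P (j + 1) = _
      rw [sub_sub_sub_cancel_left]
    rw [e]
    refine Submodule.sub_mem _ (Submodule.sub_starProjection_mem_orthogonal _) ?_
    exact Submodule.orthogonal_le (Kj_succ_le ρ j hj)
      (Submodule.sub_starProjection_mem_orthogonal _)
  have hn : ∀ j ≤ Fintype.card α, ‖u j‖ ^ 2 ≤ ‖(K (j + 1))ᗮ.starProjection δ‖ ^ 2 := by
    intro j hj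
    rw [Submodule.starProjection_orthogonal_val]
    have e : δ - (K (j + 1)).starProjection δ = u j + (δ - P j) := by
      show δ - P (j + 1) = P j - P (j + 1) + (δ - P j)
      rw [add_comm (P j - P (j + 1)), sub_add_sub_cancel]
    have ho : inner ℝ (u j) (δ - P j) = 0 :=
      Submodule.inner_right_of_mem_orthogonal (huK j hj)
        (Submodule.sub_starProjection_mem_orthogonal _)
    have := norm_add_sq_eq_norm_sq_add_norm_sq_real ho
    rw [e]
    nlinarith [sq_nonneg ‖δ - P j‖]
  have hTu : T δ = ∑ j ∈ Finset.range (Fintype.card α + 1), T (u j) := by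
    conv_lhs => rw [hsum]
    rw [map_sum]
  rw [hTu, norm_sq_sum_of_orth]
  · refine Finset.sum_le_sum fun j hj => ?_
    have hj' : j ≤ Fintype.card α := by
      rw [Finset.mem_range] at hj
      omega
    exact (h j hj' (u j) (huK j hj')).trans
      (mul_le_mul_of_nonneg_left (hn j hj') (pow_nonneg hc0 j))
  · have key : ∀ i j, i < j → j ≤ Fintype.card α → inner ℝ (T (u i)) (T (u j)) = 0 := by
      intro i j hij hj
      have h1 : T (u j) ∈ K (i + 1) := by
        have h2 : u j ∈ K (i + 1) := Kj_anti ρ (i := i + 1) hij (by omega) (huK j hj)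
        rw [hT]
        exact sumOp_mem _ ρ (hKinv (i + 1)) w _ h2
      have h3 : T (u i) ∈ (K (i + 1))ᗮ := by
        rw [hT]
        exact sumOp_mem _ ρ (orth_invariant _ ρ (hKinv (i + 1))) w _ (huO i (by omega))
      exact Submodule.inner_left_of_mem_orthogonal h1 h3
    intro i hi j hj hij
    rw [Finset.mem_range] at hi hj
    rcases lt_or_gt_of_ne hij with h1 | h1
    · exact key i j h1 (by omega)
    · rw [real_inner_comm]
      exact key j i h1 (by omega)

end

section reg

variable {α : Type} [Fintype α] [DecidableEq α]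

noncomputable def lrep (g : Perm α) :
    EuclideanSpace ℝ (Perm α) ≃ₗᵢ[ℝ] EuclideanSpace ℝ (Perm α) :=
  LinearIsometryEquiv.piLpCongrLeft 2 ℝ ℝ (Equiv.mulLeft g)

theorem lrep_apply (g : Perm α) (f : EuclideanSpace ℝ (Perm α)) (x : Perm α) :
    lrep g f x = f (g⁻¹ * x) := by
  simp [lrep, LinearIsometryEquiv.piLpCongrLeft_apply]

theorem lrep_single (g : Perm α) :
    lrep g (EuclideanSpace.single (1 : Perm α) (1 : ℝ)) = EuclideanSpace.single g (1 : ℝ) := by
  rw [lrep, EuclideanSpace.piLpCongrLeft_single]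
  simp

theorem lrep_comm (g h : Perm α) (f : EuclideanSpace ℝ (Perm α)) :
    regRep α h (lrep g f) = lrep g (regRep α h f) := by
  ext x
  rw [regRep_apply, lrep_apply, lrep_apply, regRep_apply, mul_assoc]

theorem inner_lrep_left (g : Perm α) (u v : EuclideanSpace ℝ (Perm α)) :
    inner ℝ (lrep g u) v = inner ℝ u (lrep g⁻¹ v) := by
  have h : v = lrep g (lrep g⁻¹ v) := by
    ext x
    rw [lrep_apply, lrep_apply]
    simp
  conv_lhs => rw [h]
  exact (lrep g).inner_map_map u _

theorem lrep_Inv (D : Finset α) (g : Perm α) {v : EuclideanSpace ℝ (Perm α)}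
    (hv : v ∈ Inv (regRep α) D) : lrep g v ∈ Inv (regRep α) D := by
  intro σ hσ
  rw [lrep_comm, hv σ hσ]

theorem lrep_Kj (j : ℕ) (g : Perm α) {u : EuclideanSpace ℝ (Perm α)}
    (hu : u ∈ Kj (regRep α) Finset.univ j) : lrep g u ∈ Kj (regRep α) Finset.univ j := by
  intro D hD hc v hv
  rw [real_inner_comm, inner_lrep_left, real_inner_comm]
  exact hu D hD hc _ (lrep_Inv D g⁻¹ hv)

theorem norm_proj_single (j : ℕ) (g : Perm α) :
    ‖(Kj (regRep α) (Finset.univ : Finset α) j)ᗮ.starProjection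
        (EuclideanSpace.single g (1 : ℝ))‖ =
      ‖(Kj (regRep α) (Finset.univ : Finset α) j)ᗮ.starProjection
        (EuclideanSpace.single (1 : Perm α) (1 : ℝ))‖ := by
  set K := Kj (regRep α) (Finset.univ : Finset α) j with hK
  set δ := EuclideanSpace.single (1 : Perm α) (1 : ℝ) with hδ
  have h1 : K.starProjection (lrep g δ) = lrep g (K.starProjection δ) := by
    refine Submodule.eq_starProjection_of_mem_orthogonal ?_ ?_
    · exact lrep_Kj j g (Submodule.starProjection_apply_mem _ _)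
    · rw [← map_sub, Submodule.mem_orthogonal]
      intro u hu
      rw [real_inner_comm, inner_lrep_left, real_inner_comm]
      exact (Submodule.mem_orthogonal _ _).mp (Submodule.sub_starProjection_mem_orthogonal δ) _
        (lrep_Kj j g⁻¹ hu)
  rw [← lrep_single, Submodule.starProjection_orthogonal_val,
    Submodule.starProjection_orthogonal_val, ← hδ, h1, ← map_sub, LinearIsometryEquiv.norm_map]

theorem sum_norm_proj (W : Submodule ℝ (EuclideanSpace ℝ (Perm α))) :
    ∑ g : Perm α, ‖W.starProjection (EuclideanSpace.single g (1 : ℝ))‖ ^ 2 =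
      Module.finrank ℝ W := by
  have b := stdOrthonormalBasis ℝ W
  have h1 : ∀ g : Perm α, ‖W.starProjection (EuclideanSpace.single g (1 : ℝ))‖ ^ 2 =
      ∑ i, ((b i : EuclideanSpace ℝ (Perm α)) g) ^ 2 := by
    intro g
    have h2 : ‖W.starProjection (EuclideanSpace.single g (1 : ℝ))‖ =
        ‖W.orthogonalProjectionOnto (EuclideanSpace.single g (1 : ℝ))‖ := rfl
    rw [h2, ← b.sum_sq_inner_right]
    refine Finset.sum_congr rfl fun i _ => ?_
    rw [Submodule.inner_orthogonalProjectionOnto_eq_of_mem_left,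
      EuclideanSpace.inner_single_right]
    simp
  have h3 : ∀ i, ∑ g : Perm α, ((b i : EuclideanSpace ℝ (Perm α)) g) ^ 2 = 1 := by
    intro i
    rw [← EuclideanSpace.real_norm_sq_eq]
    have : ‖(b i : EuclideanSpace ℝ (Perm α))‖ = 1 := by
      exact b.norm_eq_one i
    rw [this, one_pow]
  simp only [h1]
  rw [Finset.sum_comm]
  simp only [h3]
  simp

theorem finrank_Inv_le (D : Finset α) :
    Module.finrank ℝ (Inv (regRep α) D) ≤ Fintype.card α ^ (Fintype.card α - D.card) := by
  classical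
  let r : (({x : α // x ∉ D}) → α) → Perm α := fun φ =>
    if h : ∃ x : Perm α, ∀ y : {x : α // x ∉ D}, x y = φ y then h.choose else 1
  let Φ : Inv (regRep α) D →ₗ[ℝ] ((({x : α // x ∉ D}) → α) → ℝ) :=
    { toFun := fun f φ => (f : EuclideanSpace ℝ (Perm α)) (r φ)
      map_add' := by
        intro f g
        ext φ
        simp
      map_smul' := by
        intro c f
        ext φ
        simp }
  have hinj : Function.Injective Φ := by
    rw [injective_iff_map_eq_zero]
    intro f hf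
    ext x
    set φ : ({x : α // x ∉ D}) → α := fun y => x y with hφ
    have hex : ∃ x : Perm α, ∀ y : {x : α // x ∉ D}, x y = φ y := ⟨x, fun y => rfl⟩
    have hr : ∀ y : {x : α // x ∉ D}, r φ y = x y := by
      intro y
      have h1 : r φ = hex.choose := dif_pos hex
      rw [h1]
      exact hex.choose_spec y
    have h2 : (f : EuclideanSpace ℝ (Perm α)) (r φ) = 0 := congrFun hf φ
    have h3 : regRep α ((r φ)⁻¹ * x) (f : EuclideanSpace ℝ (Perm α)) = f := by
      refine f.2 _ ?_
      intro y hy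
      have h4 := hr ⟨y, hy⟩
      rw [Perm.mul_apply]
      simp only at h4
      rw [← h4]
      exact Equiv.symm_apply_apply (r φ) y
    have h5 : (f : EuclideanSpace ℝ (Perm α)) x = (f : EuclideanSpace ℝ (Perm α)) (r φ) := by
      conv_rhs => rw [← h3]
      rw [regRep_apply, mul_inv_cancel_left]
    rw [h5, h2]
    rfl
  have h := LinearMap.finrank_le_finrank_of_injective hinj
  rw [Module.finrank_fintype_fun_eq_card, Fintype.card_fun, Fintype.card_subtype_compl,
    Fintype.card_coe] at h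
  exact h

theorem finrank_sup_le_sum {V : Type*} [AddCommGroup V] [Module ℝ V] [FiniteDimensional ℝ V]
    {ι : Type*} (s : Finset ι) (W : ι → Submodule ℝ V) :
    Module.finrank ℝ (s.sup W : Submodule ℝ V) ≤ ∑ i ∈ s, Module.finrank ℝ (W i) := by
  classical
  induction s using Finset.induction_on with
  | empty => simp
  | insert a s ha ih =>
    rw [Finset.sup_insert, Finset.sum_insert ha]
    exact (Submodule.finrank_add_le_finrank_add_finrank _ _).trans (by omega)

theorem finrank_orth_Kj_le (j : ℕ) (hj : j ≤ Fintype.card α) :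
    Module.finrank ℝ ((Kj (regRep α) (Finset.univ : Finset α) (j + 1))ᗮ : Submodule ℝ _) ≤
      (Fintype.card α).choose j * Fintype.card α ^ j := by
  classical
  set n := Fintype.card α with hn
  set S := (Finset.univ : Finset α).powersetCard (n - j) with hS
  set V : Submodule ℝ (EuclideanSpace ℝ (Perm α)) := S.sup (fun D => Inv (regRep α) D) with hV
  have h1 : Vᗮ ≤ Kj (regRep α) (Finset.univ : Finset α) (j + 1) := by
    intro u hu D hD hc v hv
    rw [Finset.card_univ, ← hn] at hc
    have hDS : D ∈ S := by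
      rw [hS, Finset.mem_powersetCard]
      exact ⟨hD, by omega⟩
    have hv' : v ∈ V := (Finset.le_sup (f := fun D => Inv (regRep α) D) hDS) hv
    exact (Submodule.mem_orthogonal _ _).mp hu v hv'
  have h2 : (Kj (regRep α) (Finset.univ : Finset α) (j + 1))ᗮ ≤ V := by
    have := Submodule.orthogonal_le h1
    rwa [Submodule.orthogonal_orthogonal] at this
  refine (Submodule.finrank_mono h2).trans ((finrank_sup_le_sum S _).trans ?_)
  have h3 : ∀ D ∈ S, Module.finrank ℝ (Inv (regRep α) D) ≤ n ^ j := by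
    intro D hD
    rw [hS, Finset.mem_powersetCard] at hD
    have h4 := finrank_Inv_le D
    rw [← hn, hD.2] at h4
    have h5 : n - (n - j) = j := by omega
    rwa [h5] at h4
  refine (Finset.sum_le_card_nsmul S _ _ h3).trans ?_
  rw [hS, Finset.card_powersetCard, Finset.card_univ, ← hn, Nat.choose_symm hj, smul_eq_mul]

theorem l2bound (T : EuclideanSpace ℝ (Perm α) →ₗ[ℝ] EuclideanSpace ℝ (Perm α)) (w : Perm α → ℝ)
    (hT : T = ∑ g, w g • ((regRep α g).toLinearEquiv : EuclideanSpace ℝ (Perm α) →ₗ[ℝ] EuclideanSpace ℝ (Perm α)))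
    (c : ℝ) (hc0 : 0 ≤ c)
    (h : ∀ j ≤ Fintype.card α, ∀ u ∈ Kj (regRep α) Finset.univ j, ‖T u‖ ^ 2 ≤ c ^ j * ‖u‖ ^ 2) :
    ((Fintype.card α).factorial : ℝ) * ‖T (EuclideanSpace.single (1 : Perm α) (1 : ℝ))‖ ^ 2
      ≤ Real.exp ((Fintype.card α : ℝ) ^ 2 * c) := by
  have h1 := layer_bound (regRep α) w T hT c hc0 h (EuclideanSpace.single (1 : Perm α) (1 : ℝ))
  have h2 : ∀ j ≤ Fintype.card α,
      ((Fintype.card α).factorial : ℝ) * ‖(Kj (regRep α) (Finset.univ : Finset α) (j + 1))ᗮ.starProjection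
        (EuclideanSpace.single (1 : Perm α) (1 : ℝ))‖ ^ 2 ≤
      ((Fintype.card α : ℝ) ^ 2) ^ j / j.factorial := by
    intro j hj
    have h3 := sum_norm_proj (Kj (regRep α) (Finset.univ : Finset α) (j + 1))ᗮ
    simp only [norm_proj_single] at h3
    rw [Finset.sum_const, Finset.card_univ, Fintype.card_perm, nsmul_eq_mul] at h3
    rw [h3]
    have h4 : (Module.finrank ℝ ((Kj (regRep α) (Finset.univ : Finset α) (j + 1))ᗮ : Submodule ℝ _) : ℝ) ≤
        ((Fintype.card α).choose j : ℝ) * (Fintype.card α : ℝ) ^ j := by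
      exact_mod_cast finrank_orth_Kj_le j hj
    refine h4.trans ?_
    have h5 : ((Fintype.card α).choose j : ℝ) ≤ (Fintype.card α : ℝ) ^ j / j.factorial :=
      Nat.choose_le_pow_div j (Fintype.card α)
    calc ((Fintype.card α).choose j : ℝ) * (Fintype.card α : ℝ) ^ j
        ≤ (Fintype.card α : ℝ) ^ j / j.factorial * (Fintype.card α : ℝ) ^ j :=
          mul_le_mul_of_nonneg_right h5 (by positivity)
      _ = ((Fintype.card α : ℝ) ^ 2) ^ j / j.factorial := by
          rw [← pow_mul, mul_comm 2 j, pow_mul, sq]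
          ring
  calc ((Fintype.card α).factorial : ℝ) * ‖T (EuclideanSpace.single (1 : Perm α) (1 : ℝ))‖ ^ 2
      ≤ ((Fintype.card α).factorial : ℝ) * ∑ j ∈ Finset.range (Fintype.card α + 1),
      c ^ j * ‖(Kj (regRep α) (Finset.univ : Finset α) (j + 1))ᗮ.starProjection
        (EuclideanSpace.single (1 : Perm α) (1 : ℝ))‖ ^ 2 :=
        mul_le_mul_of_nonneg_left h1 (by positivity)
    _ = ∑ j ∈ Finset.range (Fintype.card α + 1),
      c ^ j * (((Fintype.card α).factorial : ℝ) * ‖(Kj (regRep α) (Finset.univ : Finset α) (j + 1))ᗮ.starProjection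
        (EuclideanSpace.single (1 : Perm α) (1 : ℝ))‖ ^ 2) := by
        rw [Finset.mul_sum]
        refine Finset.sum_congr rfl fun j _ => ?_
        ring
    _ ≤ ∑ j ∈ Finset.range (Fintype.card α + 1), ((Fintype.card α : ℝ) ^ 2 * c) ^ j / j.factorial := by
        refine Finset.sum_le_sum fun j hj => ?_
        have hj' : j ≤ Fintype.card α := by
          rw [Finset.mem_range] at hj
          omega
        refine (mul_le_mul_of_nonneg_left (h2 j hj') (pow_nonneg hc0 j)).trans (le_of_eq ?_)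
        rw [mul_pow]
        ring
    _ ≤ Real.exp ((Fintype.card α : ℝ) ^ 2 * c) :=
        Real.sum_le_exp_of_nonneg (by positivity) _

theorem norm_sq_sum_single (μ : Perm α → ℝ) :
    ‖(∑ g, μ g • R (regRep α) g) (EuclideanSpace.single (1 : Perm α) (1 : ℝ))‖ ^ 2 =
      ∑ g, μ g ^ 2 := by
  have h1 : ∀ g : Perm α, regRep α g (EuclideanSpace.single (1 : Perm α) (1 : ℝ)) =
      EuclideanSpace.single g⁻¹ (1 : ℝ) := by
    intro g
    ext x
    rw [regRep_apply]
    simp only [PiLp.single_apply]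
    have : (x * g = 1) ↔ (x = g⁻¹) := mul_eq_one_iff_eq_inv
    simp [this]
  rw [LinearMap.sum_apply, EuclideanSpace.real_norm_sq_eq]
  have h2 : ∀ x : Perm α, (∑ g, (μ g • R (regRep α) g) (EuclideanSpace.single (1 : Perm α) (1 : ℝ)) :
      EuclideanSpace ℝ (Perm α)) x = μ x⁻¹ := by
    intro x
    simp only [LinearMap.smul_apply, R_apply, h1]
    rw [WithLp.ofLp_sum, Finset.sum_apply]
    simp only [PiLp.smul_apply, PiLp.single_apply, smul_eq_mul]
    rw [Finset.sum_eq_single x⁻¹]
    · simp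
    · intro g _ hg
      have : x ≠ g⁻¹ := by
        intro hx
        exact hg (by rw [hx, inv_inv])
      simp [this]
    · intro hx
      exact absurd (Finset.mem_univ _) hx
  simp only [h2]
  exact Fintype.sum_equiv (Equiv.inv _) _ _ (fun x => rfl)

end reg

end Vale.Agent.P162
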