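import Mathlib

namespace Vale.Agent.P162

section walks

variable {X : Type} [Fintype X] [DecidableEq X]

theorem chain_walk (A : Matrix X X ℝ) : ∀ (n : ℕ) (f : X → X → ℝ),
    ∑ x : Fin (n + 1) → X, (∏ i : Fin n, A (x i.castSucc) (x i.succ)) * f (x 0) (x (Fin.last n)) =
      ∑ a, ∑ b, (A ^ n) a b * f a b := by
  intro n
  induction n with
  | zero =>
    intro f
    have h1 : ∑ x : Fin 1 → X, (∏ i : Fin 0, A (x i.castSucc) (x i.succ)) * f (x 0) (x (Fin.last 0))
        = ∑ a, f a a := by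
      rw [← (Equiv.funUnique (Fin 1) X).symm.sum_comp]
      refine Finset.sum_congr rfl (fun a _ => ?_)
      simp
    rw [h1]
    refine Finset.sum_congr rfl (fun a _ => ?_)
    rw [pow_zero, Finset.sum_eq_single a]
    · rw [Matrix.one_apply_eq, one_mul]
    · intro b _ hb
      rw [Matrix.one_apply_ne hb.symm, zero_mul]
    · intro h
      exact absurd (Finset.mem_univ a) h
  | succ n ih =>
    intro f
    rw [← (Fin.snocEquiv (fun _ : Fin (n + 2) => X)).sum_comp, Fintype.sum_prod_type]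
    have h1 : ∀ (b : X) (x : Fin (n + 1) → X),
        (∏ i : Fin (n + 1), A ((Fin.snocEquiv (fun _ : Fin (n + 2) => X)) (b, x) i.castSucc)
          ((Fin.snocEquiv (fun _ : Fin (n + 2) => X)) (b, x) i.succ)) *
          f ((Fin.snocEquiv (fun _ : Fin (n + 2) => X)) (b, x) 0)
            ((Fin.snocEquiv (fun _ : Fin (n + 2) => X)) (b, x) (Fin.last (n + 1))) =
        (∏ i : Fin n, A (x i.castSucc) (x i.succ)) *
          (A (x (Fin.last n)) b * f (x 0) b) := by
      intro b x
      have e1 : ∀ i : Fin (n + 1),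
          (Fin.snocEquiv (fun _ : Fin (n + 2) => X)) (b, x) i.castSucc = x i := by
        intro i
        simp [Fin.snocEquiv]
      have e2 : (Fin.snocEquiv (fun _ : Fin (n + 2) => X)) (b, x) (Fin.last (n + 1)) = b := by
        simp [Fin.snocEquiv]
      have e3 : (Fin.snocEquiv (fun _ : Fin (n + 2) => X)) (b, x) 0 = x 0 := by
        have := e1 0
        rwa [Fin.castSucc_zero] at this
      rw [Fin.prod_univ_castSucc, e2, e3]
      have e4 : ∀ i : Fin n,
          (Fin.snocEquiv (fun _ : Fin (n + 2) => X)) (b, x) i.castSucc.succ = x i.succ := by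
        intro i
        rw [Fin.succ_castSucc]
        exact e1 i.succ
      have e5 : (Fin.snocEquiv (fun _ : Fin (n + 2) => X)) (b, x) (Fin.last n).succ = b := by
        rw [Fin.succ_last]
        exact e2
      rw [e5, e1 (Fin.last n)]
      simp only [e1, e4]
      ring
    simp only [h1]
    have h2 : ∀ b : X, ∑ x : Fin (n + 1) → X, (∏ i : Fin n, A (x i.castSucc) (x i.succ)) *
          (A (x (Fin.last n)) b * f (x 0) b) = ∑ a, ∑ c, (A ^ n) a c * (A c b * f a b) := by
      intro b
      exact ih (fun a c => A c b * f a b)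
    simp only [h2]
    rw [Finset.sum_comm]
    refine Finset.sum_congr rfl (fun a _ => ?_)
    refine Finset.sum_congr rfl (fun b _ => ?_)
    rw [pow_succ, Matrix.mul_apply, Finset.sum_mul]
    refine Finset.sum_congr rfl (fun c _ => ?_)
    ring

theorem chain_row (B : Matrix X X ℝ) (hB : ∀ i j, 0 ≤ B i j) (Λ : ℝ)
    (h : ∀ i, ∑ j, B i j ≤ Λ) (n : ℕ) (a : X) :
    (∀ b, 0 ≤ (B ^ n) a b) ∧ ∑ b, (B ^ n) a b ≤ Λ ^ n := by
  have hΛ : 0 ≤ Λ := (Finset.sum_nonneg (fun j _ => hB a j)).trans (h a)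
  induction n with
  | zero =>
    constructor
    · intro b
      rw [pow_zero, Matrix.one_apply]
      split_ifs <;> norm_num
    · rw [pow_zero, pow_zero]
      simp [Matrix.one_apply]
  | succ n ih =>
    obtain ⟨ih1, ih2⟩ := ih
    constructor
    · intro b
      rw [pow_succ, Matrix.mul_apply]
      exact Finset.sum_nonneg (fun c _ => mul_nonneg (ih1 c) (hB c b))
    · calc ∑ b, (B ^ (n + 1)) a b = ∑ c, (B ^ n) a c * ∑ b, B c b := by
            simp only [pow_succ, Matrix.mul_apply]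
            rw [Finset.sum_comm]
            refine Finset.sum_congr rfl (fun c _ => ?_)
            rw [Finset.mul_sum]
        _ ≤ ∑ c, (B ^ n) a c * Λ :=
            Finset.sum_le_sum (fun c _ => mul_le_mul_of_nonneg_left (h c) (ih1 c))
        _ = (∑ c, (B ^ n) a c) * Λ := by rw [Finset.sum_mul]
        _ ≤ Λ ^ n * Λ := mul_le_mul_of_nonneg_right ih2 hΛ
        _ = Λ ^ (n + 1) := (pow_succ _ _).symm

/-- AM-GM for eight nonnegative numbers -/
theorem chain_amgm (a : Fin 8 → ℝ) (ha : ∀ i, 0 ≤ a i) :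
    ∏ i, a i ≤ (1 / 8) * ∑ i, ∏ l ∈ Finset.univ.erase i, a l ^ (8 / 7 : ℝ) := by
  have h := Real.geom_mean_le_arith_mean_weighted (Finset.univ : Finset (Fin 8))
    (fun _ => (1 / 8 : ℝ)) (fun i => ∏ l ∈ Finset.univ.erase i, a l ^ (8 / 7 : ℝ))
    (fun _ _ => by norm_num) (by simp)
    (fun i _ => Finset.prod_nonneg (fun l _ => Real.rpow_nonneg (ha l) _))
  rw [Finset.mul_sum]
  refine le_trans (le_of_eq ?_) h
  have h1 : ∀ i : Fin 8, (∏ l ∈ Finset.univ.erase i, a l ^ (8 / 7 : ℝ)) ^ (1 / 8 : ℝ) =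
      ∏ l ∈ Finset.univ.erase i, a l ^ (1 / 7 : ℝ) := by
    intro i
    rw [← Real.finsetProd_rpow _ _ (fun l _ => Real.rpow_nonneg (ha l) _)]
    refine Finset.prod_congr rfl (fun l _ => ?_)
    rw [← Real.rpow_mul (ha l)]
    norm_num
  simp only [h1]
  have h2 : ∏ i : Fin 8, ∏ l ∈ Finset.univ.erase i, a l ^ (1 / 7 : ℝ) =
      ∏ l : Fin 8, ∏ i ∈ Finset.univ.erase l, a l ^ (1 / 7 : ℝ) := by
    apply Finset.prod_comm'
    intro x y
    simp only [Finset.mem_univ, Finset.mem_erase, ne_eq, and_true, true_and]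
    exact ⟨fun h h' => h h'.symm, fun h h' => h h'.symm⟩
  rw [h2]
  refine Finset.prod_congr rfl (fun l _ => ?_)
  rw [Finset.prod_const, Finset.card_erase_of_mem (Finset.mem_univ l), Finset.card_univ,
    Fintype.card_fin, ← Real.rpow_natCast, ← Real.rpow_mul (ha l)]
  norm_num

theorem chain_cyc (A : Matrix X X ℝ) :
    Matrix.trace (A ^ 8) = ∑ x : Fin 8 → X, ∏ i : Fin 8, A (x i) (x (i + 1)) := by
  have h := chain_walk A 7 (fun a b => A b a)
  have h1 : ∀ x : Fin 8 → X, ∏ i : Fin 8, A (x i) (x (i + 1)) =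
      (∏ i : Fin 7, A (x i.castSucc) (x i.succ)) * A (x (Fin.last 7)) (x 0) := by
    intro x
    rw [Fin.prod_univ_castSucc]
    congr 1
  simp only [h1]
  rw [h]
  unfold Matrix.trace
  refine Finset.sum_congr rfl (fun a _ => ?_)
  rw [Matrix.diag_apply, pow_succ, Matrix.mul_apply]

theorem chain_fin1 : ∀ i l : Fin 8, l = i ↔ l - (i + 1) = Fin.last 7 := by decide

theorem chain_fin2 : ∀ i l : Fin 8, l + 1 - (i + 1) = l - (i + 1) + 1 := by decide

theorem chain_fin3 : (Finset.univ : Finset (Fin 8)).erase (Fin.last 7) =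
    Finset.univ.map Fin.castSuccEmb := by
  decide

theorem chain_shift (B : Matrix X X ℝ) (i : Fin 8) :
    ∑ x : Fin 8 → X, ∏ l ∈ Finset.univ.erase i, B (x l) (x (l + 1)) =
      ∑ a, ∑ b, (B ^ 7) a b := by
  have h := chain_walk B 7 (fun _ _ => 1)
  simp only [mul_one] at h
  rw [← h]
  rw [← (Equiv.arrowCongr (Equiv.addRight (i + 1)) (Equiv.refl X)).sum_comp]
  refine Finset.sum_congr rfl (fun x _ => ?_)
  have e1 : ∀ l : Fin 8, (Equiv.arrowCongr (Equiv.addRight (i + 1)) (Equiv.refl X)) x l =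
      x (l - (i + 1)) := by
    intro l
    rw [sub_eq_add_neg]
    rfl
  simp only [e1]
  have e2 : ∏ l ∈ Finset.univ.erase i, B (x (l - (i + 1))) (x (l + 1 - (i + 1))) =
      ∏ l ∈ Finset.univ.erase (Fin.last 7), B (x l) (x (l + 1)) := by
    refine Finset.prod_equiv (Equiv.subRight (i + 1)) ?_ ?_
    · intro l
      simp only [Finset.mem_erase, Finset.mem_univ, and_true, Equiv.subRight_apply]
      rw [not_iff_not]
      exact chain_fin1 i l
    · intro l _
      rw [Equiv.subRight_apply, chain_fin2]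
  rw [e2]
  rw [chain_fin3, Finset.prod_map]
  refine Finset.prod_congr rfl (fun l _ => ?_)
  rw [Fin.castSuccEmb_apply, Fin.coeSucc_eq_succ]

/-- PIECE C (file Chain.lean) -/
theorem trace_pow8_le {X : Type} [Fintype X] [DecidableEq X] (A : Matrix X X ℝ) (hA : ∀ i j, 0 ≤ A i j)
    (Λ : ℝ) (h : ∀ i, ∑ j, A i j ^ (8 / 7 : ℝ) ≤ Λ) :
    Matrix.trace (A ^ 8) ≤ (Fintype.card X : ℝ) * Λ ^ 7 := by
  set B : Matrix X X ℝ := Matrix.of (fun i j => A i j ^ (8 / 7 : ℝ)) with hB
  have hB0 : ∀ i j, 0 ≤ B i j := fun i j => Real.rpow_nonneg (hA i j) _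
  have hBr : ∀ i, ∑ j, B i j ≤ Λ := h
  rw [chain_cyc]
  calc ∑ x : Fin 8 → X, ∏ i : Fin 8, A (x i) (x (i + 1))
      ≤ ∑ x : Fin 8 → X, (1 / 8) * ∑ i, ∏ l ∈ Finset.univ.erase i, B (x l) (x (l + 1)) :=
        Finset.sum_le_sum (fun x _ => chain_amgm (fun i => A (x i) (x (i + 1))) (fun i => hA _ _))
    _ = (1 / 8) * ∑ i : Fin 8, ∑ x : Fin 8 → X, ∏ l ∈ Finset.univ.erase i, B (x l) (x (l + 1)) := by
        rw [← Finset.mul_sum, Finset.sum_comm]
    _ = ∑ a, ∑ b, (B ^ 7) a b := by
        simp only [chain_shift]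
        rw [Finset.sum_const, Finset.card_univ, Fintype.card_fin, nsmul_eq_mul]
        push_cast
        ring
    _ ≤ ∑ _a : X, Λ ^ 7 := Finset.sum_le_sum (fun a _ => (chain_row B hB0 Λ hBr 7 a).2)
    _ = (Fintype.card X : ℝ) * Λ ^ 7 := by
        rw [Finset.sum_const, Finset.card_univ, nsmul_eq_mul]

end walks

section hs

variable {X : Type} [Fintype X] [DecidableEq X]

/-- balanced products -/
def chainPT : ℕ → (ℕ → Matrix X X ℝ) → Matrix X X ℝ
  | 0, A => A 0
  | (k + 1), A => chainPT k (fun i => A (2 * i) * A (2 * i + 1))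

theorem chainPT_const (k : ℕ) (M : Matrix X X ℝ) : chainPT k (fun _ => M) = M ^ (2 ^ k) := by
  induction k generalizing M with
  | zero => simp [chainPT]
  | succ k ih =>
    change chainPT k (fun _ => M * M) = _
    rw [ih, ← pow_two, ← pow_mul, pow_succ]
    ring_nf

/-- powers of the Schatten norm -/
noncomputable def chainN (k : ℕ) (A : Matrix X X ℝ) : ℝ :=
  Matrix.trace ((A.transpose * A) ^ (2 ^ k))

omit [DecidableEq X] in
theorem chain_trace_tr_mul_self_nonneg (A : Matrix X X ℝ) : 0 ≤ Matrix.trace (A.transpose * A) := by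
  unfold Matrix.trace
  refine Finset.sum_nonneg (fun i _ => ?_)
  rw [Matrix.diag_apply, Matrix.mul_apply]
  refine Finset.sum_nonneg (fun j _ => ?_)
  rw [Matrix.transpose_apply]
  exact mul_self_nonneg _

theorem chainN_nonneg (k : ℕ) (A : Matrix X X ℝ) : 0 ≤ chainN k A := by
  unfold chainN
  cases k with
  | zero =>
    rw [pow_zero, pow_one]
    exact chain_trace_tr_mul_self_nonneg A
  | succ k =>
    have h : (A.transpose * A) ^ (2 ^ (k + 1)) =
        ((A.transpose * A) ^ (2 ^ k)).transpose * (A.transpose * A) ^ (2 ^ k) := by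
      rw [Matrix.transpose_pow, Matrix.transpose_mul, Matrix.transpose_transpose, ← pow_add]
      congr 1
      rw [pow_succ]
      ring
    rw [h]
    exact chain_trace_tr_mul_self_nonneg _

theorem chain_mul_pow_comm (A B : Matrix X X ℝ) (n : ℕ) :
    (A * B) ^ n * A = A * (B * A) ^ n := by
  induction n with
  | zero => simp
  | succ n ih =>
    calc (A * B) ^ (n + 1) * A = (A * B) ^ n * A * (B * A) := by
          rw [pow_succ]
          simp only [mul_assoc]
      _ = A * (B * A) ^ n * (B * A) := by rw [ih]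
      _ = A * (B * A) ^ (n + 1) := by
          rw [pow_succ]
          simp only [mul_assoc]

theorem chain_trace_comm (A B : Matrix X X ℝ) (n : ℕ) :
    Matrix.trace ((A * B) ^ n) = Matrix.trace ((B * A) ^ n) := by
  cases n with
  | zero => simp
  | succ n =>
    have h1 : (A * B) ^ (n + 1) = A * ((B * A) ^ n * B) := by
      rw [pow_succ, ← mul_assoc, chain_mul_pow_comm, mul_assoc]
    have h2 : (B * A) ^ (n + 1) = ((B * A) ^ n * B) * A := by
      rw [pow_succ, mul_assoc]
    rw [h1, h2, Matrix.trace_mul_comm]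

theorem chain_cs (A B : Matrix X X ℝ) :
    |Matrix.trace (A * B)| ^ 2 ≤ chainN 0 A * chainN 0 B := by
  have h1 : Matrix.trace (A * B) = ∑ p : X × X, A p.1 p.2 * B p.2 p.1 := by
    unfold Matrix.trace
    rw [Fintype.sum_prod_type]
    refine Finset.sum_congr rfl (fun i _ => ?_)
    rw [Matrix.diag_apply, Matrix.mul_apply]
  have hA : chainN 0 A = ∑ p : X × X, A p.1 p.2 ^ 2 := by
    unfold chainN Matrix.trace
    rw [pow_zero, pow_one, Fintype.sum_prod_type, Finset.sum_comm]
    refine Finset.sum_congr rfl (fun i _ => ?_)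
    rw [Matrix.diag_apply, Matrix.mul_apply]
    refine Finset.sum_congr rfl (fun j _ => ?_)
    rw [Matrix.transpose_apply, sq]
  have hB : chainN 0 B = ∑ p : X × X, B p.2 p.1 ^ 2 := by
    unfold chainN Matrix.trace
    rw [pow_zero, pow_one, Fintype.sum_prod_type]
    refine Finset.sum_congr rfl (fun i _ => ?_)
    rw [Matrix.diag_apply, Matrix.mul_apply]
    refine Finset.sum_congr rfl (fun j _ => ?_)
    rw [Matrix.transpose_apply, sq]
  rw [h1, hA, hB, sq_abs]
  exact Finset.sum_mul_sq_le_sq_mul_sq _ _ _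

theorem chain_prod_pairs (f : ℕ → ℝ) (n : ℕ) :
    ∏ j ∈ Finset.range (2 * n), f j = ∏ i ∈ Finset.range n, (f (2 * i) * f (2 * i + 1)) := by
  induction n with
  | zero => simp
  | succ n ih =>
    rw [Finset.prod_range_succ, ← ih, mul_add, mul_one, Finset.prod_range_succ,
      Finset.prod_range_succ, mul_assoc]

theorem chain_alt (k : ℕ) (C D : Matrix X X ℝ) :
    chainPT (k + 1) (fun i => if i % 2 = 0 then C else D) = (C * D) ^ (2 ^ k) := by
  change chainPT k (fun i => (if (2 * i) % 2 = 0 then C else D) *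
    (if (2 * i + 1) % 2 = 0 then C else D)) = _
  have h : (fun i : ℕ => (if (2 * i) % 2 = 0 then C else D) *
    (if (2 * i + 1) % 2 = 0 then C else D)) = fun _ => C * D := by
    funext i
    rw [if_pos (by omega), if_neg (by omega)]
  rw [h, chainPT_const]

theorem chain_step_N (k : ℕ)
    (hP : ∀ A : ℕ → Matrix X X ℝ, |Matrix.trace (chainPT (k + 1) A)| ^ (2 ^ (k + 1)) ≤
      ∏ i ∈ Finset.range (2 ^ (k + 1)), chainN k (A i)) (A A' : Matrix X X ℝ) :
    chainN k (A * A') ^ 2 ≤ chainN (k + 1) A * chainN (k + 1) A' := by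
  set C : Matrix X X ℝ := A.transpose * A with hC
  set D : Matrix X X ℝ := A' * A'.transpose with hD
  have hCT : C.transpose = C := by
    rw [hC, Matrix.transpose_mul, Matrix.transpose_transpose]
  have hDT : D.transpose = D := by
    rw [hD, Matrix.transpose_mul, Matrix.transpose_transpose]
  have h1 : chainN k (A * A') = Matrix.trace ((C * D) ^ (2 ^ k)) := by
    unfold chainN
    have e1 : (A * A').transpose * (A * A') = A'.transpose * (C * A') := by
      rw [Matrix.transpose_mul, hC]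
      simp only [mul_assoc]
    have e2 : C * D = (C * A') * A'.transpose := by
      rw [hD]
      exact (mul_assoc _ _ _).symm
    rw [e1, e2, chain_trace_comm]
  have h2 : chainN k C = chainN (k + 1) A := by
    unfold chainN
    rw [hCT, ← pow_two, ← pow_mul, pow_succ 2 k, mul_comm (2 ^ k) 2]
  have h3 : chainN k D = chainN (k + 1) A' := by
    unfold chainN
    rw [hDT, ← pow_two, ← pow_mul, pow_succ 2 k, mul_comm (2 ^ k) 2, hD, chain_trace_comm]
  have h4 := hP (fun i => if i % 2 = 0 then C else D)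
  rw [chain_alt, ← h1] at h4
  have h5 : ∏ i ∈ Finset.range (2 ^ (k + 1)), chainN k (if i % 2 = 0 then C else D) =
      (chainN (k + 1) A * chainN (k + 1) A') ^ (2 ^ k) := by
    rw [pow_succ 2 k, mul_comm (2 ^ k) 2, chain_prod_pairs, ← h2, ← h3]
    have : ∀ i ∈ Finset.range (2 ^ k), chainN k (if 2 * i % 2 = 0 then C else D) *
        chainN k (if (2 * i + 1) % 2 = 0 then C else D) = chainN k C * chainN k D := by
      intro i _
      rw [if_pos (by omega), if_neg (by omega)]
    rw [Finset.prod_congr rfl this, Finset.prod_const, Finset.card_range]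
  rw [h5, pow_succ 2 k, mul_comm (2 ^ k) 2, pow_mul, sq_abs] at h4
  exact (pow_le_pow_iff_left₀ (sq_nonneg _)
    (mul_nonneg (chainN_nonneg _ _) (chainN_nonneg _ _)) (by positivity)).1 h4

theorem chain_holder (k : ℕ) (A : ℕ → Matrix X X ℝ) :
    |Matrix.trace (chainPT (k + 1) A)| ^ (2 ^ (k + 1)) ≤
      ∏ i ∈ Finset.range (2 ^ (k + 1)), chainN k (A i) := by
  induction k generalizing A with
  | zero =>
    change |Matrix.trace (A (2 * 0) * A (2 * 0 + 1))| ^ (2 ^ (0 + 1)) ≤ _
    have := chain_cs (A 0) (A 1)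
    simpa [Finset.prod_range_succ] using this
  | succ k ih =>
    have h1 := ih (fun i => A (2 * i) * A (2 * i + 1))
    change |Matrix.trace (chainPT (k + 1) (fun i => A (2 * i) * A (2 * i + 1)))| ^
      (2 ^ (k + 1 + 1)) ≤ _
    rw [pow_succ 2 (k + 1), pow_mul]
    calc (|Matrix.trace (chainPT (k + 1) (fun i => A (2 * i) * A (2 * i + 1)))| ^
          (2 ^ (k + 1))) ^ 2
        ≤ (∏ i ∈ Finset.range (2 ^ (k + 1)), chainN k (A (2 * i) * A (2 * i + 1))) ^ 2 :=
          pow_le_pow_left₀ (by positivity) h1 2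
      _ = ∏ i ∈ Finset.range (2 ^ (k + 1)), chainN k (A (2 * i) * A (2 * i + 1)) ^ 2 := by
          rw [Finset.prod_pow]
      _ ≤ ∏ i ∈ Finset.range (2 ^ (k + 1)),
          (chainN (k + 1) (A (2 * i)) * chainN (k + 1) (A (2 * i + 1))) :=
          Finset.prod_le_prod (fun i _ => sq_nonneg _) (fun i _ => chain_step_N k ih _ _)
      _ = ∏ i ∈ Finset.range (2 ^ (k + 1) * 2), chainN (k + 1) (A i) := by
          rw [mul_comm (2 ^ (k + 1)) 2, chain_prod_pairs]

/-- PIECE D (file Chain.lean) -/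
theorem hs_pow8 {X : Type} [Fintype X] [DecidableEq X] (T : Matrix X X ℝ) :
    Matrix.trace ((T ^ 8).transpose * T ^ 8) ≤ Matrix.trace ((T.transpose * T) ^ 8) := by
  have h := chain_holder 3 (fun i => if i < 8 then T.transpose else T)
  have h1 : chainPT (3 + 1) (fun i => if i < 8 then T.transpose else T) =
      (T ^ 8).transpose * T ^ 8 := by
    have e : ∀ M : Matrix X X ℝ, M * M * (M * M) * (M * M * (M * M)) = M ^ 8 := by
      intro M
      simp only [pow_succ, pow_zero, one_mul, mul_assoc]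
    simp only [chainPT]
    norm_num
    rw [e, e]
  have h2 : ∏ i ∈ Finset.range (2 ^ (3 + 1)),
      chainN 3 (if i < 8 then T.transpose else T) = Matrix.trace ((T.transpose * T) ^ 8) ^ 16 := by
    have e1 : ∀ i ∈ Finset.range (2 ^ (3 + 1)), chainN 3 (if i < 8 then T.transpose else T) =
        Matrix.trace ((T.transpose * T) ^ 8) := by
      intro i _
      by_cases hi : i < 8
      · rw [if_pos hi]
        unfold chainN
        rw [Matrix.transpose_transpose, chain_trace_comm]
        rfl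
      · rw [if_neg hi]
        rfl
    rw [Finset.prod_congr rfl e1, Finset.prod_const, Finset.card_range]
    rfl
  rw [h1, h2] at h
  have h3 : (0 : ℝ) ≤ Matrix.trace ((T.transpose * T) ^ 8) := chainN_nonneg 3 T
  have h4 := (pow_le_pow_iff_left₀ (abs_nonneg _) h3 (by norm_num : (2 ^ (3 + 1) : ℕ) ≠ 0)).1 h
  exact (le_abs_self _).trans h4

end hs

end Vale.Agent.P162
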