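import Vale.Agent.P162.Statement

open Equiv

set_option linter.unusedSectionVars false
set_option linter.unusedSimpArgs false

namespace Vale.Agent.P162

/-- the defining property of the permutation given by coins `c` -/
def IsThorp (m : ℕ) (c : Fin m → Bool) (σ : Perm (Fin (2 * m))) : Prop :=
  ∀ i : Fin m,
      (σ ⟨i.val, by omega⟩).val = 2 * i.val + (if c i then 1 else 0) ∧
      (σ ⟨m + i.val, by omega⟩).val = 2 * i.val + (if c i then 0 else 1)

instance (m : ℕ) (c : Fin m → Bool) (σ : Perm (Fin (2 * m))) : Decidable (IsThorp m c σ) := by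
  unfold IsThorp
  infer_instance

theorem isThorp_unique {m : ℕ} {c : Fin m → Bool} {σ τ : Perm (Fin (2 * m))} (h1 : IsThorp m c σ)
    (h2 : IsThorp m c τ) : σ = τ := by
  ext x
  obtain ⟨x, hx⟩ := x
  by_cases h : x < m
  · have a1 := (h1 ⟨x, h⟩).1
    have a2 := (h2 ⟨x, h⟩).1
    simp only at a1 a2
    rw [a1, a2]
  · have hx' : x - m < m := by omega
    have a1 := (h1 ⟨x - m, hx'⟩).2
    have a2 := (h2 ⟨x - m, hx'⟩).2
    have e : (⟨m + (x - m), by omega⟩ : Fin (2 * m)) = ⟨x, hx⟩ := by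
      apply Fin.ext
      simp only
      omega
    simp only [e] at a1 a2
    rw [a1, a2]

/-- the map on positions given by coins `c` -/
def thorpFun (m : ℕ) (c : Fin m → Bool) (x : Fin (2 * m)) : Fin (2 * m) :=
  if h : x.val < m then
    ⟨2 * x.val + (if c ⟨x.val, h⟩ then 1 else 0), by split_ifs <;> omega⟩
  else
    ⟨2 * (x.val - m) + (if c ⟨x.val - m, by omega⟩ then 0 else 1), by split_ifs <;> omega⟩

theorem thorpFun_injective (m : ℕ) (c : Fin m → Bool) : Function.Injective (thorpFun m c) := by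
  intro x y hxy
  unfold thorpFun at hxy
  by_cases hx : x.val < m
  · by_cases hy : y.val < m
    · rw [dif_pos hx, dif_pos hy] at hxy
      have h1 := congrArg Fin.val hxy
      simp only at h1
      apply Fin.ext
      split_ifs at h1 <;> omega
    · rw [dif_pos hx, dif_neg hy] at hxy
      have h1 := congrArg Fin.val hxy
      simp only at h1
      exfalso
      have h2 : x.val = y.val - m := by split_ifs at h1 <;> omega
      have h3 : c ⟨x.val, hx⟩ = c ⟨y.val - m, by omega⟩ := by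
        congr 1
        exact Fin.ext h2
      rw [h3] at h1
      split_ifs at h1 <;> omega
  · by_cases hy : y.val < m
    · rw [dif_neg hx, dif_pos hy] at hxy
      have h1 := congrArg Fin.val hxy
      simp only at h1
      exfalso
      have h2 : x.val - m = y.val := by split_ifs at h1 <;> omega
      have h3 : c ⟨x.val - m, by omega⟩ = c ⟨y.val, hy⟩ := by
        congr 1
        exact Fin.ext h2
      rw [h3] at h1
      split_ifs at h1 <;> omega
    · rw [dif_neg hx, dif_neg hy] at hxy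
      have h1 := congrArg Fin.val hxy
      simp only at h1
      apply Fin.ext
      split_ifs at h1 <;> omega

noncomputable def thorpPerm (m : ℕ) (c : Fin m → Bool) : Perm (Fin (2 * m)) :=
  Equiv.ofBijective (thorpFun m c) (Finite.injective_iff_bijective.mp (thorpFun_injective m c))

theorem isThorp_thorpPerm (m : ℕ) (c : Fin m → Bool) : IsThorp m c (thorpPerm m c) := by
  intro i
  constructor
  · have : thorpPerm m c ⟨i.val, by omega⟩ = thorpFun m c ⟨i.val, by omega⟩ := rfl
    rw [this]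
    unfold thorpFun
    rw [dif_pos (show (⟨i.val, by omega⟩ : Fin (2 * m)).val < m from i.isLt)]
  · have : thorpPerm m c ⟨m + i.val, by omega⟩ = thorpFun m c ⟨m + i.val, by omega⟩ := rfl
    rw [this]
    unfold thorpFun
    rw [dif_neg (show ¬ (⟨m + i.val, by omega⟩ : Fin (2 * m)).val < m by simp)]
    simp

theorem isThorp_iff (m : ℕ) (c : Fin m → Bool) (σ : Perm (Fin (2 * m))) :
    IsThorp m c σ ↔ σ = thorpPerm m c :=
  ⟨fun h => isThorp_unique h (isThorp_thorpPerm m c), fun h => h ▸ isThorp_thorpPerm m c⟩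

theorem thorpLaw_eq (m : ℕ) (σ : Perm (Fin (2 * m))) :
    thorpLaw m σ = (∑ c : Fin m → Bool, if σ = thorpPerm m c then (1 : ℝ) else 0) / 2 ^ m := by
  unfold thorpLaw
  congr 1
  rw [Fintype.card_subtype, Finset.card_filter]
  push_cast
  refine Finset.sum_congr rfl fun c _ => ?_
  by_cases h : σ = thorpPerm m c
  · rw [if_pos h, if_pos]
    exact (isThorp_iff m c σ).mpr h
  · rw [if_neg h, if_neg]
    intro h2
    exact h ((isThorp_iff m c σ).mp h2)

theorem thorpLaw_nonneg (m : ℕ) (σ : Perm (Fin (2 * m))) : 0 ≤ thorpLaw m σ := by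
  unfold thorpLaw
  positivity

theorem sum_thorpLaw (m : ℕ) : ∑ σ, thorpLaw m σ = 1 := by
  simp_rw [thorpLaw_eq]
  rw [← Finset.sum_div, Finset.sum_comm]
  have h1 : ∀ c : Fin m → Bool, (∑ σ : Perm (Fin (2 * m)), if σ = thorpPerm m c then (1 : ℝ) else 0) = 1 := by
    intro c
    simp
  simp_rw [h1]
  simp

theorem sum_conv {G : Type} [Group G] [Fintype G] (μ ν : G → ℝ) :
    ∑ g, conv μ ν g = (∑ g, μ g) * ∑ g, ν g := by
  unfold conv
  rw [Finset.sum_comm, Finset.sum_mul]
  refine Finset.sum_congr rfl fun h _ => ?_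
  rw [← Equiv.sum_comp (Equiv.mulLeft h), Finset.mul_sum]
  refine Finset.sum_congr rfl fun g _ => ?_
  simp only [Equiv.coe_mulLeft, inv_mul_cancel_left]

theorem sum_thorpPow (m t : ℕ) : ∑ σ, thorpPow m t σ = 1 := by
  induction t with
  | zero => simp [thorpPow]
  | succ t ih =>
    have : ∑ σ, thorpPow m (t + 1) σ = ∑ σ, conv (thorpLaw m) (thorpPow m t) σ := rfl
    rw [this, sum_conv, sum_thorpLaw, ih, one_mul]

theorem sq_tv_le {G : Type} [Fintype G] [Nonempty G] (μ : G → ℝ) (hμ : ∑ g, μ g = 1) :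
    (∑ g, |μ g - 1 / (Fintype.card G : ℝ)|) ^ 2 ≤ (Fintype.card G : ℝ) * ∑ g, μ g ^ 2 - 1 := by
  have hN : (0 : ℝ) < (Fintype.card G : ℝ) := by exact_mod_cast Fintype.card_pos
  have h1 := sq_sum_le_card_mul_sum_sq (s := (Finset.univ : Finset G))
    (f := fun g => |μ g - 1 / (Fintype.card G : ℝ)|)
  rw [Finset.card_univ] at h1
  refine h1.trans (le_of_eq ?_)
  have h2 : ∑ g : G, |μ g - 1 / (Fintype.card G : ℝ)| ^ 2
      = ∑ g, μ g ^ 2 - 2 / (Fintype.card G : ℝ) * ∑ g, μ g + ∑ g : G, (1 / (Fintype.card G : ℝ)) ^ 2 := by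
    rw [Finset.mul_sum, ← Finset.sum_sub_distrib, ← Finset.sum_add_distrib]
    refine Finset.sum_congr rfl fun g _ => ?_
    rw [sq_abs]
    ring
  rw [h2, hμ, Finset.sum_const, Finset.card_univ, nsmul_eq_mul]
  field_simp
  ring

theorem tvUnif_conv_le (m : ℕ) (μ ν : Perm (Fin (2 * m)) → ℝ) (h0 : ∀ g, 0 ≤ μ g) (h1 : ∑ g, μ g = 1) :
    tvUnif m (conv μ ν) ≤ tvUnif m ν := by
  unfold tvUnif
  refine mul_le_mul_of_nonneg_left ?_ (by norm_num)
  set u : ℝ := 1 / ((2 * m).factorial : ℝ) with hu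
  have hpt : ∀ g, |conv μ ν g - u| ≤ ∑ h, μ h * |ν (h⁻¹ * g) - u| := by
    intro g
    have e : conv μ ν g - u = ∑ h, μ h * (ν (h⁻¹ * g) - u) := by
      unfold conv
      simp_rw [mul_sub]
      rw [Finset.sum_sub_distrib, ← Finset.sum_mul, h1, one_mul]
    rw [e]
    refine (Finset.abs_sum_le_sum_abs _ _).trans (le_of_eq ?_)
    refine Finset.sum_congr rfl fun h _ => ?_
    rw [abs_mul, abs_of_nonneg (h0 h)]
  refine (Finset.sum_le_sum fun g _ => hpt g).trans (le_of_eq ?_)
  rw [Finset.sum_comm]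
  have h2 : ∀ h : Perm (Fin (2 * m)), ∑ g, μ h * |ν (h⁻¹ * g) - u| = μ h * ∑ g, |ν g - u| := by
    intro h
    rw [Finset.mul_sum, ← Equiv.sum_comp (Equiv.mulLeft h)]
    refine Finset.sum_congr rfl fun g _ => ?_
    simp only [Equiv.coe_mulLeft, inv_mul_cancel_left]
  simp_rw [h2]
  rw [← Finset.sum_mul, h1, one_mul]

theorem tvUnif_antitone (m : ℕ) {s t : ℕ} (h : s ≤ t) :
    tvUnif m (thorpPow m t) ≤ tvUnif m (thorpPow m s) := by
  induction t, h using Nat.le_induction with
  | base => exact le_rfl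
  | succ t _ ih =>
    exact (tvUnif_conv_le m (thorpLaw m) (thorpPow m t) (thorpLaw_nonneg m) (sum_thorpLaw m)).trans ih

end Vale.Agent.P162
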