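import Vale.Agent.P162.A2

open Equiv

namespace Vale.Agent.P162

variable {E : Type} [NormedAddCommGroup E] [InnerProductSpace ℝ E]

noncomputable def opOf {G : Type} [Group G] [Fintype G] (ρ : G →* (E ≃ₗᵢ[ℝ] E)) (w : G → ℝ) : E →ₗ[ℝ] E :=
  ∑ g, w g • ((ρ g).toLinearEquiv : E →ₗ[ℝ] E)

theorem opOf_apply {G : Type} [Group G] [Fintype G] (ρ : G →* (E ≃ₗᵢ[ℝ] E)) (w : G → ℝ) (v : E) :
    opOf ρ w v = ∑ g, w g • ρ g v := by
  simp [opOf]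

end Vale.Agent.P162
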