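import Vale.Agent.P162.A6
import Vale.Agent.P162.Op
import Vale.Agent.P162.Law

open Equiv

set_option linter.unusedSectionVars false
set_option linter.unusedSimpArgs false

namespace Vale.Agent.P162

namespace Lk

abbrev X (d : ℕ) : Type := Fin d → Bool

def clr {d : ℕ} (j : ℕ) (x : X d) : X d := fun i => if i.val = j then false else x i

def flf {d : ℕ} (j : ℕ) (c : X d → Bool) (x : X d) : X d :=
  fun i => if i.val = j then xor (x i) (c (clr j x)) else x i

theorem clr_flf {d : ℕ} (j : ℕ) (c : X d → Bool) (x : X d) : clr j (flf j c x) = clr j x := by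
  funext i
  by_cases h : i.val = j
  · simp [clr, h]
  · simp [clr, flf, h]

theorem flf_flf {d : ℕ} (j : ℕ) (c : X d → Bool) (x : X d) : flf j c (flf j c x) = x := by
  funext i
  by_cases h : i.val = j
  · have h1 : flf j c (flf j c x) i = xor (flf j c x i) (c (clr j (flf j c x))) := by
      simp [flf, h]
    rw [h1, clr_flf]
    simp [flf, h]
  · simp [flf, h]

def fl {d : ℕ} (j : ℕ) (c : X d → Bool) : Perm (X d) where
  toFun := flf j c
  invFun := flf j c
  left_inv := flf_flf j c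
  right_inv := flf_flf j c

theorem fl_apply {d : ℕ} (j : ℕ) (c : X d → Bool) (x : X d) : fl j c x = flf j c x := rfl

variable {E : Type} [NormedAddCommGroup E] [InnerProductSpace ℝ E]

noncomputable def Dj {d : ℕ} (ρ : Perm (X d) →* (E ≃ₗᵢ[ℝ] E)) (j : ℕ) : E →ₗ[ℝ] E :=
  ((2 : ℝ) ^ (2 ^ d))⁻¹ • ∑ c : X d → Bool, ((ρ (fl j c)).toLinearEquiv : E →ₗ[ℝ] E)

theorem Dj_apply {d : ℕ} (ρ : Perm (X d) →* (E ≃ₗᵢ[ℝ] E)) (j : ℕ) (v : E) :
    Dj ρ j v = ((2 : ℝ) ^ (2 ^ d))⁻¹ • ∑ c : X d → Bool, ρ (fl j c) v := by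
  simp [Dj]

/-- iterated product, `A 0` applied first -/
def T (A : ℕ → E →ₗ[ℝ] E) : ℕ → E →ₗ[ℝ] E
  | 0 => LinearMap.id
  | (r + 1) => A r ∘ₗ T A r

theorem T_succ' (A : ℕ → E →ₗ[ℝ] E) (r : ℕ) : T A (r + 1) = T (fun j => A (j + 1)) r ∘ₗ A 0 := by
  induction r with
  | zero => rfl
  | succ r ih =>
    have h1 : T A (r + 1 + 1) = A (r + 1) ∘ₗ T A (r + 1) := rfl
    rw [h1, ih]
    rfl

theorem T_mul (A B : ℕ → E →ₗ[ℝ] E) (h : ∀ i j v, A i (B j v) = B j (A i v)) (r : ℕ) (v : E) :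
    T (fun j => A j ∘ₗ B j) r v = T A r (T B r v) := by
  have hc : ∀ (r j : ℕ) (v : E), T A r (B j v) = B j (T A r v) := by
    intro r
    induction r with
    | zero => intro j v; rfl
    | succ r ih =>
      intro j v
      change A r (T A r (B j v)) = B j (A r (T A r v))
      rw [ih, h]
  induction r generalizing v with
  | zero => rfl
  | succ r ih =>
    change A r (B r (T (fun j => A j ∘ₗ B j) r v)) = A r (T A r (B r (T B r v)))
    rw [ih, hc]

/-- splitting a coin function over the first bit -/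
def spl (d : ℕ) : (X (d + 1) → Bool) ≃ (X d → Bool) × (X d → Bool) where
  toFun C := (fun z => C (Fin.cons false z), fun z => C (Fin.cons true z))
  invFun p := fun x => if x 0 then p.2 (Fin.tail x) else p.1 (Fin.tail x)
  left_inv := by
    intro C
    funext x
    have hx := Fin.cons_self_tail x
    cases h : x 0
    · rw [h] at hx
      simp [h, hx]
    · rw [h] at hx
      simp [h, hx]
  right_inv := by
    intro p
    simp

def e0 (d : ℕ) : X (d + 1) ≃ Bool × X d where
  toFun x := (x 0, Fin.tail x)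
  invFun p := Fin.cons p.1 p.2
  left_inv := by
    intro x
    simp
  right_inv := by
    intro p
    simp

theorem flf_succ {d : ℕ} (j : ℕ) (C : X (d + 1) → Bool) (x : X (d + 1)) :
    flf (j + 1) C x = Fin.cons (x 0) (flf j (fun z => C (Fin.cons (x 0) z)) (Fin.tail x)) := by
  have hc : clr (j + 1) x = Fin.cons (x 0) (clr j (Fin.tail x)) := by
    funext i
    refine Fin.cases ?_ (fun i => ?_) i
    · simp [clr]
    · simp [clr, Fin.tail]
  funext i
  refine Fin.cases ?_ (fun i => ?_) i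
  · simp [flf]
  · simp only [flf, Fin.val_succ, Nat.add_right_cancel_iff, Fin.cons_succ, hc]
    rfl

theorem flf_zero {d : ℕ} (C : X (d + 1) → Bool) (x : X (d + 1)) :
    flf 0 C x = Fin.cons (xor (x 0) (C (Fin.cons false (Fin.tail x)))) (Fin.tail x) := by
  have hc : clr 0 x = Fin.cons false (Fin.tail x) := by
    funext i
    refine Fin.cases ?_ (fun i => ?_) i
    · simp [clr]
    · simp [clr, Fin.tail]
  funext i
  refine Fin.cases ?_ (fun i => ?_) i
  · simp [flf, hc]
  · simp [flf, Fin.tail]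

/-- permutations of one half -/
noncomputable def iX {d : ℕ} (b : Bool) : Perm (X d) →* Perm (X (d + 1)) :=
  ((e0 d).symm.permCongrHom.toMonoidHom).comp (iota (β := X d) b)

theorem iX_apply {d : ℕ} (b : Bool) (g : Perm (X d)) (x : X (d + 1)) :
    iX b g x = Fin.cons (x 0) (if x 0 = b then g (Fin.tail x) else Fin.tail x) := rfl

theorem fl_split {d : ℕ} (j : ℕ) (C : X (d + 1) → Bool) :
    fl (j + 1) C = iX false (fl j (spl d C).1) * iX true (fl j (spl d C).2) := by
  ext1 x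
  rw [Perm.mul_apply, fl_apply, flf_succ, iX_apply, iX_apply]
  cases h : x 0
  · simp [h, fl_apply, spl]
  · simp [h, fl_apply, spl]

theorem Dj_split {d : ℕ} (ρ : Perm (X (d + 1)) →* (E ≃ₗᵢ[ℝ] E)) (j : ℕ) (v : E) :
    Dj ρ (j + 1) v = Dj (ρ.comp (iX false)) j (Dj (ρ.comp (iX true)) j v) := by
  rw [Dj_apply, Dj_apply, Dj_apply]
  have h1 : ∀ c : X d → Bool, (ρ.comp (iX false)) (fl j c)
      (((2 : ℝ) ^ (2 ^ d))⁻¹ • ∑ c' : X d → Bool, (ρ.comp (iX true)) (fl j c') v)
      = ((2 : ℝ) ^ (2 ^ d))⁻¹ • ∑ c' : X d → Bool, ρ (iX false (fl j c) * iX true (fl j c')) v := by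
    intro c
    rw [map_smul, map_sum]
    congr 1
    refine Finset.sum_congr rfl fun c' _ => ?_
    rw [rho_mul]
    rfl
  simp_rw [h1, fl_split]
  rw [← Finset.smul_sum, smul_smul]
  have h2 : ∑ C : X (d + 1) → Bool, ρ (iX false (fl j (spl d C).1) * iX true (fl j (spl d C).2)) v
      = ∑ p : (X d → Bool) × (X d → Bool), ρ (iX false (fl j p.1) * iX true (fl j p.2)) v :=
    Equiv.sum_comp (spl d) (fun p => ρ (iX false (fl j p.1) * iX true (fl j p.2)) v)
  rw [h2, Fintype.sum_prod_type]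
  congr 1
  rw [← mul_inv, ← pow_add]
  congr 2
  ring

theorem Dj_comm {d : ℕ} (ρ : Perm (X (d + 1)) →* (E ≃ₗᵢ[ℝ] E)) (i j : ℕ) (v : E) :
    Dj (ρ.comp (iX false)) i (Dj (ρ.comp (iX true)) j v)
      = Dj (ρ.comp (iX true)) j (Dj (ρ.comp (iX false)) i v) := by
  have hcomm : ∀ (g h : Perm (X d)) (w : E), (ρ.comp (iX false)) g ((ρ.comp (iX true)) h w)
      = (ρ.comp (iX true)) h ((ρ.comp (iX false)) g w) := by
    intro g h w
    rw [MonoidHom.comp_apply, MonoidHom.comp_apply, ← rho_mul, ← rho_mul]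
    congr 2
    unfold iX
    rw [MonoidHom.comp_apply, MonoidHom.comp_apply, ← map_mul, ← map_mul, iota_comm]
  simp only [Dj_apply, map_smul, map_sum, hcomm]
  congr 1
  rw [← Finset.smul_sum, ← Finset.smul_sum]
  congr 1
  exact Finset.sum_comm

/-- the recursive identification of bit strings with `Q d` -/
def eQ : (d : ℕ) → X d ≃ Q d
  | 0 => { toFun := fun _ => (), invFun := fun _ => Fin.elim0,
           left_inv := fun x => by funext i; exact i.elim0, right_inv := fun _ => rfl }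
  | (d + 1) => (e0 d).trans ((Equiv.refl Bool).prodCongr (eQ d))

theorem Dj_zero {d : ℕ} (ρ : Perm (X (d + 1)) →* (E ≃ₗᵢ[ℝ] E)) (v : E) :
    Dj ρ 0 v = ((2 : ℝ) ^ (2 ^ d))⁻¹ •
      ∑ c : X d → Bool, ρ (fl 0 (fun z => c (Fin.tail z))) v := by
  rw [Dj_apply]
  have h1 : ∀ C : X (d + 1) → Bool, fl 0 C = fl 0 (fun z => (spl d C).1 (Fin.tail z)) := by
    intro C
    ext1 x
    rw [fl_apply, fl_apply, flf_zero, flf_zero]
    simp [spl]
  have h2 : ∑ C : X (d + 1) → Bool, ρ (fl 0 C) v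
      = ∑ p : (X d → Bool) × (X d → Bool), ρ (fl 0 (fun z => p.1 (Fin.tail z))) v := by
    rw [← Equiv.sum_comp (spl d) (fun p => ρ (fl 0 (fun z => p.1 (Fin.tail z))) v)]
    refine Finset.sum_congr rfl fun C _ => ?_
    rw [← h1]
  rw [h2, Fintype.sum_prod_type]
  simp only [Finset.sum_const, Finset.card_univ]
  rw [← Finset.smul_sum, ← Nat.cast_smul_eq_nsmul ℝ, smul_smul]
  congr 1
  have h3 : Fintype.card (X d → Bool) = 2 ^ (2 ^ d) := by simp
  rw [h3]
  push_cast
  have h4 : (2 : ℝ) ^ (2 ^ (d + 1)) = 2 ^ (2 ^ d) * 2 ^ (2 ^ d) := by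
    rw [← pow_add]; congr 1; ring
  rw [h4]
  field_simp

theorem eQ_succ {d : ℕ} (x : X (d + 1)) : eQ (d + 1) x = (x 0, eQ d (Fin.tail x)) := rfl

theorem eQ_succ_symm {d : ℕ} (b : Bool) (y : Q d) :
    (eQ (d + 1)).symm (b, y) = Fin.cons b ((eQ d).symm y) := rfl

theorem comp_iota {d : ℕ} (ρ : Perm (X (d + 1)) →* (E ≃ₗᵢ[ℝ] E)) (b : Bool) :
    (ρ.comp ((eQ (d + 1)).symm.permCongrHom.toMonoidHom)).comp (iota (β := Q d) b)
      = (ρ.comp (iX b)).comp ((eQ d).symm.permCongrHom.toMonoidHom) := by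
  ext1 g
  have h : (eQ (d + 1)).symm.permCongr (iota (β := Q d) b g)
      = iX b ((eQ d).symm.permCongr g) := by
    ext1 x
    rw [iX_apply, Equiv.permCongr_apply]
    change (eQ (d + 1)).symm (iota (β := Q d) b g (eQ (d + 1) x)) = _
    rw [eQ_succ]
    change (eQ (d + 1)).symm (x 0, if x 0 = b then g (eQ d (Fin.tail x)) else eQ d (Fin.tail x)) = _
    rw [eQ_succ_symm]
    by_cases hb : x 0 = b
    · rw [if_pos hb, if_pos hb]
      rfl
    · rw [if_neg hb, if_neg hb, Equiv.symm_apply_apply]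
  change ρ ((eQ (d + 1)).symm.permCongr (iota (β := Q d) b g)) = ρ (iX b ((eQ d).symm.permCongr g))
  rw [h]

theorem avgH_eQ {d : ℕ} (ρ : Perm (X (d + 1)) →* (E ≃ₗᵢ[ℝ] E)) (v : E) :
    avgH (β := Q d) (ρ.comp ((eQ (d + 1)).symm.permCongrHom.toMonoidHom)) v = Dj ρ 0 v := by
  rw [avgH_apply, Dj_zero, card_Q]
  congr 1
  rw [← Equiv.sum_comp (Equiv.arrowCongr (eQ d).symm (Equiv.refl Bool))
    (fun c : X d → Bool => ρ (fl 0 (fun z => c (Fin.tail z))) v)]
  refine Finset.sum_congr rfl fun c _ => ?_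
  have h : (eQ (d + 1)).symm.permCongr (hflip (β := Q d) c)
      = fl 0 (fun z => (Equiv.arrowCongr (eQ d).symm (Equiv.refl Bool)) c (Fin.tail z)) := by
    ext1 x
    change (eQ (d + 1)).symm (xor (x 0) (c (eQ d (Fin.tail x))), eQ d (Fin.tail x)) = _
    rw [eQ_succ_symm, Equiv.symm_apply_apply, fl_apply, flf_zero]
    simp
  change ρ ((eQ (d + 1)).symm.permCongr (hflip (β := Q d) c)) v = _
  rw [h]

theorem Sop_eQ : ∀ (d : ℕ) (ρ : Perm (X d) →* (E ≃ₗᵢ[ℝ] E)) (v : E),
    Sop d (ρ.comp ((eQ d).symm.permCongrHom.toMonoidHom)) v = T (Dj ρ) d v := by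
  intro d
  induction d with
  | zero => intro ρ v; rfl
  | succ d ih =>
    intro ρ v
    have h0 : Sop (d + 1) (ρ.comp ((eQ (d + 1)).symm.permCongrHom.toMonoidHom)) v
        = Sop d ((ρ.comp ((eQ (d + 1)).symm.permCongrHom.toMonoidHom)).comp
            (iota (β := Q d) false))
          (Sop d ((ρ.comp ((eQ (d + 1)).symm.permCongrHom.toMonoidHom)).comp
            (iota (β := Q d) true))
            (avgH (β := Q d) (ρ.comp ((eQ (d + 1)).symm.permCongrHom.toMonoidHom)) v)) := rfl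
    rw [h0, comp_iota, comp_iota, avgH_eQ, ih, ih, T_succ', LinearMap.comp_apply]
    have h1 : (fun j => Dj ρ (j + 1))
        = fun j => Dj (ρ.comp (iX false)) j ∘ₗ Dj (ρ.comp (iX true)) j := by
      funext j
      ext1 w
      rw [Dj_split]
      rfl
    rw [h1, T_mul _ _ (Dj_comm ρ)]

def rotf {k : ℕ} (x : X (k + 1)) : X (k + 1) :=
  fun i => if h : i.val < k then x ⟨i.val + 1, by omega⟩ else x 0

def rotg {k : ℕ} (y : X (k + 1)) : X (k + 1) :=
  fun i => if i.val = 0 then y (Fin.last k) else y ⟨i.val - 1, by omega⟩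

def rot (k : ℕ) : Perm (X (k + 1)) where
  toFun := rotf
  invFun := rotg
  left_inv := by
    intro x
    funext i
    by_cases h : i.val = 0
    · simp [rotg, rotf, h]
      congr 1
      exact Fin.ext h.symm
    · have h2 : i.val - 1 < k := by omega
      simp only [rotg, rotf, h, h2, if_false, dif_pos]
      congr 1
      apply Fin.ext
      simp only
      omega
  right_inv := by
    intro y
    funext i
    by_cases h : i.val < k
    · simp [rotg, rotf, h]
    · have h2 : i = Fin.last k := by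
        apply Fin.ext
        rw [Fin.val_last]
        omega
      subst h2
      simp [rotg, rotf]

theorem rotf_clr {k j : ℕ} (hj : j < k) (x : X (k + 1)) :
    clr j (rotf x) = rotf (clr (j + 1) x) := by
  funext i
  by_cases h : i.val < k
  · simp [clr, rotf, h]
  · have h2 : i.val ≠ j := by omega
    simp [clr, rotf, h, h2]

theorem fl_rot {k j : ℕ} (hj : j < k) (c : X (k + 1) → Bool) :
    fl j c * rot k = rot k * fl (j + 1) (fun x => c (rot k x)) := by
  ext1 x
  rw [Perm.mul_apply, Perm.mul_apply]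
  change flf j c (rotf x) = rotf (flf (j + 1) (fun x => c (rotf x)) x)
  funext i
  by_cases h : i.val < k
  · have hR : rotf (flf (j + 1) (fun x => c (rotf x)) x) i
        = flf (j + 1) (fun x => c (rotf x)) x ⟨i.val + 1, by omega⟩ := by
      unfold rotf
      rw [dif_pos h]
    have hL : rotf x i = x ⟨i.val + 1, by omega⟩ := by
      unfold rotf
      rw [dif_pos h]
    rw [hR]
    by_cases h2 : i.val = j
    · simp only [flf, h2, if_true, rotf_clr hj]
      rw [hL]
      simp [h2]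
    · simp [flf, h2, hL]
  · have h2 : i.val ≠ j := by omega
    simp [flf, rotf, h, h2]

theorem Dj_rot {k j : ℕ} (hj : j < k) (ρ : Perm (X (k + 1)) →* (E ≃ₗᵢ[ℝ] E)) (v : E) :
    Dj ρ j (ρ (rot k) v) = ρ (rot k) (Dj ρ (j + 1) v) := by
  rw [Dj_apply, Dj_apply, map_smul, map_sum]
  congr 1
  rw [← Equiv.sum_comp (Equiv.arrowCongr (rot k).symm (Equiv.refl Bool))
    (fun c : X (k + 1) → Bool => ρ (rot k) (ρ (fl (j + 1) c) v))]
  refine Finset.sum_congr rfl fun c _ => ?_
  rw [← rho_mul, fl_rot hj, rho_mul]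
  rfl

theorem D0_rot_pow {k : ℕ} (ρ : Perm (X (k + 1)) →* (E ≃ₗᵢ[ℝ] E)) (r : ℕ) (hr : r ≤ k) (v : E) :
    Dj ρ 0 (ρ (rot k ^ r) v) = ρ (rot k ^ r) (Dj ρ r v) := by
  induction r generalizing v with
  | zero => simp only [pow_zero, rho_one]
  | succ r ih =>
    rw [pow_succ, rho_mul, ih (by omega), Dj_rot (by omega), ← rho_mul]

theorem pow_formula {k : ℕ} (ρ : Perm (X (k + 1)) →* (E ≃ₗᵢ[ℝ] E)) (Θ : E →ₗ[ℝ] E)
    (hΘ : ∀ v, Θ v = ρ (rot k) (Dj ρ 0 v)) (r : ℕ) (hr : r ≤ k + 1) (u : E) :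
    (Θ ^ r) u = ρ (rot k ^ r) (T (Dj ρ) r u) := by
  induction r with
  | zero =>
    rw [pow_zero, pow_zero, rho_one]
    rfl
  | succ r ih =>
    have h1 : (Θ ^ (r + 1)) u = Θ ((Θ ^ r) u) := by
      rw [pow_succ']
      rfl
    rw [h1, ih (by omega), hΘ, D0_rot_pow ρ r (by omega), ← rho_mul, ← pow_succ']
    rfl

def val : (d : ℕ) → X d → ℕ
  | 0, _ => 0
  | (d + 1), x => (if x 0 then 2 ^ d else 0) + val d (Fin.tail x)

theorem val_succ (d : ℕ) (x : X (d + 1)) :
    val (d + 1) x = (if x 0 then 2 ^ d else 0) + val d (Fin.tail x) := rfl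

theorem val_lt : ∀ (d : ℕ) (x : X d), val d x < 2 ^ d := by
  intro d
  induction d with
  | zero => intro x; simp [val]
  | succ d ih =>
    intro x
    rw [val_succ, pow_succ]
    have := ih (Fin.tail x)
    split_ifs <;> omega

theorem val_inj : ∀ (d : ℕ) (x y : X d), val d x = val d y → x = y := by
  intro d
  induction d with
  | zero => intro x y _; funext i; exact i.elim0
  | succ d ih =>
    intro x y h
    rw [val_succ, val_succ] at h
    have hx := val_lt d (Fin.tail x)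
    have hy := val_lt d (Fin.tail y)
    have h0 : x 0 = y 0 ∧ val d (Fin.tail x) = val d (Fin.tail y) := by
      cases hx0 : x 0 <;> cases hy0 : y 0 <;> simp only [hx0, hy0, if_true, Bool.false_eq_true,
        if_false] at h
      · exact ⟨rfl, by omega⟩
      · omega
      · omega
      · exact ⟨rfl, by omega⟩
    rw [← Fin.cons_self_tail x, ← Fin.cons_self_tail y, h0.1, ih _ _ h0.2]

theorem val_last : ∀ (d : ℕ) (y : X (d + 1)),
    val (d + 1) y = 2 * val d (Fin.init y) + (if y (Fin.last d) then 1 else 0) := by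
  intro d
  induction d with
  | zero =>
    intro y
    rw [val_succ]
    simp [val]
  | succ d ih =>
    intro y
    rw [val_succ, ih (Fin.tail y), val_succ d (Fin.init y), Fin.tail_init_eq_init_tail]
    have h1 : Fin.tail y (Fin.last d) = y (Fin.last (d + 1)) := rfl
    have h2 : Fin.init y 0 = y 0 := rfl
    rw [h1, h2, pow_succ]
    split_ifs <;> omega

theorem val_rot (k : ℕ) (x : X (k + 1)) :
    val (k + 1) (rot k x) = 2 * val k (Fin.tail x) + (if x 0 then 1 else 0) := by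
  rw [val_last]
  have h1 : Fin.init (rot k x) = Fin.tail x := by
    funext i
    change rotf x i.castSucc = x i.succ
    have h : (i.castSucc).val < k := by simp
    simp only [rotf, h, dif_pos]
    rfl
  have h2 : rot k x (Fin.last k) = x 0 := by
    change rotf x (Fin.last k) = x 0
    simp [rotf]
  rw [h1, h2]

noncomputable def vF (d : ℕ) : X d ≃ Fin (2 ^ d) :=
  Equiv.ofBijective (fun x => ⟨val d x, val_lt d x⟩) (by
    rw [Fintype.bijective_iff_injective_and_card]
    refine ⟨fun x y h => val_inj d x y (Fin.mk.inj h), ?_⟩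
    simp)

theorem vF_val (d : ℕ) (x : X d) : (vF d x).val = val d x := rfl

noncomputable def vE (k : ℕ) : Fin (2 * 2 ^ k) ≃ X (k + 1) :=
  (finCongr (by rw [pow_succ]; ring)).trans (vF (k + 1)).symm

theorem vE_symm_val (k : ℕ) (x : X (k + 1)) : ((vE k).symm x).val = val (k + 1) x := rfl

theorem val_vE (k : ℕ) (x : Fin (2 * 2 ^ k)) : val (k + 1) (vE k x) = x.val := by
  rw [← vE_symm_val, Equiv.symm_apply_apply]

theorem thorpPerm_eq (k : ℕ) (c : Fin (2 ^ k) → Bool) :
    thorpPerm (2 ^ k) c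
      = (vE k).symm.permCongr (rot k * fl 0 (fun z => c (vF k (Fin.tail z)))) := by
  symm
  rw [← isThorp_iff]
  have key : ∀ x : Fin (2 * 2 ^ k),
      ((vE k).symm.permCongr (rot k * fl 0 (fun z => c (vF k (Fin.tail z)))) x).val
        = 2 * val k (Fin.tail (vE k x))
          + (if xor (vE k x 0) (c (vF k (Fin.tail (vE k x)))) then 1 else 0) := by
    intro x
    rw [Equiv.permCongr_apply, vE_symm_val, Perm.mul_apply, Equiv.symm_symm, val_rot, fl_apply,
      flf_zero]
    simp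
  intro i
  have hi := i.isLt
  constructor
  · rw [key]
    have h1 := val_vE k ⟨i.val, by omega⟩
    rw [val_succ] at h1
    have h2 := val_lt k (Fin.tail (vE k ⟨i.val, by omega⟩))
    have h0 : vE k ⟨i.val, by omega⟩ 0 = false := by
      cases h : vE k ⟨i.val, by omega⟩ 0
      · rfl
      · rw [h] at h1
        simp only [if_true] at h1
        omega
    rw [h0] at h1
    simp only [Bool.false_eq_true, if_false, zero_add] at h1
    have h3 : vF k (Fin.tail (vE k ⟨i.val, by omega⟩)) = i := Fin.ext (by rw [vF_val, h1])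
    rw [h0, h3, h1]
    simp
  · rw [key]
    have h1 := val_vE k ⟨2 ^ k + i.val, by omega⟩
    rw [val_succ] at h1
    have h2 := val_lt k (Fin.tail (vE k ⟨2 ^ k + i.val, by omega⟩))
    have h0 : vE k ⟨2 ^ k + i.val, by omega⟩ 0 = true := by
      cases h : vE k ⟨2 ^ k + i.val, by omega⟩ 0
      · rw [h] at h1
        simp only [Bool.false_eq_true, if_false] at h1
        omega
      · rfl
    rw [h0] at h1
    simp only [if_true] at h1
    have h4 : val k (Fin.tail (vE k ⟨2 ^ k + i.val, by omega⟩)) = i.val := by omega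
    have h3 : vF k (Fin.tail (vE k ⟨2 ^ k + i.val, by omega⟩)) = i := Fin.ext (by rw [vF_val, h4])
    rw [h0, h3, h4]
    cases c i <;> simp

theorem theta_eq (k : ℕ) (ρ : Perm (Fin (2 * 2 ^ k)) →* (E ≃ₗᵢ[ℝ] E)) (v : E) :
    opOf ρ (thorpLaw (2 ^ k)) v
      = (ρ.comp ((vE k).symm.permCongrHom.toMonoidHom)) (rot k)
          (Dj (ρ.comp ((vE k).symm.permCongrHom.toMonoidHom)) 0 v) := by
  set ρX := ρ.comp ((vE k).symm.permCongrHom.toMonoidHom) with hρX
  rw [opOf_apply, Dj_zero, map_smul, map_sum]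
  have h1 : ∑ g, thorpLaw (2 ^ k) g • ρ g v
      = ((2 : ℝ) ^ (2 ^ k))⁻¹ • ∑ c : Fin (2 ^ k) → Bool, ρ (thorpPerm (2 ^ k) c) v := by
    simp_rw [thorpLaw_eq, div_eq_inv_mul, mul_smul, Finset.sum_smul]
    rw [← Finset.smul_sum, Finset.sum_comm]
    congr 1
    refine Finset.sum_congr rfl fun c _ => ?_
    simp
  rw [h1]
  congr 1
  rw [← Equiv.sum_comp (Equiv.arrowCongr (vF k).symm (Equiv.refl Bool))
    (fun c : X k → Bool => ρX (rot k) (ρX (fl 0 (fun z => c (Fin.tail z))) v))]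
  refine Finset.sum_congr rfl fun c _ => ?_
  rw [thorpPerm_eq, ← rho_mul]
  rfl

end Lk

variable {E : Type} [NormedAddCommGroup E] [InnerProductSpace ℝ E]

theorem thorp_link (k : ℕ) (ρ : Perm (Fin (2 * 2 ^ k)) →* (E ≃ₗᵢ[ℝ] E)) :
    ∃ (e : Fin (2 * 2 ^ k) ≃ Q (k + 1)), ∀ u : E,
      ‖((opOf ρ (thorpLaw (2 ^ k))) ^ (k + 1)) u‖
        = ‖Sop (k + 1) (ρ.comp (e.symm.permCongrHom.toMonoidHom)) u‖ := by
  refine ⟨(Lk.vE k).trans (Lk.eQ (k + 1)), fun u => ?_⟩
  have h1 : ρ.comp (((Lk.vE k).trans (Lk.eQ (k + 1))).symm.permCongrHom.toMonoidHom)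
      = (ρ.comp ((Lk.vE k).symm.permCongrHom.toMonoidHom)).comp
          ((Lk.eQ (k + 1)).symm.permCongrHom.toMonoidHom) := by
    ext1 g
    rfl
  rw [h1, Lk.Sop_eQ, Lk.pow_formula _ _ (Lk.theta_eq k ρ) (k + 1) le_rfl, norm_rho]

end Vale.Agent.P162
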