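import Vale.Agent.P162.A8
import Vale.Agent.P162.C
import Vale.Agent.P162.E
import Vale.Agent.P162.Law

open Equiv

set_option linter.unusedSectionVars false
set_option linter.unusedSimpArgs false

namespace Vale.Agent.P162

section ops

variable {E : Type} [NormedAddCommGroup E] [InnerProductSpace ℝ E]

theorem opOf_conv {G : Type} [Group G] [Fintype G] (ρ : G →* (E ≃ₗᵢ[ℝ] E)) (μ ν : G → ℝ) (v : E) :
    opOf ρ (conv μ ν) v = opOf ρ μ (opOf ρ ν v) := by
  rw [opOf_apply, opOf_apply, opOf_apply]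
  simp only [conv, map_sum, map_smul, Finset.sum_smul, Finset.smul_sum]
  rw [Finset.sum_comm]
  refine Finset.sum_congr rfl fun h _ => ?_
  rw [← Equiv.sum_comp (Equiv.mulLeft h)]
  refine Finset.sum_congr rfl fun g _ => ?_
  simp only [Equiv.coe_mulLeft, inv_mul_cancel_left, rho_mul, smul_smul]

theorem opOf_thorpPow (m : ℕ) (ρ : Perm (Fin (2 * m)) →* (E ≃ₗᵢ[ℝ] E)) (t : ℕ) :
    opOf ρ (thorpPow m t) = (opOf ρ (thorpLaw m)) ^ t := by
  induction t with
  | zero =>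
    ext v
    rw [opOf_apply]
    simp only [thorpPow, ite_smul, one_smul, zero_smul, Finset.sum_ite_eq', Finset.mem_univ, if_true,
      pow_zero, Module.End.one_apply]
    exact rho_one ρ v
  | succ t ih =>
    ext v
    rw [pow_succ', Module.End.mul_apply, ← ih]
    exact opOf_conv ρ _ _ v

theorem opOf_mem_Kj {α : Type} [Fintype α] [DecidableEq α] (ρ : Perm α →* (E ≃ₗᵢ[ℝ] E)) (w : Perm α → ℝ) (j : ℕ)
    {u : E} (hu : u ∈ Kj ρ Finset.univ j) : opOf ρ w u ∈ Kj ρ Finset.univ j := by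
  rw [opOf_apply]
  exact Submodule.sum_mem _ fun g _ => Submodule.smul_mem _ _ (rho_mem_Kj ρ g j hu)

theorem pow_opOf_mem_Kj {α : Type} [Fintype α] [DecidableEq α] (ρ : Perm α →* (E ≃ₗᵢ[ℝ] E)) (w : Perm α → ℝ) (j t : ℕ)
    {u : E} (hu : u ∈ Kj ρ Finset.univ j) : ((opOf ρ w) ^ t) u ∈ Kj ρ Finset.univ j := by
  induction t with
  | zero => simpa using hu
  | succ t ih =>
    rw [pow_succ', Module.End.mul_apply]
    exact opOf_mem_Kj ρ w j ih

/-- transport of `Kj` along a bijection of the positions -/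
theorem Kj_transport {α β : Type} [Fintype α] [DecidableEq α] [Fintype β] [DecidableEq β] (e : α ≃ β)
    (ρ : Perm α →* (E ≃ₗᵢ[ℝ] E)) (j : ℕ) {u : E} (hu : u ∈ Kj ρ Finset.univ j) :
    u ∈ Kj (ρ.comp (e.symm.permCongrHom.toMonoidHom)) Finset.univ j := by
  intro D _ hc v hv
  apply hu (D.map e.symm.toEmbedding) (Finset.subset_univ _)
  · rw [Finset.card_map, hc, Finset.card_univ, Finset.card_univ, Fintype.card_congr e]
  · intro σ hσ
    have h1 := hv (e.permCongrHom σ) (by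
      intro x hx
      have h2 : σ (e.symm x) = e.symm x := by
        apply hσ
        intro h3
        apply hx
        rw [Finset.mem_map] at h3
        obtain ⟨y, hy, hyx⟩ := h3
        have : y = x := e.symm.injective hyx
        rwa [this] at hy
      have h4 : e.permCongrHom σ x = e (σ (e.symm x)) := rfl
      rw [h4, h2, e.apply_symm_apply])
    have h5 : (ρ.comp (e.symm.permCongrHom.toMonoidHom)) (e.permCongrHom σ) = ρ σ := by
      rw [MonoidHom.comp_apply]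
      congr 1
      ext x
      have h6 : e.symm.permCongrHom.toMonoidHom (e.permCongrHom σ) x
          = e.symm ((e.permCongrHom σ) (e x)) := rfl
      have h7 : (e.permCongrHom σ) (e x) = e (σ (e.symm (e x))) := rfl
      rw [h6, h7, e.symm_apply_apply, e.symm_apply_apply]
    rw [h5] at h1
    exact h1

/-- one round of Thorp shuffles contracts `Kj` -/
theorem round_contraction [FiniteDimensional ℝ E] (k : ℕ) (ρ : Perm (Fin (2 * 2 ^ k)) →* (E ≃ₗᵢ[ℝ] E)) (j : ℕ)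
    (hj : j ≤ 2 * 2 ^ k) (u : E) (hu : u ∈ Kj ρ Finset.univ j) :
    ‖((opOf ρ (thorpLaw (2 ^ k))) ^ (k + 1)) u‖ ^ 2 ≤ Real.exp (-(j : ℝ) / 96) * ‖u‖ ^ 2 := by
  obtain ⟨e, he⟩ := thorp_link k ρ
  rw [he u]
  exact contraction_K (k + 1) _ j (by rw [pow_succ]; omega) u (Kj_transport e ρ j hu)

theorem rounds_contraction [FiniteDimensional ℝ E] (k : ℕ) (ρ : Perm (Fin (2 * 2 ^ k)) →* (E ≃ₗᵢ[ℝ] E)) (j : ℕ)
    (hj : j ≤ 2 * 2 ^ k) (u : E) (hu : u ∈ Kj ρ Finset.univ j) (r : ℕ) :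
    ‖((opOf ρ (thorpLaw (2 ^ k))) ^ ((k + 1) * r)) u‖ ^ 2 ≤ (Real.exp (-(r : ℝ) / 96)) ^ j * ‖u‖ ^ 2 := by
  induction r with
  | zero => simp
  | succ r ih =>
    have e1 : (k + 1) * (r + 1) = (k + 1) + (k + 1) * r := by ring
    rw [e1, pow_add, Module.End.mul_apply]
    have h1 := round_contraction k ρ j hj _ (pow_opOf_mem_Kj ρ (thorpLaw (2 ^ k)) j ((k + 1) * r) hu)
    refine h1.trans ?_
    have h2 := mul_le_mul_of_nonneg_left ih (Real.exp_pos (-(j : ℝ) / 96)).le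
    refine h2.trans (le_of_eq ?_)
    rw [← mul_assoc, ← Real.exp_nat_mul, ← Real.exp_nat_mul, ← Real.exp_add]
    congr 2
    push_cast
    ring

end ops

section final

theorem norm_sq_T_delta {α : Type} [Fintype α] [DecidableEq α]
    (T : EuclideanSpace ℝ (Perm α) →ₗ[ℝ] EuclideanSpace ℝ (Perm α)) (w : Perm α → ℝ)
    (hT : T = ∑ g, w g • ((regRep α g).toLinearEquiv : EuclideanSpace ℝ (Perm α) →ₗ[ℝ] EuclideanSpace ℝ (Perm α))) :
    ‖T (EuclideanSpace.single (1 : Perm α) (1 : ℝ))‖ ^ 2 = ∑ g, w g ^ 2 := by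
  rw [hT]
  exact norm_sq_sum_single w

theorem main_sq (k : ℕ) :
    (∑ g : Perm (Fin (2 * 2 ^ k)), |thorpPow (2 ^ k) (288 * (k + 1) ^ 2) g - 1 / ((2 * 2 ^ k).factorial : ℝ)|) ^ 2
      ≤ 1 / 4 := by
  set μ := thorpPow (2 ^ k) (288 * (k + 1) ^ 2) with hμ
  have hsum : ∑ g, μ g = 1 := sum_thorpPow _ _
  have h1 := sq_tv_le μ hsum
  have hcard : (Fintype.card (Perm (Fin (2 * 2 ^ k))) : ℝ) = ((2 * 2 ^ k).factorial : ℝ) := by
    rw [Fintype.card_perm, Fintype.card_fin]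
  rw [hcard] at h1
  refine h1.trans ?_
  set T := opOf (regRep (Fin (2 * 2 ^ k))) μ with hT
  have hTpow : T = (opOf (regRep (Fin (2 * 2 ^ k))) (thorpLaw (2 ^ k))) ^ ((k + 1) * (288 * (k + 1))) := by
    rw [hT, hμ, opOf_thorpPow]
    congr 1
    ring
  have hn : (0 : ℝ) ≤ Real.exp (-((288 * (k + 1) : ℕ) : ℝ) / 96) := (Real.exp_pos _).le
  have h2 := l2bound T μ rfl (Real.exp (-((288 * (k + 1) : ℕ) : ℝ) / 96)) hn (by
    intro j hj u hu
    rw [hTpow]
    rw [Fintype.card_fin] at hj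
    exact rounds_contraction k _ j hj u hu (288 * (k + 1)))
  rw [norm_sq_T_delta T μ rfl, Fintype.card_fin] at h2
  have h3 : ((2 * 2 ^ k : ℕ) : ℝ) ^ 2 * Real.exp (-((288 * (k + 1) : ℕ) : ℝ) / 96) ≤ 1 / 5 := by
    have e1 : Real.exp (-((288 * (k + 1) : ℕ) : ℝ) / 96) = (Real.exp (-3)) ^ (k + 1) := by
      rw [← Real.exp_nat_mul]
      congr 1
      push_cast
      ring
    have e2 : ((2 * 2 ^ k : ℕ) : ℝ) ^ 2 = 4 ^ (k + 1) := by
      push_cast
      rw [← pow_succ', ← pow_mul, mul_comm (k + 1) 2, pow_mul]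
      norm_num
    rw [e1, e2, ← mul_pow]
    have e3 : 4 * Real.exp (-3) ≤ 1 / 5 := by
      have h4 : (2.7182818283 : ℝ) ^ 3 ≤ Real.exp 3 := by
        have h5 := Real.exp_one_gt_d9
        have h6 : Real.exp 3 = (Real.exp 1) ^ 3 := by
          rw [← Real.exp_nat_mul]
          norm_num
        rw [h6]
        exact pow_le_pow_left₀ (by norm_num) h5.le 3
      rw [Real.exp_neg]
      have h7 : (0 : ℝ) < Real.exp 3 := Real.exp_pos _
      rw [← div_eq_mul_inv, div_le_iff₀ h7]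
      norm_num at h4
      linarith
    have e4 : (0 : ℝ) ≤ 4 * Real.exp (-3) := by positivity
    calc (4 * Real.exp (-3)) ^ (k + 1) = (4 * Real.exp (-3)) ^ k * (4 * Real.exp (-3)) := pow_succ _ _
      _ ≤ 1 * (4 * Real.exp (-3)) := by
          refine mul_le_mul_of_nonneg_right ?_ e4
          exact pow_le_one₀ e4 (e3.trans (by norm_num))
      _ ≤ 1 / 5 := by linarith
  have h4 := h2.trans (Real.exp_le_exp.mpr h3)
  have h5 : Real.exp (1 / 5) ≤ 5 / 4 := by
    have h6 := Real.exp_bound' (x := 1 / 5) (by norm_num) (by norm_num) (n := 3) (by norm_num)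
    refine h6.trans ?_
    norm_num [Finset.sum_range_succ, Nat.factorial]
  linarith

theorem main_tv (k : ℕ) : tvUnif (2 ^ k) (thorpPow (2 ^ k) (288 * (k + 1) ^ 2)) ≤ 1 / 4 := by
  have h := main_sq k
  unfold tvUnif
  have h2 : ∑ g : Perm (Fin (2 * 2 ^ k)), |thorpPow (2 ^ k) (288 * (k + 1) ^ 2) g - 1 / ((2 * 2 ^ k).factorial : ℝ)|
      ≤ 1 / 2 := by
    apply abs_le_of_sq_le_sq' (a := _) (b := (1 / 2 : ℝ)) _ (by norm_num) |>.2
    refine h.trans (by norm_num)
  linarith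

end final

end Vale.Agent.P162
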