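import Mathlib

open Equiv

namespace Vale.Agent.P162

section rep

variable {α : Type} [Fintype α] [DecidableEq α]
variable {E : Type} [NormedAddCommGroup E] [InnerProductSpace ℝ E]

def lapOn (ρ : Perm α →* (E ≃ₗᵢ[ℝ] E)) (C : Finset α) : E →ₗ[ℝ] E :=
  ∑ p ∈ C, ∑ q ∈ C, (LinearMap.id - ((ρ (swap p q)).toLinearEquiv : E →ₗ[ℝ] E))

def lap (ρ : Perm α →* (E ≃ₗᵢ[ℝ] E)) : E →ₗ[ℝ] E := lapOn ρ Finset.univ

def Inv (ρ : Perm α →* (E ≃ₗᵢ[ℝ] E)) (D : Finset α) : Submodule ℝ E where
  carrier := {v | ∀ σ : Perm α, (∀ x, x ∉ D → σ x = x) → ρ σ v = v}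
  add_mem' := by
    intro a b ha hb σ hσ
    rw [map_add, ha σ hσ, hb σ hσ]
  zero_mem' := by
    intro σ _
    simp
  smul_mem' := by
    intro c x hx σ hσ
    rw [map_smul, hx σ hσ]

def Kj (ρ : Perm α →* (E ≃ₗᵢ[ℝ] E)) (C : Finset α) (j : ℕ) : Submodule ℝ E where
  carrier := {u | ∀ D : Finset α, D ⊆ C → D.card + j = C.card + 1 → ∀ v ∈ Inv ρ D, inner ℝ v u = 0}
  add_mem' := by
    intro a b ha hb D hD hc v hv
    rw [inner_add_right, ha D hD hc v hv, hb D hD hc v hv, add_zero]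
  zero_mem' := by
    intro D _ _ v _
    simp
  smul_mem' := by
    intro c x hx D hD hc v hv
    rw [inner_smul_right, hx D hD hc v hv, mul_zero]

end rep

section cube

variable {β : Type} [Fintype β] [DecidableEq β]

def iota (b : Bool) : Perm β →* Perm (Bool × β) where
  toFun g :=
    { toFun := fun p => (p.1, if p.1 = b then g p.2 else p.2)
      invFun := fun p => (p.1, if p.1 = b then g.symm p.2 else p.2)
      left_inv := by
        rintro ⟨p1, p2⟩
        by_cases h : p1 = b <;> simp [h]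
      right_inv := by
        rintro ⟨p1, p2⟩
        by_cases h : p1 = b <;> simp [h] }
  map_one' := by
    ext p <;> simp
  map_mul' := by
    intro g g'
    ext p
    · simp
    · by_cases h : p.1 = b <;> simp [h]

def hflip (c : β → Bool) : Perm (Bool × β) where
  toFun p := (xor p.1 (c p.2), p.2)
  invFun p := (xor p.1 (c p.2), p.2)
  left_inv := by
    intro p
    simp
  right_inv := by
    intro p
    simp

variable {E : Type} [NormedAddCommGroup E] [InnerProductSpace ℝ E]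

noncomputable def avgH (ρ : Perm (Bool × β) →* (E ≃ₗᵢ[ℝ] E)) : E →ₗ[ℝ] E :=
  ((2 : ℝ) ^ (Fintype.card β))⁻¹ • ∑ c : β → Bool, ((ρ (hflip c)).toLinearEquiv : E →ₗ[ℝ] E)

end cube

def Q : ℕ → Type
  | 0 => Unit
  | (d + 1) => Bool × Q d

instance instFintypeQ : (d : ℕ) → Fintype (Q d)
  | 0 => inferInstanceAs (Fintype Unit)
  | (d + 1) => @instFintypeProd Bool (Q d) _ (instFintypeQ d)

instance instDecidableEqQ : (d : ℕ) → DecidableEq (Q d)
  | 0 => inferInstanceAs (DecidableEq Unit)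
  | (d + 1) => @instDecidableEqProd Bool (Q d) _ (instDecidableEqQ d)

theorem card_Q (d : ℕ) : Fintype.card (Q d) = 2 ^ d := by
  induction d with
  | zero => rfl
  | succ d ih =>
    have : Fintype.card (Q (d + 1)) = Fintype.card (Bool × Q d) := rfl
    rw [this, Fintype.card_prod, ih, Fintype.card_bool, pow_succ]
    ring

section sop

variable {E : Type} [NormedAddCommGroup E] [InnerProductSpace ℝ E]

noncomputable def Sop : (d : ℕ) → (Perm (Q d) →* (E ≃ₗᵢ[ℝ] E)) → (E →ₗ[ℝ] E)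
  | 0, _ => LinearMap.id
  | (d + 1), ρ =>
    (Sop d (ρ.comp (iota (β := Q d) false))) ∘ₗ (Sop d (ρ.comp (iota (β := Q d) true))) ∘ₗ
      (avgH (β := Q d) ρ)

noncomputable def sd (d : ℕ) : ℝ := (1 + (1 / 2) ^ d) / 48

end sop

end Vale.Agent.P162
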