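import Vale.Agent.P162.Op

open Equiv

set_option linter.unusedSectionVars false

namespace Vale.Agent.P162

section perm

variable {V : Type} [Fintype V] [DecidableEq V]

/-- the matrix of `∑ g, μ g • g` acting on injections `ι ↪ V` -/
noncomputable def PM (ι : Type) [Fintype ι] [DecidableEq ι] (μ : Perm V → ℝ) : Matrix (ι ↪ V) (ι ↪ V) ℝ :=
  fun x y => ∑ g : Perm V, if (∀ k, x k = g (y k)) then μ g else 0

/-- `f` has zero sums in each coordinate -/
def ZeroSum {j : ℕ} (f : (Fin j ↪ V) → ℝ) : Prop :=
  ∀ (i : Fin j) (x : Fin j → V), ∑ v : V,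
    (if h : Function.Injective (Function.update x i v) then f ⟨Function.update x i v, h⟩ else 0) = 0

end perm

end Vale.Agent.P162
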