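import Vale.Agent.P162.Avg
import Vale.Agent.P162.PMDefs
import Vale.Agent.P162.A6

open Equiv

set_option linter.unusedSectionVars false

namespace Vale.Agent.P162

section sopav

variable {E : Type} [NormedAddCommGroup E] [InnerProductSpace ℝ E]

theorem sop_aux {β : Type} [Fintype β] [DecidableEq β] (ρ : Perm (Bool × β) →* (E ≃ₗᵢ[ℝ] E)) (u : E)
    (N : Type) [Fintype N] (R : N → Perm β) :
    ((Fintype.card N : ℝ))⁻¹ • ∑ w0 : N, (ρ.comp (iota false)) (R w0)
      (((Fintype.card N : ℝ))⁻¹ • ∑ w1 : N, (ρ.comp (iota true)) (R w1) (avgH ρ u))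
    = ((Fintype.card ((β → Bool) × N × N) : ℝ))⁻¹ • ∑ x : (β → Bool) × N × N,
        ρ (iota false (R x.2.1) * iota true (R x.2.2) * hflip x.1) u := by
  rw [avgH_apply, Fintype.sum_prod_type]
  simp only [Fintype.sum_prod_type, rho_mul, map_smul, map_sum, Fintype.card_prod, MonoidHom.comp_apply,
    Fintype.card_fun, Fintype.card_bool, Nat.cast_mul, Nat.cast_pow, Nat.cast_ofNat, mul_inv]
  simp only [← Finset.smul_sum, smul_smul]
  congr 1
  · ring
  · rw [Finset.sum_congr rfl (fun x _ => Finset.sum_comm), Finset.sum_comm]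

theorem Sop_eq_av : (t : ℕ) → (ρ : Perm (Q t) →* (E ≃ₗᵢ[ℝ] E)) → (u : E) →
    Sop t ρ u = ((Fintype.card (Net t) : ℝ))⁻¹ • ∑ w : Net t, ρ (Rn t w) u
  | 0, ρ, u => by
      have h1 : Fintype.card (Net 0) = 1 := rfl
      have h2 : ∀ w : Net 0, ρ (Rn 0 w) u = u := by
        intro w
        have : Rn 0 w = 1 := rfl
        rw [this, map_one]
        rfl
      rw [Finset.sum_congr rfl (fun w _ => h2 w), Finset.sum_const, Finset.card_univ, h1]
      simp [Sop]
  | (t + 1), ρ, u => by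
      have hS : Sop (t + 1) ρ u = Sop t (ρ.comp (iota (β := Q t) false))
          (Sop t (ρ.comp (iota (β := Q t) true)) (avgH (β := Q t) ρ u)) := rfl
      rw [hS, Sop_eq_av t, Sop_eq_av t]
      exact sop_aux (β := Q t) ρ u (Net t) (Rn t)

end sopav

end Vale.Agent.P162
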