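import Vale.Agent.P162.H9

open Equiv

namespace Vale.Agent.P162

theorem tv_zero_two : ¬ (tvUnif (2 ^ 0) (thorpPow (2 ^ 0) 0) ≤ 1 / 4) := by
  intro h
  unfold tvUnif at h
  have hne : (1 : Perm (Fin (2 * 2 ^ 0))) ≠ swap ⟨0, by norm_num⟩ ⟨1, by norm_num⟩ := by
    intro h1
    have h2 := DFunLike.congr_fun h1 ⟨0, by norm_num⟩
    rw [swap_apply_left, Perm.one_apply] at h2
    have h3 := congrArg Fin.val h2
    simp at h3
  have h1 : ∑ g ∈ ({1, swap ⟨0, by norm_num⟩ ⟨1, by norm_num⟩} : Finset (Perm (Fin (2 * 2 ^ 0)))),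
      |thorpPow (2 ^ 0) 0 g - 1 / ((2 * 2 ^ 0).factorial : ℝ)|
      ≤ ∑ g : Perm (Fin (2 * 2 ^ 0)), |thorpPow (2 ^ 0) 0 g - 1 / ((2 * 2 ^ 0).factorial : ℝ)| :=
    Finset.sum_le_sum_of_subset_of_nonneg (Finset.subset_univ _) (fun _ _ _ => abs_nonneg _)
  rw [Finset.sum_pair hne] at h1
  have h2 : thorpPow (2 ^ 0) 0 1 = 1 := by simp [thorpPow]
  have h3 : thorpPow (2 ^ 0) 0 (swap ⟨0, by norm_num⟩ ⟨1, by norm_num⟩) = 0 := by
    simp only [thorpPow]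
    rw [if_neg (Ne.symm hne)]
  have h4 : ((2 * 2 ^ 0).factorial : ℝ) = 2 := by norm_num [Nat.factorial]
  rw [h2, h3, h4] at h1
  rw [h4] at h
  norm_num at h1
  linarith

theorem lower_linear (k t : ℕ) (h : tvUnif (2 ^ k) (thorpPow (2 ^ k) t) ≤ 1 / 4) :
    ((k : ℝ) + 1) / 2 ≤ t := by
  have h0 : k + 1 ≤ 2 * t := by
    rcases Nat.eq_zero_or_pos k with hk | hk
    · subst hk
      by_contra h1
      have h2 : t = 0 := by omega
      subst h2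
      exact tv_zero_two h
    · have h1 := lower (2 ^ k) (Nat.one_le_two_pow) t h
      have h2 : (2 ^ k) ^ (2 ^ k) ≤ (2 * 2 ^ k).factorial := by
        have h3 : (2 ^ k).factorial * (2 ^ k + 1) ^ (2 ^ k) ≤ (2 ^ k + 2 ^ k).factorial :=
          Nat.factorial_mul_pow_le_factorial
        have h4 : (2 ^ k) ^ (2 ^ k) ≤ (2 ^ k + 1) ^ (2 ^ k) := Nat.pow_le_pow_left (by omega) _
        have h5 : (2 ^ k + 1) ^ (2 ^ k) ≤ (2 ^ k).factorial * (2 ^ k + 1) ^ (2 ^ k) :=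
          Nat.le_mul_of_pos_left _ (Nat.factorial_pos _)
        have h6 : 2 ^ k + 2 ^ k = 2 * 2 ^ k := by ring
        rw [h6] at h3
        exact (h4.trans h5).trans h3
      have h3 : (2 ^ k) ^ (2 ^ k) ≤ 2 * 2 ^ (t * 2 ^ k) := by
        have : (((2 ^ k) ^ (2 ^ k) : ℕ) : ℝ) ≤ ((2 * 2 ^ (t * 2 ^ k) : ℕ) : ℝ) := by
          refine le_trans (Nat.cast_le.mpr h2) ?_
          push_cast
          exact_mod_cast h1
        exact_mod_cast this
      rw [← pow_mul, ← pow_succ'] at h3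
      have h4 : k * 2 ^ k ≤ t * 2 ^ k + 1 := (Nat.pow_le_pow_iff_right (by norm_num)).mp h3
      have h5 : 2 ≤ 2 ^ k := by
        calc 2 = 2 ^ 1 := by norm_num
          _ ≤ 2 ^ k := Nat.pow_le_pow_right (by norm_num) hk
      have h6 : k * 2 ^ k < (t + 1) * 2 ^ k := by
        rw [add_mul, one_mul]
        omega
      have h7 : k < t + 1 := Nat.lt_of_mul_lt_mul_right h6
      omega
  have h1 : ((k + 1 : ℕ) : ℝ) ≤ ((2 * t : ℕ) : ℝ) := by exact_mod_cast h0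
  push_cast at h1
  linarith

/-- the mixing time is of linear order in `log n` -/
theorem tmix_linear : ∃ C : ℝ, 0 < C ∧ ∀ k : ℕ,
    ((k : ℝ) + 1) / 2 ≤ (tmix (2 ^ k) : ℝ) ∧ (tmix (2 ^ k) : ℝ) ≤ C * ((k : ℝ) + 1) := by
  obtain ⟨C, hC0, hC⟩ := mixing_linear
  refine ⟨C, by exact_mod_cast hC0, fun k => ⟨?_, ?_⟩⟩
  · apply lower_linear
    have hne : {t : ℕ | tvUnif (2 ^ k) (thorpPow (2 ^ k) t) ≤ 1 / 4}.Nonempty := ⟨C * (k + 1), hC k _ le_rfl⟩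
    exact Nat.sInf_mem hne
  · have h1 : tmix (2 ^ k) ≤ C * (k + 1) := Nat.sInf_le (hC k _ le_rfl)
    exact_mod_cast h1

end Vale.Agent.P162
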