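import Mathlib

open Equiv

namespace Vale.Agent.P162

/-- The law of one Thorp shuffle of `2 * m` cards, as a function on the permutations of the positions
`0, …, 2m-1`: under fair coins `c`, position `i < m` moves to `2 i + c_i` and position `m + i` moves to
`2 i + (1 - c_i)`. -/
noncomputable def thorpLaw (m : ℕ) (σ : Perm (Fin (2 * m))) : ℝ :=
  (Fintype.card {c : Fin m → Bool //
    ∀ i : Fin m,
      (σ ⟨i.val, by omega⟩).val = 2 * i.val + (if c i then 1 else 0) ∧
      (σ ⟨m + i.val, by omega⟩).val = 2 * i.val + (if c i then 0 else 1)} : ℝ) / 2 ^ m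

/-- Convolution of two functions on a finite group. -/
noncomputable def conv {G : Type} [Group G] [Fintype G] (μ ν : G → ℝ) (g : G) : ℝ :=
  ∑ h : G, μ h * ν (h⁻¹ * g)

/-- The law after `t` independent Thorp shuffles: the `t`-fold convolution power of `thorpLaw m`. -/
noncomputable def thorpPow (m : ℕ) : ℕ → Perm (Fin (2 * m)) → ℝ
  | 0 => fun g => if g = 1 then 1 else 0
  | (t + 1) => conv (thorpLaw m) (thorpPow m t)

/-- Total variation distance between `μ` and the uniform law on the permutations of `2 * m` points. -/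
noncomputable def tvUnif (m : ℕ) (μ : Perm (Fin (2 * m)) → ℝ) : ℝ :=
  (1 / 2) * ∑ g : Perm (Fin (2 * m)), |μ g - 1 / ((2 * m).factorial : ℝ)|

/-- The mixing time of the Thorp shuffle of `2 * m` cards, counted in single shuffles. -/
noncomputable def tmix (m : ℕ) : ℕ := sInf {t : ℕ | tvUnif m (thorpPow m t) ≤ 1 / 4}

end Vale.Agent.P162
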