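import Vale.Agent.P162.H1
import Vale.Agent.P162.Statement

open Equiv

set_option linter.unusedSectionVars false

namespace Vale.Agent.P162

section embrep

variable {V : Type} [Fintype V] [DecidableEq V]
variable (ι : Type) [Fintype ι] [DecidableEq ι]

/-- action of a permutation on injections -/
def embEquiv (g : Perm V) : (ι ↪ V) ≃ (ι ↪ V) where
  toFun x := x.trans g.toEmbedding
  invFun x := x.trans (g⁻¹ : Perm V).toEmbedding
  left_inv x := by
    ext k
    simp
  right_inv x := by
    ext k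
    simp

theorem embAux (g : Perm V) (f : EuclideanSpace ℝ (ι ↪ V)) (x : ι ↪ V) :
    (LinearIsometryEquiv.piLpCongrLeft 2 ℝ ℝ (embEquiv ι g) f) x = f (x.trans (g⁻¹ : Perm V).toEmbedding) := by
  simp [LinearIsometryEquiv.piLpCongrLeft_apply, embEquiv]

noncomputable def embRep :
    Perm V →* (EuclideanSpace ℝ (ι ↪ V) ≃ₗᵢ[ℝ] EuclideanSpace ℝ (ι ↪ V)) where
  toFun g := LinearIsometryEquiv.piLpCongrLeft 2 ℝ ℝ (embEquiv ι g)
  map_one' := by
    ext f x
    refine (embAux ι 1 f x).trans ?_
    have : x.trans (1⁻¹ : Perm V).toEmbedding = x := by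
      ext k
      simp
    rw [this]
    rfl
  map_mul' := by
    intro g h
    ext f x
    refine (embAux ι (g * h) f x).trans ?_
    have h1 : (LinearIsometryEquiv.piLpCongrLeft 2 ℝ ℝ (embEquiv ι g) * LinearIsometryEquiv.piLpCongrLeft 2 ℝ ℝ (embEquiv ι h)) f x
        = LinearIsometryEquiv.piLpCongrLeft 2 ℝ ℝ (embEquiv ι g) (LinearIsometryEquiv.piLpCongrLeft 2 ℝ ℝ (embEquiv ι h) f) x := rfl
    rw [h1, embAux, embAux]
    have h2 : x.trans ((g * h)⁻¹ : Perm V).toEmbedding
        = (x.trans (g⁻¹ : Perm V).toEmbedding).trans (h⁻¹ : Perm V).toEmbedding := by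
      ext k
      simp
    rw [h2]

theorem embRep_apply (g : Perm V) (f : EuclideanSpace ℝ (ι ↪ V)) (x : ι ↪ V) :
    embRep ι g f x = f (x.trans (g⁻¹ : Perm V).toEmbedding) := embAux ι g f x

theorem embRep_single_apply (g : Perm V) (x z : ι ↪ V) :
    embRep ι g (EuclideanSpace.single x (1 : ℝ)) z = if (∀ k, z k = g (x k)) then 1 else 0 := by
  rw [embRep_apply]
  rw [PiLp.single_apply]
  have : (z.trans (g⁻¹ : Perm V).toEmbedding = x) ↔ (∀ k, z k = g (x k)) := by
    constructor
    · intro h k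
      rw [← h]
      simp
    · intro h
      ext k
      simp [h k]
  by_cases h : ∀ k, z k = g (x k)
  · rw [if_pos h, if_pos (this.mpr h)]
  · rw [if_neg h, if_neg (fun h' => h (this.mp h'))]

theorem opOf_embRep_single (μ : Perm V → ℝ) (x z : ι ↪ V) :
    opOf (embRep ι) μ (EuclideanSpace.single x (1 : ℝ)) z = PM ι μ z x := by
  rw [opOf_apply]
  unfold PM
  rw [WithLp.ofLp_sum, Finset.sum_apply]
  apply Finset.sum_congr rfl
  intro g _
  rw [WithLp.ofLp_smul, Pi.smul_apply, embRep_single_apply, smul_eq_mul]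
  split_ifs <;> simp

theorem gram_inner (μ : Perm V → ℝ) (x y : ι ↪ V) :
    ((PM ι μ).transpose * PM ι μ) x y
      = inner ℝ (opOf (embRep ι) μ (EuclideanSpace.single x (1 : ℝ))) (opOf (embRep ι) μ (EuclideanSpace.single y (1 : ℝ))) := by
  rw [PiLp.inner_apply, Matrix.mul_apply]
  apply Finset.sum_congr rfl
  intro z _
  rw [opOf_embRep_single, opOf_embRep_single, Matrix.transpose_apply]
  simp [mul_comm]

/-- matrix of a convolution -/
theorem PM_conv (μ ν : Perm V → ℝ) : PM ι (conv μ ν) = PM ι μ * PM ι ν := by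
  ext x y
  rw [Matrix.mul_apply]
  unfold PM conv
  have h1 : ∀ z : ι ↪ V, (∑ g : Perm V, if (∀ k, x k = g (z k)) then μ g else 0) *
      (∑ g : Perm V, if (∀ k, z k = g (y k)) then ν g else 0)
      = ∑ h : Perm V, ∑ g : Perm V, if (∀ k, x k = h (z k)) ∧ (∀ k, z k = g (y k)) then μ h * ν g else 0 := by
    intro z
    rw [Finset.sum_mul_sum]
    apply Finset.sum_congr rfl
    intro h _
    apply Finset.sum_congr rfl
    intro g _
    by_cases ha : ∀ k, x k = h (z k)
    · by_cases hb : ∀ k, z k = g (y k)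
      · rw [if_pos ha, if_pos hb, if_pos ⟨ha, hb⟩]
      · rw [if_pos ha, if_neg hb, if_neg (fun hh => hb hh.2), mul_zero]
    · rw [if_neg ha, zero_mul, if_neg (fun hh => ha hh.1)]
  rw [Finset.sum_congr rfl (fun z _ => h1 z), Finset.sum_comm]
  have h2 : ∀ h : Perm V, ∑ z : ι ↪ V, ∑ g : Perm V, (if (∀ k, x k = h (z k)) ∧ (∀ k, z k = g (y k)) then μ h * ν g else 0)
      = ∑ g : Perm V, (if (∀ k, x k = (h * g) (y k)) then μ h * ν g else 0) := by
    intro h
    rw [Finset.sum_comm]
    apply Finset.sum_congr rfl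
    intro g _
    rw [Finset.sum_eq_single (y.trans g.toEmbedding)]
    · have : ((∀ k, x k = h ((y.trans g.toEmbedding) k)) ∧ (∀ k, (y.trans g.toEmbedding) k = g (y k))) ↔
          (∀ k, x k = (h * g) (y k)) := by
        simp
      by_cases hc : ∀ k, x k = (h * g) (y k)
      · rw [if_pos hc, if_pos (this.mpr hc)]
      · rw [if_neg hc, if_neg (fun hh => hc (this.mp hh))]
    · intro z _ hz
      rw [if_neg]
      rintro ⟨_, hb⟩
      apply hz
      ext k
      simpa using hb k
    · intro hh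
      exact absurd (Finset.mem_univ _) hh
  rw [Finset.sum_congr rfl (fun h _ => h2 h)]
  have h3 : ∀ g : Perm V, (if (∀ k, x k = g (y k)) then ∑ h : Perm V, μ h * ν (h⁻¹ * g) else 0)
      = ∑ h : Perm V, if (∀ k, x k = g (y k)) then μ h * ν (h⁻¹ * g) else 0 := by
    intro g
    split_ifs
    · rfl
    · simp
  rw [Finset.sum_congr rfl (fun g _ => h3 g), Finset.sum_comm]
  apply Finset.sum_congr rfl
  intro h _
  rw [← Equiv.sum_comp (Equiv.mulLeft h)]
  apply Finset.sum_congr rfl
  intro g _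
  simp only [Equiv.coe_mulLeft, inv_mul_cancel_left]

/-- matrix of the reversed law -/
theorem PM_inv (μ : Perm V → ℝ) : PM ι (fun g => μ g⁻¹) = (PM ι μ).transpose := by
  ext x y
  rw [Matrix.transpose_apply]
  unfold PM
  rw [← Equiv.sum_comp (Equiv.inv (Perm V))]
  apply Finset.sum_congr rfl
  intro g _
  simp only [Equiv.inv_apply, inv_inv]
  have : (∀ k, x k = g⁻¹ (y k)) ↔ (∀ k, y k = g (x k)) := by
    constructor
    · intro h k
      rw [h k]
      simp
    · intro h k
      rw [h k]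
      simp
  by_cases hc : ∀ k, y k = g (x k)
  · rw [if_pos hc, if_pos (this.mpr hc)]
  · rw [if_neg hc, if_neg (fun hh => hc (this.mp hh))]

end embrep

end Vale.Agent.P162
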