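import Vale.Agent.P162.H2
import Vale.Agent.P162.D

open Equiv

set_option linter.unusedSectionVars false

namespace Vale.Agent.P162

theorem polar {E F G : Type} [NormedAddCommGroup E] [InnerProductSpace ℝ E] [NormedAddCommGroup F]
    [InnerProductSpace ℝ F] [NormedAddCommGroup G] [InnerProductSpace ℝ G]
    (A : E →ₗ[ℝ] F) (B : E →ₗ[ℝ] G) (h : ∀ u, ‖A u‖ = ‖B u‖) (x y : E) :
    inner ℝ (A x) (A y) = inner ℝ (B x) (B y) := by
  rw [real_inner_eq_norm_add_mul_self_sub_norm_mul_self_sub_norm_mul_self_div_two,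
    real_inner_eq_norm_add_mul_self_sub_norm_mul_self_sub_norm_mul_self_div_two,
    ← map_add, ← map_add, h, h, h]

section

variable (ι : Type) [Fintype ι] [DecidableEq ι]

theorem KK_emb {t : ℕ} (a o : ι → Q t) :
    KK t Finset.univ a o = ((Fintype.card (Net t) : ℝ))⁻¹ * ((Fintype.card (Net t) : ℝ))⁻¹ *
      ∑ w : Net t, ∑ w' : Net t, if ∀ k, Rn t w (a k) = Rn t w' (o k) then (1 : ℝ) else 0 := by
  unfold KK av
  rw [Fintype.sum_prod_type, Fintype.card_prod, Nat.cast_mul, div_eq_mul_inv, mul_inv, mul_comm]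
  simp only [Finset.mem_univ, true_implies]

theorem gram_eq (k : ℕ) : ∃ e : Fin (2 * 2 ^ k) ≃ Q (k + 1), ∀ x y : ι ↪ Fin (2 * 2 ^ k),
    ((PM ι (thorpPow (2 ^ k) (k + 1))).transpose * PM ι (thorpPow (2 ^ k) (k + 1))) x y
      = KK (k + 1) Finset.univ (fun i => e (x i)) (fun i => e (y i)) := by
  obtain ⟨e, he⟩ := thorp_link k (embRep (V := Fin (2 * 2 ^ k)) ι)
  refine ⟨e, fun x y => ?_⟩
  rw [gram_inner, opOf_thorpPow, polar _ _ he, Sop_eq_av, Sop_eq_av, inner_smul_left, inner_smul_right,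
    sum_inner, KK_emb, ← mul_assoc]
  congr 1
  apply Finset.sum_congr rfl
  intro w _
  rw [inner_sum]
  apply Finset.sum_congr rfl
  intro w' _
  have h1 : ∀ (w : Net (k + 1)) (x : ι ↪ Fin (2 * 2 ^ k)),
      ((embRep (V := Fin (2 * 2 ^ k)) ι).comp (e.symm.permCongrHom.toMonoidHom)) (Rn (k + 1) w)
        (EuclideanSpace.single x (1 : ℝ))
      = EuclideanSpace.single (x.trans (e.symm.permCongrHom (Rn (k + 1) w)).toEmbedding) (1 : ℝ) := by
    intro w x
    rw [MonoidHom.comp_apply]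
    change (LinearIsometryEquiv.piLpCongrLeft 2 ℝ ℝ (embEquiv ι _)) _ = _
    rw [EuclideanSpace.piLpCongrLeft_single]
    rfl
  rw [h1, h1, EuclideanSpace.inner_single_left, PiLp.single_apply]
  have h2 : ∀ (w : Net (k + 1)) (x : ι ↪ Fin (2 * 2 ^ k)) (i : ι),
      (x.trans (e.symm.permCongrHom (Rn (k + 1) w)).toEmbedding) i = e.symm (Rn (k + 1) w (e (x i))) := by
    intro w x i
    rfl
  by_cases hc : ∀ i, Rn (k + 1) w (e (x i)) = Rn (k + 1) w' (e (y i))
  · rw [if_pos hc, if_pos]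
    · simp
    · ext i
      rw [h2, h2, hc i]
  · rw [if_neg hc, if_neg]
    · simp
    · intro hh
      apply hc
      intro i
      have h3 := DFunLike.congr_fun hh i
      rw [h2, h2] at h3
      exact e.symm.injective h3

end

end Vale.Agent.P162
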