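import Vale.Agent.P162.H3
import Vale.Agent.P162.B6
import Vale.Agent.P162.Chain

open Equiv

set_option linter.unusedSectionVars false

namespace Vale.Agent.P162



section

variable (ι : Type) [Fintype ι] [DecidableEq ι]

theorem KK_nonneg {t : ℕ} (I : Finset ι) (a o : ι → Q t) : 0 ≤ KK t I a o := by
  unfold KK
  apply Avg.nonneg
  intro x
  split_ifs <;> norm_num

theorem trace_emb (k l0 : ℕ) (hl0 : 1 ≤ l0) :
    Matrix.trace (((PM ι (thorpPow (2 ^ k) (k + 1))).transpose * PM ι (thorpPow (2 ^ k) (k + 1))) ^ 8)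
      ≤ ((2 * 2 ^ k).descFactorial (Fintype.card ι) : ℝ) / ((2 * 2 ^ k : ℕ) : ℝ) ^ (Fintype.card ι) *
        Real.exp (7 * Fintype.card ι * ((2 : ℝ) ^ (9 * l0) * Fintype.card ι / ((2 * 2 ^ k : ℕ) : ℝ) + 3 * (27 / 50) ^ l0)) := by
  obtain ⟨e, he⟩ := gram_eq ι k
  set G := (PM ι (thorpPow (2 ^ k) (k + 1))).transpose * PM ι (thorpPow (2 ^ k) (k + 1)) with hG
  set J := Fintype.card ι with hJ
  have hn : ((2 * 2 ^ k : ℕ) : ℝ) = 2 ^ (k + 1) := by
    push_cast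
    rw [pow_succ]
    ring
  set Λ : ℝ := (2 : ℝ) ^ (-(((k + 1 : ℕ) : ℝ) * J) / 7) *
      Real.exp (J * ((2 : ℝ) ^ (9 * l0) * J / 2 ^ (k + 1) + 3 * (27 / 50) ^ l0)) with hΛ
  have h1 : ∀ x : ι ↪ Fin (2 * 2 ^ k), ∑ y : ι ↪ Fin (2 * 2 ^ k), G x y ^ (8 / 7 : ℝ) ≤ Λ := by
    intro x
    have h2 := b6 (k + 1) (fun i => e (x i)) (e.injective.comp x.injective) l0 hl0
    refine le_trans ?_ h2
    have h3 : ∑ y : ι ↪ Fin (2 * 2 ^ k), G x y ^ (8 / 7 : ℝ)
        = ∑ o ∈ (Finset.univ : Finset (ι ↪ Fin (2 * 2 ^ k))).map ⟨fun y => (fun i => e (y i) : ι → Q (k + 1)), by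
            intro y y' hyy
            apply DFunLike.ext
            intro i
            have := congrFun hyy i
            exact e.injective this⟩,
          KK (k + 1) Finset.univ (fun i => e (x i)) o ^ (8 / 7 : ℝ) := by
      rw [Finset.sum_map]
      apply Finset.sum_congr rfl
      intro y _
      rw [he x y]
      rfl
    rw [h3]
    apply Finset.sum_le_sum_of_subset_of_nonneg (Finset.subset_univ _)
    intro o _ _
    exact Real.rpow_nonneg (KK_nonneg ι _ _ _) _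
  have h4 := trace_pow8_le G (fun x y => by rw [he x y]; exact KK_nonneg ι _ _ _) Λ h1
  refine le_trans h4 (le_of_eq ?_)
  rw [Fintype.card_embedding_eq, Fintype.card_fin, ← hJ, hΛ, mul_pow, ← Real.exp_nat_mul]
  have h5 : ((2 : ℝ) ^ (-(((k + 1 : ℕ) : ℝ) * J) / 7)) ^ 7 = 1 / (2 ^ (k + 1)) ^ J := by
    rw [← Real.rpow_natCast, ← Real.rpow_mul (by norm_num)]
    have : -(((k + 1 : ℕ) : ℝ) * J) / 7 * ((7 : ℕ) : ℝ) = -(((k + 1) * J : ℕ) : ℝ) := by
      push_cast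
      ring
    rw [this, Real.rpow_neg (by norm_num), Real.rpow_natCast, ← pow_mul, one_div]
  rw [h5, hn]
  have h6 : ((7 : ℕ) : ℝ) * (J * ((2 : ℝ) ^ (9 * l0) * J / 2 ^ (k + 1) + 3 * (27 / 50) ^ l0))
      = 7 * J * ((2 : ℝ) ^ (9 * l0) * J / 2 ^ (k + 1) + 3 * (27 / 50) ^ l0) := by
    push_cast
    ring
  rw [h6]
  ring

end

end Vale.Agent.P162
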