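import Vale.Agent.P162.C

open Equiv

set_option linter.unusedSectionVars false

namespace Vale.Agent.P162

section massG

variable {α : Type} [Fintype α] [DecidableEq α]
variable {E : Type} [NormedAddCommGroup E] [InnerProductSpace ℝ E]

/-- the permutations supported in `D` -/
def gS (D : Finset α) : Finset (Perm α) := Finset.univ.filter (fun σ => ∀ x, x ∉ D → σ x = x)

theorem mem_gS {D : Finset α} {σ : Perm α} : σ ∈ gS D ↔ ∀ x, x ∉ D → σ x = x := by
  simp [gS]

theorem gS_mul {D : Finset α} {σ τ : Perm α} (hσ : σ ∈ gS D) (hτ : τ ∈ gS D) : σ * τ ∈ gS D := by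
  rw [mem_gS] at *
  intro x hx
  rw [Perm.mul_apply, hτ x hx, hσ x hx]

theorem gS_inv {D : Finset α} {σ : Perm α} (hσ : σ ∈ gS D) : σ⁻¹ ∈ gS D := by
  rw [mem_gS] at *
  intro x hx
  rw [Equiv.Perm.inv_eq_iff_eq]
  exact (hσ x hx).symm

theorem gS_one (D : Finset α) : (1 : Perm α) ∈ gS D := mem_gS.mpr fun _ _ => rfl

theorem gS_card_ne (D : Finset α) : ((gS D).card : ℝ) ≠ 0 := by
  have : 0 < (gS D).card := Finset.card_pos.mpr ⟨1, gS_one D⟩
  exact_mod_cast this.ne'

/-- the average over the permutations supported in `D` -/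
noncomputable def gav (ρ : Perm α →* (E ≃ₗᵢ[ℝ] E)) (D : Finset α) : E →ₗ[ℝ] E :=
  ((gS D).card : ℝ)⁻¹ • ∑ σ ∈ gS D, ((ρ σ).toLinearEquiv : E →ₗ[ℝ] E)

theorem gav_apply (ρ : Perm α →* (E ≃ₗᵢ[ℝ] E)) (D : Finset α) (v : E) :
    gav ρ D v = ((gS D).card : ℝ)⁻¹ • ∑ σ ∈ gS D, ρ σ v := by
  simp [gav]

theorem gav_mem (ρ : Perm α →* (E ≃ₗᵢ[ℝ] E)) (D : Finset α) (v : E) : gav ρ D v ∈ Inv ρ D := by
  intro τ hτ
  have hτ' : τ ∈ gS D := mem_gS.mpr hτ
  rw [gav_apply, map_smul, map_sum]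
  congr 1
  refine Finset.sum_bij' (fun σ _ => τ * σ) (fun σ _ => τ⁻¹ * σ) ?_ ?_ ?_ ?_ ?_
  · intro σ hσ; exact gS_mul hτ' hσ
  · intro σ hσ; exact gS_mul (gS_inv hτ') hσ
  · intro σ _; exact inv_mul_cancel_left τ σ
  · intro σ _; exact mul_inv_cancel_left τ σ
  · intro σ _; rw [rho_mul]

theorem gav_of_mem (ρ : Perm α →* (E ≃ₗᵢ[ℝ] E)) (D : Finset α) {v : E} (hv : v ∈ Inv ρ D) :
    gav ρ D v = v := by
  rw [gav_apply, Finset.sum_congr rfl (fun σ hσ => hv σ (mem_gS.mp hσ)), Finset.sum_const,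
    ← Nat.cast_smul_eq_nsmul ℝ, smul_smul, inv_mul_cancel₀ (gS_card_ne D), one_smul]

theorem gav_inner (ρ : Perm α →* (E ≃ₗᵢ[ℝ] E)) (D : Finset α) (u v : E) :
    inner ℝ (gav ρ D u) v = inner ℝ u (gav ρ D v) := by
  rw [gav_apply, gav_apply, inner_smul_left, inner_smul_right, sum_inner, inner_sum]
  congr 1
  refine Finset.sum_bij' (fun σ _ => σ⁻¹) (fun σ _ => σ⁻¹) ?_ ?_ ?_ ?_ ?_
  · intro σ hσ; exact gS_inv hσ
  · intro σ hσ; exact gS_inv hσ
  · intro σ _; exact inv_inv σ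
  · intro σ _; exact inv_inv σ
  · intro σ _; rw [inner_rho_left]

theorem gav_idem (ρ : Perm α →* (E ≃ₗᵢ[ℝ] E)) (D : Finset α) (v : E) :
    gav ρ D (gav ρ D v) = gav ρ D v := gav_of_mem ρ D (gav_mem ρ D v)

theorem inner_gav_self (ρ : Perm α →* (E ≃ₗᵢ[ℝ] E)) (D : Finset α) (v : E) :
    inner ℝ v (gav ρ D v) = ‖gav ρ D v‖ ^ 2 := by
  rw [← gav_idem, ← gav_inner, real_inner_self_eq_norm_sq, gav_idem]

theorem proj_eq_gav [FiniteDimensional ℝ E] (ρ : Perm α →* (E ≃ₗᵢ[ℝ] E)) (D : Finset α) (u : E) :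
    (Inv ρ D).starProjection u = gav ρ D u := by
  refine Submodule.eq_starProjection_of_mem_of_inner_eq_zero (gav_mem ρ D u) ?_
  intro w hw
  rw [inner_sub_left, gav_inner, gav_of_mem ρ D hw, sub_self]

theorem gav_mem_of_inv (ρ : Perm α →* (E ≃ₗᵢ[ℝ] E)) (D : Finset α) (K : Submodule ℝ E)
    (hK : ∀ g : Perm α, ∀ v ∈ K, ρ g v ∈ K) {v : E} (hv : v ∈ K) : gav ρ D v ∈ K := by
  rw [gav_apply]
  exact Submodule.smul_mem _ _ (Submodule.sum_mem _ fun σ _ => hK σ v hv)

theorem gav_rho (ρ : Perm α →* (E ≃ₗᵢ[ℝ] E)) (D : Finset α) (g : Perm α) (v : E) :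
    ρ g (gav ρ D v) = gav ρ (D.map g.toEmbedding) (ρ g v) := by
  have hmem : ∀ σ : Perm α, σ ∈ gS D ↔ g * σ * g⁻¹ ∈ gS (D.map g.toEmbedding) := by
    intro σ
    rw [mem_gS, mem_gS]
    constructor
    · intro h x hx
      have h1 : g⁻¹ x ∉ D := by
        intro h2
        apply hx
        rw [Finset.mem_map]
        exact ⟨g⁻¹ x, h2, Equiv.apply_symm_apply g x⟩
      rw [Perm.mul_apply, Perm.mul_apply, h _ h1]
      exact Equiv.apply_symm_apply g x
    · intro h x hx
      have h1 : g x ∉ D.map g.toEmbedding := by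
        rw [Finset.mem_map]
        rintro ⟨y, hy, hyx⟩
        have : y = x := g.injective hyx
        exact hx (this ▸ hy)
      have h2 := h _ h1
      rw [Perm.mul_apply, Perm.mul_apply] at h2
      have h3 : g⁻¹ (g x) = x := Equiv.symm_apply_apply g x
      rw [h3] at h2
      exact g.injective h2
  have hsum : ∑ σ ∈ gS D, ρ g (ρ σ v) = ∑ σ ∈ gS (D.map g.toEmbedding), ρ σ (ρ g v) := by
    refine Finset.sum_bij' (fun σ _ => g * σ * g⁻¹) (fun σ _ => g⁻¹ * σ * g) ?_ ?_ ?_ ?_ ?_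
    · intro σ hσ; exact (hmem σ).mp hσ
    · intro σ hσ
      rw [hmem]
      have : g * (g⁻¹ * σ * g) * g⁻¹ = σ := by group
      rwa [this]
    · intro σ _; group
    · intro σ _; group
    · intro σ _
      rw [← rho_mul, ← rho_mul]
      congr 2
      group
  have hcard : (gS D).card = (gS (D.map g.toEmbedding)).card := by
    refine Finset.card_bij' (fun σ _ => g * σ * g⁻¹) (fun σ _ => g⁻¹ * σ * g) ?_ ?_ ?_ ?_
    · intro σ hσ; exact (hmem σ).mp hσ
    · intro σ hσ
      rw [hmem]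
      have : g * (g⁻¹ * σ * g) * g⁻¹ = σ := by group
      rwa [this]
    · intro σ _; group
    · intro σ _; group
  rw [gav_apply, gav_apply, map_smul, map_sum, hsum, hcard]

/-- PIECE G -/
theorem low_mass [FiniteDimensional ℝ E] (ρ : Perm α →* (E ≃ₗᵢ[ℝ] E)) (j : ℕ) (hj : j ≤ Fintype.card α)
    (u : E) (hu : u ∈ Kj ρ Finset.univ j) (hu' : u ∈ (Kj ρ Finset.univ (j + 1))ᗮ) :
    ‖u‖ ^ 2 ≤ ∑ D ∈ (Finset.univ : Finset α).powersetCard (Fintype.card α - j),
      ‖(Inv ρ D).starProjection u‖ ^ 2 := by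
  classical
  set n := Fintype.card α with hn
  set S := (Finset.univ : Finset α).powersetCard (n - j) with hS
  set Y : E →ₗ[ℝ] E := ∑ D ∈ S, gav ρ D with hYdef
  have hYa : ∀ v, Y v = ∑ D ∈ S, gav ρ D v := fun v => by
    rw [hYdef, LinearMap.sum_apply]
  have hYs : Y.IsSymmetric := by
    intro x y
    rw [hYa, hYa, sum_inner, inner_sum]
    exact Finset.sum_congr rfl fun D _ => gav_inner ρ D x y
  set U : Submodule ℝ E := Kj ρ Finset.univ j ⊓ (Kj ρ Finset.univ (j + 1))ᗮ with hU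
  have hUinv : ∀ g : Perm α, ∀ v ∈ U, ρ g v ∈ U := by
    intro g v hv
    refine ⟨Kj_map ρ j g hv.1, (Submodule.mem_orthogonal _ _).mpr ?_⟩
    intro w hw
    rw [inner_rho_right]
    exact (Submodule.mem_orthogonal _ _).mp hv.2 _ (Kj_map ρ (j + 1) g⁻¹ hw)
  have hYU : ∀ v ∈ U, Y v ∈ U := by
    intro v hv
    rw [hYa]
    exact Submodule.sum_mem _ fun D _ => gav_mem_of_inv ρ D U hUinv hv
  have hYrho : ∀ g v, ρ g (Y v) = Y (ρ g v) := by
    intro g v
    rw [hYa, hYa, map_sum]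
    refine Finset.sum_bij' (fun D _ => D.map g.toEmbedding) (fun D _ => D.map (g⁻¹).toEmbedding)
      ?_ ?_ ?_ ?_ ?_
    · intro D hD
      rw [hS, Finset.mem_powersetCard] at hD ⊢
      exact ⟨Finset.subset_univ _, by rw [Finset.card_map]; exact hD.2⟩
    · intro D hD
      rw [hS, Finset.mem_powersetCard] at hD ⊢
      exact ⟨Finset.subset_univ _, by rw [Finset.card_map]; exact hD.2⟩
    · intro D _
      rw [Finset.map_map]
      ext x
      simp only [Finset.mem_map, Function.Embedding.trans_apply, Equiv.coe_toEmbedding]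
      constructor
      · rintro ⟨y, hy, rfl⟩
        have : g⁻¹ (g y) = y := Equiv.symm_apply_apply g y
        rwa [this]
      · intro hx
        exact ⟨x, hx, Equiv.symm_apply_apply g x⟩
    · intro D _
      rw [Finset.map_map]
      ext x
      simp only [Finset.mem_map, Function.Embedding.trans_apply, Equiv.coe_toEmbedding]
      constructor
      · rintro ⟨y, hy, rfl⟩
        have : g (g⁻¹ y) = y := Equiv.apply_symm_apply g y
        rwa [this]
      · intro hx
        exact ⟨x, hx, Equiv.apply_symm_apply g x⟩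
    · intro D _
      exact gav_rho ρ D g v
  have hmain := rayleigh_of_eig Y hYs U hYU 1 ?_ u ⟨hu, hu'⟩
  · rw [one_mul, hYa, inner_sum] at hmain
    refine hmain.trans (le_of_eq ?_)
    refine Finset.sum_congr rfl fun D _ => ?_
    rw [inner_gav_self, proj_eq_gav]
  · intro μ v hv hv0 hμv
    -- `μ ≠ 0`
    have hμ0 : μ ≠ 0 := by
      intro h0
      apply hv0
      have h1 : ∑ D ∈ S, ‖gav ρ D v‖ ^ 2 = 0 := by
        have h2 : inner ℝ v (Y v) = ∑ D ∈ S, ‖gav ρ D v‖ ^ 2 := by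
          rw [hYa, inner_sum]
          exact Finset.sum_congr rfl fun D _ => inner_gav_self ρ D v
        rw [← h2, hμv, h0, zero_smul, inner_zero_right]
      have h3 : ∀ D ∈ S, gav ρ D v = 0 := by
        intro D hD
        have h4 := (Finset.sum_eq_zero_iff_of_nonneg (fun D _ => sq_nonneg _)).mp h1 D hD
        exact norm_eq_zero.mp (pow_eq_zero_iff (two_ne_zero)|>.mp h4)
      have h5 : v ∈ Kj ρ Finset.univ (j + 1) := by
        intro D hD hc w hw
        have hDS : D ∈ S := by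
          rw [hS, Finset.mem_powersetCard]
          rw [Finset.card_univ, ← hn] at hc
          exact ⟨hD, by omega⟩
        rw [← gav_of_mem ρ D hw, gav_inner, h3 D hDS, inner_zero_right]
      have h6 := (Submodule.mem_orthogonal _ _).mp hv.2 v h5
      exact inner_self_eq_zero.mp h6
    set U1 : Submodule ℝ E := U ⊓ LinearMap.ker (Y - μ • LinearMap.id) with hU1
    have hU1mem : ∀ x, x ∈ U1 ↔ x ∈ U ∧ Y x = μ • x := by
      intro x
      rw [hU1, Submodule.mem_inf, LinearMap.mem_ker, LinearMap.sub_apply, LinearMap.smul_apply,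
        LinearMap.id_apply, sub_eq_zero]
    have hU1inv : ∀ g : Perm α, ∀ x ∈ U1, ρ g x ∈ U1 := by
      intro g x hx
      rw [hU1mem] at hx ⊢
      exact ⟨hUinv g x hx.1, by rw [← hYrho, hx.2, map_smul]⟩
    have hpU : ∀ D, ∀ x ∈ U1, gav ρ D x ∈ U1 := fun D x hx => gav_mem_of_inv ρ D U1 hU1inv hx
    let p : Finset α → (U1 →ₗ[ℝ] U1) := fun D => (gav ρ D).restrict (hpU D)
    have hpa : ∀ D (x : U1), ((p D x : U1) : E) = gav ρ D x := fun D x => rfl
    have hproj : ∀ D, LinearMap.IsProj (LinearMap.range (p D)) (p D) := by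
      intro D
      refine ⟨fun x => LinearMap.mem_range_self _ x, ?_⟩
      rintro _ ⟨x, rfl⟩
      apply Subtype.ext
      rw [hpa, hpa, gav_idem]
    have htr : ∀ D, LinearMap.trace ℝ U1 (p D) = (Module.finrank ℝ (LinearMap.range (p D)) : ℝ) :=
      fun D => (hproj D).trace
    have hsum : ∑ D ∈ S, p D = μ • LinearMap.id := by
      refine LinearMap.ext fun x => ?_
      apply Subtype.ext
      rw [LinearMap.sum_apply, Submodule.coe_sum]
      have h1 := ((hU1mem x).mp x.2).2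
      rw [hYa] at h1
      exact h1
    have h7 : ∑ D ∈ S, (Module.finrank ℝ (LinearMap.range (p D)) : ℝ) = μ * Module.finrank ℝ U1 := by
      have h8 := congrArg (LinearMap.trace ℝ U1) hsum
      rw [map_sum, map_smul, LinearMap.trace_id, smul_eq_mul] at h8
      rw [← h8]
      exact Finset.sum_congr rfl fun D _ => (htr D).symm
    have h9 : (⊤ : Submodule ℝ U1) ≤ S.sup (fun D => LinearMap.range (p D)) := by
      intro x _
      have h10 : x = μ⁻¹ • ∑ D ∈ S, p D x := by
        have h11 := LinearMap.congr_fun hsum x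
        rw [LinearMap.sum_apply] at h11
        rw [h11, LinearMap.smul_apply, LinearMap.id_apply, smul_smul, inv_mul_cancel₀ hμ0, one_smul]
      rw [h10]
      refine Submodule.smul_mem _ _ (Submodule.sum_mem _ fun D hD => ?_)
      exact (Finset.le_sup (f := fun D => LinearMap.range (p D)) hD) (LinearMap.mem_range_self _ x)
    have h12 : Module.finrank ℝ U1 ≤ ∑ D ∈ S, Module.finrank ℝ (LinearMap.range (p D)) := by
      have h13 := Submodule.finrank_mono h9
      rw [finrank_top] at h13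
      exact h13.trans (finrank_sup_le_sum S _)
    have h14 : 0 < Module.finrank ℝ U1 := by
      have hvU1 : v ∈ U1 := (hU1mem v).mpr ⟨hv, hμv⟩
      have : Nontrivial U1 := ⟨⟨⟨v, hvU1⟩, 0, fun h => hv0 (congrArg Subtype.val h)⟩⟩
      exact Module.finrank_pos
    have h15 : (Module.finrank ℝ U1 : ℝ) ≤ μ * Module.finrank ℝ U1 := by
      rw [← h7]
      exact_mod_cast h12
    have h16 : (0 : ℝ) < Module.finrank ℝ U1 := by exact_mod_cast h14
    by_contra hcon
    push Not at hcon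
    nlinarith

end massG

end Vale.Agent.P162
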