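import Vale.Agent.P162.PMDefs
import Vale.Agent.P162.Mass

open Equiv

set_option linter.unusedSectionVars false

namespace Vale.Agent.P162

section levelF

variable {α : Type} [Fintype α] [DecidableEq α]
variable {E : Type} [NormedAddCommGroup E] [InnerProductSpace ℝ E]

/-- complement of the image of an injection -/
def lvC {j : ℕ} (x : Fin j ↪ α) : Finset α := (Finset.univ.map x)ᶜ

theorem lvC_card {j : ℕ} (x : Fin j ↪ α) : (lvC x).card + j = Fintype.card α := by
  have h1 : (Finset.univ.map x).card = j := by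
    rw [Finset.card_map, Finset.card_univ, Fintype.card_fin]
  have h2 := Finset.card_add_card_compl (Finset.univ.map x)
  unfold lvC
  omega

theorem mem_lvC {j : ℕ} (x : Fin j ↪ α) (a : α) : a ∉ lvC x ↔ ∃ k, x k = a := by
  unfold lvC
  simp

theorem lvC_map {j : ℕ} (x : Fin j ↪ α) (g : Perm α) :
    (lvC x).map g.toEmbedding = lvC (x.trans g.toEmbedding) := by
  ext a
  rw [← not_iff_not, mem_lvC, Finset.mem_map]
  constructor
  · intro h
    by_contra hcon
    refine h ⟨g.symm a, ?_, by simp⟩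
    by_contra h2
    rw [mem_lvC] at h2
    obtain ⟨k, hk⟩ := h2
    exact hcon ⟨k, by simp [hk]⟩
  · rintro ⟨k, hk⟩ ⟨b, hb, hba⟩
    refine (mem_lvC x b).2 ⟨k, ?_⟩ hb
    refine g.injective ?_
    change g (x k) = g b
    have h1 : g (x k) = a := hk
    have h2 : g b = a := hba
    rw [h1, h2]

theorem lv_exists {j : ℕ} (x y : Fin j ↪ α) : ∃ g : Perm α, ∀ k, g (x k) = y k := by
  classical
  set e : {a // a ∈ Set.range x} ≃ {a // a ∈ Set.range y} :=
    (Equiv.ofInjective x x.injective).symm.trans (Equiv.ofInjective y y.injective) with he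
  refine ⟨e.extendSubtype, fun k => ?_⟩
  rw [Equiv.extendSubtype_apply_of_mem e (x k) ⟨k, rfl⟩]
  have h1 : (Equiv.ofInjective x x.injective).symm ⟨x k, ⟨k, rfl⟩⟩ = k :=
    Equiv.ofInjective_symm_apply x.injective k
  change ((Equiv.ofInjective y y.injective)
    ((Equiv.ofInjective x x.injective).symm ⟨x k, ⟨k, rfl⟩⟩) : α) = y k
  rw [h1]
  rfl

variable (ρ : Perm α →* (E ≃ₗᵢ[ℝ] E)) {j : ℕ} (τ : Fin j ↪ α)

theorem lv_wd {v : E} (hv : v ∈ Inv ρ (lvC τ)) {g g' : Perm α} (h : ∀ k, g (τ k) = g' (τ k)) :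
    ρ g v = ρ g' v := by
  have h1 : ρ (g'⁻¹ * g) v = v := by
    refine hv _ fun a ha => ?_
    obtain ⟨k, rfl⟩ := (mem_lvC τ a).1 ha
    rw [Perm.mul_apply, h k]
    exact Equiv.symm_apply_apply g' (τ k)
  have h2 : g = g' * (g'⁻¹ * g) := by group
  rw [h2, rho_mul, h1]

/-- a permutation moving `τ` to `x` -/
noncomputable def lvg (x : Fin j ↪ α) : Perm α := (lv_exists τ x).choose

theorem lvg_spec (x : Fin j ↪ α) (k : Fin j) : lvg τ x (τ k) = x k :=
  (lv_exists τ x).choose_spec k

/-- matrix coefficient -/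
noncomputable def lvf (v e : E) (x : Fin j ↪ α) : ℝ := inner ℝ (ρ (lvg τ x) v) e

theorem lvf_trans {v : E} (hv : v ∈ Inv ρ (lvC τ)) (e : E) (x : Fin j ↪ α) (g : Perm α) :
    lvf ρ τ v e (x.trans (g⁻¹ : Perm α).toEmbedding) = inner ℝ (ρ (lvg τ x) v) (ρ g e) := by
  unfold lvf
  have h1 : ρ (lvg τ (x.trans (g⁻¹ : Perm α).toEmbedding)) v = ρ (g⁻¹ * lvg τ x) v := by
    refine lv_wd ρ τ hv fun k => ?_
    rw [lvg_spec, Perm.mul_apply, lvg_spec]
    rfl
  rw [h1, rho_mul, inner_rho_left, inv_inv]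

theorem PM_lvf {v : E} (hv : v ∈ Inv ρ (lvC τ)) (e : E) (μ : Perm α → ℝ) (x : Fin j ↪ α) :
    Matrix.mulVec (PM (Fin j) μ) (lvf ρ τ v e) x = lvf ρ τ v (opOf ρ μ e) x := by
  have h1 : Matrix.mulVec (PM (Fin j) μ) (lvf ρ τ v e) x
      = ∑ g : Perm α, μ g * lvf ρ τ v e (x.trans (g⁻¹ : Perm α).toEmbedding) := by
    unfold Matrix.mulVec dotProduct PM
    simp_rw [Finset.sum_mul]
    rw [Finset.sum_comm]
    refine Finset.sum_congr rfl fun g _ => ?_
    rw [Finset.sum_eq_single (x.trans (g⁻¹ : Perm α).toEmbedding)]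
    · rw [if_pos]
      intro k
      exact (Equiv.apply_symm_apply g (x k)).symm
    · intro y _ hy
      rw [if_neg, zero_mul]
      intro hcon
      apply hy
      ext k
      change y k = g⁻¹ (x k)
      rw [hcon k]
      exact (Equiv.symm_apply_apply g (y k)).symm
    · intro h
      exact absurd (Finset.mem_univ _) h
  rw [h1]
  simp_rw [lvf_trans ρ τ hv]
  unfold lvf
  rw [opOf_apply, inner_sum]
  simp_rw [inner_smul_right]

theorem lvf_zeroSum {v : E} (hv : v ∈ Inv ρ (lvC τ)) {e : E}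
    (he : e ∈ Kj ρ Finset.univ j) : ZeroSum (lvf ρ τ v e) := by
  classical
  intro i y
  set G : α → E := fun a => if h : Function.Injective (Function.update y i a) then
    ρ (lvg τ ⟨Function.update y i a, h⟩) v else 0 with hG
  have h1 : ∑ a : α, (if h : Function.Injective (Function.update y i a) then
      lvf ρ τ v e ⟨Function.update y i a, h⟩ else 0) = inner ℝ (∑ a, G a) e := by
    rw [sum_inner]
    refine Finset.sum_congr rfl fun a _ => ?_
    by_cases h : Function.Injective (Function.update y i a)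
    · simp only [hG, dif_pos h]
      rfl
    · simp only [hG, dif_neg h, inner_zero_left]
  rw [h1]
  by_cases hex : ∃ a, Function.Injective (Function.update y i a)
  · obtain ⟨a0, ha0⟩ := hex
    have hinj : Set.InjOn y ((Finset.univ.erase i : Finset (Fin j)) : Set (Fin j)) := by
      intro k hk k' hk' hkk'
      have hki : k ≠ i := by simpa using hk
      have hki' : k' ≠ i := by simpa using hk'
      refine ha0 ?_
      rw [Function.update_of_ne hki, Function.update_of_ne hki', hkk']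
    set D' : Finset α := ((Finset.univ.erase i).image y)ᶜ with hD'
    have hcard : D'.card + j = (Finset.univ : Finset α).card + 1 := by
      have h2 : ((Finset.univ.erase i).image y).card = j - 1 := by
        rw [Finset.card_image_of_injOn hinj, Finset.card_erase_of_mem (Finset.mem_univ i),
          Finset.card_univ, Fintype.card_fin]
      have h3 := Finset.card_add_card_compl ((Finset.univ.erase i).image y)
      have h4 : 0 < j := Fin.pos i
      rw [h2, ← hD'] at h3
      rw [Finset.card_univ]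
      omega
    refine he D' (Finset.subset_univ _) hcard _ ?_
    intro σ hσ
    have hfix : ∀ k, k ≠ i → σ (y k) = y k := by
      intro k hk
      refine hσ _ ?_
      rw [hD', Finset.mem_compl, not_not, Finset.mem_image]
      exact ⟨k, by simpa using hk, rfl⟩
    have hup : ∀ a, (fun k => σ (Function.update y i a k)) = Function.update y i (σ a) := by
      intro a
      funext k
      by_cases hk : k = i
      · subst hk
        simp
      · rw [Function.update_of_ne hk, Function.update_of_ne hk, hfix k hk]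
    have hinj2 : ∀ a, Function.Injective (Function.update y i a) ↔
        Function.Injective (Function.update y i (σ a)) := by
      intro a
      rw [← hup a]
      constructor
      · intro h
        exact σ.injective.comp h
      · intro h k k' hkk'
        exact h (congrArg σ hkk')
    rw [map_sum, ← Equiv.sum_comp σ G]
    refine Finset.sum_congr rfl fun a _ => ?_
    by_cases h : Function.Injective (Function.update y i a)
    · have h' := (hinj2 a).1 h
      simp only [hG, dif_pos h, dif_pos h']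
      rw [← rho_mul]
      refine lv_wd ρ τ hv fun k => ?_
      rw [Perm.mul_apply, lvg_spec, lvg_spec]
      exact congrFun (hup a) k
    · have h' : ¬ Function.Injective (Function.update y i (σ a)) := fun h2 => h ((hinj2 a).2 h2)
      simp only [hG, dif_neg h, dif_neg h', map_zero]
  · push Not at hex
    have h2 : ∑ a, G a = 0 := Finset.sum_eq_zero fun a _ => by
      simp only [hG, dif_neg (hex a)]
    rw [h2, inner_zero_left]

theorem norm_gav_sq [FiniteDimensional ℝ E] (w : E) (x : Fin j ↪ α) :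
    ‖gav ρ (lvC x) w‖ ^ 2 = ∑ i, (lvf ρ τ
      ((stdOrthonormalBasis ℝ (Inv ρ (lvC τ)) i : Inv ρ (lvC τ)) : E) w x) ^ 2 := by
  set b := stdOrthonormalBasis ℝ (Inv ρ (lvC τ)) with hb
  set g := lvg τ x with hg
  have hx : lvC x = (lvC τ).map g.toEmbedding := by
    rw [lvC_map]
    congr 1
    ext k
    exact (lvg_spec τ x k).symm
  have h1 : gav ρ (lvC x) w = ρ g (gav ρ (lvC τ) (ρ g⁻¹ w)) := by
    rw [gav_rho, ← hx, ← rho_mul, mul_inv_cancel, rho_one]
  rw [h1, norm_rho]
  set y : Inv ρ (lvC τ) := ⟨gav ρ (lvC τ) (ρ g⁻¹ w), gav_mem ρ _ _⟩ with hy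
  have h2 : ‖gav ρ (lvC τ) (ρ g⁻¹ w)‖ = ‖y‖ := rfl
  rw [h2, ← b.sum_sq_inner_right]
  refine Finset.sum_congr rfl fun i _ => ?_
  congr 1
  have h3 : inner ℝ (b i) y = inner ℝ ((b i : Inv ρ (lvC τ)) : E) (gav ρ (lvC τ) (ρ g⁻¹ w)) := rfl
  rw [h3, ← gav_inner, gav_of_mem ρ _ (b i).2]
  unfold lvf
  rw [← hg, inner_rho_left]

theorem level_bound [FiniteDimensional ℝ E] (ρ : Perm α →* (E ≃ₗᵢ[ℝ] E)) (j : ℕ)
    (hj : j ≤ Fintype.card α) (μ : Perm α → ℝ) (θ : ℝ)
    (h : ∀ f : (Fin j ↪ α) → ℝ, ZeroSum f →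
      ∑ x, (Matrix.mulVec (PM (Fin j) μ) f x) ^ 2 ≤ θ * ∑ x, f x ^ 2)
    (u : E) (hu : u ∈ Kj ρ Finset.univ j) (hu' : u ∈ (Kj ρ Finset.univ (j + 1))ᗮ) :
    ‖opOf ρ μ u‖ ^ 2 ≤ θ * ‖u‖ ^ 2 := by
  classical
  obtain ⟨τ⟩ : Nonempty (Fin j ↪ α) :=
    Function.Embedding.nonempty_of_card_le (by rw [Fintype.card_fin]; exact hj)
  set Y : E →ₗ[ℝ] E := ∑ x : Fin j ↪ α, gav ρ (lvC x) with hYdef
  have hYa : ∀ v, Y v = ∑ x : Fin j ↪ α, gav ρ (lvC x) v := fun v => by
    rw [hYdef, LinearMap.sum_apply]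
  have hYs : Y.IsSymmetric := by
    intro x y
    rw [hYa, hYa, sum_inner, inner_sum]
    exact Finset.sum_congr rfl fun D _ => gav_inner ρ _ x y
  set U : Submodule ℝ E := Kj ρ Finset.univ j ⊓ (Kj ρ Finset.univ (j + 1))ᗮ with hU
  have hUinv : ∀ g : Perm α, ∀ v ∈ U, ρ g v ∈ U := by
    intro g v hv
    refine ⟨Kj_map ρ j g hv.1, (Submodule.mem_orthogonal _ _).mpr ?_⟩
    intro w hw
    rw [inner_rho_right]
    exact (Submodule.mem_orthogonal _ _).mp hv.2 _ (Kj_map ρ (j + 1) g⁻¹ hw)
  have hYU : ∀ v ∈ U, Y v ∈ U := by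
    intro v hv
    rw [hYa]
    exact Submodule.sum_mem _ fun D _ => gav_mem_of_inv ρ _ U hUinv hv
  have hYrho : ∀ g v, ρ g (Y v) = Y (ρ g v) := by
    intro g v
    rw [hYa, hYa, map_sum]
    simp_rw [gav_rho, lvC_map]
    have hbij : Function.Bijective (fun x : Fin j ↪ α => x.trans g.toEmbedding) := by
      rw [Finite.injective_iff_bijective.symm]
      intro x y hxy
      ext k
      have := congrArg (fun z : Fin j ↪ α => z k) hxy
      exact g.injective this
    exact Equiv.sum_comp (Equiv.ofBijective _ hbij) (fun x => gav ρ (lvC x) (ρ g v))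
  have hYnorm : ∀ v, inner ℝ v (Y v) = ∑ x : Fin j ↪ α, ‖gav ρ (lvC x) v‖ ^ 2 := by
    intro v
    rw [hYa, inner_sum]
    exact Finset.sum_congr rfl fun D _ => inner_gav_self ρ _ v
  have hYT : ∀ v, Y (opOf ρ μ v) = opOf ρ μ (Y v) := by
    intro v
    rw [opOf_apply, opOf_apply, map_sum]
    refine Finset.sum_congr rfl fun g _ => ?_
    rw [map_smul, hYrho]
  refine contr_of_eig Y hYs U hYU (opOf ρ μ) hYT θ ?_ u ⟨hu, hu'⟩
  intro lam e he hlam
  by_cases he0 : e = 0
  · rw [he0]
    simp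
  have hpos : 0 < lam := by
    by_contra hcon
    push Not at hcon
    apply he0
    have h1 : ∑ x : Fin j ↪ α, ‖gav ρ (lvC x) e‖ ^ 2 = 0 := by
      refine le_antisymm ?_ (Finset.sum_nonneg fun _ _ => sq_nonneg _)
      rw [← hYnorm, hlam, inner_smul_right, real_inner_self_eq_norm_sq]
      exact mul_nonpos_of_nonpos_of_nonneg hcon (sq_nonneg _)
    have h3 : ∀ x : Fin j ↪ α, gav ρ (lvC x) e = 0 := by
      intro x
      have h4 := (Finset.sum_eq_zero_iff_of_nonneg (fun D _ => sq_nonneg _)).mp h1 x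
        (Finset.mem_univ x)
      exact norm_eq_zero.mp (pow_eq_zero_iff (two_ne_zero)|>.mp h4)
    have h5 : e ∈ Kj ρ Finset.univ (j + 1) := by
      intro D hD hc w hw
      rw [Finset.card_univ] at hc
      have hcompl : (Dᶜ).card = j := by
        rw [Finset.card_compl]
        omega
      obtain ⟨x, hx⟩ : ∃ x : Fin j ↪ α, lvC x = D := by
        refine ⟨(Finset.equivFinOfCardEq hcompl).symm.toEmbedding.trans
          (Function.Embedding.subtype _), ?_⟩
        ext a
        rw [← not_iff_not, mem_lvC]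
        constructor
        · rintro ⟨k, hk⟩
          have h7 := ((Finset.equivFinOfCardEq hcompl).symm k).2
          rw [Finset.mem_compl] at h7
          rw [← hk]
          exact h7
        · intro ha
          refine ⟨Finset.equivFinOfCardEq hcompl ⟨a, Finset.mem_compl.2 ha⟩, ?_⟩
          simp
      rw [← gav_of_mem ρ D hw, gav_inner, ← hx, h3 x, inner_zero_right]
    have h6 := (Submodule.mem_orthogonal _ _).mp he.2 e h5
    exact inner_self_eq_zero.mp h6
  have hmain : inner ℝ (opOf ρ μ e) (Y (opOf ρ μ e)) ≤ θ * inner ℝ e (Y e) := by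
    rw [hYnorm, hYnorm]
    simp_rw [norm_gav_sq ρ τ]
    rw [Finset.sum_comm, Finset.sum_comm (s := Finset.univ) (t := Finset.univ)
      (f := fun (x : Fin j ↪ α) i => (lvf ρ τ
        ((stdOrthonormalBasis ℝ (Inv ρ (lvC τ)) i : Inv ρ (lvC τ)) : E) e x) ^ 2),
      Finset.mul_sum]
    refine Finset.sum_le_sum fun i _ => ?_
    have h1 := h (lvf ρ τ ((stdOrthonormalBasis ℝ (Inv ρ (lvC τ)) i : Inv ρ (lvC τ)) : E) e)
      (lvf_zeroSum ρ τ (stdOrthonormalBasis ℝ (Inv ρ (lvC τ)) i).2 he.1)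
    simp_rw [PM_lvf ρ τ (stdOrthonormalBasis ℝ (Inv ρ (lvC τ)) i).2] at h1
    exact h1
  rw [hYT, hlam, map_smul, inner_smul_right, inner_smul_right, real_inner_self_eq_norm_sq,
    real_inner_self_eq_norm_sq] at hmain
  have : lam * ‖opOf ρ μ e‖ ^ 2 ≤ lam * (θ * ‖e‖ ^ 2) := by linarith
  exact le_of_mul_le_mul_left this hpos

end levelF

end Vale.Agent.P162
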