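import Vale.Agent.P162.H4
import Vale.Agent.P162.Bessel
import Vale.Agent.P162.Level

open Equiv

set_option linter.unusedSectionVars false

namespace Vale.Agent.P162



section

/-- one round (`k+1` shuffles) -/
noncomputable def mu1 (k : ℕ) : Perm (Fin (2 * 2 ^ k)) → ℝ := thorpPow (2 ^ k) (k + 1)

noncomputable def nu1 (k : ℕ) : Perm (Fin (2 * 2 ^ k)) → ℝ := conv (fun g => mu1 k g⁻¹) (mu1 k)

noncomputable def ka1 (k : ℕ) : Perm (Fin (2 * 2 ^ k)) → ℝ :=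
  conv (conv (nu1 k) (nu1 k)) (conv (nu1 k) (nu1 k))

theorem PM_nu1 (ι : Type) [Fintype ι] [DecidableEq ι] (k : ℕ) :
    PM ι (nu1 k) = (PM ι (mu1 k)).transpose * PM ι (mu1 k) := by
  unfold nu1
  rw [PM_conv, PM_inv]

theorem PM_ka1 (ι : Type) [Fintype ι] [DecidableEq ι] (k : ℕ) :
    (PM ι (ka1 k)).transpose * PM ι (ka1 k) = ((PM ι (mu1 k)).transpose * PM ι (mu1 k)) ^ 8 := by
  unfold ka1
  rw [PM_conv, PM_conv, PM_nu1]
  set G := (PM ι (mu1 k)).transpose * PM ι (mu1 k) with hG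
  have hGt : G.transpose = G := by
    rw [hG, Matrix.transpose_mul, Matrix.transpose_transpose]
  rw [Matrix.transpose_mul, Matrix.transpose_mul, hGt]
  have : G ^ 8 = G * G * (G * G) * (G * G * (G * G)) := by
    simp only [pow_succ, pow_zero, one_mul, mul_assoc]
  rw [this]

theorem trace_ka1 (ι : Type) [Fintype ι] [DecidableEq ι] (k l0 : ℕ) (hl0 : 1 ≤ l0) :
    Matrix.trace ((PM ι (ka1 k)).transpose * PM ι (ka1 k))
      ≤ ((2 * 2 ^ k).descFactorial (Fintype.card ι) : ℝ) / ((2 * 2 ^ k : ℕ) : ℝ) ^ (Fintype.card ι) *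
        Real.exp (7 * Fintype.card ι * ((2 : ℝ) ^ (9 * l0) * Fintype.card ι / ((2 * 2 ^ k : ℕ) : ℝ) + 3 * (27 / 50) ^ l0)) := by
  rw [PM_ka1]
  exact trace_emb ι k l0 hl0

theorem theta_arith (n j q : ℕ) (hq : 1 ≤ q) (hn : 0 < n) (hjq : j * q ≤ n) (S F Tr X : ℝ) (hF0 : 0 ≤ F)
    (hX0 : 0 < X)
    (h1 : (q : ℝ) ^ j * ((n - j).descFactorial (j * q - j) : ℝ) * S ≤ (n : ℝ) ^ (j * q - j) * F * Tr)
    (h2 : Tr ≤ (n.descFactorial (j * q) : ℝ) / (n : ℝ) ^ (j * q) * X) :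
    S ≤ 1 / (q : ℝ) ^ j * X * F := by
  set W : ℝ := ((n - j).descFactorial (j * q - j) : ℝ) with hW
  have hjjq : j ≤ j * q := Nat.le_mul_of_pos_right j hq
  have hWpos : 0 < W := by
    rw [hW]
    have : 0 < (n - j).descFactorial (j * q - j) := Nat.pos_of_ne_zero (by
      rw [Ne, Nat.descFactorial_eq_zero_iff_lt]
      omega)
    exact_mod_cast this
  have hnpos : (0 : ℝ) < (n : ℝ) := by exact_mod_cast hn
  have hqpos : (0 : ℝ) < (q : ℝ) ^ j := by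
    have : (0 : ℝ) < q := by exact_mod_cast hq
    positivity
  have hdesc : (n.descFactorial (j * q) : ℝ) ≤ (n : ℝ) ^ j * W := by
    have h3 : n.descFactorial (j * q) = (n - j).descFactorial (j * q - j) * n.descFactorial j :=
      (Nat.descFactorial_mul_descFactorial hjjq).symm
    have h4 : (n.descFactorial j : ℝ) ≤ (n : ℝ) ^ j := by
      exact_mod_cast Nat.descFactorial_le_pow n j
    rw [h3, hW]
    push_cast
    rw [mul_comm]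
    exact mul_le_mul_of_nonneg_right h4 (Nat.cast_nonneg _)
  have h5 : (q : ℝ) ^ j * W * S ≤ (n : ℝ) ^ (j * q - j) * F * ((n.descFactorial (j * q) : ℝ) / (n : ℝ) ^ (j * q) * X) := by
    refine le_trans h1 ?_
    apply mul_le_mul_of_nonneg_left h2
    positivity
  have h6 : (n : ℝ) ^ (j * q - j) * F * ((n.descFactorial (j * q) : ℝ) / (n : ℝ) ^ (j * q) * X) ≤ F * W * X := by
    have hpow : (n : ℝ) ^ (j * q) = (n : ℝ) ^ (j * q - j) * (n : ℝ) ^ j := by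
      rw [← pow_add]
      congr 1
      omega
    have e1 : (n : ℝ) ^ (j * q - j) * F * ((n.descFactorial (j * q) : ℝ) / (n : ℝ) ^ (j * q) * X)
        = F * X * ((n.descFactorial (j * q) : ℝ) / (n : ℝ) ^ j) := by
      rw [hpow]
      field_simp
    rw [e1]
    have e2 : (n.descFactorial (j * q) : ℝ) / (n : ℝ) ^ j ≤ W := by
      rw [div_le_iff₀ (by positivity)]
      linarith [hdesc]
    calc F * X * ((n.descFactorial (j * q) : ℝ) / (n : ℝ) ^ j) ≤ F * X * W :=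
          mul_le_mul_of_nonneg_left e2 (by positivity)
      _ = F * W * X := by ring
  have h7 : W * ((q : ℝ) ^ j * S) ≤ W * (F * X) := by linarith [h5, h6]
  have h8 : (q : ℝ) ^ j * S ≤ F * X := le_of_mul_le_mul_left h7 hWpos
  rw [one_div, inv_mul_eq_div, div_mul_eq_mul_div, le_div_iff₀ hqpos]
  linarith

/-- the form bound on zero-sum functions of `j` cards -/
theorem theta_form (k j q l0 : ℕ) (hq : 1 ≤ q) (hl0 : 1 ≤ l0) (hjq : j * q ≤ 2 * 2 ^ k)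
    (f : (Fin j ↪ Fin (2 * 2 ^ k)) → ℝ) (hf : ZeroSum f) :
    ∑ x, (Matrix.mulVec (PM (Fin j) (ka1 k)) f x) ^ 2 ≤
      (1 / (q : ℝ) ^ j * Real.exp (7 * ((j * q : ℕ) : ℝ) * ((2 : ℝ) ^ (9 * l0) * ((j * q : ℕ) : ℝ) / ((2 * 2 ^ k : ℕ) : ℝ) + 3 * (27 / 50) ^ l0))) *
        ∑ x, f x ^ 2 := by
  have hcJ : Fintype.card (Fin j × Fin q) = j * q := by
    rw [Fintype.card_prod, Fintype.card_fin, Fintype.card_fin]
  have h1 := level_form_le hq (by rw [Fintype.card_fin]; exact hjq) (ka1 k) f hf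
  have h2 := trace_ka1 (Fin j × Fin q) k l0 hl0
  rw [hcJ] at h2
  rw [Fintype.card_fin] at h1
  exact theta_arith (2 * 2 ^ k) j q hq (by positivity) hjq _ _ _ _
    (Finset.sum_nonneg fun x _ => sq_nonneg _) (Real.exp_pos _) h1 h2

end

section rep

variable {E : Type} [NormedAddCommGroup E] [InnerProductSpace ℝ E] [FiniteDimensional ℝ E]

theorem inner_opOf_inv {G : Type} [Group G] [Fintype G] (ρ : G →* (E ≃ₗᵢ[ℝ] E)) (w : G → ℝ) (u v : E) :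
    inner ℝ (opOf ρ w u) v = inner ℝ u (opOf ρ (fun g => w g⁻¹) v) := by
  rw [opOf_apply, opOf_apply, sum_inner, inner_sum, ← Equiv.sum_comp (Equiv.inv G)]
  apply Finset.sum_congr rfl
  intro g _
  simp only [Equiv.inv_apply]
  rw [inner_smul_left, inner_smul_right, inner_rho_left, inv_inv]
  rfl

theorem opOf_ka1 (k : ℕ) (ρ : Perm (Fin (2 * 2 ^ k)) →* (E ≃ₗᵢ[ℝ] E)) (u : E) :
    opOf ρ (ka1 k) u = opOf ρ (nu1 k) (opOf ρ (nu1 k) (opOf ρ (nu1 k) (opOf ρ (nu1 k) u))) := by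
  unfold ka1
  rw [opOf_conv, opOf_conv, opOf_conv]

theorem inner_nu1 (k : ℕ) (ρ : Perm (Fin (2 * 2 ^ k)) →* (E ≃ₗᵢ[ℝ] E)) (u v : E) :
    inner ℝ (opOf ρ (nu1 k) u) v = inner ℝ (opOf ρ (mu1 k) u) (opOf ρ (mu1 k) v) := by
  unfold nu1
  rw [opOf_conv, real_inner_comm, ← inner_opOf_inv, real_inner_comm]

theorem nu1_symm (k : ℕ) (ρ : Perm (Fin (2 * 2 ^ k)) →* (E ≃ₗᵢ[ℝ] E)) (u v : E) :
    inner ℝ (opOf ρ (nu1 k) u) v = inner ℝ u (opOf ρ (nu1 k) v) := by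
  rw [inner_nu1, real_inner_comm, ← inner_nu1, real_inner_comm]

/-- iterated Cauchy-Schwarz -/
theorem norm_mu1_pow (k : ℕ) (ρ : Perm (Fin (2 * 2 ^ k)) →* (E ≃ₗᵢ[ℝ] E)) (u : E) :
    (‖opOf ρ (mu1 k) u‖ ^ 2) ^ 8 ≤ ‖opOf ρ (ka1 k) u‖ ^ 2 * (‖u‖ ^ 2) ^ 7 := by
  set P := opOf ρ (nu1 k) with hP
  have h1 : ‖opOf ρ (mu1 k) u‖ ^ 2 = inner ℝ (P u) u := by
    rw [hP, inner_nu1, real_inner_self_eq_norm_sq]
  have h2 : inner ℝ (P u) u ≤ ‖P u‖ * ‖u‖ := real_inner_le_norm _ _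
  have h3 : ‖P u‖ ^ 2 ≤ ‖P (P u)‖ * ‖u‖ := by
    rw [← real_inner_self_eq_norm_sq, ← nu1_symm]
    exact real_inner_le_norm _ _
  have h4 : ‖P (P u)‖ ^ 2 ≤ ‖P (P (P (P u)))‖ * ‖u‖ := by
    have e : inner ℝ (P (P u)) (P (P u)) = inner ℝ (P (P (P (P u)))) u := by
      rw [hP, nu1_symm, nu1_symm, real_inner_comm]
    rw [← real_inner_self_eq_norm_sq, e]
    exact real_inner_le_norm _ _
  have h5 : opOf ρ (ka1 k) u = P (P (P (P u))) := opOf_ka1 k ρ u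
  rw [h5]
  set a := ‖opOf ρ (mu1 k) u‖ ^ 2 with ha
  set b := ‖P u‖ with hb
  set c := ‖P (P u)‖ with hc
  set d := ‖P (P (P (P u)))‖ with hd
  set x := ‖u‖ with hx
  have ha0 : 0 ≤ a := sq_nonneg _
  have hb0 : 0 ≤ b := norm_nonneg _
  have hc0 : 0 ≤ c := norm_nonneg _
  have hd0 : 0 ≤ d := norm_nonneg _
  have hx0 : 0 ≤ x := norm_nonneg _
  have h6 : a ≤ b * x := by rw [h1]; exact h2
  calc a ^ 8 ≤ (b * x) ^ 8 := pow_le_pow_left₀ ha0 h6 8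
    _ = (b ^ 2) ^ 4 * x ^ 8 := by ring
    _ ≤ (c * x) ^ 4 * x ^ 8 := by
        apply mul_le_mul_of_nonneg_right _ (by positivity)
        exact pow_le_pow_left₀ (by positivity) h3 4
    _ = (c ^ 2) ^ 2 * x ^ 12 := by ring
    _ ≤ (d * x) ^ 2 * x ^ 12 := by
        apply mul_le_mul_of_nonneg_right _ (by positivity)
        exact pow_le_pow_left₀ (by positivity) h4 2
    _ = d ^ 2 * (x ^ 2) ^ 7 := by ring

/-- one round on exact level `j` -/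
theorem round_low (k j q l0 : ℕ) (hq : 1 ≤ q) (hl0 : 1 ≤ l0) (hjq : j * q ≤ 2 * 2 ^ k)
    (ρ : Perm (Fin (2 * 2 ^ k)) →* (E ≃ₗᵢ[ℝ] E)) (u : E) (hu : u ∈ Kj ρ Finset.univ j)
    (hu' : u ∈ (Kj ρ Finset.univ (j + 1))ᗮ) (θ : ℝ)
    (hθ : 1 / (q : ℝ) ^ j * Real.exp (7 * ((j * q : ℕ) : ℝ) * ((2 : ℝ) ^ (9 * l0) * ((j * q : ℕ) : ℝ) / ((2 * 2 ^ k : ℕ) : ℝ) + 3 * (27 / 50) ^ l0)) ≤ θ) :
    (‖opOf ρ (mu1 k) u‖ ^ 2) ^ 8 ≤ θ * (‖u‖ ^ 2) ^ 8 := by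
  have hj : j ≤ Fintype.card (Fin (2 * 2 ^ k)) := by
    rw [Fintype.card_fin]
    exact le_trans (Nat.le_mul_of_pos_right j hq) hjq
  have h1 := level_bound ρ j hj (ka1 k) _ (theta_form k j q l0 hq hl0 hjq) u hu hu'
  calc (‖opOf ρ (mu1 k) u‖ ^ 2) ^ 8 ≤ ‖opOf ρ (ka1 k) u‖ ^ 2 * (‖u‖ ^ 2) ^ 7 := norm_mu1_pow k ρ u
    _ ≤ (θ * ‖u‖ ^ 2) * (‖u‖ ^ 2) ^ 7 := by
        apply mul_le_mul_of_nonneg_right _ (by positivity)
        refine le_trans h1 ?_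
        exact mul_le_mul_of_nonneg_right hθ (sq_nonneg _)
    _ = θ * (‖u‖ ^ 2) ^ 8 := by ring

end rep

end Vale.Agent.P162
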