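import Vale.Agent.P162.D

open Equiv

set_option linter.unusedSectionVars false

namespace Vale.Agent.P162

section rep

variable {α : Type} [Fintype α] [DecidableEq α]
variable {E : Type} [NormedAddCommGroup E] [InnerProductSpace ℝ E] [FiniteDimensional ℝ E]

/-- component of exact level `j` -/
noncomputable def lvl (ρ : Perm α →* (E ≃ₗᵢ[ℝ] E)) (j : ℕ) (v : E) : E :=
  (Kj ρ Finset.univ j).starProjection v - (Kj ρ Finset.univ (j + 1)).starProjection v

theorem lvl_mem (ρ : Perm α →* (E ≃ₗᵢ[ℝ] E)) (j : ℕ) (hj : j ≤ Fintype.card α) (v : E) :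
    lvl ρ j v ∈ Kj ρ Finset.univ j := by
  unfold lvl
  refine Submodule.sub_mem _ (Submodule.starProjection_apply_mem _ _) ?_
  exact Kj_succ_le ρ j hj (Submodule.starProjection_apply_mem _ _)

theorem lvl_mem_orth (ρ : Perm α →* (E ≃ₗᵢ[ℝ] E)) (j : ℕ) (hj : j ≤ Fintype.card α) (v : E) :
    lvl ρ j v ∈ (Kj ρ Finset.univ (j + 1))ᗮ := by
  have e : lvl ρ j v = (v - (Kj ρ Finset.univ (j + 1)).starProjection v) - (v - (Kj ρ Finset.univ j).starProjection v) := by
    unfold lvl
    rw [sub_sub_sub_cancel_left]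
  rw [e]
  refine Submodule.sub_mem _ (Submodule.sub_starProjection_mem_orthogonal _) ?_
  exact Submodule.orthogonal_le (Kj_succ_le ρ j hj) (Submodule.sub_starProjection_mem_orthogonal _)

theorem sum_lvl (ρ : Perm α →* (E ≃ₗᵢ[ℝ] E)) (v : E) :
    ∑ j ∈ Finset.range (Fintype.card α + 1), lvl ρ j v = v := by
  unfold lvl
  rw [Finset.sum_range_sub']
  have h0 : (Kj ρ Finset.univ 0).starProjection v = v := by
    rw [Submodule.starProjection_eq_self_iff, Kj_zero ρ]
    trivial
  have h1 : (Kj ρ Finset.univ (Fintype.card α + 1)).starProjection v = 0 := by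
    have h2 : (Kj ρ Finset.univ (Fintype.card α + 1)).starProjection v ∈ Kj ρ Finset.univ (Fintype.card α + 1) :=
      Submodule.starProjection_apply_mem _ _
    have h3 : ∀ x ∈ Kj ρ (Finset.univ : Finset α) (Fintype.card α + 1), x = 0 := by
      intro x hx
      rw [Kj_last] at hx
      exact (Submodule.mem_bot ℝ).mp hx
    exact h3 _ h2
  rw [h0, h1, sub_zero]

theorem opOf_mem_orth (ρ : Perm α →* (E ≃ₗᵢ[ℝ] E)) (w : Perm α → ℝ) (j : ℕ)
    {u : E} (hu : u ∈ (Kj ρ Finset.univ j)ᗮ) : opOf ρ w u ∈ (Kj ρ Finset.univ j)ᗮ := by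
  rw [opOf_apply]
  exact Submodule.sum_mem _ fun g _ => Submodule.smul_mem _ _
    (orth_invariant _ ρ (fun g v hv => Kj_map ρ j g hv) g u hu)

theorem pow_opOf_mem_orth (ρ : Perm α →* (E ≃ₗᵢ[ℝ] E)) (w : Perm α → ℝ) (j t : ℕ)
    {u : E} (hu : u ∈ (Kj ρ Finset.univ j)ᗮ) : ((opOf ρ w) ^ t) u ∈ (Kj ρ Finset.univ j)ᗮ := by
  induction t with
  | zero => simpa using hu
  | succ t ih =>
    rw [pow_succ', Module.End.mul_apply]
    exact opOf_mem_orth ρ w j ih

/-- orthogonal decomposition into levels of the image of a power of `opOf ρ w` -/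
theorem norm_sq_layers (ρ : Perm α →* (E ≃ₗᵢ[ℝ] E)) (w : Perm α → ℝ) (t : ℕ) (v : E) :
    ‖((opOf ρ w) ^ t) v‖ ^ 2 = ∑ j ∈ Finset.range (Fintype.card α + 1), ‖((opOf ρ w) ^ t) (lvl ρ j v)‖ ^ 2 := by
  conv_lhs => rw [← sum_lvl ρ v]
  rw [map_sum, norm_sq_sum_of_orth]
  have key : ∀ i j, i < j → j ≤ Fintype.card α →
      inner ℝ (((opOf ρ w) ^ t) (lvl ρ i v)) (((opOf ρ w) ^ t) (lvl ρ j v)) = 0 := by
    intro i j hij hj
    have h1 : ((opOf ρ w) ^ t) (lvl ρ j v) ∈ Kj ρ Finset.univ (i + 1) :=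
      Kj_anti ρ (i := i + 1) hij (by omega) (pow_opOf_mem_Kj ρ w j t (lvl_mem ρ j hj v))
    have h2 : ((opOf ρ w) ^ t) (lvl ρ i v) ∈ (Kj ρ Finset.univ (i + 1))ᗮ :=
      pow_opOf_mem_orth ρ w (i + 1) t (lvl_mem_orth ρ i (by omega) v)
    exact Submodule.inner_left_of_mem_orthogonal h1 h2
  intro i hi j hj hij
  rw [Finset.mem_range] at hi hj
  rcases lt_or_gt_of_ne hij with h | h
  · exact key i j h (by omega)
  · rw [real_inner_comm]
    exact key j i h (by omega)

theorem proj_unique (K : Submodule ℝ E) (v x : E) (hx : x ∈ K) (hvx : v - x ∈ Kᗮ) :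
    K.starProjection v = x := by
  have h1 : K.starProjection x = x := Submodule.starProjection_eq_self_iff.mpr hx
  have h2 : K.starProjection (v - x) = 0 := by
    have h3 : (v - x) - K.starProjection (v - x) ∈ Kᗮ := Submodule.sub_starProjection_mem_orthogonal _
    have h4 : K.starProjection (v - x) ∈ Kᗮ := by
      have := Submodule.sub_mem _ hvx h3
      rwa [sub_sub_cancel] at this
    have h5 : K.starProjection (v - x) ∈ K := Submodule.starProjection_apply_mem _ _
    have h6 := Submodule.inner_right_of_mem_orthogonal h5 h4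
    exact inner_self_eq_zero.mp h6
  rw [map_sub, h1] at h2
  exact sub_eq_zero.mp h2

theorem starProj_inner (K : Submodule ℝ E) (u v : E) :
    inner ℝ (K.starProjection u) v = inner ℝ u (K.starProjection v) := by
  have h1 : inner ℝ (K.starProjection u) (v - K.starProjection v) = 0 :=
    Submodule.inner_right_of_mem_orthogonal (Submodule.starProjection_apply_mem _ _)
      (Submodule.sub_starProjection_mem_orthogonal _)
  have h2 : inner ℝ (u - K.starProjection u) (K.starProjection v) = 0 :=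
    Submodule.inner_left_of_mem_orthogonal (Submodule.starProjection_apply_mem _ _)
      (Submodule.sub_starProjection_mem_orthogonal _)
  rw [inner_sub_right] at h1
  rw [inner_sub_left] at h2
  linarith

theorem proj_comm (K W : Submodule ℝ E) (h : ∀ v ∈ W, K.starProjection v ∈ W) (v : E) :
    W.starProjection (K.starProjection v) = K.starProjection (W.starProjection v) := by
  apply proj_unique
  · exact h _ (Submodule.starProjection_apply_mem _ _)
  · rw [← map_sub]
    rw [Submodule.mem_orthogonal]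
    intro w hw
    rw [← starProj_inner]
    exact Submodule.inner_right_of_mem_orthogonal (h w hw) (Submodule.sub_starProjection_mem_orthogonal _)

/-- projections on `Kj` commute with the action -/
theorem proj_Kj_rho (ρ : Perm α →* (E ≃ₗᵢ[ℝ] E)) (j : ℕ) (g : Perm α) (v : E) :
    (Kj ρ Finset.univ j).starProjection (ρ g v) = ρ g ((Kj ρ Finset.univ j).starProjection v) := by
  apply proj_unique
  · exact Kj_map ρ j g (Submodule.starProjection_apply_mem _ _)
  · rw [← map_sub]
    exact orth_invariant _ ρ (fun g v hv => Kj_map ρ j g hv) g _ (Submodule.sub_starProjection_mem_orthogonal _)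

theorem proj_Kj_opOf (ρ : Perm α →* (E ≃ₗᵢ[ℝ] E)) (j : ℕ) (w : Perm α → ℝ) (v : E) :
    (Kj ρ Finset.univ j).starProjection (opOf ρ w v) = opOf ρ w ((Kj ρ Finset.univ j).starProjection v) := by
  rw [opOf_apply, opOf_apply, map_sum]
  apply Finset.sum_congr rfl
  intro g _
  rw [map_smul, proj_Kj_rho]

theorem lvl_opOf (ρ : Perm α →* (E ≃ₗᵢ[ℝ] E)) (j : ℕ) (w : Perm α → ℝ) (v : E) :
    lvl ρ j (opOf ρ w v) = opOf ρ w (lvl ρ j v) := by
  unfold lvl
  rw [proj_Kj_opOf, proj_Kj_opOf, map_sub]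

theorem norm_lvl_le (ρ : Perm α →* (E ≃ₗᵢ[ℝ] E)) (j : ℕ) (hj : j ≤ Fintype.card α) (v : E) :
    ‖lvl ρ j v‖ ^ 2 ≤ ‖v‖ ^ 2 := by
  have h1 : inner ℝ (lvl ρ j v) (v - lvl ρ j v) = 0 := by
    have e : v - lvl ρ j v = (v - (Kj ρ Finset.univ j).starProjection v) + (Kj ρ Finset.univ (j + 1)).starProjection v := by
      unfold lvl
      rw [sub_sub_eq_add_sub, add_sub_right_comm]
    rw [e, inner_add_right]
    have h2 : inner ℝ (lvl ρ j v) (v - (Kj ρ Finset.univ j).starProjection v) = 0 :=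
      Submodule.inner_right_of_mem_orthogonal (lvl_mem ρ j hj v) (Submodule.sub_starProjection_mem_orthogonal _)
    have h3 : inner ℝ (lvl ρ j v) ((Kj ρ Finset.univ (j + 1)).starProjection v) = 0 :=
      Submodule.inner_left_of_mem_orthogonal (Submodule.starProjection_apply_mem _ _) (lvl_mem_orth ρ j hj v)
    rw [h2, h3, add_zero]
  have h2 := norm_add_sq_eq_norm_sq_add_norm_sq_real h1
  rw [add_sub_cancel] at h2
  nlinarith [sq_nonneg ‖v - lvl ρ j v‖]

theorem norm_proj_Inv_lvl (ρ : Perm α →* (E ≃ₗᵢ[ℝ] E)) (j : ℕ) (hj : j ≤ Fintype.card α) (D : Finset α) (v : E) :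
    ‖(Inv ρ D).starProjection (lvl ρ j v)‖ ^ 2 ≤ ‖(Inv ρ D).starProjection v‖ ^ 2 := by
  have hI : ∀ i, ∀ v ∈ Inv ρ D, (Kj ρ Finset.univ i).starProjection v ∈ Inv ρ D := by
    intro i v hv σ hσ
    rw [← proj_Kj_rho, hv σ hσ]
  have h1 : (Inv ρ D).starProjection (lvl ρ j v) = lvl ρ j ((Inv ρ D).starProjection v) := by
    unfold lvl
    rw [map_sub, proj_comm _ _ (hI j), proj_comm _ _ (hI (j + 1))]
  rw [h1]
  exact norm_lvl_le ρ j hj _

end rep

end Vale.Agent.P162
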