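import Vale.Agent.P162.Mass
import Vale.Agent.P162.PMDefs

open Equiv

set_option linter.unusedSectionVars false

namespace Vale.Agent.P162

section hmass

variable {V : Type} [Fintype V] [DecidableEq V]

theorem hm_gS_card (D : Finset V) : (gS D).card = D.card.factorial := by
  have h1 : (gS D).card = Fintype.card {σ : Perm V // ∀ x, ¬ (x ∈ D) → σ x = x} := by
    rw [Fintype.card_subtype]
    rfl
  rw [h1, ← Fintype.card_congr (Equiv.Perm.subtypeEquivSubtypePerm (fun x => x ∈ D)),
    Fintype.card_perm, Fintype.card_coe]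

/-- pairs of permutations agreeing on the preimages of `C` -/
noncomputable def hmF (μ : Perm V → ℝ) (C : Finset V) : ℝ :=
  ∑ g : Perm V, ∑ h : Perm V, if (∀ z ∈ C, g⁻¹ z = h⁻¹ z) then μ g * μ h else 0

theorem hm_f_apply (μ : Perm V → ℝ) (x : Perm V) :
    (opOf (regRep V) μ (EuclideanSpace.single (1 : Perm V) (1 : ℝ))) x = μ x⁻¹ := by
  rw [opOf_apply]
  have h0 : (∑ g : Perm V, μ g • regRep V g (EuclideanSpace.single (1 : Perm V) (1 : ℝ))) x =
      ∑ g : Perm V, (μ g • regRep V g (EuclideanSpace.single (1 : Perm V) (1 : ℝ))) x :=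
    map_sum (EuclideanSpace.proj x : EuclideanSpace ℝ (Perm V) →L[ℝ] ℝ) _ _
  rw [h0]
  have h1 : ∀ g : Perm V, (μ g • regRep V g (EuclideanSpace.single (1 : Perm V) (1 : ℝ))) x =
      if g = x⁻¹ then μ g else 0 := by
    intro g
    rw [PiLp.smul_apply, regRep_apply, PiLp.single_apply, smul_eq_mul]
    by_cases h : g = x⁻¹
    · rw [if_pos h, if_pos (by rw [h, mul_inv_cancel]), mul_one]
    · rw [if_neg h, if_neg (fun h' => h (eq_inv_of_mul_eq_one_right h')), mul_zero]
  rw [Finset.sum_congr rfl fun g _ => h1 g, Finset.sum_ite_eq' Finset.univ x⁻¹ μ,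
    if_pos (Finset.mem_univ _)]

theorem hm_proj (μ : Perm V → ℝ) (D : Finset V) :
    (D.card.factorial : ℝ) * ‖(Inv (regRep V) D).starProjection
      (opOf (regRep V) μ (EuclideanSpace.single (1 : Perm V) (1 : ℝ)))‖ ^ 2 = hmF μ Dᶜ := by
  have hc : ((gS D).card : ℝ) = (D.card.factorial : ℝ) := by rw [hm_gS_card]
  rw [proj_eq_gav, ← inner_gav_self, gav_apply, inner_smul_right, inner_sum, hc, ← mul_assoc,
    mul_inv_cancel₀ (by exact_mod_cast Nat.factorial_ne_zero _), one_mul]
  have h1 : ∀ σ : Perm V, inner ℝ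
      (opOf (regRep V) μ (EuclideanSpace.single (1 : Perm V) (1 : ℝ)))
      (regRep V σ (opOf (regRep V) μ (EuclideanSpace.single (1 : Perm V) (1 : ℝ)))) =
      ∑ g : Perm V, μ g * μ (σ⁻¹ * g) := by
    intro σ
    rw [PiLp.inner_apply]
    refine Fintype.sum_equiv (Equiv.inv (Perm V)) _ _ ?_
    intro x
    rw [regRep_apply, hm_f_apply, hm_f_apply]
    simp [mul_comm]
  rw [Finset.sum_congr rfl fun σ _ => h1 σ, Finset.sum_comm]
  unfold hmF
  refine Finset.sum_congr rfl fun g _ => ?_
  unfold gS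
  rw [Finset.sum_filter]
  refine Fintype.sum_equiv ((Equiv.inv (Perm V)).trans (Equiv.mulRight g)) _ _ ?_
  intro σ
  have e : ((Equiv.inv (Perm V)).trans (Equiv.mulRight g)) σ = σ⁻¹ * g := rfl
  rw [e]
  have hiff : (∀ x, x ∉ D → σ x = x) ↔ (∀ z ∈ Dᶜ, g⁻¹ z = (σ⁻¹ * g)⁻¹ z) := by
    constructor
    · intro h z hz
      rw [Finset.mem_compl] at hz
      have h2 : (σ⁻¹ * g)⁻¹ z = g⁻¹ (σ z) := by
        rw [mul_inv_rev, inv_inv]; rfl
      rw [h2, h z hz]
    · intro h z hz
      have h2 : (σ⁻¹ * g)⁻¹ z = g⁻¹ (σ z) := by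
        rw [mul_inv_rev, inv_inv]; rfl
      have h3 := h z (Finset.mem_compl.mpr hz)
      rw [h2] at h3
      exact (g⁻¹.injective h3).symm
  by_cases h : ∀ x, x ∉ D → σ x = x
  · rw [if_pos h, if_pos (hiff.mp h)]
  · rw [if_neg h, if_neg (fun h' => h (hiff.mpr h'))]

theorem hmF_nonneg (μ : Perm V → ℝ) (C : Finset V) : 0 ≤ hmF μ C := by
  have h := hm_proj μ Cᶜ
  rw [compl_compl] at h
  rw [← h]
  positivity

theorem hm_trace (μ : Perm V → ℝ) (j : ℕ) :
    Matrix.trace ((PM (Fin j) μ).transpose * PM (Fin j) μ) =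
      ∑ x : Fin j ↪ V, hmF μ ((Finset.univ : Finset (Fin j)).map x) := by
  have h0 : Matrix.trace ((PM (Fin j) μ).transpose * PM (Fin j) μ) =
      ∑ y : Fin j ↪ V, ∑ x : Fin j ↪ V, PM (Fin j) μ x y * PM (Fin j) μ x y := by
    unfold Matrix.trace
    refine Finset.sum_congr rfl fun y _ => ?_
    rw [Matrix.diag_apply, Matrix.mul_apply]
    rfl
  rw [h0, Finset.sum_comm]
  refine Finset.sum_congr rfl fun x _ => ?_
  have h1 : ∀ y : Fin j ↪ V, PM (Fin j) μ x y * PM (Fin j) μ x y =
      ∑ g : Perm V, ∑ h : Perm V,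
        (if (∀ k, x k = g (y k)) then μ g else 0) * (if (∀ k, x k = h (y k)) then μ h else 0) := by
    intro y
    unfold PM
    rw [Finset.sum_mul_sum]
    refine Finset.sum_congr rfl fun g _ => Finset.sum_congr rfl fun h _ => ?_
    split_ifs <;> rfl
  rw [Finset.sum_congr rfl fun y _ => h1 y, Finset.sum_comm]
  unfold hmF
  refine Finset.sum_congr rfl fun g _ => ?_
  rw [Finset.sum_comm]
  refine Finset.sum_congr rfl fun h _ => ?_
  have h2 : ∀ y : Fin j ↪ V, ((∀ k, x k = g (y k)) ↔ y = x.trans (g⁻¹).toEmbedding) := by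
    intro y
    constructor
    · intro hk
      ext k
      change y k = g⁻¹ (x k)
      rw [hk k]
      exact (Equiv.symm_apply_apply g (y k)).symm
    · rintro rfl k
      exact (Equiv.apply_symm_apply g (x k)).symm
  have h3 : ∀ y : Fin j ↪ V,
      (if (∀ k, x k = g (y k)) then μ g else 0) * (if (∀ k, x k = h (y k)) then μ h else 0) =
      if y = x.trans (g⁻¹).toEmbedding then
        (μ g * (if (∀ k, x k = h (y k)) then μ h else 0)) else 0 := by
    intro y
    by_cases hy : y = x.trans (g⁻¹).toEmbedding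
    · rw [if_pos hy, if_pos ((h2 y).mpr hy)]
    · rw [if_neg hy, if_neg (fun h' => hy ((h2 y).mp h')), zero_mul]
  rw [Finset.sum_congr rfl fun y _ => h3 y, Finset.sum_ite_eq' Finset.univ,
    if_pos (Finset.mem_univ _)]
  have h4 : (∀ k, x k = h ((x.trans (g⁻¹).toEmbedding) k)) ↔
      (∀ z ∈ (Finset.univ : Finset (Fin j)).map x, g⁻¹ z = h⁻¹ z) := by
    constructor
    · intro hk z hz
      obtain ⟨k, -, rfl⟩ := Finset.mem_map.mp hz
      have h5 : x k = h (g⁻¹ (x k)) := hk k
      conv_rhs => rw [h5]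
      exact (Equiv.symm_apply_apply h _).symm
    · intro hk k
      change x k = h (g⁻¹ (x k))
      rw [hk (x k) (Finset.mem_map.mpr ⟨k, Finset.mem_univ _, rfl⟩)]
      exact (Equiv.apply_symm_apply h _).symm
  by_cases h5 : ∀ k, x k = h ((x.trans (g⁻¹).toEmbedding) k)
  · rw [if_pos h5, if_pos (h4.mp h5)]
  · rw [if_neg h5, if_neg (fun h' => h5 (h4.mpr h')), mul_zero]

theorem hm_count (μ : Perm V → ℝ) (j : ℕ) :
    (j.factorial : ℝ) * ∑ C ∈ (Finset.univ : Finset V).powersetCard j, hmF μ C ≤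
      ∑ x : Fin j ↪ V, hmF μ ((Finset.univ : Finset (Fin j)).map x) := by
  have hmaps : ∀ x ∈ (Finset.univ : Finset (Fin j ↪ V)),
      (Finset.univ : Finset (Fin j)).map x ∈ (Finset.univ : Finset V).powersetCard j := by
    intro x _
    rw [Finset.mem_powersetCard]
    exact ⟨Finset.subset_univ _, by rw [Finset.card_map, Finset.card_univ, Fintype.card_fin]⟩
  rw [← Finset.sum_fiberwise_of_maps_to hmaps, Finset.mul_sum]
  refine Finset.sum_le_sum fun C hC => ?_
  have hCc : C.card = j := (Finset.mem_powersetCard.mp hC).2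
  have h1 : ∑ x ∈ (Finset.univ : Finset (Fin j ↪ V)).filter
      (fun x => (Finset.univ : Finset (Fin j)).map x = C),
      hmF μ ((Finset.univ : Finset (Fin j)).map x) =
      (((Finset.univ : Finset (Fin j ↪ V)).filter
      (fun x => (Finset.univ : Finset (Fin j)).map x = C)).card : ℝ) * hmF μ C := by
    rw [Finset.sum_congr rfl (fun x hx => by rw [(Finset.mem_filter.mp hx).2]),
      Finset.sum_const, nsmul_eq_mul]
  rw [h1]
  refine mul_le_mul_of_nonneg_right ?_ (hmF_nonneg μ C)
  let e : {x // x ∈ C} ≃ Fin j := Fintype.equivFinOfCardEq (by rw [Fintype.card_coe, hCc])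
  let x0 : Fin j ↪ V := e.symm.toEmbedding.trans (Function.Embedding.subtype _)
  have hx0 : ∀ k, x0 k ∈ C := fun k => (e.symm k).2
  have hcard : (Finset.univ : Finset (Perm (Fin j))).card ≤
      ((Finset.univ : Finset (Fin j ↪ V)).filter
      (fun x => (Finset.univ : Finset (Fin j)).map x = C)).card := by
    refine Finset.card_le_card_of_injOn (fun σ => σ.toEmbedding.trans x0) ?_ ?_
    · intro σ _
      rw [Finset.mem_coe, Finset.mem_filter]
      refine ⟨Finset.mem_univ _, ?_⟩
      apply Finset.eq_of_subset_of_card_le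
      · intro z hz
        obtain ⟨k, -, rfl⟩ := Finset.mem_map.mp hz
        exact hx0 _
      · rw [Finset.card_map, Finset.card_univ, Fintype.card_fin, hCc]
    · intro σ _ τ _ h
      ext k : 1
      have h2 : x0 (σ k) = x0 (τ k) := DFunLike.congr_fun h k
      exact x0.injective h2
  rw [Finset.card_univ, Fintype.card_perm, Fintype.card_fin] at hcard
  exact_mod_cast hcard

theorem mass_le (μ : Perm V → ℝ) (j : ℕ) (hj : j ≤ Fintype.card V) :
    ((Fintype.card V).factorial : ℝ) *
      ∑ D ∈ (Finset.univ : Finset V).powersetCard (Fintype.card V - j),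
        ‖(Inv (regRep V) D).starProjection
          (opOf (regRep V) μ (EuclideanSpace.single (1 : Perm V) (1 : ℝ)))‖ ^ 2 ≤
      ((Fintype.card V).choose j : ℝ) *
        Matrix.trace ((PM (Fin j) μ).transpose * PM (Fin j) μ) := by
  set n := Fintype.card V with hn
  have h1 : (((n - j).factorial : ℕ) : ℝ) *
      ∑ D ∈ (Finset.univ : Finset V).powersetCard (n - j),
        ‖(Inv (regRep V) D).starProjection
          (opOf (regRep V) μ (EuclideanSpace.single (1 : Perm V) (1 : ℝ)))‖ ^ 2 =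
      ∑ C ∈ (Finset.univ : Finset V).powersetCard j, hmF μ C := by
    rw [Finset.mul_sum]
    refine Finset.sum_bij' (fun D _ => Dᶜ) (fun C _ => Cᶜ) ?_ ?_ ?_ ?_ ?_
    · intro D hD
      rw [Finset.mem_powersetCard] at hD ⊢
      refine ⟨Finset.subset_univ _, ?_⟩
      rw [Finset.card_compl, ← hn, hD.2]
      omega
    · intro C hC
      rw [Finset.mem_powersetCard] at hC ⊢
      refine ⟨Finset.subset_univ _, ?_⟩
      rw [Finset.card_compl, ← hn, hC.2]
    · intro D _; exact compl_compl D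
    · intro C _; exact compl_compl C
    · intro D hD
      rw [Finset.mem_powersetCard] at hD
      rw [← hm_proj, hD.2]
  have hfac : ((n.factorial : ℕ) : ℝ) =
      (n.choose j : ℝ) * (j.factorial : ℝ) * (((n - j).factorial : ℕ) : ℝ) := by
    exact_mod_cast (Nat.choose_mul_factorial_mul_factorial hj).symm
  rw [hfac, mul_assoc, h1, mul_assoc, hm_trace]
  exact mul_le_mul_of_nonneg_left (hm_count μ j) (Nat.cast_nonneg _)

end hmass

end Vale.Agent.P162
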