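import Vale.Agent.P162.H5
import Vale.Agent.P162.H6
import Vale.Agent.P162.HMass

open Equiv

set_option linter.unusedSectionVars false

namespace Vale.Agent.P162

/-- convolution powers -/
noncomputable def cpow {G : Type} [Group G] [Fintype G] [DecidableEq G] (μ : G → ℝ) : ℕ → G → ℝ
  | 0 => fun g => if g = 1 then 1 else 0
  | (t + 1) => conv μ (cpow μ t)

theorem opOf_cpow {E : Type} [NormedAddCommGroup E] [InnerProductSpace ℝ E] {G : Type} [Group G] [Fintype G]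
    [DecidableEq G] (ρ : G →* (E ≃ₗᵢ[ℝ] E)) (μ : G → ℝ) (t : ℕ) :
    opOf ρ (cpow μ t) = (opOf ρ μ) ^ t := by
  induction t with
  | zero =>
    ext v
    rw [opOf_apply]
    simp only [cpow, ite_smul, one_smul, zero_smul, Finset.sum_ite_eq', Finset.mem_univ, if_true,
      pow_zero, Module.End.one_apply]
    exact rho_one ρ v
  | succ t ih =>
    ext v
    rw [pow_succ', Module.End.mul_apply, ← ih]
    exact opOf_conv ρ _ _ v

theorem PM_one (ι V : Type) [Fintype ι] [DecidableEq ι] [Fintype V] [DecidableEq V] :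
    PM ι (fun g : Perm V => if g = 1 then (1 : ℝ) else 0) = 1 := by
  ext x y
  unfold PM
  rw [Finset.sum_eq_single 1]
  · rw [Matrix.one_apply]
    by_cases h : x = y
    · rw [if_pos h, if_pos]
      · simp
      · intro k
        rw [h]
        simp
    · rw [if_neg h, if_neg]
      intro hk
      apply h
      ext k
      simpa using hk k
  · intro g _ hg
    simp [hg]
  · intro h
    exact absurd (Finset.mem_univ _) h

theorem PM_cpow (ι V : Type) [Fintype ι] [DecidableEq ι] [Fintype V] [DecidableEq V] (μ : Perm V → ℝ) (t : ℕ) :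
    PM ι (cpow μ t) = (PM ι μ) ^ t := by
  induction t with
  | zero =>
    rw [pow_zero]
    exact PM_one ι V
  | succ t ih =>
    rw [pow_succ']
    change PM ι (conv μ (cpow μ t)) = _
    rw [PM_conv, ih]

theorem trace8_le (k j : ℕ) (hj : j ≤ 2 * 2 ^ k) :
    Matrix.trace ((PM (Fin j) (cpow (mu1 k) 8)).transpose * PM (Fin j) (cpow (mu1 k) 8))
      ≤ Real.exp (3600 * j) := by
  rw [PM_cpow]
  refine (hs_pow8 _).trans ?_
  refine (trace_emb (Fin j) k 1 le_rfl).trans ?_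
  rw [Fintype.card_fin]
  have hnpos : (0 : ℝ) < ((2 * 2 ^ k : ℕ) : ℝ) := by positivity
  have h1 : ((2 * 2 ^ k).descFactorial j : ℝ) / ((2 * 2 ^ k : ℕ) : ℝ) ^ j ≤ 1 := by
    rw [div_le_one (by positivity)]
    exact_mod_cast Nat.descFactorial_le_pow _ _
  have h2 : (7 : ℝ) * (j : ℝ) * ((2 : ℝ) ^ (9 * 1) * (j : ℝ) / ((2 * 2 ^ k : ℕ) : ℝ) + 3 * (27 / 50) ^ 1)
      ≤ 3600 * j := by
    have h3 : (2 : ℝ) ^ (9 * 1) * (j : ℝ) / ((2 * 2 ^ k : ℕ) : ℝ) ≤ 512 := by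
      rw [div_le_iff₀ hnpos]
      have : (j : ℝ) ≤ ((2 * 2 ^ k : ℕ) : ℝ) := by exact_mod_cast hj
      norm_num
      norm_num at this
      linarith
    have h4 : (0 : ℝ) ≤ (j : ℝ) := Nat.cast_nonneg _
    nlinarith
  calc ((2 * 2 ^ k).descFactorial j : ℝ) / ((2 * 2 ^ k : ℕ) : ℝ) ^ j *
        Real.exp (7 * (j : ℝ) * ((2 : ℝ) ^ (9 * 1) * (j : ℝ) / ((2 * 2 ^ k : ℕ) : ℝ) + 3 * (27 / 50) ^ 1))
      ≤ 1 * Real.exp (3600 * j) := by
        apply mul_le_mul h1 (Real.exp_le_exp.mpr h2) (Real.exp_pos _).le zero_le_one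
    _ = _ := one_mul _

/-- mass of exact level `j` after 8 rounds -/
theorem mass8 (k j : ℕ) (hj : j ≤ 2 * 2 ^ k) :
    ((2 * 2 ^ k).factorial : ℝ) *
      ‖((opOf (regRep (Fin (2 * 2 ^ k))) (mu1 k)) ^ 8) (lvl (regRep (Fin (2 * 2 ^ k))) j (EuclideanSpace.single 1 (1 : ℝ)))‖ ^ 2
      ≤ ((2 * 2 ^ k).choose j : ℝ) * Real.exp (3600 * j) := by
  set ρ := regRep (Fin (2 * 2 ^ k)) with hρ
  set δ : EuclideanSpace ℝ (Perm (Fin (2 * 2 ^ k))) := EuclideanSpace.single 1 (1 : ℝ) with hδ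
  have hj' : j ≤ Fintype.card (Fin (2 * 2 ^ k)) := by
    rw [Fintype.card_fin]
    exact hj
  rw [← opOf_cpow, ← lvl_opOf]
  set v := opOf ρ (cpow (mu1 k) 8) δ with hv
  have h1 := low_mass ρ j hj' (lvl ρ j v) (lvl_mem ρ j hj' v) (lvl_mem_orth ρ j hj' v)
  have h2 : ∑ D ∈ (Finset.univ : Finset (Fin (2 * 2 ^ k))).powersetCard (Fintype.card (Fin (2 * 2 ^ k)) - j),
      ‖(Inv ρ D).starProjection (lvl ρ j v)‖ ^ 2
      ≤ ∑ D ∈ (Finset.univ : Finset (Fin (2 * 2 ^ k))).powersetCard (Fintype.card (Fin (2 * 2 ^ k)) - j),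
      ‖(Inv ρ D).starProjection v‖ ^ 2 :=
    Finset.sum_le_sum fun D _ => norm_proj_Inv_lvl ρ j hj' D v
  have h3 := mass_le (cpow (mu1 k) 8) j hj'
  have h4 : ((2 * 2 ^ k).factorial : ℝ) * ‖lvl ρ j v‖ ^ 2 ≤ ((2 * 2 ^ k).factorial : ℝ) *
      ∑ D ∈ (Finset.univ : Finset (Fin (2 * 2 ^ k))).powersetCard (Fintype.card (Fin (2 * 2 ^ k)) - j),
      ‖(Inv ρ D).starProjection v‖ ^ 2 :=
    mul_le_mul_of_nonneg_left (h1.trans h2) (Nat.cast_nonneg _)
  refine h4.trans ?_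
  have h5 : (Fintype.card (Fin (2 * 2 ^ k))) = 2 * 2 ^ k := Fintype.card_fin _
  have h6 : ((Fintype.card (Fin (2 * 2 ^ k))).factorial : ℝ) = ((2 * 2 ^ k).factorial : ℝ) := by rw [h5]
  have h7 : ((Fintype.card (Fin (2 * 2 ^ k))).choose j : ℝ) = ((2 * 2 ^ k).choose j : ℝ) := by rw [h5]
  rw [h6, h7] at h3
  refine h3.trans ?_
  exact mul_le_mul_of_nonneg_left (trace8_le k j hj) (Nat.cast_nonneg _)

end Vale.Agent.P162
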