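import Vale.Agent.P162.H7

open Equiv

set_option linter.unusedSectionVars false

namespace Vale.Agent.P162

/-- choice of the dyadic scale of `n / j` -/
theorem exists_scale (n j : ℕ) (hj : 1 ≤ j) (h : 2 ^ 20 * j ≤ n) :
    ∃ l : ℕ, 1 ≤ l ∧ 2 ^ (20 * l) * j ≤ n ∧ n < 2 ^ (20 * (l + 1)) * j := by
  have hex : ∃ l : ℕ, n < 2 ^ (20 * (l + 1)) * j := by
    refine ⟨n, ?_⟩
    have h1 : n < 2 ^ n := Nat.lt_two_pow_self
    have h2 : 2 ^ n ≤ 2 ^ (20 * (n + 1)) := Nat.pow_le_pow_right (by norm_num) (by omega)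
    calc n < 2 ^ (20 * (n + 1)) := lt_of_lt_of_le h1 h2
      _ ≤ 2 ^ (20 * (n + 1)) * j := Nat.le_mul_of_pos_right _ hj
  classical
  refine ⟨Nat.find hex, ?_, ?_, Nat.find_spec hex⟩
  · by_contra h0
    have h1 : Nat.find hex = 0 := by omega
    have h2 := Nat.find_spec hex
    rw [h1] at h2
    simp only [zero_add, mul_one] at h2
    omega
  · have h0 : Nat.find hex ≠ 0 := by
      intro h1
      have h2 := Nat.find_spec hex
      rw [h1] at h2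
      simp only [zero_add, mul_one] at h2
      omega
    obtain ⟨m, hm⟩ := Nat.exists_eq_succ_of_ne_zero h0
    have h3 := Nat.find_min hex (m := m) (by omega)
    rw [hm]
    simp only [Nat.succ_eq_add_one]
    omega

theorem expo_bound (n j l : ℕ) (hn : 0 < n) (hl : 1 ≤ l) (h : 2 ^ (20 * l) * j ≤ n) :
    7 * ((j * 2 ^ l : ℕ) : ℝ) * ((2 : ℝ) ^ (9 * (2 * l)) * ((j * 2 ^ l : ℕ) : ℝ) / (n : ℝ) + 3 * (27 / 50) ^ (2 * l))
      ≤ 28 * j := by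
  have hnpos : (0 : ℝ) < (n : ℝ) := by exact_mod_cast hn
  have hj0 : (0 : ℝ) ≤ (j : ℝ) := Nat.cast_nonneg _
  have h1 : ((j * 2 ^ l : ℕ) : ℝ) * ((2 : ℝ) ^ (9 * (2 * l)) * ((j * 2 ^ l : ℕ) : ℝ) / (n : ℝ)) ≤ j := by
    have e1 : ((j * 2 ^ l : ℕ) : ℝ) * ((2 : ℝ) ^ (9 * (2 * l)) * ((j * 2 ^ l : ℕ) : ℝ) / (n : ℝ))
        = (j : ℝ) * (((2 : ℝ) ^ (20 * l) * j) / n) := by
      push_cast
      rw [show 20 * l = l + 9 * (2 * l) + l by ring, pow_add, pow_add]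
      ring
    rw [e1]
    have h2 : ((2 : ℝ) ^ (20 * l) * j) / n ≤ 1 := by
      rw [div_le_one hnpos]
      exact_mod_cast h
    calc (j : ℝ) * (((2 : ℝ) ^ (20 * l) * j) / n) ≤ (j : ℝ) * 1 := mul_le_mul_of_nonneg_left h2 hj0
      _ = j := mul_one _
  have h3 : ((j * 2 ^ l : ℕ) : ℝ) * (3 * (27 / 50) ^ (2 * l)) ≤ 3 * j := by
    have e1 : ((j * 2 ^ l : ℕ) : ℝ) * (3 * (27 / 50) ^ (2 * l)) = 3 * j * (2 * (27 / 50) ^ 2) ^ l := by
      push_cast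
      rw [mul_pow, ← pow_mul]
      ring
    rw [e1]
    have h4 : (2 * (27 / 50 : ℝ) ^ 2) ^ l ≤ 1 := pow_le_one₀ (by norm_num) (by norm_num)
    calc 3 * (j : ℝ) * (2 * (27 / 50) ^ 2) ^ l ≤ 3 * (j : ℝ) * 1 :=
          mul_le_mul_of_nonneg_left h4 (by positivity)
      _ = 3 * j := mul_one _
  nlinarith [h1, h3]

theorem choose_le_exp (n j : ℕ) (hj : 1 ≤ j) :
    (n.choose j : ℝ) ≤ (Real.exp 1 * (n / j)) ^ j := by
  have hj0 : (0 : ℝ) < (j : ℝ) := by exact_mod_cast hj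
  have h1 : (n.choose j : ℝ) ≤ (n : ℝ) ^ j / j.factorial := Nat.choose_le_pow_div j n
  have h2 : (j : ℝ) ^ j / j.factorial ≤ Real.exp j := Real.pow_div_factorial_le_exp (j : ℝ) hj0.le j
  have hf : (0 : ℝ) < (j.factorial : ℝ) := by exact_mod_cast Nat.factorial_pos j
  have h3 : (1 : ℝ) / j.factorial ≤ Real.exp j / (j : ℝ) ^ j := by
    rw [div_le_div_iff₀ hf (by positivity)]
    rw [div_le_iff₀ hf] at h2
    linarith
  calc (n.choose j : ℝ) ≤ (n : ℝ) ^ j / j.factorial := h1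
    _ = (n : ℝ) ^ j * (1 / j.factorial) := by ring
    _ ≤ (n : ℝ) ^ j * (Real.exp j / (j : ℝ) ^ j) := mul_le_mul_of_nonneg_left h3 (by positivity)
    _ = (Real.exp 1 * (n / j)) ^ j := by
        rw [mul_pow, div_pow, ← Real.exp_nat_mul, mul_one]
        ring

/-- arithmetic of the low levels -/
theorem low_arith (n j l : ℕ) (hj : 1 ≤ j) (hn : 0 < n) (h : n < 2 ^ (20 * (l + 1)) * j) :
    (1 / ((2 ^ l : ℕ) : ℝ) ^ j * Real.exp (28 * j)) ^ 40 * ((n.choose j : ℝ) * Real.exp (3600 * j))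
      ≤ (2 ^ 40 * Real.exp 4721 * j / n) ^ j := by
  have hj0 : (0 : ℝ) < (j : ℝ) := by exact_mod_cast hj
  have hn0 : (0 : ℝ) < (n : ℝ) := by exact_mod_cast hn
  have e1 : (1 / ((2 ^ l : ℕ) : ℝ) ^ j * Real.exp (28 * j)) ^ 40 = (1 / (2 : ℝ) ^ (40 * l) * Real.exp 1120) ^ j := by
    rw [mul_pow, mul_pow, ← Real.exp_nat_mul, ← Real.exp_nat_mul]
    congr 1
    · push_cast
      rw [one_div_pow, one_div_pow, ← pow_mul, ← pow_mul, ← pow_mul]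
      congr 2
      ring
    · congr 1
      push_cast
      ring
  have e2 : Real.exp (3600 * j) = (Real.exp 3600) ^ j := by
    rw [← Real.exp_nat_mul]
    congr 1
    ring
  rw [e1, e2]
  calc (1 / (2 : ℝ) ^ (40 * l) * Real.exp 1120) ^ j * ((n.choose j : ℝ) * (Real.exp 3600) ^ j)
      ≤ (1 / (2 : ℝ) ^ (40 * l) * Real.exp 1120) ^ j * ((Real.exp 1 * (n / j)) ^ j * (Real.exp 3600) ^ j) := by
        apply mul_le_mul_of_nonneg_left _ (by positivity)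
        apply mul_le_mul_of_nonneg_right (choose_le_exp n j hj) (by positivity)
    _ = (1 / (2 : ℝ) ^ (40 * l) * Real.exp 4721 * (n / j)) ^ j := by
        rw [← mul_pow, ← mul_pow]
        congr 1
        have : Real.exp 4721 = Real.exp 1120 * (Real.exp 1 * Real.exp 3600) := by
          rw [← Real.exp_add, ← Real.exp_add]
          norm_num
        rw [this]
        ring
    _ ≤ _ := by
        apply pow_le_pow_left₀ (by positivity)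
        have h3 : (n : ℝ) < 2 ^ (20 * (l + 1)) * j := by exact_mod_cast h
        have h4 : (n : ℝ) / j ≤ 2 ^ (20 * (l + 1)) := by
          rw [div_le_iff₀ hj0]
          exact h3.le
        have h5 : (n : ℝ) / j * (n / j) ≤ 2 ^ (20 * (l + 1)) * 2 ^ (20 * (l + 1)) :=
          mul_le_mul h4 h4 (by positivity) (by positivity)
        have e3 : (2 : ℝ) ^ (20 * (l + 1)) * 2 ^ (20 * (l + 1)) = 2 ^ 40 * 2 ^ (40 * l) := by
          rw [← pow_add, ← pow_add]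
          congr 1
          ring
        rw [e3] at h5
        have h6 : 1 / (2 : ℝ) ^ (40 * l) * (n / j) ≤ 2 ^ 40 * j / n := by
          rw [one_div, inv_mul_le_iff₀ (by positivity)]
          have h7 : (n : ℝ) / j = (n / j * (n / j)) * (j / n) := by
            field_simp
          rw [h7]
          calc (n : ℝ) / j * (n / j) * (j / n) ≤ (2 ^ 40 * 2 ^ (40 * l)) * (j / n) :=
                mul_le_mul_of_nonneg_right h5 (by positivity)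
            _ = _ := by ring
        calc 1 / (2 : ℝ) ^ (40 * l) * Real.exp 4721 * (n / j)
            = Real.exp 4721 * (1 / (2 : ℝ) ^ (40 * l) * (n / j)) := by ring
          _ ≤ Real.exp 4721 * (2 ^ 40 * j / n) := mul_le_mul_of_nonneg_left h6 (Real.exp_pos _).le
          _ = _ := by ring

section rep

variable {E : Type} [NormedAddCommGroup E] [InnerProductSpace ℝ E] [FiniteDimensional ℝ E]

/-- `320` rounds on exact level `j` -/
theorem rounds_low (k j l : ℕ) (hl : 1 ≤ l) (hjl : 2 ^ (20 * l) * j ≤ 2 * 2 ^ k)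
    (ρ : Perm (Fin (2 * 2 ^ k)) →* (E ≃ₗᵢ[ℝ] E)) (u : E) (hu : u ∈ Kj ρ Finset.univ j)
    (hu' : u ∈ (Kj ρ Finset.univ (j + 1))ᗮ) :
    ‖((opOf ρ (mu1 k)) ^ 320) u‖ ^ 2 ≤ (1 / ((2 ^ l : ℕ) : ℝ) ^ j * Real.exp (28 * j)) ^ 40 * ‖u‖ ^ 2 := by
  set θ := 1 / ((2 ^ l : ℕ) : ℝ) ^ j * Real.exp (28 * j) with hθ
  have hθ0 : 0 ≤ θ := by positivity
  have hjq : j * 2 ^ l ≤ 2 * 2 ^ k := by
    refine le_trans ?_ hjl
    rw [mul_comm]
    apply Nat.mul_le_mul_right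
    exact Nat.pow_le_pow_right (by norm_num) (by omega)
  have hstep : ∀ v : E, v ∈ Kj ρ Finset.univ j → v ∈ (Kj ρ Finset.univ (j + 1))ᗮ →
      (‖opOf ρ (mu1 k) v‖ ^ 2) ^ 8 ≤ θ * (‖v‖ ^ 2) ^ 8 := by
    intro v hv hv'
    apply round_low k j (2 ^ l) (2 * l) Nat.one_le_two_pow (by omega) hjq ρ v hv hv' θ
    rw [hθ]
    apply mul_le_mul_of_nonneg_left _ (by positivity)
    apply Real.exp_le_exp.mpr
    exact expo_bound (2 * 2 ^ k) j l (by positivity) hl hjl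
  clear_value θ
  have hpow : ∀ r : ℕ, (‖((opOf ρ (mu1 k)) ^ r) u‖ ^ 2) ^ 8 ≤ θ ^ r * (‖u‖ ^ 2) ^ 8 := by
    intro r
    induction r with
    | zero => simp
    | succ r ih =>
      rw [pow_succ' (opOf ρ (mu1 k)) r, Module.End.mul_apply]
      refine (hstep _ (pow_opOf_mem_Kj ρ _ j r hu) (pow_opOf_mem_orth ρ _ (j + 1) r hu')).trans ?_
      rw [pow_succ' θ r, mul_assoc]
      exact mul_le_mul_of_nonneg_left ih hθ0
  have h1 := hpow 320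
  have h2 : θ ^ 320 * (‖u‖ ^ 2) ^ 8 = (θ ^ 40 * ‖u‖ ^ 2) ^ 8 := by
    rw [mul_pow, ← pow_mul θ]
  rw [h2] at h1
  exact (pow_le_pow_iff_left₀ (sq_nonneg _) (by positivity) (by norm_num)).mp h1

theorem rounds_contr (k : ℕ) (ρ : Perm (Fin (2 * 2 ^ k)) →* (E ≃ₗᵢ[ℝ] E)) (j : ℕ)
    (hj : j ≤ 2 * 2 ^ k) (u : E) (hu : u ∈ Kj ρ Finset.univ j) (r : ℕ) :
    ‖((opOf ρ (mu1 k)) ^ r) u‖ ^ 2 ≤ (Real.exp (-(r : ℝ) / 96)) ^ j * ‖u‖ ^ 2 := by
  have h1 := rounds_contraction k ρ j hj u hu r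
  have h2 : (opOf ρ (thorpLaw (2 ^ k))) ^ ((k + 1) * r) = (opOf ρ (mu1 k)) ^ r := by
    unfold mu1
    rw [opOf_thorpPow, pow_mul]
  rwa [h2] at h1

end rep

/-- low levels after `8 + r` rounds, `r ≥ 320` -/
theorem mass_low (k j r : ℕ) (hj : 1 ≤ j) (h : 2 ^ 20 * j ≤ 2 * 2 ^ k) (hr : 320 ≤ r) :
    ((2 * 2 ^ k).factorial : ℝ) *
      ‖((opOf (regRep (Fin (2 * 2 ^ k))) (mu1 k)) ^ (r + 8)) (lvl (regRep (Fin (2 * 2 ^ k))) j (EuclideanSpace.single 1 (1 : ℝ)))‖ ^ 2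
      ≤ (2 ^ 40 * Real.exp 4721 * j / ((2 * 2 ^ k : ℕ) : ℝ)) ^ j := by
  obtain ⟨l, hl, hl1, hl2⟩ := exists_scale (2 * 2 ^ k) j hj h
  have hjn : j ≤ 2 * 2 ^ k := by
    have : 1 * j ≤ 2 ^ 20 * j := Nat.mul_le_mul_right _ (by norm_num)
    omega
  set ρ := regRep (Fin (2 * 2 ^ k)) with hρ
  set δ : EuclideanSpace ℝ (Perm (Fin (2 * 2 ^ k))) := EuclideanSpace.single 1 (1 : ℝ) with hδ
  have hj' : j ≤ Fintype.card (Fin (2 * 2 ^ k)) := by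
    rw [Fintype.card_fin]
    exact hjn
  obtain ⟨s, rfl⟩ := Nat.exists_eq_add_of_le hr
  set u := ((opOf ρ (mu1 k)) ^ 8) (lvl ρ j δ) with hu
  have huK : u ∈ Kj ρ Finset.univ j := pow_opOf_mem_Kj ρ _ j 8 (lvl_mem ρ j hj' δ)
  have huO : u ∈ (Kj ρ Finset.univ (j + 1))ᗮ := pow_opOf_mem_orth ρ _ (j + 1) 8 (lvl_mem_orth ρ j hj' δ)
  have e1 : ((opOf ρ (mu1 k)) ^ (320 + s + 8)) (lvl ρ j δ)
      = ((opOf ρ (mu1 k)) ^ s) (((opOf ρ (mu1 k)) ^ 320) u) := by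
    rw [hu, show 320 + s + 8 = s + (320 + 8) by omega, pow_add _ s, pow_add _ 320,
      Module.End.mul_apply, Module.End.mul_apply]
  rw [e1]
  have h1 : ‖((opOf ρ (mu1 k)) ^ s) (((opOf ρ (mu1 k)) ^ 320) u)‖ ^ 2 ≤ ‖((opOf ρ (mu1 k)) ^ 320) u‖ ^ 2 := by
    have h2 := rounds_contr k ρ j hjn (((opOf ρ (mu1 k)) ^ 320) u) (pow_opOf_mem_Kj ρ _ j 320 huK) s
    refine h2.trans ?_
    have h3 : (Real.exp (-(s : ℝ) / 96)) ^ j ≤ 1 := by
      apply pow_le_one₀ (Real.exp_pos _).le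
      rw [Real.exp_le_one_iff]
      have : (0 : ℝ) ≤ s := Nat.cast_nonneg _
      linarith
    calc _ ≤ 1 * ‖((opOf ρ (mu1 k)) ^ 320) u‖ ^ 2 := mul_le_mul_of_nonneg_right h3 (sq_nonneg _)
      _ = _ := one_mul _
  have h4 := rounds_low k j l hl hl1 ρ u huK huO
  have h5 := mass8 k j hjn
  calc ((2 * 2 ^ k).factorial : ℝ) * ‖((opOf ρ (mu1 k)) ^ s) (((opOf ρ (mu1 k)) ^ 320) u)‖ ^ 2
      ≤ ((2 * 2 ^ k).factorial : ℝ) * ((1 / ((2 ^ l : ℕ) : ℝ) ^ j * Real.exp (28 * j)) ^ 40 * ‖u‖ ^ 2) :=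
        mul_le_mul_of_nonneg_left (h1.trans h4) (Nat.cast_nonneg _)
    _ = (1 / ((2 ^ l : ℕ) : ℝ) ^ j * Real.exp (28 * j)) ^ 40 * (((2 * 2 ^ k).factorial : ℝ) * ‖u‖ ^ 2) := by ring
    _ ≤ (1 / ((2 ^ l : ℕ) : ℝ) ^ j * Real.exp (28 * j)) ^ 40 * (((2 * 2 ^ k).choose j : ℝ) * Real.exp (3600 * j)) :=
        mul_le_mul_of_nonneg_left h5 (by positivity)
    _ ≤ _ := low_arith (2 * 2 ^ k) j l hj (by positivity) hl2

/-- all levels after `8 + r` rounds -/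
theorem mass_high (k j r : ℕ) (hj : j ≤ 2 * 2 ^ k) :
    ((2 * 2 ^ k).factorial : ℝ) *
      ‖((opOf (regRep (Fin (2 * 2 ^ k))) (mu1 k)) ^ (r + 8)) (lvl (regRep (Fin (2 * 2 ^ k))) j (EuclideanSpace.single 1 (1 : ℝ)))‖ ^ 2
      ≤ ((2 * 2 ^ k).choose j : ℝ) * Real.exp (-(r / 96 - 3600) * j) := by
  set ρ := regRep (Fin (2 * 2 ^ k)) with hρ
  set δ : EuclideanSpace ℝ (Perm (Fin (2 * 2 ^ k))) := EuclideanSpace.single 1 (1 : ℝ) with hδ
  have hj' : j ≤ Fintype.card (Fin (2 * 2 ^ k)) := by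
    rw [Fintype.card_fin]
    exact hj
  set u := ((opOf ρ (mu1 k)) ^ 8) (lvl ρ j δ) with hu
  have huK : u ∈ Kj ρ Finset.univ j := pow_opOf_mem_Kj ρ _ j 8 (lvl_mem ρ j hj' δ)
  have e1 : ((opOf ρ (mu1 k)) ^ (r + 8)) (lvl ρ j δ) = ((opOf ρ (mu1 k)) ^ r) u := by
    rw [hu, pow_add, Module.End.mul_apply]
  rw [e1]
  have h1 := rounds_contr k ρ j hj u huK r
  have h2 := mass8 k j hj
  calc ((2 * 2 ^ k).factorial : ℝ) * ‖((opOf ρ (mu1 k)) ^ r) u‖ ^ 2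
      ≤ ((2 * 2 ^ k).factorial : ℝ) * ((Real.exp (-(r : ℝ) / 96)) ^ j * ‖u‖ ^ 2) :=
        mul_le_mul_of_nonneg_left h1 (Nat.cast_nonneg _)
    _ = (Real.exp (-(r : ℝ) / 96)) ^ j * (((2 * 2 ^ k).factorial : ℝ) * ‖u‖ ^ 2) := by ring
    _ ≤ (Real.exp (-(r : ℝ) / 96)) ^ j * (((2 * 2 ^ k).choose j : ℝ) * Real.exp (3600 * j)) :=
        mul_le_mul_of_nonneg_left h2 (by positivity)
    _ = ((2 * 2 ^ k).choose j : ℝ) * Real.exp (-(r / 96 - 3600) * j) := by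
        rw [← Real.exp_nat_mul, mul_left_comm, ← Real.exp_add]
        congr 2
        ring

end Vale.Agent.P162
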