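import Vale.Agent.P162.Law

open Equiv

namespace Vale.Agent.P162

theorem lower_support (m t : ℕ) : ∃ S : Finset (Perm (Fin (2 * m))), S.card ≤ 2 ^ (t * m) ∧
    ∀ g, g ∉ S → thorpPow m t g = 0 := by
  classical
  induction t with
  | zero =>
    refine ⟨{1}, by simp, fun g hg => ?_⟩
    have h1 : g ≠ 1 := by simpa using hg
    simp [thorpPow, h1]
  | succ t ih =>
    obtain ⟨S, hS, hz⟩ := ih
    refine ⟨Finset.image₂ (fun a b => a * b) (Finset.univ.image (thorpPerm m)) S, ?_, ?_⟩
    · refine (Finset.card_image₂_le _ _ _).trans ?_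
      have h1 : (Finset.univ.image (thorpPerm m)).card ≤ 2 ^ m := by
        refine Finset.card_image_le.trans (le_of_eq ?_)
        simp
      calc (Finset.univ.image (thorpPerm m)).card * S.card ≤ 2 ^ m * 2 ^ (t * m) :=
            Nat.mul_le_mul h1 hS
        _ = 2 ^ ((t + 1) * m) := by rw [← pow_add]; congr 1; ring
    · intro g hg
      change conv (thorpLaw m) (thorpPow m t) g = 0
      unfold conv
      refine Finset.sum_eq_zero fun h _ => ?_
      by_cases hh : h ∈ Finset.univ.image (thorpPerm m)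
      · have h2 : h⁻¹ * g ∉ S := by
          intro h3
          refine hg (Finset.mem_image₂.2 ⟨h, hh, h⁻¹ * g, h3, ?_⟩)
          simp
        rw [hz _ h2, mul_zero]
      · have h2 : thorpLaw m h = 0 := by
          rw [thorpLaw_eq, Finset.sum_eq_zero, zero_div]
          intro c _
          rw [if_neg]
          intro h3
          exact hh (Finset.mem_image.2 ⟨c, Finset.mem_univ _, h3.symm⟩)
        rw [h2, zero_mul]

theorem lower (m : ℕ) (hm : 1 ≤ m) (t : ℕ) (ht : tvUnif m (thorpPow m t) ≤ 1 / 4) :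
    ((2 * m).factorial : ℝ) ≤ 2 * 2 ^ (t * m) := by
  classical
  obtain ⟨S, hS, hz⟩ := lower_support m t
  have hN : (0 : ℝ) < ((2 * m).factorial : ℝ) := by exact_mod_cast Nat.factorial_pos _
  set N : ℝ := ((2 * m).factorial : ℝ) with hNdef
  have hcard : (Fintype.card (Perm (Fin (2 * m))) : ℝ) = N := by
    rw [Fintype.card_perm, Fintype.card_fin]
  have hsum1 : ∑ g ∈ S, thorpPow m t g = 1 := by
    rw [← sum_thorpPow m t]
    exact Finset.sum_subset (Finset.subset_univ S) fun g _ hg => hz g hg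
  have hsplit : ∑ g : Perm (Fin (2 * m)), |thorpPow m t g - 1 / N|
      = ∑ g ∈ S, |thorpPow m t g - 1 / N| + ∑ g ∈ Sᶜ, |thorpPow m t g - 1 / N| :=
    (Finset.sum_add_sum_compl S _).symm
  have h1 : 1 - S.card / N ≤ ∑ g ∈ S, |thorpPow m t g - 1 / N| := by
    calc 1 - S.card / N = ∑ g ∈ S, (thorpPow m t g - 1 / N) := by
          rw [Finset.sum_sub_distrib, hsum1, Finset.sum_const, nsmul_eq_mul]
          ring
      _ ≤ _ := Finset.sum_le_sum fun g _ => le_abs_self _
  have h2 : ∑ g ∈ Sᶜ, |thorpPow m t g - 1 / N| = 1 - S.card / N := by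
    have h3 : ∀ g ∈ Sᶜ, |thorpPow m t g - 1 / N| = 1 / N := by
      intro g hg
      rw [hz g (Finset.mem_compl.1 hg), zero_sub, abs_neg, abs_of_nonneg (by positivity)]
    rw [Finset.sum_congr rfl h3, Finset.sum_const, nsmul_eq_mul, Finset.card_compl,
      Nat.cast_sub (Finset.card_le_univ S), hcard]
    field_simp
  have h4 : 1 - S.card / N ≤ tvUnif m (thorpPow m t) := by
    unfold tvUnif
    rw [hsplit, h2]
    linarith
  have h5 : 3 / 4 ≤ S.card / N := by linarith
  rw [le_div_iff₀ hN] at h5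
  have h6 : (S.card : ℝ) ≤ 2 ^ (t * m) := by exact_mod_cast hS
  have h7 : (0 : ℝ) ≤ 2 ^ (t * m) := by positivity
  linarith

end Vale.Agent.P162
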