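import Vale.Agent.P162.H8
import Vale.Agent.P162.Lower

open Equiv

set_option linter.unusedSectionVars false

namespace Vale.Agent.P162

theorem sum_geo (N : ℕ) : ∑ j ∈ Finset.range N, ((j : ℝ) + 1) * (1 / 2) ^ j = 4 - (2 * N + 4) * (1 / 2) ^ N := by
  induction N with
  | zero => norm_num
  | succ N ih =>
    rw [Finset.sum_range_succ, ih, pow_succ]
    push_cast
    ring

theorem final_sum (n : ℕ) (C : ℝ) (hC : 1 ≤ C) (a : ℕ → ℝ) (h0 : a 0 ≤ 1)
    (hlow : ∀ j : ℕ, 1 ≤ j → 2 * C * j ≤ n → a j ≤ (C * j / n) ^ j)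
    (hhigh : ∀ j : ℕ, 1 ≤ j → j ≤ n → (n : ℝ) < 2 * C * j → a j ≤ (n.choose j : ℝ) * Real.exp (-(4 * C) * j))
    (hn : 32 * C ≤ n) : ∑ j ∈ Finset.range (n + 1), a j ≤ 1 + 1 / 4 := by
  have hnpos : (0 : ℝ) < (n : ℝ) := by linarith
  rw [Finset.sum_range_succ']
  have hC0 : 0 < C := by linarith
  -- bound for each positive level
  have hb : ∀ j ∈ Finset.range n, a (j + 1) ≤ C / n * (((j : ℝ) + 1) * (1 / 2) ^ j) +
      (n.choose (j + 1) : ℝ) * Real.exp (-(2 * n)) := by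
    intro j hj
    rw [Finset.mem_range] at hj
    have hj0 : (0 : ℝ) ≤ (j : ℝ) := Nat.cast_nonneg _
    by_cases h : 2 * C * ((j + 1 : ℕ) : ℝ) ≤ n
    · have h1 := hlow (j + 1) (by omega) h
      have h2 : C * ((j + 1 : ℕ) : ℝ) / n ≤ 1 / 2 := by
        rw [div_le_iff₀ hnpos]
        linarith
      have h3 : 0 ≤ C * ((j + 1 : ℕ) : ℝ) / n := by positivity
      have h4 : (C * ((j + 1 : ℕ) : ℝ) / n) ^ (j + 1) ≤ (1 / 2) ^ j * (C * ((j + 1 : ℕ) : ℝ) / n) := by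
        rw [pow_succ]
        exact mul_le_mul_of_nonneg_right (pow_le_pow_left₀ h3 h2 j) h3
      have h5 : (1 / 2 : ℝ) ^ j * (C * ((j + 1 : ℕ) : ℝ) / n) = C / n * (((j : ℝ) + 1) * (1 / 2) ^ j) := by
        push_cast
        ring
      have h6 : 0 ≤ (n.choose (j + 1) : ℝ) * Real.exp (-(2 * n)) := by positivity
      linarith
    · push Not at h
      have h1 := hhigh (j + 1) (by omega) (by omega) h
      have h2 : Real.exp (-(4 * C) * ((j + 1 : ℕ) : ℝ)) ≤ Real.exp (-(2 * n)) := by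
        apply Real.exp_le_exp.mpr
        linarith
      have h3 : (n.choose (j + 1) : ℝ) * Real.exp (-(4 * C) * ((j + 1 : ℕ) : ℝ)) ≤ (n.choose (j + 1) : ℝ) * Real.exp (-(2 * n)) :=
        mul_le_mul_of_nonneg_left h2 (Nat.cast_nonneg _)
      have h6 : 0 ≤ C / n * (((j : ℝ) + 1) * (1 / 2) ^ j) := by positivity
      linarith
  have h1 := Finset.sum_le_sum hb
  rw [Finset.sum_add_distrib, ← Finset.mul_sum, sum_geo, ← Finset.sum_mul] at h1
  have h2 : ∑ j ∈ Finset.range n, (n.choose (j + 1) : ℝ) ≤ 2 ^ n := by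
    have h3 : ∑ j ∈ Finset.range (n + 1), (n.choose j) = 2 ^ n := Nat.sum_range_choose n
    have h4 : ∑ j ∈ Finset.range (n + 1), (n.choose j : ℝ) = 2 ^ n := by exact_mod_cast h3
    rw [Finset.sum_range_succ'] at h4
    have h5 : (0 : ℝ) ≤ (n.choose 0 : ℝ) := Nat.cast_nonneg _
    linarith
  have h3 : (2 : ℝ) ^ n * Real.exp (-(2 * n)) ≤ 1 / 8 := by
    have e1 : Real.exp (-(2 * (n : ℝ))) = (Real.exp (-2)) ^ n := by
      rw [← Real.exp_nat_mul]
      congr 1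
      ring
    rw [e1, ← mul_pow]
    have h4 : (2 : ℝ) * Real.exp (-2) ≤ 1 / 2 := by
      have h5 : (4 : ℝ) ≤ Real.exp 2 := by
        have h6 : Real.exp 2 = Real.exp 1 * Real.exp 1 := by
          rw [← Real.exp_add]
          norm_num
        have h7 := Real.add_one_le_exp (1 : ℝ)
        rw [h6]
        nlinarith
      rw [Real.exp_neg, ← div_eq_mul_inv, div_le_iff₀ (Real.exp_pos _)]
      linarith
    have hn32 : 3 ≤ n := by
      have : (3 : ℝ) ≤ n := by linarith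
      exact_mod_cast this
    calc ((2 : ℝ) * Real.exp (-2)) ^ n ≤ (1 / 2) ^ n := pow_le_pow_left₀ (by positivity) h4 n
      _ ≤ (1 / 2) ^ 3 := pow_le_pow_of_le_one (by norm_num) (by norm_num) hn32
      _ = 1 / 8 := by norm_num
  have h4 : C / n * (4 - (2 * (n : ℝ) + 4) * (1 / 2) ^ n) ≤ 1 / 8 := by
    have h5 : C / n ≤ 1 / 32 := by
      rw [div_le_iff₀ hnpos]
      linarith
    have h6 : 4 - (2 * (n : ℝ) + 4) * (1 / 2) ^ n ≤ 4 := by
      have : 0 ≤ (2 * (n : ℝ) + 4) * (1 / 2) ^ n := by positivity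
      linarith
    calc C / n * (4 - (2 * (n : ℝ) + 4) * (1 / 2) ^ n) ≤ C / n * 4 :=
          mul_le_mul_of_nonneg_left h6 (by positivity)
      _ ≤ 1 / 32 * 4 := mul_le_mul_of_nonneg_right h5 (by norm_num)
      _ = 1 / 8 := by norm_num
  have h5 : (∑ j ∈ Finset.range n, (n.choose (j + 1) : ℝ)) * Real.exp (-(2 * n)) ≤ 2 ^ n * Real.exp (-(2 * n)) :=
    mul_le_mul_of_nonneg_right h2 (Real.exp_pos _).le
  linarith

/-- total variation bound for large decks, for any real constant `C` dominating the level constant -/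
theorem tv_large (k r : ℕ) (C : ℝ) (hC : 2 ^ 40 * Real.exp 4721 ≤ C) (hr : 96 * (3600 + 4 * C) ≤ r)
    (hn : 32 * C ≤ ((2 * 2 ^ k : ℕ) : ℝ)) :
    tvUnif (2 ^ k) (thorpPow (2 ^ k) ((k + 1) * (r + 8))) ≤ 1 / 4 := by
  set μ := thorpPow (2 ^ k) ((k + 1) * (r + 8)) with hμ
  have hsum : ∑ g, μ g = 1 := sum_thorpPow _ _
  have h1 := sq_tv_le μ hsum
  have hcard : (Fintype.card (Perm (Fin (2 * 2 ^ k))) : ℝ) = ((2 * 2 ^ k).factorial : ℝ) := by
    rw [Fintype.card_perm, Fintype.card_fin]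
  rw [hcard] at h1
  have he1 : (1 : ℝ) ≤ 2 ^ 40 * Real.exp 4721 := by
    have h2 : (1 : ℝ) ≤ Real.exp 4721 := Real.one_le_exp (by norm_num)
    have h3 : (1 : ℝ) ≤ 2 ^ 40 := one_le_pow₀ (by norm_num)
    nlinarith
  have hC1 : 1 ≤ C := he1.trans hC
  have h220 : (2 : ℝ) ^ 20 ≤ C := by
    have h2 : (1 : ℝ) ≤ Real.exp 4721 := Real.one_le_exp (by norm_num)
    have h3 : (2 : ℝ) ^ 20 ≤ 2 ^ 40 := pow_le_pow_right₀ (by norm_num) (by norm_num)
    have h4 : (0 : ℝ) < 2 ^ 40 := by positivity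
    nlinarith
  have hr320 : 320 ≤ r := by
    have : (320 : ℝ) ≤ r := by linarith
    exact_mod_cast this
  set ρ := regRep (Fin (2 * 2 ^ k)) with hρ
  set δ : EuclideanSpace ℝ (Perm (Fin (2 * 2 ^ k))) := EuclideanSpace.single 1 (1 : ℝ) with hδ
  have hT : opOf ρ μ = (opOf ρ (mu1 k)) ^ (r + 8) := by
    rw [hμ, opOf_thorpPow]
    unfold mu1
    rw [opOf_thorpPow, pow_mul]
  have h2 : ∑ g, μ g ^ 2 = ∑ j ∈ Finset.range (2 * 2 ^ k + 1), ‖((opOf ρ (mu1 k)) ^ (r + 8)) (lvl ρ j δ)‖ ^ 2 := by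
    rw [← norm_sq_T_delta (opOf ρ μ) μ rfl, hT, norm_sq_layers, Fintype.card_fin]
  have h3 : ((2 * 2 ^ k).factorial : ℝ) * ∑ g, μ g ^ 2 ≤ 1 + 1 / 4 := by
    rw [h2, Finset.mul_sum]
    refine final_sum (2 * 2 ^ k) C hC1 (fun j => ((Nat.factorial (2 * 2 ^ k) : ℕ) : ℝ) *
      ‖((opOf ρ (mu1 k)) ^ (r + 8)) (lvl ρ j δ)‖ ^ 2) ?_ ?_ ?_ hn
    · have h4 := mass_high k 0 r (Nat.zero_le _)
      simpa using h4
    · intro j hj hlow
      have hnR : (0 : ℝ) < ((2 * 2 ^ k : ℕ) : ℝ) := by positivity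
      have hjR : (0 : ℝ) ≤ (j : ℝ) := Nat.cast_nonneg _
      have h5 : 2 ^ 20 * j ≤ 2 * 2 ^ k := by
        have : (2 : ℝ) ^ 20 * j ≤ ((2 * 2 ^ k : ℕ) : ℝ) := by nlinarith
        exact_mod_cast this
      refine (mass_low k j r hj h5 hr320).trans ?_
      apply pow_le_pow_left₀ (by positivity)
      apply div_le_div_of_nonneg_right _ hnR.le
      exact mul_le_mul_of_nonneg_right hC hjR
    · intro j hj hjn _
      refine (mass_high k j r hjn).trans ?_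
      apply mul_le_mul_of_nonneg_left _ (Nat.cast_nonneg _)
      apply Real.exp_le_exp.mpr
      have hjR : (0 : ℝ) ≤ (j : ℝ) := Nat.cast_nonneg _
      apply mul_le_mul_of_nonneg_right _ hjR
      linarith
  have h4 : (∑ g : Perm (Fin (2 * 2 ^ k)), |μ g - 1 / ((2 * 2 ^ k).factorial : ℝ)|) ^ 2 ≤ 1 / 4 := by linarith
  have h5 : ∑ g : Perm (Fin (2 * 2 ^ k)), |μ g - 1 / ((2 * 2 ^ k).factorial : ℝ)| ≤ 1 / 2 := by
    apply abs_le_of_sq_le_sq' (a := _) (b := (1 / 2 : ℝ)) _ (by norm_num) |>.2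
    refine h4.trans (by norm_num)
  unfold tvUnif
  linarith

/-- linear mixing time -/
theorem mixing_linear : ∃ C : ℕ, 0 < C ∧ ∀ k t : ℕ, C * (k + 1) ≤ t → tvUnif (2 ^ k) (thorpPow (2 ^ k) t) ≤ 1 / 4 := by
  obtain ⟨C, hC⟩ := exists_nat_ge ((2 : ℝ) ^ 40 * Real.exp 4721)
  obtain ⟨r, hr⟩ : ∃ r : ℕ, r = 96 * (3600 + 4 * C) := ⟨_, rfl⟩
  refine ⟨(r + 8) + 288 * (32 * C + 1), by omega, ?_⟩
  intro k t ht
  by_cases h : 32 * C ≤ 2 * 2 ^ k
  · have h1 := tv_large k r C hC (by rw [hr]; push_cast; linarith) (by exact_mod_cast h)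
    refine (tvUnif_antitone (2 ^ k) ?_).trans h1
    refine le_trans ?_ ht
    have : (k + 1) * (r + 8) ≤ ((r + 8) + 288 * (32 * C + 1)) * (k + 1) := by
      rw [mul_comm]
      apply Nat.mul_le_mul_right
      omega
    exact this
  · push Not at h
    refine (tvUnif_antitone (2 ^ k) ?_).trans (main_tv k)
    refine le_trans ?_ ht
    have h1 : k < 2 ^ k := Nat.lt_two_pow_self
    have h2 : k + 1 ≤ 32 * C + 1 := by omega
    have h3 : 288 * (k + 1) ≤ (r + 8) + 288 * (32 * C + 1) :=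
      (Nat.mul_le_mul_left 288 h2).trans (Nat.le_add_left _ _)
    have h4 : 288 * (k + 1) ^ 2 = (288 * (k + 1)) * (k + 1) := by rw [pow_two, mul_assoc]
    rw [h4]
    exact Nat.mul_le_mul_right (k + 1) h3

end Vale.Agent.P162
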