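import Vale.Agent.P162.Op

open Equiv

set_option linter.unusedSectionVars false

namespace Vale.Agent.P162

/-- uniform average of a real function on a finite type -/
noncomputable def av {α : Type} [Fintype α] (f : α → ℝ) : ℝ := (∑ x, f x) / (Fintype.card α : ℝ)

/-- switch settings of a butterfly network on `Q t` -/
def Net : ℕ → Type
  | 0 => Unit
  | (t + 1) => (Q t → Bool) × Net t × Net t

instance instFintypeNet : (t : ℕ) → Fintype (Net t)
  | 0 => inferInstanceAs (Fintype Unit)
  | (t + 1) => @instFintypeProd (Q t → Bool) (Net t × Net t) _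
      (@instFintypeProd (Net t) (Net t) (instFintypeNet t) (instFintypeNet t))

instance instInhabitedNet : (t : ℕ) → Inhabited (Net t)
  | 0 => inferInstanceAs (Inhabited Unit)
  | (t + 1) => ⟨(fun _ => false, (instInhabitedNet t).default, (instInhabitedNet t).default)⟩

/-- the permutation realised by a butterfly network: first flip the top bit by the coins `c`,
then apply the two sub-networks in the two halves -/
def Rn : (t : ℕ) → Net t → Perm (Q t)
  | 0, _ => 1
  | (t + 1), (c, w0, w1) =>
      (iota (β := Q t) false (Rn t w0) * iota (β := Q t) true (Rn t w1) * hflip (β := Q t) c :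
        Perm (Bool × Q t))

theorem Rn_succ_apply (t : ℕ) (c : Q t → Bool) (w0 w1 : Net t) (b : Bool) (x : Q t) :
    Rn (t + 1) (c, w0, w1) (b, x)
      = (xor b (c x), Rn t (if xor b (c x) then w1 else w0) x) := by
  change (iota (β := Q t) false (Rn t w0) * iota (β := Q t) true (Rn t w1) * hflip (β := Q t) c) (b, x) = _
  rw [Perm.mul_apply, Perm.mul_apply]
  have h1 : hflip (β := Q t) c (b, x) = (xor b (c x), x) := rfl
  rw [h1]
  cases h : xor b (c x) <;> simp [iota]

/-- top `w` layers of a network on `Q s` -/
def Out : ℕ → ℕ → Type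
  | _, 0 => Unit
  | 0, (_ + 1) => Unit
  | (s + 1), (w + 1) => (Q s → Bool) × Out s w × Out s w

instance instFintypeOut : (s w : ℕ) → Fintype (Out s w)
  | 0, 0 => inferInstanceAs (Fintype Unit)
  | (_ + 1), 0 => inferInstanceAs (Fintype Unit)
  | 0, (_ + 1) => inferInstanceAs (Fintype Unit)
  | (s + 1), (w + 1) => @instFintypeProd (Q s → Bool) (Out s w × Out s w) _
      (@instFintypeProd (Out s w) (Out s w) (instFintypeOut s w) (instFintypeOut s w))

instance instInhabitedOut : (s w : ℕ) → Inhabited (Out s w)
  | 0, 0 => inferInstanceAs (Inhabited Unit)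
  | (_ + 1), 0 => inferInstanceAs (Inhabited Unit)
  | 0, (_ + 1) => inferInstanceAs (Inhabited Unit)
  | (s + 1), (w + 1) => ⟨(fun _ => false, (instInhabitedOut s w).default, (instInhabitedOut s w).default)⟩

/-- the permutation realised by the top `w` layers -/
def Outp : (s w : ℕ) → Out s w → Perm (Q s)
  | 0, 0, _ => 1
  | (_ + 1), 0, _ => 1
  | 0, (_ + 1), _ => 1
  | (s + 1), (w + 1), (c, o0, o1) =>
      (iota (β := Q s) false (Outp s w o0) * iota (β := Q s) true (Outp s w o1) * hflip (β := Q s) c :
        Perm (Bool × Q s))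

/-- replace the top `w` layers of a network -/
def comb : (s w : ℕ) → Out s w → Net s → Net s
  | 0, 0, _, n => n
  | (_ + 1), 0, _, n => n
  | 0, (_ + 1), _, n => n
  | (s + 1), (w + 1), (c, o0, o1), (_, w0, w1) => (c, comb s w o0 w0, comb s w o1 w1)

/-- the permutation realised by the layers below the top `w` layers -/
def Inn : (s w : ℕ) → Net s → Perm (Q s)
  | 0, 0, n => Rn 0 n
  | (s + 1), 0, n => Rn (s + 1) n
  | 0, (_ + 1), _ => 1
  | (s + 1), (w + 1), (_, w0, w1) =>
      (iota (β := Q s) false (Inn s w w0) * iota (β := Q s) true (Inn s w w1) : Perm (Bool × Q s))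

section cards

variable {ι : Type} [Fintype ι] [DecidableEq ι]

/-- number of subsets of `I` that meet every class of `x` and every class of `y` in an even number of elements -/
def cc {β : Type} [Fintype β] [DecidableEq β] (I : Finset ι) (x y : ι → β) : ℕ :=
  (I.powerset.filter (fun u => (∀ z : β, Even (u.filter (fun k => x k = z)).card) ∧
    (∀ z : β, Even (u.filter (fun k => y k = z)).card))).card

/-- number of classes of `x` with at least two elements in `I` -/
def full {β : Type} [Fintype β] [DecidableEq β] (I : Finset ι) (x : ι → β) : ℕ :=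
  (Finset.univ.filter (fun z : β => 2 ≤ (I.filter (fun k => x k = z)).card)).card

/-- loop weights: input positions `a`, middle positions `mu`, output network `n` -/
noncomputable def Gx : (t : ℕ) → (e : ℕ → ℝ) → Finset ι → (ι → Q t) → (ι → Q t) → Net t → ℝ
  | 0, _, _, _, _, _ => 1
  | (t + 1), e, I, a, mu, (_, w0, w1) =>
      ((cc I (fun k => (a k).2) (fun k => (Rn t (if (mu k).1 then w1 else w0))⁻¹ (mu k).2) : ℕ) : ℝ) ^ (e t) *
        (Gx t e (I.filter (fun k => (mu k).1 = false)) (fun k => (a k).2) (fun k => (mu k).2) w0 *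
         Gx t e (I.filter (fun k => (mu k).1 = true)) (fun k => (a k).2) (fun k => (mu k).2) w1)

/-- number of full input pairs at the nodes of scale `i` -/
def Dn : (t : ℕ) → (i : ℕ) → Finset ι → (ι → Q t) → (ι → Q t) → ℕ
  | 0, _, _, _, _ => 0
  | (t + 1), i, I, a, mu =>
      (if i = t then full I (fun k => (a k).2) else 0) +
        (Dn t i (I.filter (fun k => (mu k).1 = false)) (fun k => (a k).2) (fun k => (mu k).2) +
         Dn t i (I.filter (fun k => (mu k).1 = true)) (fun k => (a k).2) (fun k => (mu k).2))

/-- probability that two independent networks send the cards of `I` from `a` and from `o` to the same places -/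
noncomputable def KK (t : ℕ) (I : Finset ι) (a o : ι → Q t) : ℝ :=
  av (fun p : Net t × Net t => if ∀ k ∈ I, Rn t p.1 (a k) = Rn t p.2 (o k) then (1 : ℝ) else 0)

end cards

end Vale.Agent.P162
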