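import Vale.Agent.P162.Net
import Vale.Agent.P162.Avg

open Equiv

set_option linter.unusedSectionVars false

namespace Vale.Agent.P162.QS

open Vale.Agent.P162

/-- first return permutation -/
theorem first_return {β K : Type} [DecidableEq β] (π : Perm β) (U : Finset β) :
    ∃ τ : Perm β, (∀ z ∈ U, τ z = z) ∧
      ∀ e : β → K, (∀ z ∈ U, e z = e (π z)) → ∀ z, z ∉ U → e (π z) = e (τ z) := by
  induction U using Finset.induction_on with
  | empty => exact ⟨π, by simp, fun e _ z _ => rfl⟩
  | insert p U hp ih =>
    obtain ⟨τ, h1, h2⟩ := ih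
    refine ⟨swap p (τ p) * τ, ?_, ?_⟩
    · intro z hz
      rcases Finset.mem_insert.1 hz with rfl | hz
      · simp
      · have hzp : z ≠ p := fun h => hp (h ▸ hz)
        have h3 : τ z = z := h1 z hz
        rw [Perm.mul_apply, h3]
        apply swap_apply_of_ne_of_ne hzp
        intro h
        apply hzp
        apply τ.injective
        rw [h3, h]
    · intro e he z hz
      have hzU : z ∉ U := fun h => hz (Finset.mem_insert_of_mem h)
      have h4 := h2 e (fun y hy => he y (Finset.mem_insert_of_mem hy))
      have h5 : e p = e (τ p) := by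
        rw [he p (Finset.mem_insert_self p U)]
        exact h4 p hp
      have h6 : ∀ y, e (swap p (τ p) y) = e y := by
        intro y
        by_cases hy : y = p
        · rw [hy, swap_apply_left, h5]
        · by_cases hy' : y = τ p
          · rw [hy', swap_apply_right, h5]
          · rw [swap_apply_of_ne_of_ne hy hy']
      rw [Perm.mul_apply, h6]
      exact h4 z hzU

section wt

variable {β K : Type} [Fintype β] [DecidableEq β] [Fintype K] [DecidableEq K] [Zero K]

/-- weight of a colouring -/
noncomputable def wt (r : ℝ) (c : β → K) : ℝ := ∏ z, if c z = 0 then (1 : ℝ) else r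

/-- colourings supported in `D` -/
def FS (D : Finset β) : Finset (β → K) := Finset.univ.filter (fun c => ∀ z, z ∉ D → c z = 0)

theorem mem_FS {D : Finset β} {c : β → K} : c ∈ FS D ↔ ∀ z, z ∉ D → c z = 0 := by
  simp [FS]

theorem wt_eq (r : ℝ) (c : β → K) : wt r c = r ^ (Finset.univ.filter (fun z => c z ≠ 0)).card := by
  unfold wt
  rw [Finset.prod_ite, Finset.prod_const_one, one_mul, Finset.prod_const]

theorem wt_nonneg {r : ℝ} (hr : 0 ≤ r) (c : β → K) : 0 ≤ wt r c := by
  unfold wt
  apply Finset.prod_nonneg
  intro z _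
  split_ifs
  · exact zero_le_one
  · exact hr

theorem wt_perm (r : ℝ) (c : β → K) (P : Perm β) : wt r (fun z => c (P z)) = wt r c := by
  unfold wt
  exact Equiv.prod_comp P (fun z => if c z = 0 then (1 : ℝ) else r)

theorem wt_mul (r s : ℝ) (c : β → K) : wt r c * wt s c = wt (r * s) c := by
  unfold wt
  rw [← Finset.prod_mul_distrib]
  apply Finset.prod_congr rfl
  intro z _
  split_ifs <;> simp

theorem wt_mono_zero {r : ℝ} (hr0 : 0 ≤ r) (hr1 : r ≤ 1) (c c' : β → K) (h : ∀ z, c z = 0 → c' z = 0) :
    wt r c ≤ wt r c' := by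
  unfold wt
  apply Finset.prod_le_prod
  · intro z _
    split_ifs
    · exact zero_le_one
    · exact hr0
  · intro z _
    by_cases h1 : c z = 0
    · rw [if_pos h1, if_pos (h z h1)]
    · rw [if_neg h1]
      split_ifs
      · exact hr1
      · exact le_refl _

/-- the total weight of colourings supported in `D` -/
theorem sum_wt (r : ℝ) (D : Finset β) :
    ∑ c ∈ (FS D : Finset (β → K)), wt r c = (1 + ((Fintype.card K : ℝ) - 1) * r) ^ D.card := by
  have h1 : ∀ c : β → K, (if (∀ z, z ∉ D → c z = 0) then wt r c else 0)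
      = ∏ z, (if z ∈ D then (if c z = 0 then (1 : ℝ) else r) else (if c z = 0 then 1 else 0)) := by
    intro c
    split_ifs with h
    · unfold wt
      apply Finset.prod_congr rfl
      intro z _
      by_cases hz : z ∈ D
      · rw [if_pos hz]
      · rw [if_neg hz, if_pos (h z hz), if_pos (h z hz)]
    · push Not at h
      obtain ⟨z, hz, hc⟩ := h
      symm
      apply Finset.prod_eq_zero (Finset.mem_univ z)
      rw [if_neg hz, if_neg hc]
  unfold FS
  rw [Finset.sum_filter]
  rw [Finset.sum_congr rfl (fun c _ => h1 c)]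
  have h2 := Finset.prod_univ_sum (fun _ : β => (Finset.univ : Finset K))
    (fun z k => if z ∈ D then (if k = 0 then (1 : ℝ) else r) else (if k = 0 then 1 else 0))
  rw [Fintype.piFinset_univ] at h2
  rw [← h2]
  have h3 : ∀ z : β, (∑ k : K, (if z ∈ D then (if k = 0 then (1 : ℝ) else r) else (if k = 0 then 1 else 0)))
      = if z ∈ D then (1 + ((Fintype.card K : ℝ) - 1) * r) else 1 := by
    intro z
    by_cases hz : z ∈ D
    · simp only [if_pos hz]
      rw [Finset.sum_ite, Finset.sum_const, Finset.sum_const]
      have h4 : (Finset.univ.filter (fun k : K => k = 0)).card = 1 := by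
        rw [Finset.filter_eq' Finset.univ (0 : K)]
        simp
      have h5 : (Finset.univ.filter (fun k : K => ¬ k = 0)).card = Fintype.card K - 1 := by
        rw [Finset.filter_not, Finset.card_sdiff_of_subset (Finset.filter_subset _ _), h4, Finset.card_univ]
      rw [h4, h5, nsmul_eq_mul, nsmul_eq_mul, Nat.cast_sub (Fintype.card_pos_iff.2 ⟨0⟩)]
      simp
    · simp only [if_neg hz]
      simp
  rw [Finset.prod_congr rfl (fun z _ => h3 z), Finset.prod_ite, Finset.prod_const_one, mul_one,
    Finset.prod_const]
  congr 2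
  ext z
  simp

/-- half weight as a probability -/
theorem av_agree (c : β → K) :
    av (fun q : (β → Bool) × (β → Bool) => if ∀ z, q.1 z ≠ q.2 z → c z = 0 then (1 : ℝ) else 0)
      = wt (1 / 2) c := by
  rw [Avg.prod_swap]
  have key : ∀ h' : β → Bool,
      av (fun h : β → Bool => if ∀ z, h z ≠ h' z → c z = 0 then (1 : ℝ) else 0) = wt (1 / 2) c := by
    intro h'
    have h1 : ∀ h : β → Bool, (if ∀ z, h z ≠ h' z → c z = 0 then (1 : ℝ) else 0)
        = ∏ z, (if h z = h' z ∨ c z = 0 then (1 : ℝ) else 0) := by
      intro h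
      split_ifs with hh
      · symm
        apply Finset.prod_eq_one
        intro z _
        rw [if_pos]
        by_cases h2 : h z = h' z
        · exact Or.inl h2
        · exact Or.inr (hh z h2)
      · push Not at hh
        obtain ⟨z, hz, hc⟩ := hh
        symm
        apply Finset.prod_eq_zero (Finset.mem_univ z)
        rw [if_neg]
        push Not
        exact ⟨hz, hc⟩
    unfold av
    rw [Finset.sum_congr rfl (fun h _ => h1 h)]
    have h2 := Finset.prod_univ_sum (fun _ : β => (Finset.univ : Finset Bool))
      (fun z b => if b = h' z ∨ c z = 0 then (1 : ℝ) else 0)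
    rw [Fintype.piFinset_univ] at h2
    rw [← h2, Fintype.card_fun, Fintype.card_bool]
    unfold wt
    have h3 : ((2 ^ Fintype.card β : ℕ) : ℝ) = ∏ _z : β, (2 : ℝ) := by
      rw [Finset.prod_const, Finset.card_univ]
      norm_num
    rw [h3, ← Finset.prod_div_distrib]
    apply Finset.prod_congr rfl
    intro z _
    rw [Fintype.sum_bool]
    by_cases hc : c z = 0
    · simp [hc]
    · simp only [hc, or_false, if_false]
      cases h' z <;> simp
  rw [show (fun y : β → Bool => av (fun x : β → Bool =>
      if ∀ z, (x, y).1 z ≠ (x, y).2 z → c z = 0 then (1 : ℝ) else 0)) = fun _ => wt (1 / 2) c from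
    funext key]
  exact Avg.const _

end wt

section inj

variable {β K : Type} [Fintype β] [DecidableEq β] [Fintype K] [DecidableEq K] [Zero K]

/-- removal of the cycles that meet `T` -/
theorem sum_c0 (D : Finset β) (P P' : Perm β) (T : β → Prop) [DecidablePred T] (g : β → K) (r : ℝ)
    (hr0 : 0 ≤ r) (hr1 : r ≤ 1) :
    ∑ c ∈ (FS D : Finset (β → K)), wt r c *
        (if (∀ z, T z → c (P z) = g z) ∧ (∀ z, ¬ T z → c (P z) = c (P' z)) then (1 : ℝ) else 0)
      ≤ ∑ c ∈ (FS D : Finset (β → K)), wt r c *
        (if (∀ z, c (P z) = c (P' z)) ∧ (∀ z, T z → c (P z) = 0) then (1 : ℝ) else 0) := by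
  classical
  simp only [mul_ite, mul_one, mul_zero]
  rw [← Finset.sum_filter, ← Finset.sum_filter]
  set π : Perm β := P⁻¹ * P' with hπ
  have hP' : ∀ z, P' z = P (π z) := by
    intro z
    rw [hπ, Perm.mul_apply]
    simp
  let hits : β → Prop := fun z => ∃ n : ℕ, T ((π ^ n) z)
  let ic : (β → K) → (β → K) := fun c x => if hits (P⁻¹ x) then 0 else c x
  have hic : ∀ c z, ic c (P z) = if hits z then 0 else c (P z) := by
    intro c z
    show (if hits (P⁻¹ (P z)) then 0 else c (P z)) = _
    rw [show P⁻¹ (P z) = z by simp]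
  have hits0 : ∀ z, T z → hits z := fun z hz => ⟨0, by simpa using hz⟩
  have hits_step : ∀ z, ¬ T z → (hits z ↔ hits (π z)) := by
    intro z hz
    constructor
    · rintro ⟨n, hn⟩
      cases n with
      | zero => exact absurd (by simpa using hn) hz
      | succ n => exact ⟨n, by rw [← Perm.mul_apply, ← pow_succ]; exact hn⟩
    · rintro ⟨n, hn⟩
      exact ⟨n + 1, by rw [pow_succ, Perm.mul_apply]; exact hn⟩
  have hits_T : ∀ z, T z → hits (π z) := by
    intro z hz
    refine ⟨orderOf π - 1, ?_⟩
    rw [← Perm.mul_apply, ← pow_succ, Nat.sub_add_cancel (orderOf_pos π), pow_orderOf_eq_one]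
    exact hz
  have hinj : Set.InjOn ic (((FS D : Finset (β → K)).filter
      (fun c => (∀ z, T z → c (P z) = g z) ∧ (∀ z, ¬ T z → c (P z) = c (P' z))) : Finset (β → K)) :
      Set (β → K)) := by
    intro c hc c' hc' h
    rw [Finset.mem_coe, Finset.mem_filter] at hc hc'
    obtain ⟨_, hc1, hc2⟩ := hc
    obtain ⟨_, hc1', hc2'⟩ := hc'
    have claim : ∀ n : ℕ, ∀ z, T ((π ^ n) z) → c (P z) = c' (P z) := by
      intro n
      induction n with
      | zero =>
        intro z hz
        have hz' : T z := by simpa using hz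
        rw [hc1 z hz', hc1' z hz']
      | succ n ih =>
        intro z hz
        by_cases hT : T z
        · rw [hc1 z hT, hc1' z hT]
        · rw [hc2 z hT, hc2' z hT, hP' z]
          apply ih
          rw [← Perm.mul_apply, ← pow_succ]
          exact hz
    funext x
    have hx : P (P⁻¹ x) = x := by simp
    by_cases hh : hits (P⁻¹ x)
    · obtain ⟨n, hn⟩ := hh
      have := claim n _ hn
      rwa [hx] at this
    · have := congrFun h x
      simpa only [ic, if_neg hh] using this
  calc ∑ c ∈ (FS D : Finset (β → K)).filter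
          (fun c => (∀ z, T z → c (P z) = g z) ∧ (∀ z, ¬ T z → c (P z) = c (P' z))), wt r c
      ≤ ∑ c ∈ (FS D : Finset (β → K)).filter
          (fun c => (∀ z, T z → c (P z) = g z) ∧ (∀ z, ¬ T z → c (P z) = c (P' z))), wt r (ic c) := by
        apply Finset.sum_le_sum
        intro c _
        apply wt_mono_zero hr0 hr1
        intro z hz
        simp only [ic]
        split_ifs
        · rfl
        · exact hz
    _ = ∑ c ∈ ((FS D : Finset (β → K)).filter
          (fun c => (∀ z, T z → c (P z) = g z) ∧ (∀ z, ¬ T z → c (P z) = c (P' z)))).image ic, wt r c := by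
        rw [Finset.sum_image hinj]
    _ ≤ _ := by
        apply Finset.sum_le_sum_of_subset_of_nonneg
        · intro d hd
          rw [Finset.mem_image] at hd
          obtain ⟨c, hc, rfl⟩ := hd
          rw [Finset.mem_filter, mem_FS] at hc
          obtain ⟨hc0, hc1, hc2⟩ := hc
          rw [Finset.mem_filter, mem_FS]
          refine ⟨?_, ?_, ?_⟩
          · intro z hz
            simp only [ic]
            split_ifs
            · rfl
            · exact hc0 z hz
          · intro z
            rw [hP' z, hic, hic]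
            by_cases hT : T z
            · rw [if_pos (hits0 z hT), if_pos (hits_T z hT)]
            · by_cases hh : hits z
              · rw [if_pos hh, if_pos ((hits_step z hT).1 hh)]
              · rw [if_neg hh, if_neg (fun h => hh ((hits_step z hT).2 h)), hc2 z hT, hP' z]
          · intro z hT
            rw [hic, if_pos (hits0 z hT)]
        · intro c _ _
          exact wt_nonneg hr0 c

end inj

section cs

variable {Ω γ : Type} [Fintype Ω] [Fintype γ] [DecidableEq γ]

theorem sum_agree (X Y : Ω → γ) :
    ∑ p : Ω × Ω, (if X p.1 = Y p.2 then (1 : ℝ) else 0)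
      = ∑ f : γ, (∑ o : Ω, if X o = f then (1 : ℝ) else 0) * (∑ o : Ω, if Y o = f then (1 : ℝ) else 0) := by
  rw [Fintype.sum_prod_type]
  simp_rw [Finset.sum_mul_sum]
  symm
  rw [Finset.sum_comm]
  apply Finset.sum_congr rfl
  intro o _
  rw [Finset.sum_comm]
  apply Finset.sum_congr rfl
  intro o' _
  simp [eq_comm]

theorem av_agree_le (X Y : Ω → γ) :
    av (fun p : Ω × Ω => if X p.1 = Y p.2 then (1 : ℝ) else 0)
      ≤ (av (fun p : Ω × Ω => if X p.1 = X p.2 then (1 : ℝ) else 0)
        + av (fun p : Ω × Ω => if Y p.1 = Y p.2 then (1 : ℝ) else 0)) / 2 := by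
  unfold av
  rw [← add_div, div_div, mul_comm, ← div_div]
  apply div_le_div_of_nonneg_right _ (Nat.cast_nonneg _)
  rw [sum_agree X Y, sum_agree X X, sum_agree Y Y, le_div_iff₀ (by norm_num : (0 : ℝ) < 2),
    ← Finset.sum_add_distrib, Finset.sum_mul]
  apply Finset.sum_le_sum
  intro f _
  nlinarith [sq_nonneg ((∑ o : Ω, if X o = f then (1 : ℝ) else 0) - (∑ o : Ω, if Y o = f then (1 : ℝ) else 0))]

theorem av_comm {α β : Type} [Fintype α] [Fintype β] (F : α → β → ℝ) :
    av (fun x => av (fun y => F x y)) = av (fun y => av (fun x => F x y)) := by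
  have h1 := Avg.prod (fun p : α × β => F p.1 p.2)
  have h2 := Avg.prod_swap (fun p : α × β => F p.1 p.2)
  exact h1.symm.trans h2

theorem av_equiv {α β : Type} [Fintype α] [Fintype β] (e : α ≃ β) (f : β → ℝ) :
    av (fun x => f (e x)) = av f := by
  unfold av
  rw [Fintype.card_congr e, Equiv.sum_comp e f]

end cs

end Vale.Agent.P162.QS
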