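import Vale.Agent.P162.QS1

open Equiv

set_option linter.unusedSectionVars false

namespace Vale.Agent.P162.QS

open Vale.Agent.P162

section step

variable {β K Ω : Type} [Fintype β] [DecidableEq β] [Fintype K] [DecidableEq K] [Zero K]
variable [Fintype Ω] [Nonempty Ω]

variable (K) in
noncomputable def Phi (P : Ω → Perm β) (r : ℝ) (D : Finset β) : ℝ :=
  ∑ c ∈ (FS D : Finset (β → K)), wt r c *
    av (fun p : Ω × Ω => if ∀ z, c (P p.1 z) = c (P p.2 z) then (1 : ℝ) else 0)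

def Ev (P : Ω → Perm β) (c0 c1 : β → K) (q : (β → Bool) × (β → Bool)) (p0 p1 : Ω × Ω) : Prop :=
  ∀ z, (q.1 z = q.2 z → c0 (P p0.1 z) = c0 (P p0.2 z) ∧ c1 (P p1.1 z) = c1 (P p1.2 z)) ∧
    (q.1 z ≠ q.2 z → c0 (P p0.1 z) = c1 (P p1.2 z) ∧ c1 (P p1.1 z) = c0 (P p0.2 z))

instance (P : Ω → Perm β) (c0 c1 : β → K) (q : (β → Bool) × (β → Bool)) (p0 p1 : Ω × Ω) :
    Decidable (Ev P c0 c1 q p0 p1) := by
  unfold Ev
  infer_instance

theorem Ev_symm (P : Ω → Perm β) (c0 c1 : β → K) (q : (β → Bool) × (β → Bool)) (p0 p1 : Ω × Ω) :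
    Ev P c0 c1 q p0 p1 ↔ Ev P c1 c0 q p1 p0 := by
  unfold Ev
  constructor
  · intro h z
    exact ⟨fun hz => ⟨((h z).1 hz).2, ((h z).1 hz).1⟩, fun hz => ⟨((h z).2 hz).2, ((h z).2 hz).1⟩⟩
  · intro h z
    exact ⟨fun hz => ⟨((h z).1 hz).2, ((h z).1 hz).1⟩, fun hz => ⟨((h z).2 hz).2, ((h z).2 hz).1⟩⟩

variable (K) in
noncomputable def GG (P : Ω → Perm β) (r : ℝ) (D0 D1 : Finset β) : ℝ :=
  av (fun q : (β → Bool) × (β → Bool) => av (fun p0 : Ω × Ω => av (fun p1 : Ω × Ω =>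
    ∑ c0 ∈ (FS D0 : Finset (β → K)), ∑ c1 ∈ (FS D1 : Finset (β → K)),
      wt r c0 * wt r c1 * (if Ev P c0 c1 q p0 p1 then (1 : ℝ) else 0))))

theorem GG_symm (P : Ω → Perm β) (r : ℝ) (D0 D1 : Finset β) : GG K P r D0 D1 = GG K P r D1 D0 := by
  have key : ∀ (q : (β → Bool) × (β → Bool)) (p0 p1 : Ω × Ω),
      ∑ c0 ∈ (FS D0 : Finset (β → K)), ∑ c1 ∈ (FS D1 : Finset (β → K)),
        wt r c0 * wt r c1 * (if Ev P c0 c1 q p0 p1 then (1 : ℝ) else 0)
      = ∑ c0 ∈ (FS D1 : Finset (β → K)), ∑ c1 ∈ (FS D0 : Finset (β → K)),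
        wt r c0 * wt r c1 * (if Ev P c0 c1 q p1 p0 then (1 : ℝ) else 0) := by
    intro q p0 p1
    rw [Finset.sum_comm]
    apply Finset.sum_congr rfl
    intro c1 _
    apply Finset.sum_congr rfl
    intro c0 _
    rw [if_congr (Ev_symm P c0 c1 q p0 p1) rfl rfl, mul_comm (wt r c0)]
  unfold GG
  simp only [key]
  apply congrArg av
  funext q
  exact av_comm _

theorem Phi_nonneg (P : Ω → Perm β) {r : ℝ} (hr : 0 ≤ r) (D : Finset β) : 0 ≤ Phi K P r D := by
  unfold Phi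
  apply Finset.sum_nonneg
  intro c _
  apply mul_nonneg (wt_nonneg hr c)
  apply Avg.nonneg
  intro p
  split_ifs <;> norm_num

/-- weights of the colourings of the other half -/
noncomputable def YY (P : Ω → Perm β) (r : ℝ) (D0 : Finset β) (q : (β → Bool) × (β → Bool))
    (p0 : Ω × Ω) (K : Type) [Fintype K] [DecidableEq K] [Zero K] : ℝ :=
  ∑ c0 ∈ (FS D0 : Finset (β → K)), wt r c0 *
    (if (∀ z, c0 (P p0.1 z) = c0 (P p0.2 z)) ∧ (∀ z, q.1 z ≠ q.2 z → c0 (P p0.1 z) = 0)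
      then (1 : ℝ) else 0)

theorem av_tau (P : Ω → Perm β) (τ : Perm β) (c1 : β → K) :
    av (fun p1 : Ω × Ω => if (∀ z, c1 (P p1.1 z) = c1 (P p1.2 (τ z))) then (1 : ℝ) else 0)
      ≤ av (fun p1 : Ω × Ω => if (∀ z, c1 (P p1.1 z) = c1 (P p1.2 z)) then (1 : ℝ) else 0) := by
  have h := av_agree_le (Ω := Ω) (γ := β → K) (fun o z => c1 (P o z)) (fun o z => c1 (P o (τ z)))
  have e1 : ∀ p1 : Ω × Ω, (if (fun z => c1 (P p1.1 z)) = (fun z => c1 (P p1.2 (τ z))) then (1 : ℝ) else 0)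
      = if (∀ z, c1 (P p1.1 z) = c1 (P p1.2 (τ z))) then (1 : ℝ) else 0 := by
    intro p1
    apply if_congr _ rfl rfl
    exact funext_iff
  have e2 : ∀ p1 : Ω × Ω, (if (fun z => c1 (P p1.1 z)) = (fun z => c1 (P p1.2 z)) then (1 : ℝ) else 0)
      = if (∀ z, c1 (P p1.1 z) = c1 (P p1.2 z)) then (1 : ℝ) else 0 := by
    intro p1
    apply if_congr _ rfl rfl
    exact funext_iff
  have e3 : ∀ p1 : Ω × Ω, (if (fun z => c1 (P p1.1 (τ z))) = (fun z => c1 (P p1.2 (τ z))) then (1 : ℝ) else 0)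
      = if (∀ z, c1 (P p1.1 z) = c1 (P p1.2 z)) then (1 : ℝ) else 0 := by
    intro p1
    apply if_congr _ rfl rfl
    rw [funext_iff]
    constructor
    · intro hh z
      have := hh (τ.symm z)
      simpa using this
    · intro hh z
      exact hh (τ z)
  simp only [e1, e2, e3] at h
  linarith

theorem stepG (P : Ω → Perm β) (r : ℝ) (hr0 : 0 ≤ r) (hr1 : r ≤ 1) (D0 D1 : Finset β) :
    GG K P r D0 D1 ≤ Phi K P r D1 * Phi K P (r / 2) D0 := by
  have main : ∀ (q : (β → Bool) × (β → Bool)) (p0 : Ω × Ω),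
      av (fun p1 : Ω × Ω => ∑ c0 ∈ (FS D0 : Finset (β → K)), ∑ c1 ∈ (FS D1 : Finset (β → K)),
        wt r c0 * wt r c1 * (if Ev P c0 c1 q p0 p1 then (1 : ℝ) else 0))
      ≤ Phi K P r D1 * YY P r D0 q p0 K := by
    intro q p0
    obtain ⟨τ, hτ1, hτ2⟩ := first_return (K := K) ((P p0.1)⁻¹ * P p0.2)
      (Finset.univ.filter (fun z => q.1 z = q.2 z))
    have hYY : 0 ≤ YY P r D0 q p0 K := by
      unfold YY
      apply Finset.sum_nonneg
      intro c _
      apply mul_nonneg (wt_nonneg hr0 c)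
      split_ifs <;> norm_num
    have step1 : ∀ p1 : Ω × Ω, ∑ c0 ∈ (FS D0 : Finset (β → K)), ∑ c1 ∈ (FS D1 : Finset (β → K)),
        wt r c0 * wt r c1 * (if Ev P c0 c1 q p0 p1 then (1 : ℝ) else 0)
        ≤ ∑ c1 ∈ (FS D1 : Finset (β → K)), wt r c1 *
          (if (∀ z, c1 (P p1.1 z) = c1 (P p1.2 (τ z))) then (1 : ℝ) else 0) * YY P r D0 q p0 K := by
      intro p1
      rw [Finset.sum_comm]
      apply Finset.sum_le_sum
      intro c1 _
      have h2 : ∀ c0 : β → K, wt r c0 * wt r c1 * (if Ev P c0 c1 q p0 p1 then (1 : ℝ) else 0)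
          ≤ wt r c1 * (if (∀ z, c1 (P p1.1 z) = c1 (P p1.2 (τ z))) then (1 : ℝ) else 0) *
            (wt r c0 * (if (∀ z, q.1 z ≠ q.2 z → c0 (P p0.1 z) = c1 (P p1.2 z)) ∧
              (∀ z, ¬ q.1 z ≠ q.2 z → c0 (P p0.1 z) = c0 (P p0.2 z)) then (1 : ℝ) else 0)) := by
        intro c0
        by_cases hE : Ev P c0 c1 q p0 p1
        · have hA : ∀ z, c1 (P p1.1 z) = c1 (P p1.2 (τ z)) := by
            have he := hτ2 (fun z => c0 (P p0.1 z)) (by
              intro z hz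
              have hz' : q.1 z = q.2 z := by simpa using hz
              have := ((hE z).1 hz').1
              simpa using this)
            intro z
            by_cases hz : q.1 z = q.2 z
            · rw [hτ1 z (by simpa using hz)]
              exact ((hE z).1 hz).2
            · have hz1 : z ∉ Finset.univ.filter (fun z => q.1 z = q.2 z) := by simpa using hz
              have h3 := he z hz1
              have h4 : q.1 (τ z) ≠ q.2 (τ z) := by
                intro h5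
                have h6 := hτ1 (τ z) (by simpa using h5)
                have h7 := τ.injective h6
                rw [h7] at h5
                exact hz h5
              rw [((hE z).2 hz).2, ← ((hE (τ z)).2 h4).1, ← h3]
              simp
          have hB : (∀ z, q.1 z ≠ q.2 z → c0 (P p0.1 z) = c1 (P p1.2 z)) ∧
              (∀ z, ¬ q.1 z ≠ q.2 z → c0 (P p0.1 z) = c0 (P p0.2 z)) :=
            ⟨fun z hz => ((hE z).2 hz).1, fun z hz => ((hE z).1 (not_not.1 hz)).1⟩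
          rw [if_pos hE, if_pos hA, if_pos hB]
          simp only [mul_one]
          rw [mul_comm]
        · rw [if_neg hE, mul_zero]
          apply mul_nonneg
          · apply mul_nonneg (wt_nonneg hr0 c1)
            split_ifs <;> norm_num
          · apply mul_nonneg (wt_nonneg hr0 c0)
            split_ifs <;> norm_num
      calc ∑ c0 ∈ (FS D0 : Finset (β → K)), wt r c0 * wt r c1 * (if Ev P c0 c1 q p0 p1 then (1 : ℝ) else 0)
          ≤ ∑ c0 ∈ (FS D0 : Finset (β → K)),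
            wt r c1 * (if (∀ z, c1 (P p1.1 z) = c1 (P p1.2 (τ z))) then (1 : ℝ) else 0) *
            (wt r c0 * (if (∀ z, q.1 z ≠ q.2 z → c0 (P p0.1 z) = c1 (P p1.2 z)) ∧
              (∀ z, ¬ q.1 z ≠ q.2 z → c0 (P p0.1 z) = c0 (P p0.2 z)) then (1 : ℝ) else 0)) :=
            Finset.sum_le_sum fun c0 _ => h2 c0
        _ = wt r c1 * (if (∀ z, c1 (P p1.1 z) = c1 (P p1.2 (τ z))) then (1 : ℝ) else 0) *
            ∑ c0 ∈ (FS D0 : Finset (β → K)),
            (wt r c0 * (if (∀ z, q.1 z ≠ q.2 z → c0 (P p0.1 z) = c1 (P p1.2 z)) ∧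
              (∀ z, ¬ q.1 z ≠ q.2 z → c0 (P p0.1 z) = c0 (P p0.2 z)) then (1 : ℝ) else 0)) := by
            rw [Finset.mul_sum]
        _ ≤ _ := by
            apply mul_le_mul_of_nonneg_left
            · exact sum_c0 D0 (P p0.1) (P p0.2) (fun z => q.1 z ≠ q.2 z) (fun z => c1 (P p1.2 z)) r hr0 hr1
            · apply mul_nonneg (wt_nonneg hr0 c1)
              split_ifs <;> norm_num
    refine le_trans (Avg.mono step1) ?_
    rw [Avg.sum]
    unfold Phi
    rw [Finset.sum_mul]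
    apply Finset.sum_le_sum
    intro c1 _
    rw [Avg.mul_const, Avg.const_mul]
    apply mul_le_mul_of_nonneg_right _ hYY
    exact mul_le_mul_of_nonneg_left (av_tau P τ c1) (wt_nonneg hr0 c1)
  unfold GG
  refine le_trans (Avg.mono fun q => Avg.mono fun p0 => main q p0) ?_
  have h3 : av (fun q : (β → Bool) × (β → Bool) => av (fun p0 : Ω × Ω => Phi K P r D1 * YY P r D0 q p0 K))
      = Phi K P r D1 * av (fun q : (β → Bool) × (β → Bool) => av (fun p0 : Ω × Ω => YY P r D0 q p0 K)) := by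
    rw [← Avg.const_mul]
    congr 1
    funext q
    rw [Avg.const_mul]
  rw [h3]
  apply mul_le_mul_of_nonneg_left _ (Phi_nonneg P hr0 D1)
  apply le_of_eq
  rw [← Avg.prod (fun p : ((β → Bool) × (β → Bool)) × (Ω × Ω) => YY P r D0 p.1 p.2 K), Avg.prod_swap]
  have h4 : ∀ p0 : Ω × Ω, av (fun q : (β → Bool) × (β → Bool) => YY P r D0 q p0 K)
      = ∑ c0 ∈ (FS D0 : Finset (β → K)), wt (r / 2) c0 *
        (if (∀ z, c0 (P p0.1 z) = c0 (P p0.2 z)) then (1 : ℝ) else 0) := by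
    intro p0
    unfold YY
    rw [Avg.sum]
    apply Finset.sum_congr rfl
    intro c0 _
    rw [Avg.const_mul]
    by_cases hA : ∀ z, c0 (P p0.1 z) = c0 (P p0.2 z)
    · have h5 : (fun q : (β → Bool) × (β → Bool) =>
          if (∀ z, c0 (P p0.1 z) = c0 (P p0.2 z)) ∧ (∀ z, q.1 z ≠ q.2 z → c0 (P p0.1 z) = 0)
          then (1 : ℝ) else 0) = fun q => if (∀ z, q.1 z ≠ q.2 z → (fun z => c0 (P p0.1 z)) z = 0)
          then (1 : ℝ) else 0 := by
        funext q
        apply if_congr _ rfl rfl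
        exact ⟨fun h => h.2, fun h => ⟨hA, h⟩⟩
      rw [h5, av_agree, wt_perm, wt_mul, if_pos hA, mul_one]
      congr 1
      ring
    · have h5 : (fun q : (β → Bool) × (β → Bool) =>
          if (∀ z, c0 (P p0.1 z) = c0 (P p0.2 z)) ∧ (∀ z, q.1 z ≠ q.2 z → c0 (P p0.1 z) = 0)
          then (1 : ℝ) else 0) = fun q => 0 := by
        funext q
        rw [if_neg]
        exact fun h => hA h.1
      rw [h5, Avg.const, if_neg hA, mul_zero, mul_zero]
  have h6 : (fun p0 : Ω × Ω => av (fun q : (β → Bool) × (β → Bool) => YY P r D0 (q, p0).1 (q, p0).2 K))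
      = fun p0 : Ω × Ω => ∑ c0 ∈ (FS D0 : Finset (β → K)), wt (r / 2) c0 *
        (if (∀ z, c0 (P p0.1 z) = c0 (P p0.2 z)) then (1 : ℝ) else 0) := funext h4
  rw [h6, Avg.sum]
  unfold Phi
  apply Finset.sum_congr rfl
  intro c0 _
  rw [Avg.const_mul]

end step

end Vale.Agent.P162.QS
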