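import Vale.Agent.P162.Net

open Equiv

set_option linter.unusedSectionVars false

namespace Vale.Agent.P162

theorem win_av_prod {α β : Type} [Fintype α] [Fintype β] (f : α × β → ℝ) :
    av f = av (fun a => av (fun b => f (a, b))) := by
  unfold av
  rw [Fintype.sum_prod_type, Fintype.card_prod, Nat.cast_mul, ← Finset.sum_div, div_div,
    mul_comm (Fintype.card α : ℝ)]

theorem win_av_mono {α : Type} [Fintype α] {f g : α → ℝ} (h : ∀ a, f a ≤ g a) : av f ≤ av g := by
  unfold av
  exact div_le_div_of_nonneg_right (Finset.sum_le_sum (fun a _ => h a)) (Nat.cast_nonneg _)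

theorem win_av_nonneg {α : Type} [Fintype α] {f : α → ℝ} (h : ∀ a, 0 ≤ f a) : 0 ≤ av f := by
  unfold av
  exact div_nonneg (Finset.sum_nonneg (fun a _ => h a)) (Nat.cast_nonneg _)

theorem win_av_const {α : Type} [Fintype α] [Nonempty α] (c : ℝ) : av (fun _ : α => c) = c := by
  unfold av
  rw [Finset.sum_const, Finset.card_univ, nsmul_eq_mul]
  have : (Fintype.card α : ℝ) ≠ 0 := Nat.cast_ne_zero.2 Fintype.card_ne_zero
  field_simp

theorem win_av_const_mul {α : Type} [Fintype α] (c : ℝ) (f : α → ℝ) :
    av (fun a => c * f a) = c * av f := by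
  unfold av
  rw [← Finset.mul_sum, mul_div_assoc]

theorem win_av_mul_const {α : Type} [Fintype α] (c : ℝ) (f : α → ℝ) :
    av (fun a => f a * c) = av f * c := by
  unfold av
  rw [← Finset.sum_mul, div_mul_eq_mul_div]

theorem win_av_sum {α κ : Type} [Fintype α] (s : Finset κ) (f : κ → α → ℝ) :
    av (fun a => ∑ i ∈ s, f i a) = ∑ i ∈ s, av (f i) := by
  unfold av
  rw [Finset.sum_comm, Finset.sum_div]

theorem win_av_comm {α β : Type} [Fintype α] [Fintype β] (f : α → β → ℝ) :
    av (fun a => av (fun b => f a b)) = av (fun b => av (fun a => f a b)) := by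
  unfold av
  rw [← Finset.sum_div, ← Finset.sum_div, Finset.sum_comm, div_div, div_div, mul_comm]

theorem win_av_mul {α β : Type} [Fintype α] [Fintype β] (f : α → ℝ) (g : β → ℝ) :
    av (fun p : α × β => f p.1 * g p.2) = av f * av g := by
  rw [win_av_prod]
  have : (fun a => av (fun b => f a * g b)) = (fun a => f a * av g) := by
    funext a
    exact win_av_const_mul _ _
  simp only
  rw [this, win_av_mul_const]

/-- AM-GM for coincidence probabilities -/
theorem win_amgm {Ω G : Type} [Fintype Ω] [Fintype G] [DecidableEq G] (φ ψ : Ω → G) :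
    av (fun p : Ω × Ω => if φ p.1 = ψ p.2 then (1 : ℝ) else 0) ≤
      (av (fun p : Ω × Ω => if φ p.1 = φ p.2 then (1 : ℝ) else 0) +
        av (fun p : Ω × Ω => if ψ p.1 = ψ p.2 then (1 : ℝ) else 0)) / 2 := by
  have key : ∀ φ ψ : Ω → G, av (fun p : Ω × Ω => if φ p.1 = ψ p.2 then (1 : ℝ) else 0) =
      ∑ g : G, av (fun o => if φ o = g then (1 : ℝ) else 0) *
        av (fun o => if ψ o = g then (1 : ℝ) else 0) := by
    intro φ ψ
    have h1 : (fun p : Ω × Ω => if φ p.1 = ψ p.2 then (1 : ℝ) else 0) =
        fun p : Ω × Ω => ∑ g : G, (if φ p.1 = g then (1 : ℝ) else 0) *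
          (if ψ p.2 = g then (1 : ℝ) else 0) := by
      funext p
      rw [Finset.sum_eq_single (φ p.1)]
      · by_cases h : φ p.1 = ψ p.2
        · simp [h]
        · have h' : ¬ ψ p.2 = φ p.1 := fun h'' => h h''.symm
          simp [h, h']
      · intro g _ hg
        rw [if_neg (fun h => hg h.symm), zero_mul]
      · intro h
        exact absurd (Finset.mem_univ _) h
    rw [h1, win_av_sum]
    refine Finset.sum_congr rfl (fun g _ => ?_)
    exact win_av_mul (fun o => if φ o = g then (1 : ℝ) else 0) (fun o => if ψ o = g then (1 : ℝ) else 0)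
  rw [key φ ψ, key φ φ, key ψ ψ, ← Finset.sum_add_distrib, Finset.sum_div]
  refine Finset.sum_le_sum (fun g _ => ?_)
  nlinarith [sq_nonneg (av (fun o => if φ o = g then (1 : ℝ) else 0) -
    av (fun o => if ψ o = g then (1 : ℝ) else 0))]

section comb

theorem win_iota_comm {β : Type} [Fintype β] [DecidableEq β] (g g' : Perm β) :
    iota false g * iota true g' = iota true g' * iota false g := by
  ext ⟨b, x⟩
  · rfl
  · cases b <;> simp [iota]

theorem win_Rn_comb : ∀ (s w : ℕ) (o : Out s w) (n : Net s),
    Rn s (comb s w o n) = Inn s w n * Outp s w o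
  | 0, 0, _, n => by
    change Rn 0 n = Rn 0 n * 1
    rw [mul_one]
  | (s + 1), 0, _, n => by
    change Rn (s + 1) n = Rn (s + 1) n * 1
    rw [mul_one]
  | 0, (w + 1), _, n => by
    change (1 : Perm (Q 0)) = 1 * 1
    rw [mul_one]
  | (s + 1), (w + 1), (c, o0, o1), (c', w0, w1) => by
    change (iota (β := Q s) false (Rn s (comb s w o0 w0)) *
      iota (β := Q s) true (Rn s (comb s w o1 w1)) * hflip (β := Q s) c : Perm (Bool × Q s)) =
      (iota (β := Q s) false (Inn s w w0) * iota (β := Q s) true (Inn s w w1) : Perm (Bool × Q s)) *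
      (iota (β := Q s) false (Outp s w o0) * iota (β := Q s) true (Outp s w o1) * hflip (β := Q s) c)
    rw [win_Rn_comb s w o0 w0, win_Rn_comb s w o1 w1, map_mul, map_mul]
    have h := win_iota_comm (Outp s w o0) (Inn s w w1)
    calc iota false (Inn s w w0) * iota false (Outp s w o0) *
          (iota true (Inn s w w1) * iota true (Outp s w o1)) * hflip c
        = iota false (Inn s w w0) * (iota false (Outp s w o0) *
          iota true (Inn s w w1)) * iota true (Outp s w o1) * hflip c := by simp only [mul_assoc]
      _ = _ := by rw [h]; simp only [mul_assoc]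

theorem win_Net_nonempty (t : ℕ) : Nonempty (Net t) := ⟨(instInhabitedNet t).default⟩

theorem win_Out_nonempty (s w : ℕ) : Nonempty (Out s w) := ⟨(instInhabitedOut s w).default⟩

theorem win_av_net_succ (t : ℕ) (F : Net (t + 1) → ℝ) :
    av F = av (fun c : Q t → Bool => av (fun w0 : Net t => av (fun w1 : Net t => F (c, w0, w1)))) := by
  have h1 : av F = av (fun p : (Q t → Bool) × (Net t × Net t) => F p) := rfl
  rw [h1, win_av_prod]
  congr 1
  funext c
  rw [win_av_prod]

theorem win_av_out_succ (s w : ℕ) (F : Out (s + 1) (w + 1) → ℝ) :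
    av F = av (fun c : Q s → Bool => av (fun o0 : Out s w => av (fun o1 : Out s w =>
      F (c, o0, o1)))) := by
  have h1 : av F = av (fun p : (Q s → Bool) × (Out s w × Out s w) => F p) := rfl
  rw [h1, win_av_prod]
  congr 1
  funext c
  rw [win_av_prod]

theorem win_av_comb : ∀ (s w : ℕ) (F : Net s → ℝ),
    av (fun n : Net s => av (fun o : Out s w => F (comb s w o n))) = av F
  | 0, 0, F => by
    have := win_Out_nonempty 0 0
    have h : (fun n : Net 0 => av (fun o : Out 0 0 => F (comb 0 0 o n))) = F := by
      funext n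
      exact win_av_const (F n)
    rw [h]
  | (s + 1), 0, F => by
    have := win_Out_nonempty (s + 1) 0
    have h : (fun n : Net (s + 1) => av (fun o : Out (s + 1) 0 => F (comb (s + 1) 0 o n))) = F := by
      funext n
      exact win_av_const (F n)
    rw [h]
  | 0, (w + 1), F => by
    have := win_Out_nonempty 0 (w + 1)
    have h : (fun n : Net 0 => av (fun o : Out 0 (w + 1) => F (comb 0 (w + 1) o n))) = F := by
      funext n
      exact win_av_const (F n)
    rw [h]
  | (s + 1), (w + 1), F => by
    rw [win_av_net_succ, win_av_net_succ s F]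
    have := win_Net_nonempty s
    have h1 : ∀ (c : Q s → Bool) (w0 w1 : Net s),
        av (fun o : Out (s + 1) (w + 1) => F (comb (s + 1) (w + 1) o (c, w0, w1))) =
        av (fun c' : Q s → Bool => av (fun o0 : Out s w => av (fun o1 : Out s w =>
          F (c', comb s w o0 w0, comb s w o1 w1)))) := by
      intro c w0 w1
      rw [win_av_out_succ]
      rfl
    simp only [h1]
    rw [win_av_const]
    have h2 : ∀ w0 : Net s, av (fun w1 : Net s => av (fun c' : Q s → Bool =>
        av (fun o0 : Out s w => av (fun o1 : Out s w =>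
          F (c', comb s w o0 w0, comb s w o1 w1))))) =
        av (fun c' : Q s → Bool => av (fun o0 : Out s w => av (fun w1 : Net s =>
          F (c', comb s w o0 w0, w1)))) := by
      intro w0
      rw [win_av_comm]
      congr 1
      funext c'
      rw [win_av_comm]
      congr 1
      funext o0
      exact win_av_comb s w (fun n => F (c', comb s w o0 w0, n))
    simp only [h2]
    rw [win_av_comm]
    congr 1
    funext c'
    exact win_av_comb s w (fun n => av (fun w1 : Net s => F (c', n, w1)))

end comb

end Vale.Agent.P162
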