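import Vale.Agent.P162.WinA

open Equiv

set_option linter.unusedSectionVars false

namespace Vale.Agent.P162

variable {ι : Type} [Fintype ι] [DecidableEq ι] {β : Type} [Fintype β] [DecidableEq β]

/-- the coloring of one block -/
noncomputable def winE {K : Type} [AddCommMonoid K] (I : Finset ι) (x v : ι → β) (m : ι → Bool)
    (r : Bool) (f : β → K) (b : β) : K :=
  ∑ κ ∈ I.filter (fun κ => m κ = r ∧ v κ = b), f (x κ)

/-- full classes -/
def winD (I : Finset ι) (x : ι → β) : Finset β :=
  Finset.univ.filter (fun z : β => 2 ≤ (I.filter (fun k => x k = z)).card)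

theorem winD_card (I : Finset ι) (x : ι → β) : (winD I x).card = full I x := rfl

theorem win_class_le (I : Finset ι) (x : ι → β) (m : ι → Bool)
    (h1 : Set.InjOn (fun k => (m k, x k)) (I : Set ι)) (z : β) :
    (I.filter (fun k => x k = z)).card ≤ 2 := by
  have : (I.filter (fun k => x k = z)).card ≤ (Finset.univ : Finset Bool).card := by
    refine Finset.card_le_card_of_injOn m (fun _ _ => Finset.mem_coe.2 (Finset.mem_univ _)) ?_
    intro a ha b hb hab
    rw [Finset.mem_coe, Finset.mem_filter] at ha hb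
    exact h1 (Finset.mem_coe.2 ha.1) (Finset.mem_coe.2 hb.1) (Prod.ext hab (ha.2.trans hb.2.symm))
  simpa using this

theorem win_exists (I : Finset ι) (x : ι → β) (m : ι → Bool)
    (h1 : Set.InjOn (fun k => (m k, x k)) (I : Set ι)) (d : β) (hd : d ∈ winD I x) (r : Bool) :
    ∃ κ ∈ I, m κ = r ∧ x κ = d := by
  rw [winD, Finset.mem_filter] at hd
  have hinj : Set.InjOn m ((I.filter (fun k => x k = d) : Finset ι) : Set ι) := by
    intro a ha b hb hab
    rw [Finset.mem_coe, Finset.mem_filter] at ha hb
    exact h1 (Finset.mem_coe.2 ha.1) (Finset.mem_coe.2 hb.1) (Prod.ext hab (ha.2.trans hb.2.symm))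
  have hcard := Finset.card_image_of_injOn hinj
  have huniv : (I.filter (fun k => x k = d)).image m = Finset.univ := by
    rw [← Finset.card_eq_iff_eq_univ]
    apply le_antisymm (Finset.card_le_univ _)
    rw [hcard, Fintype.card_bool]
    exact hd.2
  have hr : r ∈ (I.filter (fun k => x k = d)).image m := by
    rw [huniv]
    exact Finset.mem_univ r
  obtain ⟨κ, hκ, hκr⟩ := Finset.mem_image.1 hr
  rw [Finset.mem_filter] at hκ
  exact ⟨κ, hκ.1, hκr, hκ.2⟩

theorem win_u_mem (I : Finset ι) (x : ι → β) (m : ι → Bool)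
    (h1 : Set.InjOn (fun k => (m k, x k)) (I : Set ι)) (u : Finset ι) (hu : u ⊆ I)
    (hx : ∀ z : β, Even (u.filter (fun k => x k = z)).card) (κ : ι) (hκ : κ ∈ I) :
    (∃ κ' ∈ u, x κ' = x κ) ↔ κ ∈ u := by
  constructor
  · rintro ⟨κ', hκ', hxx⟩
    have hsub : u.filter (fun k => x k = x κ) ⊆ I.filter (fun k => x k = x κ) :=
      Finset.filter_subset_filter _ hu
    have hpos : 0 < (u.filter (fun k => x k = x κ)).card :=
      Finset.card_pos.2 ⟨κ', Finset.mem_filter.2 ⟨hκ', hxx⟩⟩
    have h2 : 2 ≤ (u.filter (fun k => x k = x κ)).card := by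
      obtain ⟨n, hn⟩ := hx (x κ)
      omega
    have h3 := win_class_le I x m h1 (x κ)
    have h4 := Finset.eq_of_subset_of_card_le hsub (h3.trans h2)
    have h5 : κ ∈ u.filter (fun k => x k = x κ) := by
      rw [h4]
      exact Finset.mem_filter.2 ⟨hκ, rfl⟩
    exact (Finset.mem_filter.1 h5).1
  · intro h
    exact ⟨κ, h, rfl⟩

open Classical in
/-- the coloring of input classes coming from a tuple of even sets -/
noncomputable def winPhi (x : ι → β) (k : ℕ) (U : Fin k → Finset ι) : β → Fin k → ZMod 2 :=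
  fun d j => if ∃ κ ∈ U j, x κ = d then 1 else 0

theorem win_cc_le (k : ℕ) (I : Finset ι) (x v : ι → β) (m : ι → Bool)
    (h1 : Set.InjOn (fun k => (m k, x k)) (I : Set ι)) (g : Bool → Perm β) :
    (cc I x (fun κ => (g (m κ))⁻¹ (v κ))) ^ k ≤
      ((Finset.univ : Finset (β → Fin k → ZMod 2)).filter (fun f =>
        (∀ z, z ∉ winD I x → f z = 0) ∧
        ∀ q, winE I x v m false f (g false q) = winE I x v m true f (g true q))).card := by
  classical
  unfold cc
  set S := I.powerset.filter (fun u => (∀ z : β, Even (u.filter (fun k => x k = z)).card) ∧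
    (∀ z : β, Even (u.filter (fun κ => (g (m κ))⁻¹ (v κ) = z)).card)) with hS
  have hpow : S.card ^ k = (Fintype.piFinset (fun _ : Fin k => S)).card := by
    rw [Fintype.card_piFinset]
    simp
  rw [hpow]
  have hmem : ∀ U ∈ Fintype.piFinset (fun _ : Fin k => S), ∀ j, U j ⊆ I ∧
      (∀ z : β, Even ((U j).filter (fun k => x k = z)).card) ∧
      (∀ z : β, Even ((U j).filter (fun κ => (g (m κ))⁻¹ (v κ) = z)).card) := by
    intro U hU j
    have := Fintype.mem_piFinset.1 hU j
    rw [hS, Finset.mem_filter, Finset.mem_powerset] at this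
    exact this
  have hphi : ∀ U ∈ Fintype.piFinset (fun _ : Fin k => S), ∀ j, ∀ κ ∈ I,
      winPhi x k U (x κ) j = if κ ∈ U j then 1 else 0 := by
    intro U hU j κ hκ
    obtain ⟨hUI, hUx, _⟩ := hmem U hU j
    unfold winPhi
    have := win_u_mem I x m h1 (U j) hUI hUx κ hκ
    simp only [this]
  refine Finset.card_le_card_of_injOn (winPhi x k) ?_ ?_
  · intro U hU
    rw [Finset.mem_coe] at hU
    rw [Finset.mem_coe, Finset.mem_filter]
    refine ⟨Finset.mem_univ _, ?_, ?_⟩
    · intro z hz
      funext j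
      obtain ⟨hUI, hUx, _⟩ := hmem U hU j
      unfold winPhi
      rw [if_neg]
      · rfl
      · rintro ⟨κ, hκ, hxz⟩
        apply hz
        rw [winD, Finset.mem_filter]
        refine ⟨Finset.mem_univ _, ?_⟩
        have hpos : 0 < ((U j).filter (fun k => x k = z)).card :=
          Finset.card_pos.2 ⟨κ, Finset.mem_filter.2 ⟨hκ, hxz⟩⟩
        obtain ⟨n, hn⟩ := hUx z
        have hle : ((U j).filter (fun k => x k = z)).card ≤ (I.filter (fun k => x k = z)).card :=
          Finset.card_le_card (Finset.filter_subset_filter _ hUI)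
        omega
    · intro q
      funext j
      obtain ⟨hUI, hUx, hUy⟩ := hmem U hU j
      have hsum : ∀ r : Bool, winE I x v m r (winPhi x k U) (g r q) j =
          (((U j).filter (fun κ => m κ = r ∧ v κ = g r q)).card : ZMod 2) := by
        intro r
        unfold winE
        rw [Finset.sum_apply]
        rw [Finset.sum_congr rfl (fun κ hκ => hphi U hU j κ (Finset.mem_filter.1 hκ).1)]
        rw [← Finset.sum_filter, Finset.sum_const, nsmul_eq_mul, mul_one]
        congr 2
        ext κ
        simp only [Finset.mem_filter]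
        constructor
        · rintro ⟨⟨_, h⟩, h'⟩
          exact ⟨h', h⟩
        · rintro ⟨h', h⟩
          exact ⟨⟨hUI h', h⟩, h'⟩
      rw [hsum false, hsum true]
      have hsplit : ((U j).filter (fun κ => (g (m κ))⁻¹ (v κ) = q)).card =
          ((U j).filter (fun κ => m κ = false ∧ v κ = g false q)).card +
          ((U j).filter (fun κ => m κ = true ∧ v κ = g true q)).card := by
        rw [← Finset.card_union_of_disjoint]
        · congr 1
          ext κ
          simp only [Finset.mem_filter, Finset.mem_union, Perm.inv_eq_iff_eq]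
          cases hm : m κ <;> simp
        · rw [Finset.disjoint_filter]
          intro κ _ h h'
          rw [h.1] at h'
          exact absurd h'.1 (by simp)
      have heven := hUy q
      rw [hsplit] at heven
      have hzero : ((((U j).filter (fun κ => m κ = false ∧ v κ = g false q)).card +
          ((U j).filter (fun κ => m κ = true ∧ v κ = g true q)).card : ℕ) : ZMod 2) = 0 :=
        (ZMod.natCast_eq_zero_iff_even).2 heven
      rw [Nat.cast_add] at hzero
      exact CharTwo.add_eq_zero.1 hzero
  · intro U hU U' hU' h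
    rw [Finset.mem_coe] at hU hU'
    funext j
    ext κ
    have hU1 := (hmem U hU j).1
    have hU2 := (hmem U' hU' j).1
    by_cases hκ : κ ∈ I
    · have e1 := hphi U hU j κ hκ
      have e2 := hphi U' hU' j κ hκ
      rw [h, e2] at e1
      by_cases h3 : κ ∈ U j
      · by_cases h4 : κ ∈ U' j
        · exact iff_of_true h3 h4
        · rw [if_pos h3, if_neg h4] at e1
          exact absurd e1 (by decide)
      · by_cases h4 : κ ∈ U' j
        · rw [if_neg h3, if_pos h4] at e1
          exact absurd e1 (by decide)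
        · exact iff_of_false h3 h4
    · exact iff_of_false (fun h' => hκ (hU1 h')) (fun h' => hκ (hU2 h'))

/-- the coloring of a block determines the coloring of the input classes -/
theorem winE_injOn {K : Type} [AddCommMonoid K] (I : Finset ι) (x v : ι → β) (m : ι → Bool)
    (h1 : Set.InjOn (fun k => (m k, x k)) (I : Set ι))
    (h2 : Set.InjOn (fun k => (m k, v k)) (I : Set ι)) (r : Bool) (f f' : β → K)
    (hf : ∀ z, z ∉ winD I x → f z = 0) (hf' : ∀ z, z ∉ winD I x → f' z = 0)
    (h : winE I x v m r f = winE I x v m r f') : f = f' := by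
  have key : ∀ f : β → K, ∀ κ ∈ I, m κ = r → winE I x v m r f (v κ) = f (x κ) := by
    intro f κ hκ hm
    unfold winE
    rw [Finset.sum_eq_single κ]
    · intro κ' hκ' hne
      rw [Finset.mem_filter] at hκ'
      exact absurd (h2 (Finset.mem_coe.2 hκ'.1) (Finset.mem_coe.2 hκ)
        (Prod.ext (hκ'.2.1.trans hm.symm) hκ'.2.2)) hne
    · intro hn
      exact absurd (Finset.mem_filter.2 ⟨hκ, hm, rfl⟩) hn
  funext d
  by_cases hd : d ∈ winD I x
  · obtain ⟨κ, hκ, hm, hx⟩ := win_exists I x m h1 d hd r
    rw [← hx, ← key f κ hκ hm, ← key f' κ hκ hm, h]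
  · rw [hf d hd, hf' d hd]

/-- the support of the coloring of a block -/
def winDr (I : Finset ι) (x v : ι → β) (m : ι → Bool) (r : Bool) : Finset β :=
  (I.filter (fun κ => m κ = r ∧ x κ ∈ winD I x)).image v

theorem winDr_card (I : Finset ι) (x v : ι → β) (m : ι → Bool)
    (h1 : Set.InjOn (fun k => (m k, x k)) (I : Set ι)) (r : Bool) :
    (winDr I x v m r).card ≤ full I x := by
  refine Finset.card_image_le.trans ?_
  rw [← winD_card]
  refine Finset.card_le_card_of_injOn x ?_ ?_
  · intro κ hκ
    rw [Finset.mem_coe, Finset.mem_filter] at hκ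
    exact Finset.mem_coe.2 hκ.2.2
  · intro κ hκ κ' hκ' hxx
    rw [Finset.mem_coe, Finset.mem_filter] at hκ hκ'
    exact h1 (Finset.mem_coe.2 hκ.1) (Finset.mem_coe.2 hκ'.1)
      (Prod.ext (hκ.2.1.trans hκ'.2.1.symm) hxx)

theorem winE_supp {K : Type} [AddCommMonoid K] (I : Finset ι) (x v : ι → β) (m : ι → Bool)
    (r : Bool) (f : β → K) (hf : ∀ z, z ∉ winD I x → f z = 0) (b : β)
    (hb : b ∉ winDr I x v m r) : winE I x v m r f b = 0 := by
  unfold winE
  refine Finset.sum_eq_zero (fun κ hκ => ?_)
  rw [Finset.mem_filter] at hκ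
  apply hf
  intro hd
  apply hb
  rw [winDr, Finset.mem_image]
  exact ⟨κ, Finset.mem_filter.2 ⟨hκ.1, hκ.2.1, hd⟩, hκ.2.2⟩

end Vale.Agent.P162
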